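import Mathlib

/-! Row 178: the homological algebra. -/

set_option autoImplicit false
set_option linter.unusedVariables false

namespace Crest.Agent.H4.FD
open CategoryTheory CategoryTheory.Abelian

variable (A : Type) [Ring A] (I : Type) [AddCommGroup I] [Module A I]

/-- `Ext^i(N, I) = 0` -/
def Van (N : Type) [AddCommGroup N] [Module A N] (i : ℕ) : Prop :=
  ∀ e : Ext.{0} (ModuleCat.of A N) (ModuleCat.of A I) i, e = 0

/-- finite projective dimension -/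
def FinPD (N : Type) [AddCommGroup N] [Module A N] : Prop :=
  ∃ n : ℕ, HasProjectiveDimensionLT (ModuleCat.of A N) n

/-- finite projective dimension and `Ext^{>0}(N, I) = 0` -/
def Acyc (N : Type) [AddCommGroup N] [Module A N] : Prop :=
  FinPD A N ∧ ∀ i, Van A I N (i + 1)

/-- short exact sequence of linear maps -/
structure SE {A : Type} [Ring A] {N₁ N₂ N₃ : Type} [AddCommGroup N₁] [Module A N₁]
    [AddCommGroup N₂] [Module A N₂] [AddCommGroup N₃] [Module A N₃] (f : N₁ →ₗ[A] N₂)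
    (g : N₂ →ₗ[A] N₃) : Prop where
  inj : Function.Injective f
  ex : Function.Exact f g
  surj : Function.Surjective g

variable {A I}
variable {N₁ N₂ N₃ : Type} [AddCommGroup N₁] [Module A N₁] [AddCommGroup N₂] [Module A N₂]
  [AddCommGroup N₃] [Module A N₃] {f : N₁ →ₗ[A] N₂} {g : N₂ →ₗ[A] N₃}

noncomputable abbrev SE.cx (h : SE f g) : ShortComplex (ModuleCat.{0} A) :=
  ShortComplex.mk (ModuleCat.ofHom f) (ModuleCat.ofHom g) (by
    ext x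
    exact h.ex.apply_apply_eq_zero x)

lemma SE.se (h : SE f g) : h.cx.ShortExact where
  exact := (ShortComplex.ShortExact.moduleCat_exact_iff_function_exact _).2 h.ex
  mono_f := (ModuleCat.mono_iff_injective _).2 h.inj
  epi_g := (ModuleCat.epi_iff_surjective _).2 h.surj

lemma SE.finPD₁ (h : SE f g) (h₂ : FinPD A N₂) (h₃ : FinPD A N₃) : FinPD A N₁ := by
  obtain ⟨a, ha⟩ := h₂
  obtain ⟨b, hb⟩ := h₃
  exact ⟨a + b, h.se.hasProjectiveDimensionLT_X₁ (a + b)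
    (hasProjectiveDimensionLT_of_ge (ModuleCat.of A N₂) a _ (by omega))
    (hasProjectiveDimensionLT_of_ge (ModuleCat.of A N₃) b _ (by omega))⟩

lemma SE.finPD₂ (h : SE f g) (h₁ : FinPD A N₁) (h₃ : FinPD A N₃) : FinPD A N₂ := by
  obtain ⟨a, ha⟩ := h₁
  obtain ⟨b, hb⟩ := h₃
  exact ⟨a + b, h.se.hasProjectiveDimensionLT_X₂ (a + b)
    (hasProjectiveDimensionLT_of_ge (ModuleCat.of A N₁) a _ (by omega))
    (hasProjectiveDimensionLT_of_ge (ModuleCat.of A N₃) b _ (by omega))⟩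

lemma SE.finPD₃ (h : SE f g) (h₁ : FinPD A N₁) (h₂ : FinPD A N₂) : FinPD A N₃ := by
  obtain ⟨a, ha⟩ := h₁
  obtain ⟨b, hb⟩ := h₂
  exact ⟨a + b + 1, h.se.hasProjectiveDimensionLT_X₃ (a + b)
    (hasProjectiveDimensionLT_of_ge (ModuleCat.of A N₁) a _ (by omega))
    (hasProjectiveDimensionLT_of_ge (ModuleCat.of A N₂) b _ (by omega))⟩

lemma SE.van₂ (h : SE f g) {i : ℕ} (h₁ : Van A I N₁ i) (h₃ : Van A I N₃ i) : Van A I N₂ i := by
  intro x₂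
  obtain ⟨x₃, rfl⟩ := Ext.contravariant_sequence_exact₂ h.se _ x₂ (h₁ _)
  rw [h₃ x₃, Ext.comp_zero]

lemma SE.van₃ (h : SE f g) {i : ℕ} (h₁ : Van A I N₁ i) (h₂ : Van A I N₂ (i + 1)) :
    Van A I N₃ (i + 1) := by
  intro x₃
  obtain ⟨x₁, rfl⟩ := Ext.contravariant_sequence_exact₃ h.se _ x₃ (h₂ _) (add_comm 1 i)
  rw [h₁ x₁, Ext.comp_zero]

lemma SE.van₁ (h : SE f g) {i : ℕ} (h₂ : Van A I N₂ i) (h₃ : Van A I N₃ (i + 1)) :
    Van A I N₁ i := by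
  intro x₁
  obtain ⟨x₂, rfl⟩ := Ext.contravariant_sequence_exact₁ h.se _ x₁ (add_comm 1 i) (h₃ _)
  rw [h₂ x₂, Ext.comp_zero]

/-- `Ext¹(N₃, I) = 0` when the maps `N₁ → I` extend to `N₂` -/
lemma SE.van_one (h : SE f g) (h₂ : Van A I N₂ 1)
    (hext : ∀ φ : N₁ →ₗ[A] I, ∃ ψ : N₂ →ₗ[A] I, ψ ∘ₗ f = φ) : Van A I N₃ 1 := by
  intro x₃
  obtain ⟨x₁, rfl⟩ := Ext.contravariant_sequence_exact₃ h.se _ x₃ (h₂ _) (add_comm 1 0)
  obtain ⟨φ, rfl⟩ := Ext.homEquiv₀.symm.surjective x₁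
  obtain ⟨ψ, hψ⟩ := hext φ.hom
  have e : φ = h.cx.f ≫ ModuleCat.ofHom ψ := by
    ext x
    exact (LinearMap.congr_fun hψ x).symm
  rw [e, Ext.homEquiv₀_symm_apply, ← Ext.mk₀_comp_mk₀, h.se.extClass_comp_assoc]

lemma van_zero_iff {N : Type} [AddCommGroup N] [Module A N] :
    Van A I N 0 ↔ ∀ φ : N →ₗ[A] I, φ = 0 := by
  constructor
  · intro h φ
    have := h (Ext.mk₀ (ModuleCat.ofHom φ))
    rw [← Ext.mk₀_zero] at this
    have h2 := (Ext.mk₀_bijective _ _).1 this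
    exact congrArg ModuleCat.Hom.hom h2
  · intro h e
    obtain ⟨φ, rfl⟩ := Ext.homEquiv₀.symm.surjective e
    have : φ = 0 := ModuleCat.hom_ext (h φ.hom)
    rw [this, Ext.homEquiv₀_symm_apply, Ext.mk₀_zero]

lemma acyc_of_projective {P : Type} [AddCommGroup P] [Module A P] [Module.Projective A P] :
    Acyc A I P :=
  ⟨⟨1, inferInstance⟩, fun i e => e.eq_zero_of_projective⟩

lemma se_equiv (e : N₁ ≃ₗ[A] N₂) : SE (e : N₁ →ₗ[A] N₂) (0 : N₂ →ₗ[A] PUnit.{1}) :=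
  ⟨e.injective, fun y => ⟨fun _ => e.surjective y, fun _ => rfl⟩, fun _ => ⟨0, rfl⟩⟩

lemma van_of_subsingleton {N : Type} [AddCommGroup N] [Module A N] [Subsingleton N] (i : ℕ) :
    Van A I N i := by
  have : HasProjectiveDimensionLT (ModuleCat.of A N) 0 :=
    (ModuleCat.isZero_of_subsingleton _).hasProjectiveDimensionLT_zero
  exact fun e => e.eq_zero_of_hasProjectiveDimensionLT 0 (Nat.zero_le _)

lemma finPD_of_subsingleton {N : Type} [AddCommGroup N] [Module A N] [Subsingleton N] :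
    FinPD A N :=
  ⟨0, (ModuleCat.isZero_of_subsingleton _).hasProjectiveDimensionLT_zero⟩

lemma Van.equiv (e : N₁ ≃ₗ[A] N₂) {i : ℕ} (h : Van A I N₁ i) : Van A I N₂ i :=
  (se_equiv e).van₂ h (van_of_subsingleton i)

lemma FinPD.equiv (e : N₁ ≃ₗ[A] N₂) (h : FinPD A N₁) : FinPD A N₂ :=
  (se_equiv e).finPD₂ h finPD_of_subsingleton

lemma Acyc.equiv (e : N₁ ≃ₗ[A] N₂) (h : Acyc A I N₁) : Acyc A I N₂ :=
  ⟨h.1.equiv e, fun i => (h.2 i).equiv e⟩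

/-- a quotient of acyclic modules is acyclic when the maps to `I` extend -/
lemma SE.acyc₃ (h : SE f g) (h₁ : Acyc A I N₁) (h₂ : Acyc A I N₂)
    (hext : ∀ φ : N₁ →ₗ[A] I, ∃ ψ : N₂ →ₗ[A] I, ψ ∘ₗ f = φ) : Acyc A I N₃ := by
  refine ⟨h.finPD₃ h₁.1 h₂.1, fun i => ?_⟩
  cases i with
  | zero => exact h.van_one (h₂.2 0) hext
  | succ i => exact h.van₃ (h₁.2 i) (h₂.2 (i + 1))

lemma SE.acyc₂ (h : SE f g) (h₁ : Acyc A I N₁) (h₃ : Acyc A I N₃) : Acyc A I N₂ :=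
  ⟨h.finPD₂ h₁.1 h₃.1, fun i => h.van₂ (h₁.2 i) (h₃.2 i)⟩

lemma se_ker_range (d : N₁ →ₗ[A] N₂) : SE (LinearMap.ker d).subtype d.rangeRestrict :=
  ⟨Subtype.val_injective, fun x => ⟨fun hx => ⟨⟨x, congrArg Subtype.val hx⟩, rfl⟩, by
    rintro ⟨y, rfl⟩; exact Subtype.ext y.2⟩, d.surjective_rangeRestrict⟩

lemma se_range (hfg : Function.Exact f g) : SE (LinearMap.range f).subtype g.rangeRestrict :=
  ⟨Subtype.val_injective, fun x => ⟨fun hx => ⟨⟨x, (hfg x).1 (congrArg Subtype.val hx)⟩, rfl⟩, by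
    rintro ⟨y, rfl⟩; exact Subtype.ext ((hfg y.1).2 y.2)⟩, g.surjective_rangeRestrict⟩

lemma se_range_surj (hfg : Function.Exact f g) (hg : Function.Surjective g) :
    SE (LinearMap.range f).subtype g :=
  ⟨Subtype.val_injective, fun x => ⟨fun hx => ⟨⟨x, (hfg x).1 hx⟩, rfl⟩, by
    rintro ⟨y, rfl⟩; exact (hfg y.1).2 y.2⟩, hg⟩

lemma se_inj (hfg : Function.Exact f g) (hf : Function.Injective f) : SE f g.rangeRestrict :=
  ⟨hf, fun x => ⟨fun hx => (hfg x).1 (congrArg Subtype.val hx), fun hx =>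
    Subtype.ext ((hfg x).2 hx)⟩, g.surjective_rangeRestrict⟩

/-- `Hom(-, I)` is exact at the middle of `N₁ → N₂ → N₃` -/
def HomEx (I : Type) [AddCommGroup I] [Module A I] (f : N₁ →ₗ[A] N₂) (g : N₂ →ₗ[A] N₃) : Prop :=
  ∀ φ : N₂ →ₗ[A] I, φ ∘ₗ f = 0 → ∃ ψ : N₃ →ₗ[A] I, ψ ∘ₗ g = φ

lemma HomEx.ext_range (hfg : Function.Exact f g) (h : HomEx I f g) (φ : LinearMap.range g →ₗ[A] I) :
    ∃ ψ : N₃ →ₗ[A] I, ψ ∘ₗ (LinearMap.range g).subtype = φ := by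
  obtain ⟨ψ, hψ⟩ := h (φ ∘ₗ g.rangeRestrict) (by
    ext x
    have : g.rangeRestrict (f x) = 0 := Subtype.ext (hfg.apply_apply_eq_zero x)
    simp [this])
  refine ⟨ψ, ?_⟩
  ext ⟨_, x, rfl⟩
  exact LinearMap.congr_fun hψ x

/-- a resolution `0 → P₃ → P₂ → P₁ → P₀ → G → 0` by acyclic modules on which `Hom(-, I)` is exact -/
theorem acyc_of_res3 {P₃ P₂ P₁ P₀ G : Type} [AddCommGroup P₃] [Module A P₃] [AddCommGroup P₂]
    [Module A P₂] [AddCommGroup P₁] [Module A P₁] [AddCommGroup P₀] [Module A P₀] [AddCommGroup G]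
    [Module A G] (d₃ : P₃ →ₗ[A] P₂) (d₂ : P₂ →ₗ[A] P₁) (d₁ : P₁ →ₗ[A] P₀) (ε : P₀ →ₗ[A] G)
    (a₃ : Acyc A I P₃) (a₂ : Acyc A I P₂) (a₁ : Acyc A I P₁) (a₀ : Acyc A I P₀)
    (i₃ : Function.Injective d₃) (e₂ : Function.Exact d₃ d₂) (e₁ : Function.Exact d₂ d₁)
    (e₀ : Function.Exact d₁ ε) (s : Function.Surjective ε)
    (h₃ : ∀ φ : P₃ →ₗ[A] I, ∃ ψ : P₂ →ₗ[A] I, ψ ∘ₗ d₃ = φ) (h₂ : HomEx I d₃ d₂)
    (h₁ : HomEx I d₂ d₁) : Acyc A I G := by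
  have b₂ : Acyc A I (LinearMap.range d₂) := (se_inj e₂ i₃).acyc₃ a₃ a₂ h₃
  have b₁ : Acyc A I (LinearMap.range d₁) := (se_range e₁).acyc₃ b₂ a₁ (h₂.ext_range e₂)
  exact (se_range_surj e₀ s).acyc₃ b₁ a₀ (h₁.ext_range e₁)

/-- `n` is the top degree of `Ext^•(N, I)` and `N` has finite projective dimension -/
def Top (A : Type) [Ring A] (I : Type) [AddCommGroup I] [Module A I] (N : Type) [AddCommGroup N]
    [Module A N] (n : ℕ) : Prop :=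
  FinPD A N ∧ ¬ Van A I N n ∧ ∀ i, n < i → Van A I N i

lemma Top.equiv (e : N₁ ≃ₗ[A] N₂) {n : ℕ} (h : Top A I N₁ n) : Top A I N₂ n :=
  ⟨h.1.equiv e, fun h' => h.2.1 (h'.equiv e.symm), fun i hi => (h.2.2 i hi).equiv e⟩

lemma top_zero {N : Type} [AddCommGroup N] [Module A N] (h : Acyc A I N) (φ : N →ₗ[A] I)
    (hφ : φ ≠ 0) : Top A I N 0 :=
  ⟨h.1, fun h' => hφ (van_zero_iff.1 h' φ), fun i hi => by
    obtain ⟨j, rfl⟩ := Nat.exists_eq_succ_of_ne_zero (show i ≠ 0 by omega)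
    exact h.2 j⟩

/-- quotient by a submodule of top degree `n` of a module with nothing in degrees `≥ n` (`n ≥ 1`) -/
lemma SE.top₃ (h : SE f g) {n : ℕ} (h₁ : Top A I N₁ n) (h₂ : FinPD A N₂)
    (h₂' : ∀ i, n ≤ i → Van A I N₂ i) : Top A I N₃ (n + 1) :=
  ⟨h.finPD₃ h₁.1 h₂, fun h' => h₁.2.1 (h.van₁ (h₂' n le_rfl) h'), fun i hi => by
    obtain ⟨j, rfl⟩ := Nat.exists_eq_succ_of_ne_zero (show i ≠ 0 by omega)
    exact h.van₃ (h₁.2.2 j (by omega)) (h₂' _ (by omega))⟩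

/-- the step: `0 → M → G₁ → G₀ → C → 0` and `0 → M' → C → M'' → 0`, where the first map is killed
by all maps `G₁ → I` -/
theorem top_step {M M' G₁ G₀ C M'' : Type} [AddCommGroup M] [Module A M] [AddCommGroup M']
    [Module A M'] [AddCommGroup G₁]
    [Module A G₁] [AddCommGroup G₀] [Module A G₀] [AddCommGroup C] [Module A C] [AddCommGroup M'']
    [Module A M''] (i : M →ₗ[A] G₁) (φ : G₁ →ₗ[A] G₀) (π : G₀ →ₗ[A] C) (j : M' →ₗ[A] C)
    (ρ : C →ₗ[A] M'') (hi : Function.Injective i) (e₁ : Function.Exact i φ)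
    (e₀ : Function.Exact φ π) (hπ : Function.Surjective π) (hj : SE j ρ)
    (a₁ : Acyc A I G₁) (a₀ : Acyc A I G₀) (hz : ∀ ψ : G₁ →ₗ[A] I, ψ ∘ₗ i = 0) {n : ℕ}
    (hM : Top A I M n) (hM' : Top A I M' n) : Top A I M'' (n + 2) := by
  have s₁ := se_inj e₁ hi
  have s₀ := se_range_surj e₀ hπ
  have t₁ : Top A I (LinearMap.range φ) (n + 1) := by
    rcases n with _ | n
    · refine ⟨s₁.finPD₃ hM.1 a₁.1, fun h' => hM.2.1 ?_, fun k hk => ?_⟩
      · intro x₁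
        obtain ⟨x₂, rfl⟩ := Ext.contravariant_sequence_exact₁ s₁.se _ x₁ (add_comm 1 0) (h' _)
        obtain ⟨ψ, rfl⟩ := Ext.homEquiv₀.symm.surjective x₂
        have : s₁.cx.f ≫ ψ = 0 := ModuleCat.hom_ext (hz ψ.hom)
        rw [Ext.homEquiv₀_symm_apply, Ext.mk₀_comp_mk₀, this, Ext.mk₀_zero]
      · obtain ⟨l, rfl⟩ := Nat.exists_eq_succ_of_ne_zero (show k ≠ 0 by omega)
        exact s₁.van₃ (hM.2.2 l (by omega)) (a₁.2 l)
    · refine s₁.top₃ hM a₁.1 fun k hk => ?_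
      obtain ⟨l, rfl⟩ := Nat.exists_eq_succ_of_ne_zero (show k ≠ 0 by omega)
      exact a₁.2 l
  have t₀ : Top A I C (n + 2) := s₀.top₃ t₁ a₀.1 fun k hk => by
    obtain ⟨l, rfl⟩ := Nat.exists_eq_succ_of_ne_zero (show k ≠ 0 by omega)
    exact a₀.2 l
  refine ⟨hj.finPD₃ hM'.1 t₀.1, fun h' => t₀.2.1 (hj.van₂ (hM'.2.2 _ (by omega)) h'), fun k hk => ?_⟩
  obtain ⟨l, rfl⟩ := Nat.exists_eq_succ_of_ne_zero (show k ≠ 0 by omega)
  exact hj.van₃ (hM'.2.2 l (by omega)) (t₀.2.2 _ hk)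

theorem Top.not_lt {N : Type} [AddCommGroup N] [Module A N] {n k : ℕ} (h : Top A I N n)
    (hk : k ≤ n) : ¬ HasProjectiveDimensionLT (ModuleCat.of A N) k := fun h' =>
  h.2.1 fun e => e.eq_zero_of_hasProjectiveDimensionLT k hk

/-- the conclusion -/
theorem final [Algebra ℂ A] [FiniteDimensional ℂ A]
    (h : ∀ k : ℕ, ∃ (N : Type) (_ : AddCommGroup N) (_ : Module A N) (n : ℕ),
      Module.Finite A N ∧ k ≤ n ∧ Top A I N n) :
    ∃ (A : Type) (_ : Ring A) (_ : Algebra ℂ A), FiniteDimensional ℂ A ∧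
      ∀ k : ℕ, ∃ N : ModuleCat.{0} A, Module.Finite A N ∧
        ¬ CategoryTheory.HasProjectiveDimensionLT N k ∧
        ∃ n : ℕ, CategoryTheory.HasProjectiveDimensionLT N n := by
  refine ⟨A, inferInstance, inferInstance, inferInstance, fun k => ?_⟩
  obtain ⟨N, _, _, n, h1, h2, h3⟩ := h k
  exact ⟨ModuleCat.of A N, h1, h3.not_lt h2, h3.1⟩

end Crest.Agent.H4.FD
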