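import Crest.Agent.H9.FdI

/-! Row 178: the symmetric powers of the standard representation of `gl₂`. -/

set_option autoImplicit false
set_option linter.unusedVariables false

noncomputable section
namespace Crest.Agent.H4.FdRep
open Crest.Agent.H9.Fd MvPolynomial

lemma h01 : E 0 * E 1 = E 1 * E 0 + E 1 := by simpa [br] using E_comm 0 1
lemma h02 : E 0 * E 2 = E 2 * E 0 - E 2 := by simpa [br, sub_eq_add_neg] using E_comm 0 2
lemma h03 : E 0 * E 3 = E 3 * E 0 := by simpa [br] using E_comm 0 3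
lemma h12 : E 1 * E 2 = E 2 * E 1 + (E 0 - E 3) := by simpa [br] using E_comm 1 2
lemma h13 : E 1 * E 3 = E 3 * E 1 + E 1 := by simpa [br] using E_comm 1 3
lemma h23 : E 2 * E 3 = E 3 * E 2 - E 2 := by simpa [br, sub_eq_add_neg] using E_comm 2 3

def pe : Fin 4 → Matrix (Fin 2) (Fin 2) U :=
  ![!![E 0 - 1, 0; 0, E 0], !![E 1, 0; -1, E 1], !![E 2, -1; 0, E 2], !![E 3, 0; 0, E 3 - 1]]

lemma pe_comm (i j : Fin 4) : pe i * pe j = pe j * pe i + br pe i j := by
  ext a b
  fin_cases i <;> fin_cases j <;> fin_cases a <;> fin_cases b <;>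
    simp [pe, br, Matrix.mul_apply, Fin.sum_univ_two, mul_sub, sub_mul, h01, h02, h03, h12, h13,
      h23] <;> abel

def ψ : U →ₐ[ℂ] Matrix (Fin 2) (Fin 2) U := liftU pe pe_comm

lemma ψ_E (i : Fin 4) : ψ (E i) = pe i := liftU_E _ _ i

def TT : Matrix (Fin 2) (Fin 2) U := !![E 3 + 1, -E 1; -E 2, E 0 + 1]

lemma TT_pe (i : Fin 4) : TT * pe i = pe i * TT := by
  ext a b
  fin_cases i <;> fin_cases a <;> fin_cases b <;>
    simp [pe, TT, Matrix.mul_apply, Fin.sum_univ_two, mul_sub, sub_mul, mul_add, add_mul, h01, h02,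
      h03, h12, h13, h23] <;> abel

lemma TT_comm (u : U) : TT * ψ u = ψ u * TT := by
  induction u using U.induction with
  | h0 c => rw [AlgHom.commutes]; exact (Algebra.commutes c TT).symm
  | h1 i => rw [ψ_E]; exact TT_pe i
  | hm a b ha hb => rw [map_mul, ← mul_assoc, ha, mul_assoc, hb, mul_assoc]
  | ha a b ha hb => rw [map_add, mul_add, add_mul, ha, hb]

lemma pe_mem (k : Fin 4) (i j : Fin 2) : pe k i j ∈ F 1 := by
  have h1 := one_mem_F 1
  have h2 := E_mem_F
  fin_cases k <;> fin_cases i <;> fin_cases j <;>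
    simp [pe, h1, h2, Submodule.sub_mem _ (h2 _) h1]

def Gm (m : ℕ) : Submodule ℂ U where
  carrier := {u | ∀ i j, ψ u i j ∈ F m}
  add_mem' ha hb i j := by rw [map_add]; exact add_mem (ha i j) (hb i j)
  zero_mem' i j := by rw [map_zero]; exact zero_mem _
  smul_mem' c u hu i j := by rw [map_smul]; exact Submodule.smul_mem _ c (hu i j)

lemma one_mem_Gm (m : ℕ) : (1 : U) ∈ Gm m := fun i j => by
  rw [map_one, Matrix.one_apply]
  split_ifs
  · exact one_mem_F m
  · exact zero_mem _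

lemma F_le_Gm (m : ℕ) : F m ≤ Gm m := by
  have h1 : (1 ⊔ Submodule.span ℂ (Set.range E) : Submodule ℂ U) ≤ Gm 1 := by
    refine sup_le (Submodule.one_le.2 (one_mem_Gm 1)) (Submodule.span_le.2 ?_)
    rintro _ ⟨k, rfl⟩ i j
    rw [ψ_E]; exact pe_mem k i j
  induction m with
  | zero => unfold F; rw [pow_zero]; exact Submodule.one_le.2 (one_mem_Gm 0)
  | succ m ih =>
    unfold F
    rw [pow_succ]
    refine Submodule.mul_le.2 fun a ha b hb i j => ?_
    rw [map_mul, Matrix.mul_apply]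
    exact sum_mem fun k _ => F_mul (ih ha i k) (h1 hb k j)

def D : Dat where
  ψ := ψ
  T := TT
  comm := TT_comm
  T_mem i j := by
    have h1 := one_mem_F 1
    have h2 := E_mem_F
    rw [show (1 : ℤ) = ((1 : ℕ) : ℤ) from rfl, Fz_nat]
    fin_cases i <;> fin_cases j <;> simp [TT, h2, Submodule.add_mem _ (h2 _) h1]
  ψ_mem m u hu i j := by
    by_cases hm : m < 0
    · rw [Fz_neg hm, Submodule.mem_bot] at hu
      rw [hu, map_zero]; exact zero_mem _
    · lift m to ℕ using by omega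
      rw [Fz_nat] at hu ⊢
      exact F_le_Gm m hu i j

/-! ### polynomials in two variables -/

abbrev Q0 := MvPolynomial (Fin 2) ℂ

lemma pd_comm (p : Q0) : pderiv 0 (pderiv 1 p) = pderiv 1 (pderiv 0 p) := by
  induction p using MvPolynomial.induction_on with
  | C a => simp
  | add p q hp hq => simp [hp, hq]
  | mul_X p k hp => fin_cases k <;> simp [Derivation.leibniz, hp] <;> ring

def op (i j : Fin 2) : Module.End ℂ Q0 :=
  LinearMap.mulLeft ℂ (X i) ∘ₗ (pderiv j : Derivation ℂ Q0 Q0).toLinearMap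

lemma op_apply (i j : Fin 2) (p : Q0) : op i j p = X i * pderiv j p := rfl

def ee : Fin 4 → Module.End ℂ Q0 := ![op 0 0, op 0 1, op 1 0, op 1 1]

lemma ee_comm (i j : Fin 4) : ee i * ee j = ee j * ee i + br ee i j := by
  refine LinearMap.ext fun p => ?_
  fin_cases i <;> fin_cases j <;>
    simp [ee, br, op_apply, Derivation.leibniz, pd_comm] <;> ring

def ρ : U →ₐ[ℂ] Module.End ℂ Q0 := liftU ee ee_comm

def Q : Type := Q0
instance : AddCommGroup Q := inferInstanceAs (AddCommGroup Q0)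
instance : Module U Q := Module.compHom Q0 ρ.toRingHom

def Q.v (p : Q) : Q0 := p

lemma smul_v (u : U) (p : Q) : (u • p).v = ρ u p.v := rfl
lemma add_v (p q : Q) : (p + q).v = p.v + q.v := rfl

lemma op_hom {d : ℕ} {p : Q0} (hp : p.IsHomogeneous d) (i j : Fin 2) :
    (op i j p).IsHomogeneous d := by
  rw [op_apply]
  rcases d with _ | d
  · rw [← totalDegree_zero_iff_isHomogeneous, totalDegree_eq_zero_iff_eq_C] at hp
    rw [hp, pderiv_C, mul_zero]; exact isHomogeneous_zero _ _ _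
  · have := (isHomogeneous_X ℂ i).mul (hp.pderiv (i := j))
    rwa [Nat.add_sub_cancel, add_comm] at this

lemma ρ_hom (d : ℕ) (u : U) : ∀ p : Q0, p.IsHomogeneous d → (ρ u p).IsHomogeneous d := by
  induction u using U.induction with
  | h0 c =>
    intro p hp
    rw [AlgHom.commutes, Module.algebraMap_end_apply]
    exact (homogeneousSubmodule _ _ d).smul_mem c hp
  | h1 i =>
    intro p hp
    rw [ρ, liftU_E]
    fin_cases i <;> exact op_hom hp _ _
  | hm a b ha hb => intro p hp; rw [map_mul]; exact ha _ (hb _ hp)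
  | ha a b ha hb => intro p hp; rw [map_add]; exact (ha _ hp).add (hb _ hp)

def Nd (d : ℕ) : Submodule U Q where
  carrier := {p | p.v.IsHomogeneous d}
  add_mem' ha hb := ha.add hb
  zero_mem' := isHomogeneous_zero _ _ _
  smul_mem' u p hp := ρ_hom d u _ hp

def vv {d : ℕ} (p : Nd d) : Q0 := p.1.v
def mk {d : ℕ} (p : Q0) (hp : p.IsHomogeneous d) : Nd d := ⟨p, hp⟩

lemma vv_hom {d : ℕ} (p : Nd d) : (vv p).IsHomogeneous d := p.2
lemma vv_inj {d : ℕ} {p q : Nd d} (h : vv p = vv q) : p = q := Subtype.ext h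
@[simp] lemma vv_mk {d : ℕ} (p : Q0) (hp : p.IsHomogeneous d) : vv (mk p hp) = p := rfl
@[simp] lemma vv_add {d : ℕ} (p q : Nd d) : vv (p + q) = vv p + vv q := rfl
@[simp] lemma vv_zero {d : ℕ} : vv (0 : Nd d) = 0 := rfl
lemma vv_smul {d : ℕ} (u : U) (p : Nd d) : vv (u • p) = ρ u (vv p) := rfl
lemma vv_alg {d : ℕ} (c : ℂ) (p : Nd d) : vv (algebraMap ℂ U c • p) = c • vv p := by
  rw [vv_smul, AlgHom.commutes, Module.algebraMap_end_apply]
lemma vv_sum {d : ℕ} {ι : Type} (s : Finset ι) (f : ι → Nd d) :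
    vv (∑ i ∈ s, f i) = ∑ i ∈ s, vv (f i) :=
  map_sum (AddMonoidHom.mk' (vv (d := d)) vv_add) f s

lemma ρ_E (i : Fin 4) : ρ (E i) = ee i := liftU_E _ _ i

lemma fd_Nd (d : ℕ) : FD (Nd d) := by
  obtain ⟨s, hs⟩ := homogeneousSubmodule_fg (Fin 2) ℂ d
  have hm : ∀ p ∈ s, (p : Q0).IsHomogeneous d := fun p hp => by
    rw [← mem_homogeneousSubmodule, ← hs]; exact Submodule.subset_span hp
  refine ⟨s, inferInstance, fun k => mk k.1 (hm _ k.2), fun n => ?_⟩
  have hn : vv n ∈ Submodule.span ℂ (s : Set Q0) := by rw [hs]; exact vv_hom n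
  obtain ⟨c, -, hc⟩ := Submodule.mem_span_finset.1 hn
  refine ⟨fun k => c k.1, vv_inj ?_⟩
  rw [vv_sum, ← hc, ← Finset.sum_coe_sort]
  exact Finset.sum_congr rfl fun k _ => by rw [vv_alg, vv_mk]

lemma tw_alg {N : Type} [AddCommGroup N] [Module U N] (D : Dat) (c : ℂ) (v : Tw D N) (i : Fin 2) :
    (algebraMap ℂ U c • v) i = algebraMap ℂ U c • v i := by
  rw [Tw.smul_def, AlgHom.commutes]
  fin_cases i <;> simp [mv, Matrix.algebraMap_matrix_apply]

lemma fd_Tw {N : Type} [AddCommGroup N] [Module U N] (D : Dat) (h : FD N) : FD (Tw D N) := by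
  obtain ⟨ι, _, v, hv⟩ := h
  refine ⟨Fin 2 × ι, inferInstance, fun k => (Pi.single k.1 (v k.2) : Fin 2 → N), fun n => ?_⟩
  choose c hc using fun a : Fin 2 => hv (n a)
  refine ⟨fun k => c k.1 k.2, funext fun a => ?_⟩
  have e : ∀ (s : Finset (Fin 2 × ι)) (f : Fin 2 × ι → Tw D N), (∑ k ∈ s, f k) a = ∑ k ∈ s, f k a :=
    fun s f => Finset.sum_apply a s f
  rw [e, Fintype.sum_prod_type, Finset.sum_eq_single a, hc a]
  · exact Finset.sum_congr rfl fun k _ => by rw [tw_alg]; simp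
  · intro b _ hb
    exact Finset.sum_eq_zero fun k _ => by rw [tw_alg]; simp [Pi.single_eq_of_ne hb.symm]
  · simp

/-- linearity is checked on the generators -/
def mkLin {M M' : Type} [AddCommGroup M] [Module U M] [AddCommGroup M'] [Module U M'] (f : M → M')
    (ha : ∀ x y, f (x + y) = f x + f y)
    (h0 : ∀ (c : ℂ) x, f (algebraMap ℂ U c • x) = algebraMap ℂ U c • f x)
    (h1 : ∀ i x, f (E i • x) = E i • f x) : M →ₗ[U] M' where
  toFun := f
  map_add' := ha
  map_smul' u := by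
    induction u using U.induction with
    | h0 c => exact h0 c
    | h1 i => exact h1 i
    | hm a b ha' hb =>
      intro x
      rw [mul_smul, ha', hb, RingHom.id_apply, RingHom.id_apply, RingHom.id_apply, mul_smul]
    | ha a b ha' hb =>
      intro x
      rw [add_smul, ha, ha', hb, RingHom.id_apply, RingHom.id_apply, RingHom.id_apply, add_smul]

lemma vv_mv {d : ℕ} (a : Matrix (Fin 2) (Fin 2) U) (v : Fin 2 → Nd d) (i : Fin 2) :
    vv (mv a v i) = ρ (a i 0) (vv (v 0)) + ρ (a i 1) (vv (v 1)) := by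
  simp only [mv, Fin.sum_univ_two, vv_add, vv_smul]

lemma vv_twE {d : ℕ} (k : Fin 4) (v : Tw D (Nd d)) (i : Fin 2) :
    vv ((E k • v) i) = ρ (pe k i 0) (vv (v 0)) + ρ (pe k i 1) (vv (v 1)) := by
  rw [Tw.smul_def, vv_mv]
  show ρ (ψ (E k) i 0) _ + ρ (ψ (E k) i 1) _ = _
  rw [ψ_E]

def α (d : ℕ) : Nd d →ₗ[U] Tw D (Nd (d + 1)) :=
  mkLin (fun g i => mk (X i * vv g) (by
      have := (isHomogeneous_X ℂ i).mul (vv_hom g)
      rwa [add_comm] at this))
    (fun x y => funext fun i => vv_inj (by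
      show X i * (vv x + vv y) = X i * vv x + X i * vv y
      exact mul_add _ _ _))
    (fun c x => funext fun i => vv_inj (by
      rw [tw_alg, vv_mk, vv_alg, vv_alg, vv_mk, mul_smul_comm]))
    (fun k x => funext fun i => vv_inj (by
      rw [vv_twE, vv_mk, vv_mk, vv_mk, vv_smul, ρ_E]
      fin_cases k <;> fin_cases i <;> simp [pe, ρ_E, ee, op_apply, Derivation.leibniz] <;> ring))

lemma vv_α {d : ℕ} (g : Nd d) (i : Fin 2) : vv (α d g i) = X i * vv g := rfl

def β (d : ℕ) : Tw D (Nd (d + 1)) →ₗ[U] Nd d :=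
  mkLin (fun v => mk (pderiv 0 (vv (v 0)) + pderiv 1 (vv (v 1)))
      ((vv_hom (v 0)).pderiv.add (vv_hom (v 1)).pderiv))
    (fun x y => vv_inj (by
      show pderiv 0 (vv (x 0) + vv (y 0)) + pderiv 1 (vv (x 1) + vv (y 1)) = _
      simp only [map_add, vv_add, vv_mk]
      abel))
    (fun c x => vv_inj (by
      rw [vv_alg, vv_mk, vv_mk, tw_alg, tw_alg, vv_alg, vv_alg, Derivation.map_smul,
        Derivation.map_smul, smul_add]))
    (fun k x => vv_inj (by
      rw [vv_mk, vv_twE, vv_twE, vv_smul, vv_mk, ρ_E]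
      fin_cases k <;> simp [pe, ρ_E, ee, op_apply, Derivation.leibniz, pd_comm] <;> ring))

lemma vv_β {d : ℕ} (v : Tw D (Nd (d + 1))) :
    vv (β d v) = pderiv 0 (vv (v 0)) + pderiv 1 (vv (v 1)) := rfl

lemma euler {d : ℕ} (p : Nd d) :
    X 0 * pderiv 0 (vv p) + X 1 * pderiv 1 (vv p) = (d : Q0) * vv p := by
  have := (vv_hom p).sum_X_mul_pderiv
  rwa [Fin.sum_univ_two, nsmul_eq_mul] at this

lemma vv_TN {d : ℕ} (v : Tw D (Nd d)) (i : Fin 2) :
    vv (TN D (Nd d) v i) = ((d : Q0) + 1) * vv (v i) -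
      X i * (pderiv 0 (vv (v 0)) + pderiv 1 (vv (v 1))) := by
  have e0 := euler (v 0)
  have e1 := euler (v 1)
  have : vv (TN D (Nd d) v i) = ρ (TT i 0) (vv (v 0)) + ρ (TT i 1) (vv (v 1)) := vv_mv _ _ _
  rw [this]
  fin_cases i
  · simp [TT, ρ_E, ee, op_apply]
    linear_combination e0
  · simp [TT, ρ_E, ee, op_apply]
    linear_combination e1

def cst (d : ℕ) : U := algebraMap ℂ U ((d : ℂ) + 2)
def csti (d : ℕ) : U := algebraMap ℂ U ((d : ℂ) + 2)⁻¹

lemma cst_ne (d : ℕ) : (d : ℂ) + 2 ≠ 0 := by exact_mod_cast (by omega : d + 2 ≠ 0)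

lemma csti_cst {M : Type} [AddCommGroup M] [Module U M] (d : ℕ) (x : M) :
    csti d • cst d • x = x := by
  rw [← mul_smul, csti, cst, ← map_mul, inv_mul_cancel₀ (cst_ne d), map_one, one_smul]

lemma cst_csti {M : Type} [AddCommGroup M] [Module U M] (d : ℕ) (x : M) :
    cst d • csti d • x = x := by
  rw [← mul_smul, csti, cst, ← map_mul, mul_inv_cancel₀ (cst_ne d), map_one, one_smul]

lemma vv_cst {d e : ℕ} (p : Nd e) : vv (cst d • p) = ((d : Q0) + 2) * vv p := by
  rw [cst, vv_alg, smul_eq_C_mul, map_add, map_natCast, map_ofNat]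

lemma β_α (d : ℕ) (g : Nd d) : β d (α d g) = cst d • g := by
  refine vv_inj ?_
  have := euler g
  rw [vv_β, vv_α, vv_α, vv_cst]
  simp [Derivation.leibniz]
  linear_combination this

lemma TN_add (d : ℕ) (v : Tw D (Nd (d + 1))) :
    TN D (Nd (d + 1)) v + α d (β d v) = cst d • v := by
  refine funext fun i => vv_inj ?_
  show vv (TN D (Nd (d + 1)) v i + α d (β d v) i) = _
  rw [vv_add, vv_TN, vv_α, vv_β, cst, tw_alg, ← cst, vv_cst]
  push_cast
  ring

lemma TN_zero (v : Tw D (Nd 0)) : TN D (Nd 0) v = v := by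
  refine funext fun i => vv_inj ?_
  have h : ∀ (j : Fin 2) (p : Nd 0), pderiv j (vv p) = 0 := fun j p => by
    have hp := vv_hom p
    rw [← totalDegree_zero_iff_isHomogeneous, totalDegree_eq_zero_iff_eq_C] at hp
    rw [hp, pderiv_C]
  rw [vv_TN, h, h]
  simp

lemma step (d : ℕ) : Function.Injective (α d) ∧ Function.Exact (α d) (TN D (Nd (d + 1))) ∧
    Function.Exact (TN D (Nd (d + 1))) (β d) ∧ Function.Surjective (β d) := by
  have hc : ∀ {M M' : Type} [AddCommGroup M] [Module U M] [AddCommGroup M'] [Module U M']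
      (f : M →ₗ[U] M') (u : U) (x : M), f (u • x) = u • f x := fun f u x => f.map_smul u x
  refine ⟨fun x y h => ?_, fun v => ⟨fun h => ⟨csti d • β d v, ?_⟩, ?_⟩,
    fun v => ⟨fun h => ⟨csti d • v, ?_⟩, ?_⟩, fun g => ⟨α d (csti d • g), ?_⟩⟩
  · rw [← csti_cst d x, ← β_α, h, β_α, csti_cst]
  · have := TN_add d v
    rw [h, zero_add] at this
    rw [hc, this, csti_cst]
  · rintro ⟨g, rfl⟩
    have := TN_add d (α d g)
    rw [β_α, hc] at this
    exact add_eq_right.1 this
  · have := TN_add d v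
    rw [h, map_zero, add_zero] at this
    rw [hc, this, csti_cst]
  · rintro ⟨w, rfl⟩
    have := congrArg (β d) (TN_add d w)
    rw [map_add, β_α, hc] at this
    exact add_eq_right.1 this
  · rw [β_α, cst_csti]

theorem repStmt : RepStmt := by
  refine ⟨D, fun d => ModuleCat.of U (Nd d), fd_Nd, fun d => fd_Tw D (fd_Nd d), ?_, ?_,
    fun d => ⟨α d, β d, step d⟩⟩
  · exact ⟨mk 1 (isHomogeneous_one _ _), 0, fun h => one_ne_zero (α := Q0) (congrArg vv h)⟩
  · have : (TN D (Nd 0) : Tw D (Nd 0) → Tw D (Nd 0)) = id := funext TN_zero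
    show Function.Bijective (TN D (Nd 0))
    rw [this]
    exact Function.bijective_id

end Crest.Agent.H4.FdRep
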