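import Crest.Agent.H4.GenA

/-! Interface for the free group factor isomorphism (row 134). -/

open scoped ComplexConjugate Topology
open Filter

namespace Crest.Agent.H4.Fg

open Crest.Agent.H4.Gen

universe u

/-- The real group algebra of the free group. -/
abbrev R (ι : Type) := MonoidAlgebra ℝ (FreeGroup ι)

variable {ι : Type}

/-- A group element in the group algebra. -/
noncomputable def e (γ : FreeGroup ι) : R ι := MonoidAlgebra.single γ 1

/-- The involution `γ ↦ γ⁻¹` of the real group algebra. -/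
noncomputable def σ : R ι →ₗ[ℝ] R ι := MonoidAlgebra.mapDomainLinearMap ℝ ℝ (fun γ => γ⁻¹)

lemma e_mul (γ δ : FreeGroup ι) : e (γ * δ) = e γ * e δ := by
  simp [e, MonoidAlgebra.single_mul_single]

lemma e_one : e (1 : FreeGroup ι) = 1 := rfl

lemma e_mul_inv (γ : FreeGroup ι) : e γ * e γ⁻¹ = 1 := by rw [← e_mul, mul_inv_cancel, e_one]
lemma e_inv_mul (γ : FreeGroup ι) : e γ⁻¹ * e γ = 1 := by rw [← e_mul, inv_mul_cancel, e_one]

lemma single_eq (γ : FreeGroup ι) (r : ℝ) : MonoidAlgebra.single γ r = r • e γ := by simp [e]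

lemma σ_e (γ : FreeGroup ι) : σ (e γ) = e γ⁻¹ := by
  simp [σ, e]

lemma R_ind {motive : R ι → Prop} (x : R ι) (he : ∀ γ, motive (e γ))
    (add : ∀ x y, motive x → motive y → motive (x + y))
    (smul : ∀ (r : ℝ) x, motive x → motive (r • x)) : motive x :=
  MonoidAlgebra.induction_on x he add smul

lemma σ_mul (x y : R ι) : σ (x * y) = σ y * σ x := by
  induction x using R_ind with
  | he γ =>
    induction y using R_ind with
    | he δ => rw [← e_mul, σ_e, σ_e, σ_e, ← e_mul, mul_inv_rev]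
    | add x y hx hy => simp only [mul_add, add_mul, map_add, hx, hy]
    | smul r x hx => simp only [mul_smul_comm, smul_mul_assoc, map_smul, hx]
  | add x y hx hy => simp only [mul_add, add_mul, map_add, hx, hy]
  | smul r x hx => simp only [mul_smul_comm, smul_mul_assoc, map_smul, hx]

/-- Elements supported on conjugates of nonzero powers of the generator `g`. -/
noncomputable def CP (g : ι) : Submodule ℝ (R ι) :=
  Submodule.span ℝ {y | ∃ (γ : FreeGroup ι) (n : ℤ), n ≠ 0 ∧ y = e (γ * FreeGroup.of g ^ n * γ⁻¹)}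

/-- Elements supported on nonzero powers of the generator `g`. -/
noncomputable def PW (g : ι) : Submodule ℝ (R ι) :=
  Submodule.span ℝ {y | ∃ n : ℤ, n ≠ 0 ∧ y = e (FreeGroup.of g ^ n)}

/-- `c` is the conjugation cocycle with `c u = ξ` and `c x = 0` for the other generators. -/
structure IsCoc (u : ι) (ξ : R ι) (c : FreeGroup ι → R ι) : Prop where
  at_u : c (FreeGroup.of u) = ξ
  at_ne : ∀ x, x ≠ u → c (FreeGroup.of x) = 0
  mul : ∀ γ δ, c (γ * δ) = c γ + e γ * c δ * e γ⁻¹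

variable {A : Type u} [CStarAlgebra A]

/-- A family of free Haar unitaries, as a representation of the free group. -/
structure Rep (T : TS A) (lam : FreeGroup ι →* A) : Prop where
  unit : ∀ γ, lam γ ∈ unitary A
  tr : ∀ γ, γ ≠ 1 → T.τ (lam γ) = 0

/-- The representation generates `A`: the span of its range is 2-norm dense. -/
def Gen (T : TS A) (lam : FreeGroup ι →* A) : Prop :=
  ∀ b : A, ∀ ε > 0, ∃ p ∈ Submodule.span ℂ (Set.range lam), T.n2 (b - p) < ε

/-- The extension of a representation to the real group algebra. -/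
noncomputable def pi (lam : FreeGroup ι →* A) : R ι →ₐ[ℝ] A := MonoidAlgebra.lift ℝ A _ lam

@[simp] lemma pi_e (lam : FreeGroup ι →* A) (γ : FreeGroup ι) : pi lam (e γ) = lam γ := by
  simp [pi, e]

lemma Rep.star_eq {T : TS A} {lam : FreeGroup ι →* A} (h : Rep T lam) (γ : FreeGroup ι) :
    star (lam γ) = lam γ⁻¹ := by
  calc star (lam γ) = star (lam γ) * (lam γ * lam γ⁻¹) := by rw [← map_mul]; simp
    _ = lam γ⁻¹ := by rw [← mul_assoc, (h.unit γ).1, one_mul]

lemma Rep.pi_σ {T : TS A} {lam : FreeGroup ι →* A} (h : Rep T lam) (y : R ι) :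
    pi lam (σ y) = star (pi lam y) := by
  induction y using R_ind with
  | he γ => rw [σ_e, pi_e, pi_e, h.star_eq]
  | add x y hx hy => simp only [map_add, star_add, hx, hy]
  | smul r x hx => simp only [map_smul, star_smul, hx, star_trivial]

/-- (F) The flow of the trace-preserving derivation `D γ = c γ * γ`. -/
def FlowStmt : Prop := ∀ (ι : Type) (u g : ι), u ≠ g → ∀ (ξ : R ι), σ ξ = -ξ → ξ ∈ CP g →
  ∀ c, IsCoc u ξ c → ∃ t₀ : ℝ, 0 < t₀ ∧ ∃ C : FreeGroup ι → ℝ,
    ∀ (A : Type u) [CStarAlgebra A] (T : TS A) (lam : FreeGroup ι →* A), Rep T lam →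
      ∀ t : ℝ, 0 < t → t ≤ t₀ → ∃ lam' : FreeGroup ι →* A, Rep T lam' ∧
        (∀ x, x ≠ u → lam' (FreeGroup.of x) = lam (FreeGroup.of x)) ∧
        (∀ γ, lam γ ∈ closure (Submodule.span ℂ (Set.range lam') : Set A)) ∧
        ∀ γ, ‖lam' γ - lam γ - t • (pi lam (c γ) * lam γ)‖ ≤ C γ * t ^ 2

/-- (H) A small vector field whose cocycle at a word `W(u,v)` is nearly a given `ξ₀`. -/
def HStmt : Prop := ∀ (ι : Type) (u v g : ι), u ≠ v → u ≠ g → v ≠ g →
  ∀ ξ₀ : R ι, σ ξ₀ = -ξ₀ → ξ₀ ∈ PW g → ∀ η : ℝ, 0 < η →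
    ∃ W ∈ Subgroup.closure {FreeGroup.of u, FreeGroup.of v}, ∃ ξ : R ι, σ ξ = -ξ ∧ ξ ∈ CP g ∧
      ∀ c, IsCoc u ξ c → ∀ (A : Type u) [CStarAlgebra A] (T : TS A) (lam : FreeGroup ι →* A),
        Rep T lam → T.n2 (pi lam ξ) ≤ η ∧ T.n2 (pi lam (c W - ξ₀)) ≤ η

/-- (E) A Haar unitary is nearly the exponential of an odd trigonometric polynomial in it. -/
def EStmt : Prop := ∀ (ι : Type) (g : ι) (η : ℝ), 0 < η → ∃ ξ₀ : R ι, σ ξ₀ = -ξ₀ ∧ ξ₀ ∈ PW g ∧
  ∀ (A : Type u) [CStarAlgebra A] (T : TS A) (lam : FreeGroup ι →* A), Rep T lam →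
    T.n2 (NormedSpace.exp (pi lam ξ₀) - lam (FreeGroup.of g)) ≤ η

/-- (S) One step: absorb the extra generator approximately. -/
def StepStmt : Prop := ∀ (ι : Type) (u v : ι), u ≠ v → ∀ (A : Type u) [CStarAlgebra A] (T : TS A)
  (lam : FreeGroup (Option ι) →* A), Rep T lam → Gen T lam → ∀ η : ℝ, 0 < η →
    ∃ lam' : FreeGroup (Option ι) →* A, Rep T lam' ∧ Gen T lam' ∧
      (∀ x, x ≠ u → lam' (FreeGroup.of (some x)) = lam (FreeGroup.of (some x))) ∧
      T.n2 (lam' (FreeGroup.of (some u)) - lam (FreeGroup.of (some u))) < η ∧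
      ∃ W : FreeGroup ι, T.n2 (lam' (FreeGroup.map some W) - lam (FreeGroup.of none)) < η

/-- (Abs) One generator fewer. -/
def AbsStmt : Prop := ∀ (ι : Type) (u v : ι), u ≠ v → ∀ (A : Type u) [CStarAlgebra A] (T : TS A),
  T.W → T.Sep → ∀ lam : FreeGroup (Option ι) →* A, Rep T lam → Gen T lam →
    ∃ mu : FreeGroup ι →* A, Rep T mu ∧ Gen T mu

end Crest.Agent.H4.Fg
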