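import Crest.Agent.H4.FgA

/-! The derivation attached to a cocycle, weighted norms. -/

open scoped ComplexConjugate Topology
open Filter

namespace Crest.Agent.H4.Fg

open Crest.Agent.H4.Gen

variable {ι : Type} {u : ι} {ξ : R ι} {c : FreeGroup ι → R ι}

lemma IsCoc.one (hc : IsCoc u ξ c) : c 1 = 0 := by
  have := hc.mul 1 1
  simp only [mul_one, inv_one, e_one, one_mul] at this
  exact left_eq_add.1 this

lemma IsCoc.inv (hc : IsCoc u ξ c) (γ : FreeGroup ι) : c γ⁻¹ = -(e γ⁻¹ * c γ * e γ) := by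
  have := hc.mul γ⁻¹ γ
  rw [inv_mul_cancel, hc.one, inv_inv] at this
  exact eq_neg_of_add_eq_zero_left this.symm

lemma IsCoc.skew (hc : IsCoc u ξ c) (hξ : σ ξ = -ξ) (γ : FreeGroup ι) : σ (c γ) = -c γ := by
  induction γ with
  | C1 => simp [hc.one]
  | of x =>
    by_cases h : x = u
    · subst h; rw [hc.at_u, hξ]
    · simp [hc.at_ne x h]
  | inv_of x ih => rw [hc.inv, map_neg, σ_mul, σ_mul, σ_e, σ_e, ih, inv_inv]; simp [mul_assoc]
  | mul x y hx hy =>
    rw [hc.mul, map_add, σ_mul, σ_mul, σ_e, σ_e, hx, hy, inv_inv]; simp [mul_assoc, add_comm]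

lemma CP_conj {g : ι} {y : R ι} (hy : y ∈ CP g) (δ : FreeGroup ι) : e δ * y * e δ⁻¹ ∈ CP g := by
  induction hy using Submodule.span_induction with
  | mem y hy =>
    obtain ⟨γ, n, hn, rfl⟩ := hy
    refine Submodule.subset_span ⟨δ * γ, n, hn, ?_⟩
    rw [← e_mul, ← e_mul]; congr 1; group
  | zero => simp
  | add x y _ _ hx hy => rw [mul_add, add_mul]; exact add_mem hx hy
  | smul r x _ hx => rw [mul_smul_comm, smul_mul_assoc]; exact Submodule.smul_mem _ _ hx

lemma IsCoc.mem_CP {g : ι} (hc : IsCoc u ξ c) (hξ : ξ ∈ CP g) (γ : FreeGroup ι) : c γ ∈ CP g := by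
  induction γ with
  | C1 => simp [hc.one]
  | of x =>
    by_cases h : x = u
    · subst h; rwa [hc.at_u]
    · simp [hc.at_ne x h]
  | inv_of x ih =>
    rw [hc.inv]
    have := CP_conj ih (FreeGroup.of x)⁻¹
    rw [inv_inv] at this
    exact neg_mem this
  | mul x y hx hy => rw [hc.mul]; exact add_mem hx (CP_conj hy x)

lemma IsCoc.zpow (hc : IsCoc u ξ c) {γ : FreeGroup ι} (h : c γ = 0) (n : ℤ) : c (γ ^ n) = 0 := by
  induction n using Int.induction_on with
  | zero => simp [hc.one]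
  | succ n ih => rw [zpow_add_one, hc.mul, ih, h]; simp
  | pred n ih => rw [zpow_sub_one, hc.mul, ih, hc.inv, h]; simp

/-- The derivation. -/
noncomputable def D (c : FreeGroup ι → R ι) : R ι →ₗ[ℝ] R ι :=
  (MonoidAlgebra.basis (FreeGroup ι) ℝ).constr ℝ fun γ => c γ * e γ

lemma D_e (γ : FreeGroup ι) : D c (e γ) = c γ * e γ :=
  (MonoidAlgebra.basis (FreeGroup ι) ℝ).constr_basis ℝ _ γ

lemma IsCoc.D_mul (hc : IsCoc u ξ c) (x y : R ι) : D c (x * y) = D c x * y + x * D c y := by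
  induction x using R_ind with
  | he γ =>
    induction y using R_ind with
    | he δ =>
      rw [← e_mul, D_e, D_e, D_e, hc.mul, e_mul, add_mul, mul_assoc (e γ * c δ),
        ← mul_assoc (e γ⁻¹), e_inv_mul]
      simp only [mul_assoc, one_mul]
    | add x y hx hy => simp only [mul_add, map_add, hx, hy]; abel
    | smul r x hx => simp only [mul_smul_comm, map_smul, hx, smul_add]
  | add x y hx hy => simp only [add_mul, map_add, hx, hy]; abel
  | smul r x hx => simp only [smul_mul_assoc, map_smul, hx, smul_add]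

lemma IsCoc.D_σ (hc : IsCoc u ξ c) (hξ : σ ξ = -ξ) (y : R ι) : D c (σ y) = σ (D c y) := by
  induction y using R_ind with
  | he γ =>
    rw [σ_e, D_e, D_e, σ_mul, σ_e, hc.skew hξ, hc.inv, neg_mul, mul_assoc, e_mul_inv]; simp
  | add x y hx hy => simp only [map_add, hx, hy]
  | smul r x hx => simp only [map_smul, hx]

lemma IsCoc.D_pow_σ (hc : IsCoc u ξ c) (hξ : σ ξ = -ξ) (n : ℕ) (y : R ι) :
    (D c ^ n) (σ y) = σ ((D c ^ n) y) := by
  induction n with
  | zero => simp
  | succ n ih => rw [pow_succ', Module.End.mul_apply, Module.End.mul_apply, ih, hc.D_σ hξ]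

lemma IsCoc.D_pow_mul (hc : IsCoc u ξ c) (n : ℕ) (x y : R ι) :
    (D c ^ n) (x * y) =
      ∑ ij ∈ Finset.HasAntidiagonal.antidiagonal n, n.choose ij.1 • ((D c ^ ij.1) x * (D c ^ ij.2) y) := by
  induction n with
  | zero => simp
  | succ n ih =>
    rw [Finset.sum_antidiagonal_choose_succ_nsmul
      (fun i j => (D c ^ i) x * (D c ^ j) y), pow_succ', Module.End.mul_apply, ih, map_sum,
      ← Finset.sum_add_distrib]
    refine Finset.sum_congr rfl fun ij hij => ?_
    rw [map_nsmul, hc.D_mul, pow_succ', pow_succ', Module.End.mul_apply, Module.End.mul_apply,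
      smul_add, add_comm]
    congr 2
    rw [Finset.HasAntidiagonal.mem_antidiagonal] at hij
    exact Nat.choose_symm_of_eq_add hij.symm

variable {A : Type*} [CStarAlgebra A] {T : TS A} {lam : FreeGroup ι →* A}

lemma IsCoc.τ_D {g : ι} (hc : IsCoc u ξ c) (hug : u ≠ g) (hξ : ξ ∈ CP g) (hl : Rep T lam)
    (y : R ι) : T.τ (pi lam (D c y)) = 0 := by
  induction y using R_ind with
  | he γ =>
    rw [D_e]
    by_cases h : ∃ (δ : FreeGroup ι) (n : ℤ), γ = δ * FreeGroup.of g ^ n * δ⁻¹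
    · obtain ⟨δ, n, h⟩ := h
      have h1 : c γ = c δ - e γ * c δ * e γ⁻¹ := by
        have h2 : γ * δ = δ * FreeGroup.of g ^ n := by rw [h]; group
        have h3 := hc.mul γ δ
        rw [h2, hc.mul, hc.zpow (hc.at_ne g hug.symm)] at h3
        simp only [mul_zero, zero_mul, add_zero] at h3
        rw [eq_sub_iff_add_eq]; exact h3.symm
      rw [h1, sub_mul, mul_assoc, e_inv_mul, mul_one, map_sub, map_sub, map_mul (pi lam),
        map_mul (pi lam), T.tr, sub_self]
    · push Not at h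
      have key : ∀ y ∈ CP g, T.τ (pi lam (y * e γ)) = 0 := by
        intro y hy
        induction hy using Submodule.span_induction with
        | mem y hy =>
          obtain ⟨δ, n, -, rfl⟩ := hy
          rw [← e_mul, pi_e]
          refine hl.tr _ fun h1 => h δ (-n) ?_
          rw [eq_inv_of_mul_eq_one_right h1]; group
        | zero => simp
        | add x y _ _ hx hy => rw [add_mul, map_add, map_add, hx, hy, add_zero]
        | smul r x _ hx =>
          rw [smul_mul_assoc, map_smul, LinearMap.map_smul_of_tower, hx, smul_zero]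
      exact key _ (hc.mem_CP hξ γ)
  | add x y hx hy => simp only [map_add, hx, hy, add_zero]
  | smul r x hx => rw [map_smul, map_smul, LinearMap.map_smul_of_tower, hx, smul_zero]

open Classical in
/-- Word length. -/
noncomputable def len (γ : FreeGroup ι) : ℕ := γ.norm

/-- Weighted `ℓ¹` norm. -/
noncomputable def N (ρ : ℝ) (y : R ι) : ℝ := y.coeff.sum fun γ a => |a| * ρ ^ len γ

lemma N_nonneg {ρ : ℝ} (hρ : 0 ≤ ρ) (y : R ι) : 0 ≤ N ρ y :=
  Finset.sum_nonneg fun _ _ => by positivity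

lemma N_e (ρ : ℝ) (γ : FreeGroup ι) : N ρ (e γ) = ρ ^ len γ := by
  simp [N, e]

lemma N_eq {ρ : ℝ} (y : R ι) (s : Finset (FreeGroup ι)) (hs : y.coeff.support ⊆ s) :
    N ρ y = ∑ γ ∈ s, |y.coeff γ| * ρ ^ len γ :=
  Finsupp.sum_of_support_subset _ hs _ fun _ _ => by simp

lemma N_add_le {ρ : ℝ} (hρ : 0 ≤ ρ) (x y : R ι) : N ρ (x + y) ≤ N ρ x + N ρ y := by
  classical
  rw [N_eq (x + y) (x.coeff.support ∪ y.coeff.support) Finsupp.support_add,
    N_eq x _ Finset.subset_union_left, N_eq y _ Finset.subset_union_right,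
    ← Finset.sum_add_distrib]
  refine Finset.sum_le_sum fun γ _ => ?_
  rw [← add_mul]
  exact mul_le_mul_of_nonneg_right (abs_add_le _ _) (by positivity)

lemma N_smul (ρ r : ℝ) (y : R ι) : N ρ (r • y) = |r| * N ρ y := by
  rw [N_eq (r • y) y.coeff.support Finsupp.support_smul, N_eq y _ subset_rfl, Finset.mul_sum]
  refine Finset.sum_congr rfl fun γ _ => ?_
  rw [← mul_assoc, ← abs_mul]; rfl

lemma N_neg (ρ : ℝ) (y : R ι) : N ρ (-y) = N ρ y := by
  rw [← neg_one_smul ℝ, N_smul]; simp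

lemma N_zero (ρ : ℝ) : N ρ (0 : R ι) = 0 := by simp [N]

lemma bound (f : R ι → ℝ) (f0 : f 0 = 0) (fadd : ∀ x y, f (x + y) ≤ f x + f y)
    (fsmul : ∀ (r : ℝ) x, f (r • x) = |r| * f x) {K ρ : ℝ}
    (h : ∀ γ, f (e γ) ≤ K * ρ ^ len γ) (y : R ι) : f y ≤ K * N ρ y := by
  conv_lhs => rw [← MonoidAlgebra.sum_coeff_single y]
  refine (Finset.le_sum_of_subadditive f f0.le fadd _ _).trans ?_
  rw [N, Finsupp.sum, Finset.mul_sum]
  refine Finset.sum_le_sum fun γ _ => ?_
  rw [single_eq, fsmul, mul_left_comm]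
  exact mul_le_mul_of_nonneg_left (h γ) (abs_nonneg _)

lemma N_mono {ρ ρ' : ℝ} (h0 : 0 ≤ ρ) (h : ρ ≤ ρ') (y : R ι) : N ρ y ≤ N ρ' y :=
  Finset.sum_le_sum fun _ _ =>
    mul_le_mul_of_nonneg_left (pow_le_pow_left₀ h0 h _) (abs_nonneg _)

lemma N_mul_le {ρ : ℝ} (hρ : 1 ≤ ρ) (x y : R ι) : N ρ (x * y) ≤ N ρ x * N ρ y := by
  classical
  have h0 : 0 ≤ ρ := zero_le_one.trans hρ
  rw [mul_comm (N ρ x)]
  refine bound (fun x => N ρ (x * y)) (by simp [N_zero]) (fun a b => by
    rw [add_mul]; exact N_add_le h0 _ _) (fun r a => by rw [smul_mul_assoc, N_smul]) (fun γ => ?_) x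
  rw [mul_comm (N ρ y)]
  refine bound (fun y => N ρ (e γ * y)) (by simp [N_zero]) (fun a b => by
    rw [mul_add]; exact N_add_le h0 _ _) (fun r a => by rw [mul_smul_comm, N_smul]) (fun δ => ?_) y
  rw [← e_mul, N_e, ← pow_add]
  exact pow_le_pow_right₀ hρ (by unfold len; convert FreeGroup.norm_mul_le γ δ)

lemma norm_pi_le (hl : Rep T lam) (y : R ι) : ‖pi lam y‖ ≤ N 1 y := by
  have := bound (fun y => ‖pi lam y‖) (by simp) (fun a b => by rw [map_add]; exact norm_add_le _ _)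
    (fun r a => by rw [map_smul, norm_smul, Real.norm_eq_abs]) (K := 1) (ρ := 1)
    (fun γ => by simp [T.norm_unitary (hl.unit γ)]) y
  simpa using this

lemma IsCoc.N_D_e (hc : IsCoc u ξ c) {ρ : ℝ} (hρ : 1 ≤ ρ) (γ : FreeGroup ι) :
    N ρ (D c (e γ)) ≤ len γ * N ρ ξ * ρ ^ len γ := by
  classical
  have h0 : 0 ≤ ρ := zero_le_one.trans hρ
  have hξ := N_nonneg h0 ξ
  have hlen : ∀ L : List (ι × Bool), N ρ (e (FreeGroup.mk L)) ≤ ρ ^ L.length := fun L => by
    rw [N_e]
    exact pow_le_pow_right₀ hρ (by unfold len; convert FreeGroup.norm_mk_le (L₁ := L))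
  have hone : ∀ p : ι × Bool, N ρ (D c (e (FreeGroup.mk [p]))) ≤ N ρ ξ * ρ := by
    rintro ⟨x, b⟩
    have hcx : N ρ (c (FreeGroup.of x)) ≤ N ρ ξ := by
      by_cases h : x = u
      · subst h; rw [hc.at_u]
      · rw [hc.at_ne x h, N_zero]; exact hξ
    have h1 := hlen [(x, b)]
    simp only [List.length_singleton, pow_one] at h1
    cases b
    · have : (FreeGroup.mk [(x, false)]) = (FreeGroup.of x)⁻¹ := rfl
      rw [this] at h1 ⊢
      rw [D_e, hc.inv, neg_mul, mul_assoc, e_mul_inv, mul_one, N_neg, mul_comm (N ρ ξ)]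
      exact (N_mul_le hρ _ _).trans (mul_le_mul h1 hcx (N_nonneg h0 _) h0)
    · have : (FreeGroup.mk [(x, true)]) = FreeGroup.of x := rfl
      rw [this] at h1 ⊢
      rw [D_e]
      exact (N_mul_le hρ _ _).trans (mul_le_mul hcx h1 (N_nonneg h0 _) hξ)
  have key : ∀ L : List (ι × Bool),
      N ρ (D c (e (FreeGroup.mk L))) ≤ L.length * N ρ ξ * ρ ^ L.length := by
    intro L
    induction L with
    | nil =>
      have : (FreeGroup.mk ([] : List (ι × Bool))) = 1 := rfl
      rw [this, D_e, hc.one]; simp [N_zero]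
    | cons p L ih =>
      have : FreeGroup.mk (p :: L) = FreeGroup.mk [p] * FreeGroup.mk L := rfl
      rw [this, e_mul, hc.D_mul]
      refine (N_add_le h0 _ _).trans ?_
      have h1 := (N_mul_le hρ _ _).trans (mul_le_mul (hone p) (hlen L) (N_nonneg h0 _)
        (by positivity))
      have h2 := (N_mul_le hρ _ _).trans (mul_le_mul (hlen [p]) ih (N_nonneg h0 _) (by positivity))
      simp only [List.length_singleton, pow_one] at h2
      rw [List.length_cons, pow_succ]; push_cast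
      nlinarith
  have := key γ.toWord
  rw [FreeGroup.mk_toWord] at this
  unfold len FreeGroup.norm
  convert this

lemma IsCoc.N_D (hc : IsCoc u ξ c) {ρ δ : ℝ} (hρ : 1 ≤ ρ) (hδ : 0 < δ) (h2 : ρ + δ ≤ 2) (y : R ι) :
    N ρ (D c y) ≤ (2 * N 2 ξ / δ) * N (ρ + δ) y := by
  have h0 : 0 ≤ ρ := zero_le_one.trans hρ
  refine bound (fun y => N ρ (D c y)) (by simp [N_zero]) (fun a b => by
    rw [map_add]; exact N_add_le h0 _ _) (fun r a => by rw [map_smul, N_smul]) (fun γ => ?_) y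
  refine (hc.N_D_e hρ γ).trans ?_
  have h1 : N ρ ξ ≤ N 2 ξ := N_mono h0 (by linarith) ξ
  have hξ := N_nonneg h0 ξ
  have h3 : (len γ : ℝ) * ρ ^ len γ ≤ 2 / δ * (ρ + δ) ^ len γ := by
    have hb := one_add_mul_le_pow (show (-2 : ℝ) ≤ δ / ρ by
      have : 0 ≤ δ / ρ := by positivity
      linarith) (len γ)
    have hρ0 : 0 < ρ := by linarith
    have e1 : (ρ + δ) ^ len γ = ρ ^ len γ * (1 + δ / ρ) ^ len γ := by
      rw [← mul_pow]; congr 1; field_simp
    rw [e1]
    have h4 : (len γ : ℝ) ≤ 2 / δ * (1 + δ / ρ) ^ len γ := by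
      refine le_trans ?_ (mul_le_mul_of_nonneg_left hb (by positivity))
      have : (len γ : ℝ) ≤ 2 / δ * (len γ * (δ / ρ)) := by
        rw [show 2 / δ * (len γ * (δ / ρ)) = len γ * (2 / ρ) by field_simp]
        refine le_mul_of_one_le_right (by positivity) ?_
        rw [le_div_iff₀ hρ0]; linarith
      refine this.trans ?_
      gcongr; linarith
    calc _ ≤ (2 / δ * (1 + δ / ρ) ^ len γ) * ρ ^ len γ := by gcongr
      _ = _ := by ring
  calc (len γ : ℝ) * N ρ ξ * ρ ^ len γ = N ρ ξ * (len γ * ρ ^ len γ) := by ring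
    _ ≤ N 2 ξ * (2 / δ * (ρ + δ) ^ len γ) := by gcongr; exact hξ.trans h1
    _ = _ := by ring

lemma IsCoc.N_D_pow (hc : IsCoc u ξ c) {δ : ℝ} (hδ : 0 < δ) (m : ℕ) :
    ∀ y : R ι, 1 + m * δ ≤ 2 → N 1 ((D c ^ m) y) ≤ (2 * N 2 ξ / δ) ^ m * N (1 + m * δ) y := by
  have hξ := N_nonneg zero_le_two ξ
  induction m with
  | zero => intro y _; simp
  | succ m ih =>
    intro y h
    push_cast at h ⊢
    have hm : 0 ≤ (m : ℝ) * δ := by positivity
    rw [pow_succ, Module.End.mul_apply]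
    refine (ih _ (by linarith)).trans ?_
    have := hc.N_D (ρ := 1 + m * δ) (by linarith) hδ (by linarith) y
    rw [pow_succ, mul_assoc, show 1 + ((m : ℝ) + 1) * δ = 1 + m * δ + δ by ring]
    gcongr

lemma IsCoc.N_D_pow' (hc : IsCoc u ξ c) (m : ℕ) (y : R ι) :
    N 1 ((D c ^ m) y) / m.factorial ≤ (6 * N 2 ξ + 1) ^ m * N 2 y := by
  have hξ := N_nonneg zero_le_two ξ
  have hy := N_nonneg zero_le_two y
  rcases Nat.eq_zero_or_pos m with rfl | hm
  · simpa using N_mono zero_le_one one_le_two y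
  have hm' : (0 : ℝ) < m := by exact_mod_cast hm
  have h1 := hc.N_D_pow (δ := 1 / m) (by positivity) m y (by field_simp; norm_num)
  rw [show 1 + (m : ℝ) * (1 / m) = 2 by field_simp; norm_num,
    show 2 * N 2 ξ / (1 / m) = (2 * N 2 ξ) * m by field_simp, mul_pow] at h1
  have h2 := Real.pow_div_factorial_le_exp (m : ℝ) hm'.le m
  have h3 : Real.exp m ≤ 3 ^ m := by
    rw [← Real.exp_one_pow]
    gcongr
    exact Real.exp_one_lt_three.le
  calc _ ≤ ((2 * N 2 ξ) ^ m * (m : ℝ) ^ m * N 2 y) / m.factorial := by gcongr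
    _ = (2 * N 2 ξ) ^ m * ((m : ℝ) ^ m / m.factorial) * N 2 y := by ring
    _ ≤ (2 * N 2 ξ) ^ m * 3 ^ m * N 2 y := by gcongr; exact h2.trans h3
    _ = (6 * N 2 ξ) ^ m * N 2 y := by rw [← mul_pow]; ring
    _ ≤ _ := by gcongr; linarith

end Crest.Agent.H4.Fg
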