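import Crest.Agent.H4.FgB

/-! The power series flow of the derivation. -/

open scoped ComplexConjugate Topology
open Filter Finset.HasAntidiagonal

namespace Crest.Agent.H4.Fg

open Crest.Agent.H4.Gen

variable {ι : Type} {u : ι} {ξ : R ι} {c : FreeGroup ι → R ι}
variable {A : Type*} [CStarAlgebra A] {T : TS A} {lam : FreeGroup ι →* A}

/-- The terms of the exponential series. -/
noncomputable def tm (c : FreeGroup ι → R ι) (lam : FreeGroup ι →* A) (t : ℝ) (y : R ι) (n : ℕ) : A :=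
  (t ^ n / n.factorial) • pi lam ((D c ^ n) y)

/-- The flow. -/
noncomputable def fl (c : FreeGroup ι → R ι) (lam : FreeGroup ι →* A) (t : ℝ) (y : R ι) : A :=
  ∑' n, tm c lam t y n

lemma IsCoc.norm_tm (hc : IsCoc u ξ c) (hl : Rep T lam) (t : ℝ) (y : R ι) (n : ℕ) :
    ‖tm c lam t y n‖ ≤ ((6 * N 2 ξ + 1) * |t|) ^ n * N 2 y := by
  have h1 := hc.N_D_pow' n y
  have h2 := norm_pi_le hl ((D c ^ n) y)
  rw [tm, norm_smul, Real.norm_eq_abs, abs_div, abs_pow, Nat.abs_cast]
  calc _ ≤ |t| ^ n / n.factorial * N 1 ((D c ^ n) y) := by gcongr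
    _ = |t| ^ n * (N 1 ((D c ^ n) y) / n.factorial) := by ring
    _ ≤ |t| ^ n * ((6 * N 2 ξ + 1) ^ n * N 2 y) := by gcongr
    _ = _ := by rw [mul_pow]; ring

section small

variable (hc : IsCoc u ξ c) (hl : Rep T lam) {t : ℝ} (ht : (6 * N 2 ξ + 1) * |t| ≤ 1 / 4)
include hc hl ht

lemma IsCoc.norm_tm' (y : R ι) (n : ℕ) : ‖tm c lam t y n‖ ≤ (1 / 4) ^ n * N 2 y := by
  have := N_nonneg zero_le_two y
  have := N_nonneg zero_le_two ξ
  refine (hc.norm_tm hl t y n).trans ?_
  gcongr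

lemma IsCoc.summable_norm (y : R ι) : Summable fun n => ‖tm c lam t y n‖ :=
  Summable.of_nonneg_of_le (fun _ => norm_nonneg _) (hc.norm_tm' hl ht y)
    ((summable_geometric_of_lt_one (by norm_num) (by norm_num)).mul_right _)

lemma IsCoc.summable (y : R ι) : Summable (tm c lam t y) := (hc.summable_norm hl ht y).of_norm

lemma IsCoc.fl_add (x y : R ι) : fl c lam t (x + y) = fl c lam t x + fl c lam t y := by
  rw [fl, fl, fl, ← (hc.summable hl ht x).tsum_add (hc.summable hl ht y)]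
  exact tsum_congr fun n => by simp [tm]

lemma IsCoc.fl_smul (r : ℝ) (x : R ι) : fl c lam t (r • x) = r • fl c lam t x := by
  rw [fl, fl, ← (hc.summable hl ht x).tsum_const_smul r]
  exact tsum_congr fun n => by simp only [tm, map_smul]; rw [smul_comm]

lemma IsCoc.fl_mul (x y : R ι) : fl c lam t (x * y) = fl c lam t x * fl c lam t y := by
  rw [fl, fl, fl, tsum_mul_tsum_eq_tsum_sum_antidiagonal_of_summable_norm
    (hc.summable_norm hl ht x) (hc.summable_norm hl ht y)]
  refine tsum_congr fun n => ?_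
  rw [tm, hc.D_pow_mul, map_sum, Finset.smul_sum]
  refine Finset.sum_congr rfl fun ij hij => ?_
  rw [mem_antidiagonal] at hij
  rw [tm, tm, map_nsmul, map_mul, smul_mul_smul_comm, ← Nat.cast_smul_eq_nsmul ℝ, smul_smul]
  congr 1
  rw [← hij, Nat.cast_add_choose, pow_add]
  field_simp

omit hc hl ht in
lemma fl_of_D {y : R ι} (hy : D c y = 0) : fl c lam t y = pi lam y := by
  rw [fl, tsum_eq_single 0]
  · simp [tm]
  · intro n hn
    obtain ⟨m, rfl⟩ := Nat.exists_eq_succ_of_ne_zero hn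
    simp [tm, pow_succ, hy]

/-- The new representation. -/
noncomputable def IsCoc.rep : FreeGroup ι →* A where
  toFun γ := fl c lam t (e γ)
  map_one' := by rw [fl_of_D (by rw [D_e, hc.one, zero_mul]), pi_e, map_one]
  map_mul' γ δ := by rw [e_mul, hc.fl_mul hl ht]

lemma IsCoc.fl_mem (y : R ι) :
    fl c lam t y ∈ Submodule.span ℂ (Set.range (hc.rep hl ht)) := by
  induction y using R_ind with
  | he γ => exact Submodule.subset_span ⟨γ, rfl⟩
  | add x y hx hy => rw [hc.fl_add hl ht]; exact add_mem hx hy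
  | smul r x hx => rw [hc.fl_smul hl ht, ← Complex.coe_smul]; exact Submodule.smul_mem _ _ hx

omit hc ht in
lemma IsCoc.star_fl (hc : IsCoc u ξ c) (hξ : σ ξ = -ξ) (y : R ι) :
    star (fl c lam t y) = fl c lam t (σ y) := by
  rw [fl, fl, tsum_star]
  exact tsum_congr fun n => by rw [tm, tm, star_smul, star_trivial, hc.D_pow_σ hξ, hl.pi_σ]

lemma IsCoc.τ_fl {g : ι} (hug : u ≠ g) (hξ : ξ ∈ CP g) (y : R ι) :
    T.τ (fl c lam t y) = T.τ (pi lam y) := by
  have h := (hc.summable hl ht y).hasSum.map T.τ T.continuous_τ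
  refine h.unique ?_
  have := hasSum_single (f := T.τ ∘ tm c lam t y) 0 (fun n hn => by
    obtain ⟨m, rfl⟩ := Nat.exists_eq_succ_of_ne_zero hn
    simp only [Function.comp, tm, LinearMap.map_smul_of_tower, pow_succ', Module.End.mul_apply,
      hc.τ_D hug hξ hl, smul_zero])
  simpa [tm] using this

lemma IsCoc.fl_rem (y : R ι) : ‖fl c lam t y - pi lam y - t • pi lam (D c y)‖ ≤
    2 * (6 * N 2 ξ + 1) ^ 2 * N 2 y * t ^ 2 := by
  have hy := N_nonneg zero_le_two y
  have hξ := N_nonneg zero_le_two ξ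
  have h1 := (hc.summable hl ht y).sum_add_tsum_nat_add 2
  have h2 : fl c lam t y - pi lam y - t • pi lam (D c y) = ∑' n, tm c lam t y (n + 2) := by
    rw [fl, ← h1]; simp [tm, Finset.sum_range_succ]; abel
  rw [h2]
  have h3 : HasSum (fun n : ℕ => (1 / 2 : ℝ) ^ n * (((6 * N 2 ξ + 1) * |t|) ^ 2 * N 2 y))
      (2 * (((6 * N 2 ξ + 1) * |t|) ^ 2 * N 2 y)) := hasSum_geometric_two.mul_right _
  refine (tsum_of_norm_bounded h3 fun n => (hc.norm_tm hl t y _).trans ?_).trans (le_of_eq ?_)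
  · rw [pow_add, mul_assoc]
    gcongr
    linarith
  · rw [mul_pow, sq_abs]; ring

lemma IsCoc.pi_mem_closure (y : R ι) :
    pi lam y ∈ closure (Submodule.span ℂ (Set.range (hc.rep hl ht)) : Set A) := by
  have hy := N_nonneg zero_le_two y
  let f : ℕ × ℕ → A := fun p => ((-t) ^ p.1 / p.1.factorial) • tm c lam t ((D c ^ p.1) y) p.2
  have hf : ∀ p : ℕ × ℕ, f p = (((-1) ^ p.1 * ((p.1 + p.2).choose p.1) : ℝ)) •
      tm c lam t y (p.1 + p.2) := by
    intro p
    simp only [f, tm, smul_smul]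
    rw [add_comm p.1 p.2, pow_add (D c), Module.End.mul_apply, add_comm p.2 p.1]
    congr 1
    rw [Nat.cast_add_choose, pow_add, neg_pow]
    field_simp
  have hs : Summable f := by
    refine Summable.of_norm_bounded (g := fun p : ℕ × ℕ => (1 / 2 : ℝ) ^ p.1 * ((1 / 2) ^ p.2 * N 2 y))
      (summable_geometric_two.mul_of_nonneg (summable_geometric_two.mul_right _)
        (fun _ => by positivity) (fun _ => by positivity)) fun p => ?_
    rw [hf, norm_smul, Real.norm_eq_abs, abs_mul, abs_pow, abs_neg, abs_one, one_pow, one_mul,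
      Nat.abs_cast]
    have h1 : (((p.1 + p.2).choose p.1 : ℕ) : ℝ) ≤ 2 ^ (p.1 + p.2) := by
      exact_mod_cast Nat.choose_le_two_pow _ _
    calc _ ≤ 2 ^ (p.1 + p.2) * ((1 / 4) ^ (p.1 + p.2) * N 2 y) := by
          gcongr; exact hc.norm_tm' hl ht y _
      _ = _ := by rw [← mul_assoc, ← mul_pow, ← mul_assoc, ← pow_add]; norm_num
  have h1 : HasSum (fun m => ((-t) ^ m / m.factorial) • fl c lam t ((D c ^ m) y)) (∑' p, f p) :=
    hs.hasSum.prod_fiberwise fun m => (hc.summable hl ht _).hasSum.const_smul _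
  have h2 : HasSum (fun k => ∑ p ∈ antidiagonal k, f p) (∑' p, f p) := by
    refine HasSum.sigma (sigmaAntidiagonalEquivProd.hasSum_iff.2 hs.hasSum) fun k => ?_
    have := hasSum_fintype (fun p : antidiagonal k => f p)
    rwa [Finset.sum_coe_sort] at this
  have h3 : ∀ k, ∑ p ∈ antidiagonal k, f p = ((0 : ℝ) ^ k) • tm c lam t y k := by
    intro k
    have := (Commute.all (-1 : ℝ) 1).add_pow' k
    rw [neg_add_cancel] at this
    rw [this, Finset.sum_smul]
    refine Finset.sum_congr rfl fun p hp => ?_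
    rw [mem_antidiagonal] at hp
    rw [hf, hp]; simp [mul_comm]
  have h4 : ∑' p, f p = pi lam y := by
    refine h2.unique ?_
    have := hasSum_single (f := fun k => ∑ p ∈ antidiagonal k, f p) 0 (fun n hn => by
      rw [h3, zero_pow hn, zero_smul])
    rw [h3] at this
    simpa [tm] using this
  rw [h4] at h1
  refine mem_closure_of_tendsto h1.tendsto_sum_nat (Eventually.of_forall fun n => ?_)
  refine Submodule.sum_mem _ fun m _ => ?_
  rw [← Complex.coe_smul]
  exact Submodule.smul_mem _ _ (hc.fl_mem hl ht _)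

end small

theorem flowStmt : FlowStmt := by
  intro ι u g hug ξ hξ hCP c hc
  have h0 := N_nonneg zero_le_two ξ
  refine ⟨1 / (4 * (6 * N 2 ξ + 1)), by positivity,
    fun γ => 2 * (6 * N 2 ξ + 1) ^ 2 * N 2 (e γ), fun A _ T lam hl t ht0 ht1 => ?_⟩
  have ht : (6 * N 2 ξ + 1) * |t| ≤ 1 / 4 := by
    rw [abs_of_pos ht0]
    rw [le_div_iff₀ (by positivity)] at ht1
    linarith
  have hrep : ∀ γ, hc.rep hl ht γ = fl c lam t (e γ) := fun _ => rfl
  have hstar : ∀ γ, star (hc.rep hl ht γ) = hc.rep hl ht γ⁻¹ := fun γ => by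
    rw [hrep, hrep, hc.star_fl hl hξ, σ_e]
  refine ⟨hc.rep hl ht, ⟨fun γ => ⟨?_, ?_⟩, fun γ hγ => ?_⟩, fun x hx => ?_, fun γ => ?_, fun γ => ?_⟩
  · rw [hstar, ← map_mul, inv_mul_cancel, map_one]
  · rw [hstar, ← map_mul, mul_inv_cancel, map_one]
  · rw [hrep, hc.τ_fl hl ht hug hCP, pi_e, hl.tr γ hγ]
  · rw [hrep, fl_of_D (by rw [D_e, hc.at_ne x hx, zero_mul]), pi_e]
  · rw [← pi_e]; exact hc.pi_mem_closure hl ht _
  · have := hc.fl_rem hl ht (e γ)
    rwa [D_e, map_mul, pi_e] at this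

end Crest.Agent.H4.Fg
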