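import Crest.Agent.H4.FgC
import Crest.Agent.H7.GenC1

/-! The step lemma and the Baire category argument. -/

open scoped ComplexConjugate Topology
open Filter

namespace Crest.Agent.H4.Fg

open Crest.Agent.H4.Gen

universe u

variable {ι : Type}

/-- The semidirect product used to build cocycles. -/
@[ext] structure SD (ι : Type) where
  r : R ι
  g : FreeGroup ι

noncomputable instance : Mul (SD ι) := ⟨fun a b => ⟨a.r + e a.g * b.r * e a.g⁻¹, a.g * b.g⟩⟩
noncomputable instance : One (SD ι) := ⟨⟨0, 1⟩⟩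
noncomputable instance : Inv (SD ι) := ⟨fun a => ⟨-(e a.g⁻¹ * a.r * e a.g), a.g⁻¹⟩⟩

lemma SD.mul_r (a b : SD ι) : (a * b).r = a.r + e a.g * b.r * e a.g⁻¹ := rfl
lemma SD.mul_g (a b : SD ι) : (a * b).g = a.g * b.g := rfl
lemma SD.inv_g (a : SD ι) : (a⁻¹).g = a.g⁻¹ := rfl

noncomputable instance : Group (SD ι) := Group.ofLeftAxioms
  (fun a b c => SD.ext (by
    simp only [SD.mul_r, SD.mul_g, mul_inv_rev, e_mul, mul_add, add_mul, mul_assoc, add_assoc])
    (mul_assoc _ _ _))
  (fun a => SD.ext (by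
    change 0 + e 1 * a.r * e 1⁻¹ = a.r
    simp [e_one]) (one_mul _))
  (fun a => SD.ext (by
    change -(e a.g⁻¹ * a.r * e a.g) + e a.g⁻¹ * a.r * e a.g⁻¹⁻¹ = 0
    simp) (inv_mul_cancel _))

lemma exists_coc (u : ι) (ξ : R ι) : ∃ c, IsCoc u ξ c := by
  classical
  let φ : FreeGroup ι →* SD ι := FreeGroup.lift fun x => ⟨if x = u then ξ else 0, FreeGroup.of x⟩
  have hg : ∀ γ, (φ γ).g = γ := by
    intro γ
    induction γ with
    | C1 => rw [map_one]; rfl
    | of x => simp [φ]
    | inv_of x ih => rw [map_inv, SD.inv_g, ih]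
    | mul x y hx hy => rw [map_mul, SD.mul_g, hx, hy]
  refine ⟨fun γ => (φ γ).r, by simp [φ], fun x hx => by simp [φ, hx], fun γ δ => ?_⟩
  rw [map_mul, SD.mul_r, hg]

variable {A : Type u} [CStarAlgebra A] {T : TS A}

lemma exp_rem (x : A) (hx : ‖x‖ ≤ 1) [Nontrivial A] :
    ‖NormedSpace.exp x - 1 - x‖ ≤ 2 * ‖x‖ ^ 2 := by
  have h := NormedSpace.exp_series_hasSum_exp' (𝕂 := ℝ) x
  have h1 := (hasSum_nat_add_iff' 2).2 h
  have h2 : NormedSpace.exp x - 1 - x =
      NormedSpace.exp x - ∑ i ∈ Finset.range 2, ((i.factorial : ℝ)⁻¹) • x ^ i := by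
    simp [Finset.sum_range_succ, sub_sub]
  rw [h2]
  refine h1.norm_le_of_bounded (hasSum_geometric_two.mul_right (‖x‖ ^ 2)) fun n => ?_
  rw [norm_smul, norm_inv, Real.norm_natCast]
  have h3 : ‖x ^ (n + 2)‖ ≤ ‖x‖ ^ 2 := (norm_pow_le x _).trans
    (pow_le_pow_of_le_one (norm_nonneg _) hx (by omega))
  have h4 : (2 : ℝ) ^ n ≤ (n + 2).factorial := by
    have : 2 ^ n ≤ (n + 2).factorial := by
      induction n with
      | zero => simp
      | succ n ih =>
        rw [pow_succ, show n + 1 + 2 = (n + 2) + 1 by ring, Nat.factorial_succ]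
        have := ih ((norm_pow_le x _).trans (pow_le_pow_of_le_one (norm_nonneg _) hx (by omega)))
        nlinarith
    exact_mod_cast this
  rw [one_div, inv_pow]
  gcongr

lemma star_eq_inv {lam : FreeGroup ι →* A} (h : ∀ γ, lam γ ∈ unitary A) (γ : FreeGroup ι) :
    star (lam γ) = lam γ⁻¹ := by
  calc star (lam γ) = star (lam γ) * (lam γ * lam γ⁻¹) := by rw [← map_mul]; simp
    _ = lam γ⁻¹ := by rw [← mul_assoc, (h γ).1, one_mul]

lemma pi_PW {g : ι} {lam mu : FreeGroup ι →* A} (hl : Rep T lam) (hm : Rep T mu)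
    (h : lam (FreeGroup.of g) = mu (FreeGroup.of g)) {y : R ι} (hy : y ∈ PW g) :
    pi lam y = pi mu y := by
  induction hy using Submodule.span_induction with
  | mem y hy =>
    obtain ⟨n, -, rfl⟩ := hy
    rw [pi_e, pi_e]
    induction n using Int.induction_on with
    | zero => simp
    | succ n ih => rw [zpow_add_one, map_mul, map_mul, ih, h]
    | pred n ih => rw [zpow_sub_one, map_mul, map_mul, ih, ← hl.star_eq, ← hm.star_eq, h]
  | zero => simp
  | add x y _ _ hx hy => rw [map_add, map_add, hx, hy]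
  | smul r x _ hx => rw [map_smul, map_smul, hx]

lemma Gen.of_closure {lam mu : FreeGroup ι →* A} (h : Gen T lam)
    (hc : ∀ γ, lam γ ∈ closure (Submodule.span ℂ (Set.range mu) : Set A)) : Gen T mu := by
  intro b ε hε
  obtain ⟨p, hp, h1⟩ := h b (ε / 2) (by positivity)
  have h2 : p ∈ (Submodule.span ℂ (Set.range mu)).topologicalClosure :=
    (Submodule.span_le.2 (by rintro _ ⟨γ, rfl⟩; exact hc γ)) hp
  obtain ⟨q, hq, h3⟩ := Metric.mem_closure_iff.1 h2 (ε / 2) (by positivity)
  refine ⟨q, hq, ?_⟩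
  have := T.n2_triangle b p q
  have := T.n2_le_norm (p - q)
  rw [dist_eq_norm] at h3
  linarith

theorem stepStmt (hH : HStmt.{u}) (hE : EStmt.{u}) : StepStmt.{u} := by
  intro ι u v huv A _ T lam hl hg η hη
  haveI := T.nontrivial
  letI : NormedAlgebra ℚ A := NormedAlgebra.restrictScalars ℚ ℝ A
  obtain ⟨ξ₀, hσ₀, hPW, hE'⟩ := hE (Option ι) none (η / 4) (by positivity)
  obtain ⟨W, hW, ξ, hσ, hCP, hH'⟩ := hH (Option ι) (some u) (some v) none (by simpa using huv)
    (by simp) (by simp) ξ₀ hσ₀ hPW (η / 4) (by positivity)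
  obtain ⟨c, hc⟩ := exists_coc (some u) ξ
  obtain ⟨t₀, ht₀, C, hF⟩ := flowStmt.{u} (Option ι) (some u) none (by simp) ξ hσ hCP c hc
  obtain ⟨W₀, hW₀⟩ : ∃ W₀ : FreeGroup ι, FreeGroup.map some W₀ = W := by
    refine (Subgroup.closure_le (FreeGroup.map (some : ι → Option ι)).range).2 ?_ hW
    rintro _ (rfl | rfl)
    · exact ⟨FreeGroup.of u, by simp⟩
    · exact ⟨FreeGroup.of v, by simp⟩
  let θ : FreeGroup (Option ι) → FreeGroup (Option ι) →* FreeGroup (Option ι) := fun V =>
    FreeGroup.lift fun o => o.elim (FreeGroup.of none * V) fun x => FreeGroup.of (some x)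
  have hθ : ∀ V (γ : FreeGroup ι), θ V (FreeGroup.map some γ) = FreeGroup.map some γ := by
    intro V γ
    have : (θ V).comp (FreeGroup.map some) = FreeGroup.map some := by
      ext x; simp [θ]
    exact DFunLike.congr_fun this γ
  have hθW : ∀ V, θ V W = W := fun V => by rw [← hW₀, hθ]
  have hθ1 : ∀ γ, θ W (θ W⁻¹ γ) = γ := by
    intro γ
    have : (θ W).comp (θ W⁻¹) = MonoidHom.id _ := by
      ext o
      cases o with
      | none =>
        have h1 : θ W⁻¹ (FreeGroup.of none) = FreeGroup.of none * W⁻¹ := by simp [θ]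
        have h2 : θ W (FreeGroup.of none) = FreeGroup.of none * W := by simp [θ]
        simp [h1, h2, hθW]
      | some x => simp [θ]
    exact DFunLike.congr_fun this γ
  have hθ2 : ∀ γ, θ W⁻¹ (θ W γ) = γ := by
    intro γ
    have : (θ W⁻¹).comp (θ W) = MonoidHom.id _ := by
      ext o
      cases o with
      | none =>
        have h1 : θ W⁻¹ (FreeGroup.of none) = FreeGroup.of none * W⁻¹ := by simp [θ]
        have h2 : θ W (FreeGroup.of none) = FreeGroup.of none * W := by simp [θ]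
        simp [h1, h2, hθW]
      | some x => simp [θ]
    exact DFunLike.congr_fun this γ
  set mu := lam.comp (θ W⁻¹) with hmu
  have hm : Rep T mu := ⟨fun γ => hl.unit _, fun γ hγ => hl.tr _ fun h => hγ (by
    rw [← hθ1 γ, h, map_one])⟩
  have hmg : Gen T mu := hg.of_closure fun γ => subset_closure
    (Submodule.subset_span ⟨θ W γ, by simp [hmu, hθ2]⟩)
  have hms : ∀ x, mu (FreeGroup.of (some x)) = lam (FreeGroup.of (some x)) := fun x => by
    simp [hmu, θ]
  have hmW : mu (FreeGroup.of none) * mu W = lam (FreeGroup.of none) := by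
    rw [← map_mul, hmu, MonoidHom.comp_apply, map_mul, hθW]; simp [θ]
  set Y := pi mu ξ₀ with hY
  have hYs : star Y = -Y := by rw [hY, ← hm.pi_σ, hσ₀, map_neg]
  set K := |C (FreeGroup.of (some u))| + |C W| + 2 * ‖Y‖ ^ 2 with hK
  have hK0 : 0 ≤ K := by positivity
  obtain ⟨M, hM⟩ := exists_nat_gt (max (max (1 / t₀) ‖Y‖) (4 * K / η))
  have hM1 : 1 / t₀ < M := (le_max_left _ _).trans_lt ((le_max_left _ _).trans_lt hM)
  have hM2 : ‖Y‖ < M := (le_max_right _ _).trans_lt ((le_max_left _ _).trans_lt hM)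
  have hM3 : 4 * K / η < M := (le_max_right _ _).trans_lt hM
  have hM0 : (0 : ℝ) < M := (norm_nonneg _).trans_lt hM2
  set t : ℝ := 1 / M with ht
  have ht0 : 0 < t := by positivity
  have ht1 : t ≤ t₀ := by
    rw [ht, div_le_iff₀ hM0]; rw [div_lt_iff₀ ht₀] at hM1; linarith
  set E := NormedSpace.exp (t • Y) with hEdef
  have hEu : E ∈ unitary A := NormedSpace.exp_mem_unitary_of_mem_skewAdjoint (by
    rw [skewAdjoint.mem_iff, star_smul, hYs]; simp)
  have hEr : ‖E - 1 - t • Y‖ ≤ 2 * ‖Y‖ ^ 2 * t ^ 2 := by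
    have h1 : ‖t • Y‖ = t * ‖Y‖ := by rw [norm_smul, Real.norm_eq_abs, abs_of_pos ht0]
    refine (exp_rem _ ?_).trans (le_of_eq (by rw [h1]; ring))
    rw [h1, ht, one_div, inv_mul_le_iff₀ hM0]; linarith
  have key : ∀ k : ℕ, ∃ nu : FreeGroup (Option ι) →* A, Rep T nu ∧ Gen T nu ∧
      (∀ o, o ≠ some u → nu (FreeGroup.of o) = mu (FreeGroup.of o)) ∧
      T.n2 (nu (FreeGroup.of (some u)) - mu (FreeGroup.of (some u))) ≤ k * (t * (η / 4) + K * t ^ 2) ∧
      T.n2 (nu W - E ^ k * mu W) ≤ k * (t * (η / 4) + K * t ^ 2) := by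
    intro k
    induction k with
    | zero => exact ⟨mu, hm, hmg, fun _ _ => rfl, by simp, by simp⟩
    | succ k ih =>
      obtain ⟨nu, hn, hng, hno, h1, h2⟩ := ih
      obtain ⟨nu', hn', hno', hcl, hr⟩ := hF A T nu hn t ht0 ht1
      obtain ⟨h3, h4⟩ := hH' c hc A T nu hn
      have hsm : ∀ (y : A) γ, T.n2 (t • (y * nu γ)) = t * T.n2 y := fun y γ => by
        rw [← Complex.coe_smul, T.n2_smul, T.n2_mul_unitary (hn.unit γ), Complex.norm_real,
          Real.norm_eq_abs, abs_of_pos ht0]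
      have hC : ∀ γ, T.n2 (nu' γ - nu γ - t • (pi nu (c γ) * nu γ)) ≤ |C γ| * t ^ 2 := fun γ =>
        (T.n2_le_norm _).trans ((hr γ).trans (by gcongr; exact le_abs_self _))
      have ht2 : 0 ≤ t ^ 2 := by positivity
      refine ⟨nu', hn', hng.of_closure hcl, fun o ho => (hno' o ho).trans (hno o ho), ?_, ?_⟩
      · have e1 := T.n2_triangle (nu' (FreeGroup.of (some u))) (nu (FreeGroup.of (some u)))
          (mu (FreeGroup.of (some u)))
        have e2 := T.n2_add_le (nu' (FreeGroup.of (some u)) - nu (FreeGroup.of (some u)) -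
          t • (pi nu (c (FreeGroup.of (some u))) * nu (FreeGroup.of (some u))))
          (t • (pi nu (c (FreeGroup.of (some u))) * nu (FreeGroup.of (some u))))
        rw [sub_add_cancel, hsm, hc.at_u] at e2
        have e3 := hC (FreeGroup.of (some u))
        rw [hc.at_u] at e3
        have e4 := mul_le_mul_of_nonneg_left h3 ht0.le
        have e5 : |C (FreeGroup.of (some u))| * t ^ 2 ≤ K * t ^ 2 := by
          gcongr; rw [hK]; have := abs_nonneg (C W); nlinarith [sq_nonneg ‖Y‖]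
        push_cast; linarith
      · have hYn : pi nu ξ₀ = Y := pi_PW hn hm (hno none (by simp)) hPW
        have e0 : nu' W - E ^ (k + 1) * mu W =
            (nu' W - nu W - t • (pi nu (c W) * nu W)) + t • (pi nu (c W - ξ₀) * nu W)
              - (E - 1 - t • Y) * nu W + E * (nu W - E ^ k * mu W) := by
          rw [map_sub, hYn, pow_succ']
          simp only [sub_mul, mul_sub, smul_sub, smul_mul_assoc, one_mul, mul_assoc]
          abel
        rw [e0]
        have e1 := T.n2_add_le ((nu' W - nu W - t • (pi nu (c W) * nu W)) +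
          t • (pi nu (c W - ξ₀) * nu W) - (E - 1 - t • Y) * nu W) (E * (nu W - E ^ k * mu W))
        have e2 := T.n2_sub_le ((nu' W - nu W - t • (pi nu (c W) * nu W)) +
          t • (pi nu (c W - ξ₀) * nu W)) ((E - 1 - t • Y) * nu W)
        have e3 := T.n2_add_le (nu' W - nu W - t • (pi nu (c W) * nu W))
          (t • (pi nu (c W - ξ₀) * nu W))
        rw [hsm] at e3
        rw [T.n2_unitary_mul hEu] at e1
        rw [T.n2_mul_unitary (hn.unit W)] at e2
        have e4 := mul_le_mul_of_nonneg_left h4 ht0.le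
        have e5 := hC W
        have e6 := (T.n2_le_norm _).trans hEr
        have e7 : |C W| * t ^ 2 + 2 * ‖Y‖ ^ 2 * t ^ 2 ≤ K * t ^ 2 := by
          rw [← add_mul]; gcongr; rw [hK]; have := abs_nonneg (C (FreeGroup.of (some u))); linarith
        push_cast; linarith
  obtain ⟨nu, hn, hng, hno, h1, h2⟩ := key M
  have hb : (M : ℝ) * (t * (η / 4) + K * t ^ 2) < η / 2 := by
    have : (M : ℝ) * (t * (η / 4) + K * t ^ 2) = η / 4 + K / M := by rw [ht]; field_simp
    rw [this]
    have : K / M < η / 4 := by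
      rw [div_lt_iff₀ hM0]; rw [div_lt_iff₀ hη] at hM3; linarith
    linarith
  refine ⟨nu, hn, hng, fun x hx => (hno _ (by simpa using hx)).trans (hms x), ?_, W₀, ?_⟩
  · rw [← hms]; linarith
  · have e1 : E ^ M = NormedSpace.exp Y := by
      rw [hEdef, ← NormedSpace.exp_nsmul, ← Nat.cast_smul_eq_nsmul ℝ, smul_smul, ht,
        mul_one_div_cancel hM0.ne', one_smul]
    rw [e1] at h2
    have e2 := T.n2_triangle (nu W) (NormedSpace.exp Y * mu W) (lam (FreeGroup.of none))
    rw [← hmW, ← sub_mul, T.n2_mul_unitary (hm.unit W)] at e2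
    have e3 := hE' A T mu hm
    rw [hW₀, ← hmW]
    linarith

end Crest.Agent.H4.Fg
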