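import Crest.Agent.H4.FgD

/-! The Baire category argument. -/

open scoped ComplexConjugate Topology
open Filter

namespace Crest.Agent.H4.Fg

open Crest.Agent.H4.Gen Crest.Agent.H7.Gen

universe u

variable {ι : Type} {A : Type u} [CStarAlgebra A] {T : TS A}

lemma lip_word (T : TS A) (γ : FreeGroup ι) : ∃ K : ℝ, 0 ≤ K ∧ ∀ (mu nu : FreeGroup ι →* A),
    (∀ γ, mu γ ∈ unitary A) → (∀ γ, nu γ ∈ unitary A) → ∀ η : ℝ, 0 ≤ η →
      (∀ i, T.n2 (mu (FreeGroup.of i) - nu (FreeGroup.of i)) ≤ η) → T.n2 (mu γ - nu γ) ≤ K * η := by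
  induction γ with
  | C1 => exact ⟨0, le_rfl, fun mu nu _ _ η _ _ => by simp⟩
  | of x => exact ⟨1, zero_le_one, fun mu nu _ _ η _ h => by simpa using h x⟩
  | inv_of x ih =>
    obtain ⟨K, hK, h⟩ := ih
    refine ⟨K, hK, fun mu nu hm hn η hη h' => ?_⟩
    rw [← star_eq_inv hm, ← star_eq_inv hn, ← star_sub, T.n2_star]
    exact h mu nu hm hn η hη h'
  | mul x y hx hy =>
    obtain ⟨K, hK, h⟩ := hx
    obtain ⟨K', hK', h'⟩ := hy
    refine ⟨K + K', by positivity, fun mu nu hm hn η hη h'' => ?_⟩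
    have e : mu (x * y) - nu (x * y) = mu x * (mu y - nu y) + (mu x - nu x) * nu y := by
      simp only [map_mul]; noncomm_ring
    rw [e]
    refine (T.n2_add_le _ _).trans ?_
    rw [T.n2_unitary_mul (hm x), T.n2_mul_unitary (hn y)]
    have := h mu nu hm hn η hη h''
    have := h' mu nu hm hn η hη h''
    linarith

/-- A finite linear combination of values of a representation. -/
noncomputable def cmb (f : FreeGroup ι →₀ ℂ) (mu : FreeGroup ι →* A) : A :=
  f.sum fun γ a => a • mu γ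

lemma lip_cmb (T : TS A) (f : FreeGroup ι →₀ ℂ) : ∃ K : ℝ, 0 ≤ K ∧ ∀ (mu nu : FreeGroup ι →* A),
    (∀ γ, mu γ ∈ unitary A) → (∀ γ, nu γ ∈ unitary A) → ∀ η : ℝ, 0 ≤ η →
      (∀ i, T.n2 (mu (FreeGroup.of i) - nu (FreeGroup.of i)) ≤ η) →
        T.n2 (cmb f mu - cmb f nu) ≤ K * η := by
  choose K hK h using fun γ : FreeGroup ι => lip_word T γ
  refine ⟨∑ γ ∈ f.support, ‖f γ‖ * K γ,
    Finset.sum_nonneg fun γ _ => mul_nonneg (norm_nonneg _) (hK γ), fun mu nu hm hn η hη h' => ?_⟩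
  rw [cmb, cmb, Finsupp.sum, Finsupp.sum, ← Finset.sum_sub_distrib, Finset.sum_mul]
  refine (T.n2_sum_le _ _).trans (Finset.sum_le_sum fun γ _ => ?_)
  rw [← smul_sub, T.n2_smul, mul_assoc]
  exact mul_le_mul_of_nonneg_left (h γ mu nu hm hn η hη h') (norm_nonneg _)

lemma step_cor (hS : StepStmt.{u}) {u v : ι} (huv : u ≠ v) {lam : FreeGroup (Option ι) →* A}
    (hl : Rep T lam) (hg : Gen T lam) (b : A) {d r : ℝ} (hd : 0 < d) (hr : 0 < r) :
    ∃ lam' : FreeGroup (Option ι) →* A, Rep T lam' ∧ Gen T lam' ∧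
      (∀ x, x ≠ u → lam' (FreeGroup.of (some x)) = lam (FreeGroup.of (some x))) ∧
      T.n2 (lam' (FreeGroup.of (some u)) - lam (FreeGroup.of (some u))) < r ∧
      ∃ f, T.n2 (b - cmb f (lam'.comp (FreeGroup.map some))) < d := by
  obtain ⟨p, hp, h1⟩ := hg b (d / 2) (by positivity)
  obtain ⟨f₀, rfl⟩ := Finsupp.mem_span_range_iff_exists_finsupp.1 hp
  obtain ⟨K, hK, hlip⟩ := lip_cmb T f₀
  set η := min r (d / (2 * (K + 1))) with hη
  have hη0 : 0 < η := by positivity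
  obtain ⟨lam', hl', hg', h2, h3, W, h4⟩ := hS ι u v huv A T lam hl hg η hη0
  refine ⟨lam', hl', hg', h2, h3.trans_le (min_le_left _ _), ?_⟩
  let ψ : FreeGroup (Option ι) →* FreeGroup ι := FreeGroup.lift fun o => o.elim W FreeGroup.of
  have h5 := hlip lam ((lam'.comp (FreeGroup.map some)).comp ψ) hl.unit (fun γ => hl'.unit _) η hη0.le
    (fun o => by
      rw [T.n2_sub_comm]
      cases o with
      | none => simpa [ψ] using h4.le
      | some x =>
        by_cases hx : x = u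
        · subst hx; simpa [ψ] using h3.le
        · simp [ψ, h2 x hx, hη0.le])
  have h6 : cmb f₀ ((lam'.comp (FreeGroup.map some)).comp ψ) ∈
      Submodule.span ℂ (Set.range (lam'.comp (FreeGroup.map some))) :=
    Submodule.sum_mem _ fun γ _ => Submodule.smul_mem _ _ (Submodule.subset_span ⟨ψ γ, rfl⟩)
  obtain ⟨f, hf⟩ := Finsupp.mem_span_range_iff_exists_finsupp.1 h6
  refine ⟨f, ?_⟩
  rw [cmb, hf]
  have h7 := T.n2_triangle b (cmb f₀ lam) (cmb f₀ ((lam'.comp (FreeGroup.map some)).comp ψ))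
  have h8 : K * η < d / 2 := by
    have : η ≤ d / (2 * (K + 1)) := min_le_right _ _
    rw [le_div_iff₀ (by positivity)] at this
    nlinarith
  change T.n2 (b - cmb f₀ lam) < d / 2 at h1
  linarith

theorem absStmt (hS : StepStmt.{u}) : AbsStmt.{u} := by
  classical
  intro ι u v huv A _ T hW hSep lam₀ hl₀ hg₀
  obtain ⟨D, hDc, hD⟩ := hSep
  haveI := complete_UG hW
  haveI := hDc.to_subtype
  let S : Set (UG T) := {x | ∃ lam : FreeGroup (Option ι) →* A, Rep T lam ∧ Gen T lam ∧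
    (∀ i, i ≠ u → lam (FreeGroup.of (some i)) = lam₀ (FreeGroup.of (some i))) ∧
    lam (FreeGroup.of (some u)) = T.Λ.symm x.1}
  let mu : UG T → FreeGroup ι →* A := fun x => (unitary A).subtype.comp
    (FreeGroup.lift fun i => if i = u then (⟨T.Λ.symm x.1, x.2⟩ : unitary A)
      else ⟨lam₀ (FreeGroup.of (some i)), hl₀.unit _⟩)
  have hmu : ∀ x γ, mu x γ ∈ unitary A := fun x γ => Subtype.property _
  have hmu1 : ∀ x, mu x (FreeGroup.of u) = T.Λ.symm x.1 := fun x => by simp [mu]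
  have hmu2 : ∀ x i, i ≠ u → mu x (FreeGroup.of i) = lam₀ (FreeGroup.of (some i)) :=
    fun x i hi => by simp [mu, hi]
  have hgen : ∀ x y i, T.n2 (mu x (FreeGroup.of i) - mu y (FreeGroup.of i)) ≤ dist x y := by
    intro x y i
    by_cases hi : i = u
    · subst hi; rw [hmu1, hmu1, dist_UG]
    · rw [hmu2 x i hi, hmu2 y i hi]; simp
  have hcomp : ∀ (x : UG T) (lam : FreeGroup (Option ι) →* A),
      (∀ i, i ≠ u → lam (FreeGroup.of (some i)) = lam₀ (FreeGroup.of (some i))) →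
      lam (FreeGroup.of (some u)) = T.Λ.symm x.1 → mu x = lam.comp (FreeGroup.map some) := by
    intro x lam h1 h2
    ext i
    by_cases hi : i = u
    · subst hi; rw [hmu1]; simp [h2]
    · rw [hmu2 x i hi]; simp [h1 i hi]
  haveI : CompleteSpace (closure S) := isClosed_closure.completeSpace_coe
  let O : D × ℕ → Set (closure S) := fun k =>
    {x | ∃ f, T.n2 (k.1.1 - cmb f (mu x.1)) < 1 / ((k.2 : ℝ) + 1)}
  have hO : ∀ k, IsOpen (O k) := by
    intro k
    rw [Metric.isOpen_iff]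
    rintro x ⟨f, hf⟩
    obtain ⟨K, hK, hlip⟩ := lip_cmb T f
    refine ⟨(1 / ((k.2 : ℝ) + 1) - T.n2 (k.1.1 - cmb f (mu x.1))) / (K + 1),
      div_pos (sub_pos.2 hf) (by positivity), fun y hy => ⟨f, ?_⟩⟩
    rw [Metric.mem_ball, lt_div_iff₀ (by positivity), dist_comm, Subtype.dist_eq] at hy
    have h1 := hlip _ _ (hmu x.1) (hmu y.1) _ dist_nonneg (hgen x.1 y.1)
    have h2 := T.n2_triangle k.1.1 (cmb f (mu x.1)) (cmb f (mu y.1))
    nlinarith [dist_nonneg (x := x.1) (y := y.1)]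
  have hOd : ∀ k, Dense (O k) := by
    intro k
    rw [Metric.dense_iff]
    intro x r hr
    obtain ⟨s, ⟨lam, hl, hg, h1, h2⟩, hs⟩ := Metric.mem_closure_iff.1 x.2 (r / 2) (by positivity)
    obtain ⟨lam', hl', hg', h3, h4, f, h5⟩ := step_cor hS huv hl hg k.1.1
      (d := 1 / ((k.2 : ℝ) + 1)) (r := r / 2) (by positivity) (by positivity)
    let s' : UG T := ⟨T.Λ (lam' (FreeGroup.of (some u))), by simpa using hl'.unit _⟩
    have h6 : ∀ i, i ≠ u → lam' (FreeGroup.of (some i)) = lam₀ (FreeGroup.of (some i)) :=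
      fun i hi => (h3 i hi).trans (h1 i hi)
    refine ⟨⟨s', subset_closure ⟨lam', hl', hg', h6, rfl⟩⟩, ?_, f, ?_⟩
    · rw [Metric.mem_ball, Subtype.dist_eq]
      have h7 : dist s' s < r / 2 := by rw [dist_UG, ← h2]; exact h4
      have := dist_triangle s' s x.1
      rw [dist_comm s] at this
      change dist s' x.1 < r
      linarith
    · rw [hcomp s' lam' h6 rfl]; exact h5
  have hden := dense_iInter_of_isOpen hO hOd
  haveI : Nonempty (closure S) := ⟨⟨⟨T.Λ (lam₀ (FreeGroup.of (some u))), by simpa using hl₀.unit _⟩,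
    subset_closure ⟨lam₀, hl₀, hg₀, fun _ _ => rfl, rfl⟩⟩⟩
  obtain ⟨x, hx⟩ := hden.nonempty
  refine ⟨mu x.1, ⟨hmu _, fun γ hγ => ?_⟩, fun b ε hε => ?_⟩
  · obtain ⟨K, hK, hlip⟩ := lip_word T γ
    refine norm_le_zero_iff.1 (le_of_forall_pos_le_add fun ε hε => ?_)
    obtain ⟨s, ⟨lam, hl, -, h1, h2⟩, hs⟩ := Metric.mem_closure_iff.1 x.2 (ε / (K + 1))
      (by positivity)
    have h3 := hlip _ _ (hmu x.1) (hmu s) _ dist_nonneg (hgen x.1 s)
    have h4 : T.τ (mu s γ) = 0 := by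
      rw [hcomp s lam h1 h2]
      exact hl.tr _ fun h => hγ (FreeGroup.map_injective (Option.some_injective ι) (by simpa using h))
    have h5 := T.norm_τ_le_n2 (mu x.1 γ - mu s γ)
    rw [map_sub, h4, sub_zero] at h5
    rw [lt_div_iff₀ (by positivity)] at hs
    nlinarith [dist_nonneg (x := x.1) (y := s)]
  · obtain ⟨b', hb', h1⟩ := hD b (ε / 2) (by positivity)
    obtain ⟨m, hm⟩ := exists_nat_one_div_lt (show 0 < ε / 2 by positivity)
    obtain ⟨f, hf⟩ := Set.mem_iInter.1 hx (⟨b', hb'⟩, m)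
    refine ⟨cmb f (mu x.1), Finsupp.mem_span_range_iff_exists_finsupp.2 ⟨f, rfl⟩, ?_⟩
    have := T.n2_triangle b b' (cmb f (mu x.1))
    simp only at hf
    linarith

end Crest.Agent.H4.Fg
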