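import Crest.Agent.H4.FgA

/-! Row 134, piece (E): a Haar unitary is nearly the exponential of an odd trigonometric
polynomial. -/

open scoped ComplexConjugate Topology
open Filter

namespace Crest.Agent.H4.Fg

open Crest.Agent.H4.Gen

universe u

/-- The scalar function. -/
noncomputable def yf (r : ℝ) (n : ℕ) (z : ℂ) : ℂ :=
  Complex.logTaylor (n + 1) (r * z) - Complex.logTaylor (n + 1) (r * star z)

lemma yf_eq (r : ℝ) (n : ℕ) (z : ℂ) : yf r n z = ∑ j ∈ Finset.range n,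
    (((-1) ^ j * r ^ (j + 1) / (j + 1) : ℝ) : ℂ) * (z ^ (j + 1) - (star z) ^ (j + 1)) := by
  simp only [yf, Complex.logTaylor, Finset.sum_range_succ', ← Finset.sum_sub_distrib]
  simp only [Nat.cast_zero, div_zero, add_zero, ← Finset.sum_sub_distrib]
  refine Finset.sum_congr rfl fun j _ => ?_
  push_cast
  ring

lemma yf_est {r : ℝ} (hr0 : 0 ≤ r) (hr : r < 1) {n : ℕ} (hn : 8 / (1 - r) ^ 2 ≤ (n : ℝ) + 1)
    {z : ℂ} (hz : ‖z‖ = 1) :
    ‖Complex.exp (yf r n z) * (1 + r * star z) - (1 + r * z)‖ ≤ 1 - r := by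
  have hs : 0 < 1 - r := by linarith
  have key : ∀ w : ℂ, ‖w‖ = 1 → ‖Complex.log (1 + r * w) - Complex.logTaylor (n + 1) (r * w)‖ ≤
      (1 - r) / 8 ∧ (1 + r * w) ≠ 0 ∧ ‖1 + r * w‖ ≤ 2 := by
    intro w hw
    have h1 : ‖(r : ℂ) * w‖ = r := by rw [norm_mul, hw, mul_one, Complex.norm_real, Real.norm_of_nonneg hr0]
    refine ⟨?_, ?_, ?_⟩
    · refine (Complex.norm_log_sub_logTaylor_le n (by rw [h1]; exact hr)).trans ?_
      rw [h1, div_le_iff₀ (by positivity)]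
      have h2 : r ^ (n + 1) ≤ 1 := pow_le_one₀ hr0 hr.le
      have h3 : (1 - r)⁻¹ ≤ (1 - r) / 8 * ((n : ℝ) + 1) := by
        calc (1 - r)⁻¹ = (1 - r) / 8 * (8 / (1 - r) ^ 2) := by field_simp
          _ ≤ _ := mul_le_mul_of_nonneg_left hn (by positivity)
      calc r ^ (n + 1) * (1 - r)⁻¹ ≤ 1 * (1 - r)⁻¹ := by gcongr
        _ ≤ _ := by rw [one_mul]; exact h3
    · intro h
      have : (r : ℂ) * w = -1 := by linear_combination h
      rw [this, norm_neg, norm_one] at h1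
      linarith
    · calc ‖1 + r * w‖ ≤ ‖(1 : ℂ)‖ + ‖(r : ℂ) * w‖ := norm_add_le _ _
        _ ≤ 2 := by rw [h1, norm_one]; linarith
  obtain ⟨a1, a2, a3⟩ := key z hz
  obtain ⟨b1, b2, -⟩ := key (star z) (by rw [norm_star, hz])
  set d := (Complex.log (1 + r * star z) - Complex.logTaylor (n + 1) (r * star z)) -
    (Complex.log (1 + r * z) - Complex.logTaylor (n + 1) (r * z)) with hd
  have hdn : ‖d‖ ≤ (1 - r) / 4 := by
    refine (norm_sub_le _ _).trans ?_
    linarith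
  have e1 : yf r n z = Complex.log (1 + r * z) - Complex.log (1 + r * star z) + d := by
    rw [hd, yf]; ring
  have e2 : Complex.exp (yf r n z) * (1 + r * star z) - (1 + r * z) =
      (1 + r * z) * (Complex.exp d - 1) := by
    rw [e1, Complex.exp_add, Complex.exp_sub, Complex.exp_log a2, Complex.exp_log b2]
    field_simp
  rw [e2, norm_mul]
  have h4 := Complex.norm_exp_sub_one_le (x := d) (by linarith)
  calc ‖1 + r * z‖ * ‖Complex.exp d - 1‖ ≤ 2 * (2 * ((1 - r) / 4)) := by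
        gcongr
        linarith
    _ = 1 - r := by ring

variable {A : Type u} [CStarAlgebra A]

lemma cfc_yf {G : A} (hG : G ∈ unitary A) (r : ℝ) (n : ℕ) :
    cfc (yf r n) G = ∑ j ∈ Finset.range n,
      ((-1) ^ j * r ^ (j + 1) / (j + 1) : ℝ) • (G ^ (j + 1) - (star G) ^ (j + 1)) := by
  haveI : IsStarNormal G := Unitary.coe_isStarNormal (⟨G, hG⟩ : unitary A)
  have e : yf r n = ∑ j ∈ Finset.range n, fun z : ℂ =>
      (((-1) ^ j * r ^ (j + 1) / (j + 1) : ℝ) : ℂ) * (z ^ (j + 1) - (star z) ^ (j + 1)) := by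
    ext z; rw [yf_eq, Finset.sum_apply]
  rw [e, cfc_sum _ _ _ (fun j _ => by fun_prop)]
  refine Finset.sum_congr rfl fun j _ => ?_
  rw [cfc_const_mul _ _ _ (by fun_prop), cfc_sub _ _ _ (by fun_prop) (by fun_prop), cfc_pow_id G,
    cfc_pow _ _ _ (by fun_prop), cfc_star_id G, Complex.coe_smul]

lemma cont_yf (r : ℝ) (n : ℕ) : Continuous (yf r n) := by
  have e : yf r n = fun z => ∑ j ∈ Finset.range n,
      (((-1) ^ j * r ^ (j + 1) / (j + 1) : ℝ) : ℂ) * (z ^ (j + 1) - (star z) ^ (j + 1)) := by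
    ext z; rw [yf_eq]
  rw [e]; fun_prop

lemma exp_est {G : A} (hG : G ∈ unitary A) {r : ℝ} (hr0 : 0 ≤ r) (hr : r < 1) {n : ℕ}
    (hn : 8 / (1 - r) ^ 2 ≤ (n : ℝ) + 1) :
    ‖NormedSpace.exp (cfc (yf r n) G) * (1 + (r : ℂ) • star G) - (1 + (r : ℂ) • G)‖ ≤ 1 - r := by
  haveI : IsStarNormal G := Unitary.coe_isStarNormal (⟨G, hG⟩ : unitary A)
  have hc := cont_yf r n
  have e : NormedSpace.exp (cfc (yf r n) G) * (1 + (r : ℂ) • star G) - (1 + (r : ℂ) • G) =
      cfc (fun z : ℂ => Complex.exp (yf r n z) * (1 + r * star z) - (1 + r * z)) G := by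
    rw [cfc_sub _ _ _ (by fun_prop) (by fun_prop), cfc_mul _ _ _ (by fun_prop) (by fun_prop),
      cfc_add _ _ _ (by fun_prop) (by fun_prop), cfc_add _ _ _ (by fun_prop) (by fun_prop),
      cfc_const_one ℂ G, cfc_const_mul _ _ _ (by fun_prop), cfc_star_id G, cfc_const_mul_id _ G,
      cfc_comp' Complex.exp (yf r n) G (by fun_prop) (by fun_prop),
      CFC.complex_exp_eq_normedSpace_exp (p := IsStarNormal)]
  rw [e]
  exact norm_cfc_le (by linarith) fun z hz =>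
    yf_est hr0 hr hn (spectrum.norm_eq_one_of_unitary hG hz)

lemma n2_res (T : TS A) {G : A} (hG : G ∈ unitary A) (hτ : ∀ k : ℕ, T.τ (G ^ (k + 1)) = 0)
    {r : ℝ} (hr0 : 0 ≤ r) (hr : r < 1) :
    ∃ Q : A, (1 + (r : ℂ) • G) * Q = 1 ∧ T.n2 Q ^ 2 * (1 - r) ≤ 1 := by
  have hn : ‖G‖ = 1 := T.norm_unitary hG
  have h1 : ‖-((r : ℂ) • G)‖ < 1 := by
    rw [norm_neg, norm_smul, hn, mul_one, Complex.norm_real, Real.norm_of_nonneg hr0]; exact hr
  set w := Units.oneSub _ h1 with hw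
  have hw1 : (w : A) = 1 + (r : ℂ) • G := by rw [hw, Units.val_oneSub, sub_neg_eq_add]
  set Q : A := ((w⁻¹ : Aˣ) : A) with hQ
  have hQ1 : (1 + (r : ℂ) • G) * Q = 1 := by rw [← hw1, hQ]; simp
  have hQ2 : Q = 1 - (r : ℂ) • (G * Q) := by
    rw [← hQ1, add_mul, one_mul, smul_mul_assoc]; abel
  refine ⟨Q, hQ1, ?_⟩
  have h2 : ∀ k : ℕ, T.τ (G ^ (k + 1) * Q) = -(r : ℂ) * T.τ (G ^ (k + 2) * Q) := by
    intro k
    conv_lhs => rw [hQ2]
    rw [mul_sub, mul_one, map_sub, hτ, mul_smul_comm, map_smul, ← mul_assoc, ← pow_succ]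
    simp
  have h3 : ∀ k : ℕ, ‖T.τ (G * Q)‖ = r ^ k * ‖T.τ (G ^ (k + 1) * Q)‖ := by
    intro k
    induction k with
    | zero => simp
    | succ k ih =>
      rw [ih, h2 k, norm_mul, norm_neg, Complex.norm_real, Real.norm_of_nonneg hr0]
      ring
  have h4 : ∀ k : ℕ, ‖T.τ (G * Q)‖ ≤ r ^ k * ‖Q‖ := by
    intro k
    rw [h3 k]
    refine mul_le_mul_of_nonneg_left ?_ (by positivity)
    refine (T.norm_τ_le_n2 _).trans ?_
    rw [T.n2_unitary_mul (pow_mem hG _)]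
    exact T.n2_le_norm _
  have h5 : T.τ (G * Q) = 0 := by
    have := (tendsto_pow_atTop_nhds_zero_of_lt_one hr0 hr).mul_const ‖Q‖
    rw [zero_mul] at this
    exact norm_le_zero_iff.1 (ge_of_tendsto' this h4)
  have h6 : T.n2 Q ^ 2 = 1 + r ^ 2 * T.n2 Q ^ 2 := by
    conv_lhs => rw [hQ2]
    rw [T.n2_sub_sq, T.n2_one, T.n2_smul, T.n2_unitary_mul hG, star_one, one_mul, map_smul, h5,
      Complex.norm_real, Real.norm_of_nonneg hr0]
    simp; ring
  have h7 := sq_nonneg (T.n2 Q)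
  nlinarith [mul_nonneg h7 (mul_nonneg hr0 (sub_nonneg.2 hr.le))]

theorem eStmt : EStmt.{u} := by
  intro ι g η hη
  set s := min (1 / 2) (η ^ 2 / 9) with hs
  have hs0 : 0 < s := lt_min (by norm_num) (by positivity)
  have hs1 : s ≤ 1 / 2 := min_le_left _ _
  have hs2 : s ≤ η ^ 2 / 9 := min_le_right _ _
  set r := 1 - s with hr
  have hr0 : 0 ≤ r := by linarith
  have hr1 : r < 1 := by linarith
  obtain ⟨n, hn⟩ := exists_nat_ge (8 / (1 - r) ^ 2)
  have hn' : 8 / (1 - r) ^ 2 ≤ (n : ℝ) + 1 := by linarith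
  refine ⟨∑ j ∈ Finset.range n, ((-1) ^ j * r ^ (j + 1) / (j + 1) : ℝ) •
    (e (FreeGroup.of g ^ (j + 1)) - e (FreeGroup.of g ^ (j + 1))⁻¹), ?_, ?_, ?_⟩
  · rw [map_sum, ← Finset.sum_neg_distrib]
    refine Finset.sum_congr rfl fun j _ => ?_
    rw [map_smul, map_sub, σ_e, σ_e, inv_inv, ← smul_neg, neg_sub]
  · refine Submodule.sum_mem _ fun j _ => Submodule.smul_mem _ _ (sub_mem ?_ ?_)
    · exact Submodule.subset_span ⟨(j + 1 : ℕ), by omega, by rw [zpow_natCast]⟩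
    · exact Submodule.subset_span ⟨-((j + 1 : ℕ) : ℤ), by omega, by rw [zpow_neg, zpow_natCast]⟩
  · intro A _ T lam hl
    set G := lam (FreeGroup.of g) with hG
    have hGu : G ∈ unitary A := hl.unit _
    have e1 : pi lam (∑ j ∈ Finset.range n, ((-1) ^ j * r ^ (j + 1) / (j + 1) : ℝ) •
        (e (FreeGroup.of g ^ (j + 1)) - e (FreeGroup.of g ^ (j + 1))⁻¹)) = cfc (yf r n) G := by
      rw [cfc_yf hGu, map_sum]
      refine Finset.sum_congr rfl fun j _ => ?_
      rw [map_smul, map_sub, pi_e, pi_e, ← hl.star_eq, map_pow, star_pow]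
    rw [e1]
    obtain ⟨Q, hQ1, hQ2⟩ := n2_res T (G := star G) (Unitary.star_mem hGu) (fun k => by
      rw [hG, hl.star_eq, ← map_pow]
      refine hl.tr _ ?_
      rw [inv_pow, Ne, inv_eq_one]
      intro h
      have := congrArg (fun γ => Multiplicative.toAdd
        (FreeGroup.lift (fun _ : ι => Multiplicative.ofAdd (1 : ℤ)) γ)) h
      simp at this
      omega) hr0 hr1
    have h1 := exp_est hGu hr0 hr1 hn'
    set E := NormedSpace.exp (cfc (yf r n) G) with hE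
    have e2 : E - G = (E * (1 + (r : ℂ) • star G) - (1 + (r : ℂ) • G) +
        ((1 - r : ℝ) : ℂ) • (1 - G)) * Q := by
      have : E * (1 + (r : ℂ) • star G) - (1 + (r : ℂ) • G) + ((1 - r : ℝ) : ℂ) • (1 - G) =
          (E - G) * (1 + (r : ℂ) • star G) := by
        rw [sub_mul E G, mul_add G, mul_one, mul_smul_comm, hGu.2]
        push_cast
        module
      rw [this, mul_assoc, hQ1, mul_one]
    have h2 : ‖E * (1 + (r : ℂ) • star G) - (1 + (r : ℂ) • G) + ((1 - r : ℝ) : ℂ) • (1 - G)‖ ≤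
        3 * s := by
      refine (norm_add_le _ _).trans ?_
      have h3 : ‖(1 : A) - G‖ ≤ 2 := by
        refine (norm_sub_le _ _).trans ?_
        rw [T.norm_unitary hGu, T.norm_unitary (one_mem _)]; norm_num
      rw [norm_smul, Complex.norm_real, Real.norm_of_nonneg (by linarith)]
      have : 1 - r = s := by rw [hr]; ring
      rw [this] at h1 ⊢
      nlinarith
    have h3 : T.n2 (E - G) ≤ 3 * s * T.n2 Q := by
      rw [e2]
      exact (T.n2_mul_le _ _).trans (mul_le_mul_of_nonneg_right h2 (T.n2_nonneg _))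
    have h4 : 1 - r = s := by rw [hr]; ring
    rw [h4] at hQ2
    refine h3.trans ((sq_le_sq₀ (by have := T.n2_nonneg Q; positivity) hη.le).1 ?_)
    nlinarith

end Crest.Agent.H4.Fg
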