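import Crest.Agent.H4.FgA
import Crest.Agent.H7.GenC2
import Crest.Prelude.Def_GroupVNA

/-! Row 134, the bridge from the abstract statement to group von Neumann algebras. -/

open scoped ComplexConjugate InnerProductSpace Topology ENNReal
open Filter

namespace Crest.Agent.H4.Fg

open Crest.Agent.H4.Gen Crest.Agent.H7.Gen Crest.OpAlg

variable {G : Type} [Group G]

lemma lr_apply (g : G) (ξ : ltwo G) (h : G) : leftRegular g ξ h = ξ (g⁻¹ * h) := rfl

lemma lr_mul (g h : G) : leftRegular (g * h) = leftRegular g * leftRegular h := by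
  ext ξ k
  rw [ContinuousLinearMap.mul_apply]
  simp only [lr_apply, mul_inv_rev, mul_assoc]

lemma lr_one : leftRegular (1 : G) = 1 := by
  ext ξ k
  simp [lr_apply]

lemma lr_star (g : G) : star (leftRegular g) = leftRegular g⁻¹ := by
  rw [leftRegular, LinearIsometryEquiv.star_eq_symm]
  ext ξ k
  rfl

lemma mem_groupVNA {x : ltwo G →L[ℂ] ltwo G} :
    x ∈ groupVNA G ↔ ∀ y : ltwo G →L[ℂ] ltwo G, (∀ g, leftRegular g * y = y * leftRegular g) →
      y * x = x * y := by
  have key : ∀ y : ltwo G →L[ℂ] ltwo G, y ∈ StarSubalgebra.centralizer ℂ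
      (Set.range (leftRegular (G := G))) ↔ ∀ g, leftRegular g * y = y * leftRegular g := by
    intro y
    rw [StarSubalgebra.mem_centralizer_iff]
    refine ⟨fun h g => (h _ ⟨g, rfl⟩).1, ?_⟩
    rintro h _ ⟨g, rfl⟩
    exact ⟨h g, by rw [lr_star]; exact h _⟩
  change x ∈ StarSubalgebra.centralizer ℂ _ ↔ _
  rw [StarSubalgebra.mem_centralizer_iff]
  refine ⟨fun h y hy => (h y ((key y).2 hy)).1, fun h y hy => ⟨h y ((key y).1 hy), ?_⟩⟩
  exact h _ ((key _).1 (star_mem hy))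

lemma lr_mem (g : G) : leftRegular g ∈ groupVNA G :=
  mem_groupVNA.2 fun _ hy => (hy g).symm

/-- The right regular representation. -/
noncomputable def rr (g : G) : ltwo G →L[ℂ] ltwo G :=
  ((ltwoReindex (Equiv.mulRight g) : ltwo G ≃ₗᵢ[ℂ] ltwo G) : ltwo G →L[ℂ] ltwo G)

lemma rr_apply (g : G) (ξ : ltwo G) (h : G) : rr g ξ h = ξ (h * g) := rfl

lemma rr_comm (g h : G) : leftRegular g * rr h = rr h * leftRegular g := by
  ext ξ k
  rw [ContinuousLinearMap.mul_apply, ContinuousLinearMap.mul_apply]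
  simp only [lr_apply, rr_apply, mul_assoc]

variable [DecidableEq G]

/-- The point masses. -/
noncomputable def dl (g : G) : ltwo G := lp.single 2 g (1 : ℂ)

omit [Group G] in
lemma dl_apply (g h : G) : dl g h = if h = g then 1 else 0 := by
  rw [dl, lp.single_apply, Pi.single_apply]

omit [Group G] in
lemma inner_dl (g : G) (ξ : ltwo G) : ⟪dl g, ξ⟫_ℂ = ξ g := by
  rw [dl, lp.inner_single_left]; simp

omit [Group G] in
lemma single_dl (g : G) (c : ℂ) : (lp.single 2 g c : ltwo G) = c • dl g := by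
  rw [dl, ← lp.single_smul]; simp

omit [Group G] in
lemma hasSum_dl (ξ : ltwo G) : HasSum (fun g => ξ g • dl g) ξ := by
  simpa only [single_dl] using lp.hasSum_single (by norm_num) ξ

omit [Group G] in
lemma ext_dl {K : Type*} [NormedAddCommGroup K] [NormedSpace ℂ K] {x y : ltwo G →L[ℂ] K}
    (h : ∀ g, x (dl g) = y (dl g)) : x = y := by
  ext1 ξ
  have h1 := (hasSum_dl ξ).mapL x
  have h2 := (hasSum_dl ξ).mapL y
  simp only [map_smul, h] at h1 h2
  exact h1.unique h2

lemma lr_dl (g h : G) : leftRegular g (dl h) = dl (g * h) := by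
  ext k
  rw [lr_apply, dl_apply, dl_apply]
  simp only [inv_mul_eq_iff_eq_mul]

lemma rr_dl (g : G) : rr g⁻¹ (dl 1) = dl g := by
  ext k
  rw [rr_apply, dl_apply, dl_apply]
  simp only [mul_inv_eq_one]

lemma apply_dl {x : ltwo G →L[ℂ] ltwo G} (hx : x ∈ groupVNA G) (h k : G) :
    x (dl h) k = x (dl 1) (k * h⁻¹) := by
  have := mem_groupVNA.1 hx (rr h⁻¹) (fun g => rr_comm g _)
  rw [← rr_dl h, ← ContinuousLinearMap.mul_apply, ← this, ContinuousLinearMap.mul_apply, rr_apply]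

lemma tr_mul {x y : ltwo G →L[ℂ] ltwo G} (hx : x ∈ groupVNA G) :
    ⟪dl 1, (x * y) (dl 1)⟫_ℂ = ∑' h, x (dl 1) h⁻¹ * y (dl 1) h := by
  rw [ContinuousLinearMap.mul_apply, ← ContinuousLinearMap.adjoint_inner_left, lp.inner_eq_tsum]
  refine tsum_congr fun h => ?_
  have : (ContinuousLinearMap.adjoint x) (dl 1) h = conj (x (dl 1) h⁻¹) := by
    rw [← inner_dl, ContinuousLinearMap.adjoint_inner_right, ← inner_conj_symm, inner_dl,
      apply_dl hx, one_mul]
  rw [this]
  simp [mul_comm]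

/-- The trace vector as a sequence. -/
noncomputable def xi (G : Type) [Group G] [DecidableEq G] : ℕ → ltwo G :=
  fun n => if n = 0 then dl 1 else 0

lemma vs_xi (x : ltwo G →L[ℂ] ltwo G) : vectorState (xi G) x = ⟪dl 1, x (dl 1)⟫_ℂ := by
  rw [vectorState, tsum_eq_single 0]
  · simp [xi]
  · intro n hn; simp [xi, hn]

omit [Group G] in
lemma norm_dl (g : G) : ‖dl g‖ = 1 := by
  rw [dl, lp.norm_single (by norm_num)]; simp

lemma xi_ftvs : IsFaithfulTracialVectorState (groupVNA G) (xi G) := by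
  refine ⟨?_, fun x hx y hy => ?_, fun x hx h => ?_⟩
  · have : (fun n => ‖xi G n‖ ^ 2) = fun n => if n = 0 then (1 : ℝ) else 0 := by
      ext n
      by_cases hn : n = 0 <;> simp [xi, hn, norm_dl]
    rw [this]
    exact hasSum_ite_eq 0 1
  · rw [vs_xi, vs_xi, tr_mul hx, tr_mul hy, ← (Equiv.inv G).tsum_eq]
    refine tsum_congr fun h => ?_
    simp [mul_comm]
  · have h0 : x (dl 1) = 0 := by simpa [xi] using h 0
    refine ext_dl fun g => ?_
    ext k
    rw [apply_dl hx, h0]; rfl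

/-- The canonical trace on the group von Neumann algebra. -/
noncomputable def gT (G : Type) [Group G] [DecidableEq G] : TS (groupVNA G).toStarSubalgebra :=
  vts (xi_ftvs (G := G))

lemma gT_τ (x : (groupVNA G).toStarSubalgebra) : (gT G).τ x = ⟪dl 1, x.1 (dl 1)⟫_ℂ := by
  rw [← vs_xi, vs_eq xi_ftvs]; rfl

lemma gT_n2 (x : (groupVNA G).toStarSubalgebra) : (gT G).n2 x = ‖x.1 (dl 1)‖ := by
  apply (sq_eq_sq₀ (TS.n2_nonneg _ _) (norm_nonneg _)).1
  rw [TS.n2_sq, gT_τ]
  change (⟪dl 1, (star x.1 * x.1) (dl 1)⟫_ℂ).re = _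
  rw [ContinuousLinearMap.mul_apply, ContinuousLinearMap.star_eq_adjoint,
    ContinuousLinearMap.adjoint_inner_right, ← inner_self_eq_norm_sq (𝕜 := ℂ)]; rfl

omit [Group G] in
lemma sep_ltwo [Countable G] : TopologicalSpace.SeparableSpace (ltwo G) := by
  rw [← TopologicalSpace.isSeparable_univ_iff]
  have h1 : TopologicalSpace.IsSeparable (Set.range (dl (G := G))) :=
    (Set.countable_range _).isSeparable
  refine (h1.span (R := ℂ)).closure.mono fun f _ => ?_
  refine mem_closure_of_tendsto (hasSum_dl f) (Eventually.of_forall fun s => ?_)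
  exact Submodule.sum_mem _ fun k _ => Submodule.smul_mem _ _ (Submodule.subset_span ⟨k, rfl⟩)

/-- The left regular representation with values in the group von Neumann algebra. -/
noncomputable def lrM (G : Type) [Group G] : G →* (groupVNA G).toStarSubalgebra where
  toFun g := ⟨leftRegular g, lr_mem g⟩
  map_one' := Subtype.ext lr_one
  map_mul' g h := Subtype.ext (lr_mul g h)

lemma lrM_rep {ι : Type} (φ : FreeGroup ι ≃* G) : Rep (gT G) ((lrM G).comp φ.toMonoidHom) where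
  unit γ := by
    rw [unitary_coe]
    change leftRegular (φ γ) ∈ _
    refine ⟨?_, ?_⟩ <;> rw [lr_star, ← lr_mul] <;> simp [lr_one]
  tr γ hγ := by
    rw [gT_τ]
    change ⟪dl 1, leftRegular (φ γ) (dl 1)⟫_ℂ = 0
    rw [lr_dl, inner_dl, dl_apply, mul_one, if_neg]
    intro h
    exact hγ (φ.injective (by rw [← h, map_one]))

lemma lrM_gen {ι : Type} (φ : FreeGroup ι ≃* G) : Gen (gT G) ((lrM G).comp φ.toMonoidHom) := by
  intro b ε hε
  have h := hasSum_dl (b.1 (dl 1))
  obtain ⟨s, hs⟩ := (Metric.tendsto_nhds.1 h ε hε).exists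
  refine ⟨∑ g ∈ s, b.1 (dl 1) g • lrM G g, Submodule.sum_mem _ fun g _ =>
    Submodule.smul_mem _ _ (Submodule.subset_span ⟨φ.symm g, by simp⟩), ?_⟩
  rw [dist_comm, dist_eq_norm] at hs
  have e : (b - ∑ g ∈ s, b.1 (dl 1) g • lrM G g : (groupVNA G).toStarSubalgebra).1 (dl 1) =
      b.1 (dl 1) - ∑ g ∈ s, b.1 (dl 1) g • dl g := by
    simp only [AddSubgroupClass.coe_sub, AddSubmonoidClass.coe_finset_sum, SetLike.val_smul,
      ContinuousLinearMap.sub_apply, ContinuousLinearMap.sum_apply, ContinuousLinearMap.smul_apply]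
    congr 1
    refine Finset.sum_congr rfl fun g _ => ?_
    congr 1
    change leftRegular g (dl 1) = _
    rw [lr_dl, mul_one]
  rw [gT_n2, e]
  exact hs

section iso

variable {ι : Type} [DecidableEq ι] {mu : FreeGroup ι →* (groupVNA G).toStarSubalgebra}

omit [DecidableEq ι] in
lemma orth_mu (hR : Rep (gT G) mu) : Orthonormal ℂ (fun γ => (mu γ).1 (dl 1)) := by
  classical
  rw [orthonormal_iff_ite]
  intro γ δ
  have h1 : ⟪(mu γ).1 (dl 1), (mu δ).1 (dl 1)⟫_ℂ = (gT G).τ (mu (γ⁻¹ * δ)) := by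
    rw [gT_τ, map_mul, ← hR.star_eq]
    change _ = ⟪dl 1, (star (mu γ).1 * (mu δ).1) (dl 1)⟫_ℂ
    rw [ContinuousLinearMap.mul_apply, ContinuousLinearMap.star_eq_adjoint,
      ContinuousLinearMap.adjoint_inner_right]
  rw [h1]
  split_ifs with h
  · rw [h, inv_mul_cancel, map_one, (gT G).one]
  · exact hR.tr _ fun h' => h (inv_mul_eq_one.1 h')

omit [DecidableEq ι] in
lemma dense_mu (hG : Gen (gT G) mu) :
    ⊤ ≤ (Submodule.span ℂ (Set.range fun γ => (mu γ).1 (dl 1))).topologicalClosure := by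
  set S := Submodule.span ℂ (Set.range fun γ => (mu γ).1 (dl 1)) with hS
  have h1 : ∀ p ∈ Submodule.span ℂ (Set.range mu), p.1 (dl 1) ∈ S := by
    intro p hp
    induction hp using Submodule.span_induction with
    | mem x hx => obtain ⟨γ, rfl⟩ := hx; exact Submodule.subset_span ⟨γ, rfl⟩
    | zero => exact S.zero_mem
    | add x y _ _ hx hy => exact S.add_mem hx hy
    | smul c x _ hx => exact S.smul_mem c hx
  have h2 : ∀ g, dl g ∈ S.topologicalClosure := by
    intro g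
    change dl g ∈ closure (S : Set (ltwo G))
    rw [Metric.mem_closure_iff]
    intro ε hε
    obtain ⟨p, hp, h⟩ := hG (lrM G g) ε hε
    refine ⟨_, h1 p hp, ?_⟩
    rw [gT_n2] at h
    rw [dist_eq_norm, ← mul_one g, ← lr_dl]
    exact h
  intro ξ _
  exact S.isClosed_topologicalClosure.mem_of_tendsto (hasSum_dl ξ) (Eventually.of_forall fun s =>
    Submodule.sum_mem _ fun k _ => Submodule.smul_mem _ _ (h2 k))

omit [DecidableEq ι] in
lemma le_comm_mu (hR : Rep (gT G) mu) (hG : Gen (gT G) mu) {x y : ltwo G →L[ℂ] ltwo G}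
    (hx : x ∈ groupVNA G) (hy : ∀ γ, (mu γ).1 * y = y * (mu γ).1) : y * x = x * y := by
  set N := (vn (Set.range fun γ => (mu γ).1)).commutant with hN
  have h1 : ∀ p ∈ Submodule.span ℂ (Set.range mu), p ∈ cap (groupVNA G) N := by
    intro p hp
    induction hp using Submodule.span_induction with
    | mem x hx =>
      obtain ⟨γ, rfl⟩ := hx
      exact VonNeumannAlgebra.mem_commutant_iff.2 fun g hg => ((mem_vn.1 hg) _ ⟨γ, rfl⟩).1.symm
    | zero => exact zero_mem _
    | add x y _ _ hx hy => exact add_mem hx hy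
    | smul c x _ hx => exact StarSubalgebra.smul_mem _ hx c
  have h2 : ∀ b, IsSelfAdjoint b → b ∈ cap (groupVNA G) N := fun b hb =>
    sa_mem (cl_cap xi_ftvs N) hb fun δ hδ => by
      obtain ⟨p, hp, h⟩ := hG b δ hδ
      exact ⟨p, h1 p hp, h⟩
  have h3 : cap (groupVNA G) N = ⊤ := by
    rw [eq_top_iff]
    intro b _
    rw [← realPart_add_I_smul_imaginaryPart b]
    exact add_mem (h2 _ (realPart b).2) (StarSubalgebra.smul_mem _ (h2 _ (imaginaryPart b).2) _)
  refine VonNeumannAlgebra.mem_commutant_iff.1 (le_of_cap_top h3 hx) y (mem_vn.2 ?_)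
  rintro _ ⟨γ, rfl⟩
  refine ⟨hy γ, ?_⟩
  have := hy γ⁻¹
  rwa [← hR.star_eq] at this

theorem iso_of (hR : Rep (gT G) mu) (hG : Gen (gT G) mu) :
    ∃ Φ : (groupVNA (FreeGroup ι)).toStarSubalgebra ≃⋆ₐ[ℂ] (groupVNA G).toStarSubalgebra,
      ∀ x : (groupVNA (FreeGroup ι)).toStarSubalgebra,
        groupTrace G (Φ x).1 = groupTrace (FreeGroup ι) x.1 := by
  set b := HilbertBasis.mk (orth_mu hR) (dense_mu hG) with hb
  set U : ltwo (FreeGroup ι) ≃ₗᵢ[ℂ] ltwo G := b.repr.symm with hU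
  have hUd : ∀ γ, U (dl γ) = (mu γ).1 (dl 1) := by
    intro γ
    rw [hU, dl, b.repr_symm_single, hb, HilbertBasis.coe_mk]
  set Ψ := U.conjStarAlgEquiv with hΨ
  have hl : ∀ γ, Ψ (leftRegular γ) = (mu γ).1 := by
    intro γ
    have h1 : (U : ltwo (FreeGroup ι) →L[ℂ] ltwo G) ∘L leftRegular γ =
        (mu γ).1 ∘L (U : ltwo (FreeGroup ι) →L[ℂ] ltwo G) := by
      refine ext_dl fun δ => ?_
      change U (leftRegular γ (dl δ)) = (mu γ).1 (U (dl δ))
      rw [lr_dl, hUd, hUd, map_mul]; rfl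
    ext1 ξ
    have := congrArg (fun t : ltwo (FreeGroup ι) →L[ℂ] ltwo G => t (U.symm ξ)) h1
    simpa [hΨ] using this
  have hinj : Function.Injective Ψ := EquivLike.injective Ψ
  have hmem : ∀ x, x ∈ groupVNA (FreeGroup ι) ↔ Ψ x ∈ groupVNA G := by
    intro x
    constructor
    · intro hx
      refine mem_groupVNA.2 fun y hy => ?_
      have h1 := mem_groupVNA.1 hx (Ψ.symm y) fun γ => by
        apply hinj
        rw [map_mul, map_mul, Ψ.apply_symm_apply, hl]
        exact (mem_groupVNA.1 (mu γ).2 y hy).symm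
      have := congrArg Ψ h1
      rwa [map_mul, map_mul, Ψ.apply_symm_apply] at this
    · intro hx
      refine mem_groupVNA.2 fun y hy => hinj ?_
      rw [map_mul, map_mul]
      refine le_comm_mu hR hG hx fun γ => ?_
      rw [← hl, ← map_mul, ← map_mul, hy]
  let f : (groupVNA (FreeGroup ι)).toStarSubalgebra →⋆ₐ[ℂ] (groupVNA G).toStarSubalgebra :=
    StarAlgHom.codRestrict ((Ψ : (ltwo (FreeGroup ι) →L[ℂ] ltwo (FreeGroup ι)) →⋆ₐ[ℂ]
      (ltwo G →L[ℂ] ltwo G)).comp (groupVNA (FreeGroup ι)).toStarSubalgebra.subtype)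
      _ fun x => by exact (hmem x.1).1 x.2
  have hf : ∀ x, (f x).1 = Ψ x.1 := fun _ => rfl
  have hbij : Function.Bijective f := by
    refine ⟨fun x y h => Subtype.ext (hinj ?_), fun y => ⟨⟨Ψ.symm y.1, ?_⟩, Subtype.ext ?_⟩⟩
    · rw [← hf, ← hf, h]
    · exact (hmem _).2 (by rw [Ψ.apply_symm_apply]; exact y.2)
    · rw [hf, Ψ.apply_symm_apply]
  refine ⟨StarAlgEquiv.ofBijective f hbij, fun x => ?_⟩
  have h1 : U (dl 1) = dl 1 := by rw [hUd, map_one]; rfl
  change ⟪dl 1, Ψ x.1 (dl 1)⟫_ℂ = ⟪dl 1, x.1 (dl 1)⟫_ℂ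
  rw [hΨ, LinearIsometryEquiv.conjStarAlgEquiv_apply_apply, ← h1, U.symm_apply_apply,
    U.inner_map_map]

end iso

theorem bridge (hA : AbsStmt.{0}) (n : ℕ) (hn : 2 ≤ n) :
    ∃ Φ : (groupVNA (FreeGroup (Fin n))).toStarSubalgebra ≃⋆ₐ[ℂ]
        (groupVNA (FreeGroup (Fin (n + 1)))).toStarSubalgebra,
      ∀ x : (groupVNA (FreeGroup (Fin n))).toStarSubalgebra,
        groupTrace (FreeGroup (Fin (n + 1))) (Φ x).1 = groupTrace (FreeGroup (Fin n)) x.1 := by
  haveI := sep_ltwo (G := FreeGroup (Fin (n + 1)))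
  obtain ⟨mu, hR, hG⟩ := hA (Fin n) ⟨0, by omega⟩ ⟨1, by omega⟩ (by simp) _
    (gT (FreeGroup (Fin (n + 1)))) (vts_W _) (vts_sep _) _
    (lrM_rep (FreeGroup.freeGroupCongr (finSuccEquiv n).symm))
    (lrM_gen (FreeGroup.freeGroupCongr (finSuccEquiv n).symm))
  exact iso_of hR hG

end Crest.Agent.H4.Fg
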