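import Mathlib
import Crest.Prelude.Def_QState

/-! Spectral basics for the von Neumann entropy: diagonalisations, Peierls-Jensen, Klein. -/

set_option autoImplicit false
set_option linter.unusedSectionVars false

namespace Crest.Agent.H4.Gad

open Matrix Finset Crest.Quantum
open scoped ComplexOrder Kronecker

local notation "η" => Real.negMulLog

variable {n ι κ : Type*} [Fintype n] [Fintype ι] [Fintype κ]
  [DecidableEq n] [DecidableEq ι] [DecidableEq κ]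

/-- two-sided unitary -/
structure Un (U : Matrix n ι ℂ) : Prop where
  h1 : Uᴴ * U = 1
  h2 : U * Uᴴ = 1

/-- a diagonalisation -/
structure Dg (X : Matrix n n ℂ) (U : Matrix n ι ℂ) (x : ι → ℝ) : Prop where
  un : Un U
  eq : X = U * diagonal (fun i => (x i : ℂ)) * Uᴴ

/-- diagonal entry in the basis `W` -/
noncomputable def dg (W : Matrix n κ ℂ) (X : Matrix n n ℂ) (k : κ) : ℝ := ((Wᴴ * X * W) k k).re

theorem Un.one : Un (1 : Matrix n n ℂ) := ⟨by simp, by simp⟩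

theorem Un.mul {U : Matrix n ι ℂ} {V : Matrix ι κ ℂ} (hU : Un U) (hV : Un V) : Un (U * V) := by
  constructor
  · rw [conjTranspose_mul, Matrix.mul_assoc, ← Matrix.mul_assoc Uᴴ, hU.h1, Matrix.one_mul, hV.h1]
  · rw [conjTranspose_mul, Matrix.mul_assoc, ← Matrix.mul_assoc V, hV.h2, Matrix.one_mul, hU.h2]

theorem Un.ct {U : Matrix n ι ℂ} (hU : Un U) : Un Uᴴ :=
  ⟨by simpa using hU.h2, by simpa using hU.h1⟩

theorem Un.col {U : Matrix n ι ℂ} (hU : Un U) (i : ι) : ∑ k, ‖U k i‖ ^ 2 = 1 := by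
  have h := congrFun (congrFun hU.h1 i) i
  simp only [mul_apply, conjTranspose_apply, one_apply_eq] at h
  have h2 : ((∑ k, ‖U k i‖ ^ 2 : ℝ) : ℂ) = 1 := by
    rw [← h]; push_cast
    refine sum_congr rfl fun k _ => ?_
    rw [Complex.star_def, Complex.conj_mul']
  exact_mod_cast h2

theorem Un.row {U : Matrix n ι ℂ} (hU : Un U) (k : n) : ∑ i, ‖U k i‖ ^ 2 = 1 := by
  have := hU.ct.col k
  simpa [conjTranspose_apply] using this

theorem dg_add (W : Matrix n κ ℂ) (X Y : Matrix n n ℂ) (k : κ) :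
    dg W (X + Y) k = dg W X k + dg W Y k := by
  simp [dg, Matrix.mul_add, Matrix.add_mul]

theorem dg_smul (W : Matrix n κ ℂ) (c : ℝ) (X : Matrix n n ℂ) (k : κ) :
    dg W ((c : ℂ) • X) k = c * dg W X k := by
  simp [dg]

theorem dg_nonneg (W : Matrix n κ ℂ) {X : Matrix n n ℂ} (hX : X.PosSemidef) (k : κ) :
    0 ≤ dg W X k := by
  have h : 0 ≤ (Wᴴ * X * W) k k := (hX.conjTranspose_mul_mul_same W).diag_nonneg
  exact (Complex.nonneg_iff.mp h).1

theorem trace_conj {W : Matrix n κ ℂ} (hW : Un W) (X : Matrix n n ℂ) :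
    (Wᴴ * X * W).trace = X.trace := by
  rw [Matrix.trace_mul_cycle, hW.h2, Matrix.one_mul]

theorem sum_dg {W : Matrix n κ ℂ} (hW : Un W) (X : Matrix n n ℂ) :
    ∑ k, dg W X k = X.trace.re := by
  rw [← trace_conj hW X, Matrix.trace, Complex.re_sum]; rfl

theorem dg_one_left (X : Matrix n n ℂ) (k : n) : dg 1 X k = (X k k).re := by simp [dg]

theorem dg_one {W : Matrix n κ ℂ} (hW : Un W) (k : κ) : dg W 1 k = 1 := by
  simp [dg, hW.h1]

theorem Dg.conj {X : Matrix n n ℂ} {U : Matrix n ι ℂ} {x : ι → ℝ} (h : Dg X U x) :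
    Uᴴ * X * U = diagonal (fun i => (x i : ℂ)) := by
  rw [h.eq]
  calc Uᴴ * (U * diagonal (fun i => (x i : ℂ)) * Uᴴ) * U
      = (Uᴴ * U) * diagonal (fun i => (x i : ℂ)) * (Uᴴ * U) := by
        simp only [Matrix.mul_assoc]
    _ = _ := by rw [h.un.h1]; simp

theorem Dg.dg_self {X : Matrix n n ℂ} {U : Matrix n ι ℂ} {x : ι → ℝ} (h : Dg X U x) (i : ι) :
    dg U X i = x i := by
  simp [dg, h.conj]

theorem Dg.trace {X : Matrix n n ℂ} {U : Matrix n ι ℂ} {x : ι → ℝ} (h : Dg X U x) :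
    X.trace.re = ∑ i, x i := by
  rw [← sum_dg h.un]; simp [h.dg_self]

theorem Dg.psd {X : Matrix n n ℂ} {U : Matrix n ι ℂ} {x : ι → ℝ} (h : Dg X U x)
    (hx : ∀ i, 0 ≤ x i) : X.PosSemidef := by
  rw [h.eq]
  refine PosSemidef.mul_mul_conjTranspose_same ?_ U
  exact PosSemidef.diagonal fun i => by simpa using hx i

theorem Dg.dg_eq {X : Matrix n n ℂ} {U : Matrix n ι ℂ} {x : ι → ℝ} (h : Dg X U x)
    (W : Matrix n κ ℂ) (k : κ) : dg W X k = ∑ i, ‖(Wᴴ * U) k i‖ ^ 2 * x i := by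
  have e : Wᴴ * X * W = (Wᴴ * U) * diagonal (fun i => (x i : ℂ)) * (Wᴴ * U)ᴴ := by
    conv_lhs => rw [h.eq]
    simp only [conjTranspose_mul, conjTranspose_conjTranspose, Matrix.mul_assoc]
  unfold dg
  rw [e, mul_apply, Complex.re_sum]
  refine sum_congr rfl fun i _ => ?_
  rw [mul_diagonal, conjTranspose_apply]
  have : (Wᴴ * U) k i * (x i : ℂ) * star ((Wᴴ * U) k i) =
      ((‖(Wᴴ * U) k i‖ ^ 2 * x i : ℝ) : ℂ) := by
    rw [mul_right_comm, Complex.star_def, Complex.mul_conj']; push_cast; ring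
  rw [this, Complex.ofReal_re]

theorem Dg.conjU {X : Matrix n n ℂ} {U : Matrix n ι ℂ} {x : ι → ℝ} (h : Dg X U x)
    {W : Matrix n κ ℂ} (hW : Un W) : Dg (Wᴴ * X * W) (Wᴴ * U) x := by
  refine ⟨hW.ct.mul h.un, ?_⟩
  conv_lhs => rw [h.eq]
  simp only [conjTranspose_mul, conjTranspose_conjTranspose, Matrix.mul_assoc]

theorem Dg.smul {X : Matrix n n ℂ} {U : Matrix n ι ℂ} {x : ι → ℝ} (h : Dg X U x) (c : ℝ) :
    Dg ((c : ℂ) • X) U (fun i => c * x i) := by
  refine ⟨h.un, ?_⟩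
  conv_lhs => rw [h.eq]
  rw [← Matrix.smul_mul, ← Matrix.mul_smul]
  congr 2
  ext i j
  by_cases hij : i = j <;> simp [diagonal, hij]

theorem Dg.add_const {X : Matrix n n ℂ} {U : Matrix n ι ℂ} {x : ι → ℝ} (h : Dg X U x) (c : ℝ) :
    Dg (X + (c : ℂ) • 1) U (fun i => x i + c) := by
  refine ⟨h.un, ?_⟩
  have : diagonal (fun i => ((x i + c : ℝ) : ℂ)) = diagonal (fun i => (x i : ℂ)) + (c : ℂ) • 1 := by
    ext i j
    by_cases hij : i = j <;> simp [diagonal, hij, one_apply]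
  rw [this, Matrix.mul_add, Matrix.add_mul, ← h.eq, Matrix.mul_smul, Matrix.mul_one,
    Matrix.smul_mul, h.un.h2]

/-- Peierls-Jensen -/
theorem Dg.pj {X : Matrix n n ℂ} {U : Matrix n ι ℂ} {x : ι → ℝ} (h : Dg X U x)
    (hx : ∀ i, 0 ≤ x i) {W : Matrix n κ ℂ} (hW : Un W) :
    ∑ i, η (x i) ≤ ∑ k, η (dg W X k) := by
  have hM : Un (Wᴴ * U) := hW.ct.mul h.un
  calc ∑ i, η (x i) = ∑ i, ∑ k, ‖(Wᴴ * U) k i‖ ^ 2 * η (x i) := by
        refine sum_congr rfl fun i _ => ?_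
        rw [← sum_mul, hM.col, one_mul]
    _ = ∑ k, ∑ i, ‖(Wᴴ * U) k i‖ ^ 2 * η (x i) := sum_comm
    _ ≤ _ := by
        refine sum_le_sum fun k _ => ?_
        rw [h.dg_eq]
        have := Real.concaveOn_negMulLog.le_map_sum (t := univ)
          (w := fun i => ‖(Wᴴ * U) k i‖ ^ 2) (p := x) (fun i _ => by positivity) (hM.row k)
          (fun i _ => hx i)
        simpa using this

theorem exists_dg0 {X : Matrix n n ℂ} (hX : X.PosSemidef) :
    ∃ (U : Matrix n n ℂ) (x : n → ℝ), Dg X U x ∧ (∀ i, 0 ≤ x i) ∧ vnEntropy X = ∑ i, η (x i) := by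
  refine ⟨hX.1.eigenvectorUnitary, hX.1.eigenvalues, ⟨⟨?_, ?_⟩, ?_⟩, hX.eigenvalues_nonneg, ?_⟩
  · exact hX.1.eigenvectorUnitary.2.1
  · exact hX.1.eigenvectorUnitary.2.2
  · have := hX.1.spectral_theorem
    rw [Unitary.conjStarAlgAut_apply] at this
    exact this
  · unfold vnEntropy
    rw [dif_pos hX.1, ← sum_neg_distrib]
    refine sum_congr rfl fun i _ => ?_
    simp [Real.negMulLog]

theorem Dg.ent {X : Matrix n n ℂ} {U : Matrix n ι ℂ} {x : ι → ℝ} (h : Dg X U x)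
    (hx : ∀ i, 0 ≤ x i) : vnEntropy X = ∑ i, η (x i) := by
  obtain ⟨V, y, hV, hy, e⟩ := exists_dg0 (h.psd hx)
  rw [e]
  apply le_antisymm
  · simpa [h.dg_self] using hV.pj hy h.un
  · simpa [hV.dg_self] using h.pj hx hV.un

theorem exists_dg {X : Matrix n n ℂ} (hX : X.PosSemidef) :
    ∃ (U : Matrix n n ℂ) (x : n → ℝ), Dg X U x ∧ ∀ i, 0 ≤ x i := by
  obtain ⟨V, y, hV, hy, -⟩ := exists_dg0 hX
  exact ⟨V, y, hV, hy⟩

theorem ent_le_dg {X : Matrix n n ℂ} (hX : X.PosSemidef) {W : Matrix n κ ℂ} (hW : Un W) :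
    vnEntropy X ≤ ∑ k, η (dg W X k) := by
  obtain ⟨V, y, hV, hy⟩ := exists_dg hX
  rw [hV.ent hy]; exact hV.pj hy hW

theorem ent_conj {X : Matrix n n ℂ} (hX : X.PosSemidef) {W : Matrix n κ ℂ} (hW : Un W) :
    vnEntropy (Wᴴ * X * W) = vnEntropy X := by
  obtain ⟨V, y, hV, hy⟩ := exists_dg hX
  rw [hV.ent hy, (hV.conjU hW).ent hy]

theorem Dg.submatrix {X : Matrix n n ℂ} {U : Matrix n ι ℂ} {x : ι → ℝ} (h : Dg X U x)
    (f : κ ≃ n) : Dg (X.submatrix f f) (U.submatrix f id) x := by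
  refine ⟨⟨?_, ?_⟩, ?_⟩
  · rw [conjTranspose_submatrix, submatrix_mul_equiv, h.un.h1]; simp
  · rw [conjTranspose_submatrix]
    have : U.submatrix f id * Uᴴ.submatrix id f = (U * Uᴴ).submatrix f f := by
      ext a b; simp [mul_apply]
    rw [this, h.un.h2]; simp
  · conv_lhs => rw [h.eq]
    ext a b; simp [mul_apply]

theorem ent_submatrix {X : Matrix n n ℂ} (hX : X.PosSemidef) (f : κ ≃ n) :
    vnEntropy (X.submatrix f f) = vnEntropy X := by
  obtain ⟨V, y, hV, hy⟩ := exists_dg hX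
  rw [hV.ent hy, (hV.submatrix f).ent hy]

theorem eta_tangent {x y : ℝ} (hx : 0 ≤ x) (hy : 0 < y) :
    η x ≤ η y + (x - y) * (-Real.log y - 1) := by
  rcases hx.eq_or_lt with rfl | hx
  · simp [Real.negMulLog]; nlinarith
  · have h := Real.log_le_sub_one_of_pos (div_pos hy hx)
    rw [Real.log_div hy.ne' hx.ne'] at h
    have h2 : x * (Real.log y - Real.log x) ≤ y - x := by
      calc x * (Real.log y - Real.log x) ≤ x * (y / x - 1) := by gcongr
        _ = y - x := by field_simp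
    simp only [Real.negMulLog]; nlinarith

/-- Klein's inequality -/
theorem klein {X Y : Matrix n n ℂ} (hX : X.PosSemidef) {W : Matrix n κ ℂ} {y : κ → ℝ}
    (h : Dg Y W y) (hy : ∀ k, 0 < y k) :
    vnEntropy X ≤ vnEntropy Y + ∑ k, (dg W X k - y k) * (-Real.log (y k) - 1) := by
  rw [h.ent fun k => (hy k).le, ← sum_add_distrib]
  exact (ent_le_dg hX h.un).trans
    (sum_le_sum fun k _ => eta_tangent (dg_nonneg W hX k) (hy k))

/-- homogeneous entropy -/
noncomputable def hs (X : Matrix n n ℂ) : ℝ := vnEntropy X - η X.trace.re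

theorem logsum (x y : κ → ℝ) (hx : ∀ k, 0 ≤ x k) (hy : ∀ k, 0 ≤ y k) :
    (∑ k, η (x k) - η (∑ k, x k)) + (∑ k, η (y k) - η (∑ k, y k)) ≤
      ∑ k, η (x k + y k) - η (∑ k, x k + ∑ k, y k) := by
  set X := ∑ k, x k with hX
  set Y := ∑ k, y k with hY
  have hX0 : 0 ≤ X := sum_nonneg fun k _ => hx k
  have hY0 : 0 ≤ Y := sum_nonneg fun k _ => hy k
  rcases hX0.eq_or_lt with h0 | hXp
  · have : ∀ k, x k = 0 := fun k =>
      (sum_eq_zero_iff_of_nonneg fun k _ => hx k).mp h0.symm k (mem_univ k)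
    simp [this, ← h0]
  rcases hY0.eq_or_lt with h0 | hYp
  · have : ∀ k, y k = 0 := fun k =>
      (sum_eq_zero_iff_of_nonneg fun k _ => hy k).mp h0.symm k (mem_univ k)
    simp [this, ← h0]
  have hT : 0 < X + Y := by linarith
  have key : ∀ k, η (x k) + η (y k) - η (x k + y k) ≤
      -(x k * Real.log (X / (X + Y))) - y k * Real.log (Y / (X + Y)) := by
    intro k
    rcases (add_nonneg (hx k) (hy k)).eq_or_lt with h0 | hp
    · have h1 : x k = 0 := by linarith [hx k, hy k]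
      have h2 : y k = 0 := by linarith [hx k, hy k]
      simp [h1, h2]
    · have a1 := eta_tangent (hx k) (y := (x k + y k) * (X / (X + Y))) (by positivity)
      have a2 := eta_tangent (hy k) (y := (x k + y k) * (Y / (X + Y))) (by positivity)
      simp only [Real.negMulLog] at a1 a2 ⊢
      rw [Real.log_mul hp.ne' (by positivity)] at a1 a2
      have e : (x k + y k) * (X / (X + Y)) + (x k + y k) * (Y / (X + Y)) = x k + y k := by
        field_simp
      nlinarith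
  have s := sum_le_sum fun k (_ : k ∈ univ) => key k
  simp only [sum_sub_distrib, sum_add_distrib, sum_neg_distrib, ← sum_mul, ← hX, ← hY] at s
  rw [Real.log_div hXp.ne' hT.ne', Real.log_div hYp.ne' hT.ne'] at s
  simp only [Real.negMulLog] at s ⊢
  nlinarith

theorem hs_add {X Y : Matrix n n ℂ} (hX : X.PosSemidef) (hY : Y.PosSemidef) :
    hs X + hs Y ≤ hs (X + Y) := by
  obtain ⟨W, z, hW, hz⟩ := exists_dg (hX.add hY)
  have h := logsum (dg W X) (dg W Y) (dg_nonneg W hX) (dg_nonneg W hY)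
  simp only [← dg_add, hW.dg_self, sum_dg hW.un] at h
  have h1 := ent_le_dg hX hW.un
  have h2 := ent_le_dg hY hW.un
  unfold hs
  rw [hW.ent hz, trace_add, Complex.add_re]
  linarith

theorem sum_eta_smul (c : ℝ) (x : ι → ℝ) :
    ∑ i, η (c * x i) - η (c * ∑ i, x i) = c * (∑ i, η (x i) - η (∑ i, x i)) := by
  simp only [Real.negMulLog_mul, sum_add_distrib, ← sum_mul, ← mul_sum]; ring

theorem hs_smul {X : Matrix n n ℂ} (hX : X.PosSemidef) {c : ℝ} (hc : 0 ≤ c) :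
    hs ((c : ℂ) • X) = c * hs X := by
  obtain ⟨W, z, hW, hz⟩ := exists_dg hX
  unfold hs
  rw [(hW.smul c).ent fun i => mul_nonneg hc (hz i), (hW.smul c).trace, hW.ent hz, hW.trace,
    ← mul_sum, sum_eta_smul]

theorem hs_density {X : Matrix n n ℂ} (hX : IsDensity X) : hs X = vnEntropy X := by
  simp [hs, hX.2]

theorem Un.blocks {U : Matrix n n ℂ} {V : Matrix κ κ ℂ} (hU : Un U) (hV : Un V) :
    Un (fromBlocks U 0 0 V) := by
  constructor
  · rw [fromBlocks_conjTranspose, fromBlocks_multiply]; simp [hU.h1, hV.h1]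
  · rw [fromBlocks_conjTranspose, fromBlocks_multiply]; simp [hU.h2, hV.h2]

theorem conj_blocks (U : Matrix n n ℂ) (V : Matrix κ κ ℂ) (A : Matrix n n ℂ) (B : Matrix n κ ℂ)
    (C : Matrix κ n ℂ) (D : Matrix κ κ ℂ) :
    (fromBlocks U 0 0 V)ᴴ * fromBlocks A B C D * fromBlocks U 0 0 V =
      fromBlocks (Uᴴ * A * U) (Uᴴ * B * V) (Vᴴ * C * U) (Vᴴ * D * V) := by
  rw [fromBlocks_conjTranspose, fromBlocks_multiply, fromBlocks_multiply]; simp

theorem Dg.blocks {P U : Matrix n n ℂ} {Q V : Matrix κ κ ℂ} {p : n → ℝ} {q : κ → ℝ}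
    (hP : Dg P U p) (hQ : Dg Q V q) :
    Dg (fromBlocks P 0 0 Q) (fromBlocks U 0 0 V) (Sum.elim p q) := by
  refine ⟨hP.un.blocks hQ.un, ?_⟩
  have : diagonal (fun i => ((Sum.elim p q i : ℝ) : ℂ)) =
      fromBlocks (diagonal fun i => (p i : ℂ)) 0 0 (diagonal fun i => (q i : ℂ)) := by
    rw [fromBlocks_diagonal]; congr 1; ext i; cases i <;> rfl
  rw [this, fromBlocks_conjTranspose, fromBlocks_multiply, fromBlocks_multiply]
  simp [← hP.eq, ← hQ.eq]

theorem ent_blocks {P : Matrix n n ℂ} {Q : Matrix κ κ ℂ} (hP : P.PosSemidef) (hQ : Q.PosSemidef) :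
    vnEntropy (fromBlocks P 0 0 Q) = vnEntropy P + vnEntropy Q := by
  obtain ⟨U, p, hU, hp⟩ := exists_dg hP
  obtain ⟨V, q, hV, hq⟩ := exists_dg hQ
  rw [(hU.blocks hV).ent (fun i => by cases i <;> simp [hp, hq]), hU.ent hp, hV.ent hq]
  simp

theorem psd_blocks {P : Matrix n n ℂ} {Q : Matrix κ κ ℂ} (hP : P.PosSemidef) (hQ : Q.PosSemidef) :
    (fromBlocks P 0 0 Q).PosSemidef := by
  obtain ⟨U, p, hU, hp⟩ := exists_dg hP
  obtain ⟨V, q, hV, hq⟩ := exists_dg hQ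
  exact (hU.blocks hV).psd (fun i => by cases i <;> simp [hp, hq])

theorem psd_b11 {A : Matrix n n ℂ} {B : Matrix n κ ℂ} {C : Matrix κ n ℂ} {D : Matrix κ κ ℂ}
    (h : (fromBlocks A B C D).PosSemidef) : A.PosSemidef := by
  have := h.submatrix Sum.inl
  convert this using 1
  ext i j; rfl

theorem psd_b22 {A : Matrix n n ℂ} {B : Matrix n κ ℂ} {C : Matrix κ n ℂ} {D : Matrix κ κ ℂ}
    (h : (fromBlocks A B C D).PosSemidef) : D.PosSemidef := by
  have := h.submatrix Sum.inr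
  convert this using 1
  ext i j; rfl

/-- pinching -/
theorem ent_pinch {A : Matrix n n ℂ} {B : Matrix n κ ℂ} {C : Matrix κ n ℂ} {D : Matrix κ κ ℂ}
    (h : (fromBlocks A B C D).PosSemidef) :
    vnEntropy (fromBlocks A B C D) ≤ vnEntropy A + vnEntropy D := by
  obtain ⟨U, p, hU, hp⟩ := exists_dg (psd_b11 h)
  obtain ⟨V, q, hV, hq⟩ := exists_dg (psd_b22 h)
  refine (ent_le_dg h (hU.un.blocks hV.un)).trans (le_of_eq ?_)
  rw [hU.ent hp, hV.ent hq, Fintype.sum_sum_type]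
  unfold dg
  rw [conj_blocks, hU.conj, hV.conj]
  simp

theorem Dg.kron {P U : Matrix n n ℂ} {Q V : Matrix κ κ ℂ} {p : n → ℝ} {q : κ → ℝ}
    (hP : Dg P U p) (hQ : Dg Q V q) :
    Dg (P ⊗ₖ Q) (U ⊗ₖ V) (fun z => p z.1 * q z.2) := by
  refine ⟨⟨?_, ?_⟩, ?_⟩
  · rw [conjTranspose_kronecker, ← mul_kronecker_mul, hP.un.h1, hQ.un.h1, one_kronecker_one]
  · rw [conjTranspose_kronecker, ← mul_kronecker_mul, hP.un.h2, hQ.un.h2, one_kronecker_one]
  · have : diagonal (fun z : n × κ => ((p z.1 * q z.2 : ℝ) : ℂ)) =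
        (diagonal fun i => (p i : ℂ)) ⊗ₖ (diagonal fun i => (q i : ℂ)) := by
      rw [diagonal_kronecker_diagonal]; congr 1; ext z; push_cast; rfl
    rw [this, conjTranspose_kronecker, ← mul_kronecker_mul, ← mul_kronecker_mul, ← hP.eq, ← hQ.eq]

theorem density_kron {P : Matrix n n ℂ} {Q : Matrix κ κ ℂ} (hP : IsDensity P) (hQ : IsDensity Q) :
    IsDensity (P ⊗ₖ Q) := by
  obtain ⟨U, p, hU, hp⟩ := exists_dg hP.1
  obtain ⟨V, q, hV, hq⟩ := exists_dg hQ.1
  exact ⟨(hU.kron hV).psd fun z => mul_nonneg (hp _) (hq _), by rw [trace_kronecker, hP.2, hQ.2, mul_one]⟩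

theorem ent_kron {P : Matrix n n ℂ} {Q : Matrix κ κ ℂ} (hP : IsDensity P) (hQ : IsDensity Q) :
    vnEntropy (P ⊗ₖ Q) = vnEntropy P + vnEntropy Q := by
  obtain ⟨U, p, hU, hp⟩ := exists_dg hP.1
  obtain ⟨V, q, hV, hq⟩ := exists_dg hQ.1
  have s1 : ∑ i, p i = 1 := by rw [← hU.trace, hP.2]; simp
  have s2 : ∑ i, q i = 1 := by rw [← hV.trace, hQ.2]; simp
  rw [(hU.kron hV).ent fun z => mul_nonneg (hp _) (hq _), hU.ent hp, hV.ent hq,
    Fintype.sum_prod_type]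
  simp only [Real.negMulLog_mul, sum_add_distrib, ← sum_mul, ← mul_sum, s1, s2, one_mul]

end Crest.Agent.H4.Gad
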