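import Mathlib

/-! Scalar integral inequality behind the amplitude-damping entropy bound. -/

set_option autoImplicit false
set_option linter.unusedSectionVars false

namespace Crest.Agent.H4.Gad

open MeasureTheory Set Filter Topology

local notation "η" => Real.negMulLog

/-- functions decaying like `1/(1+μ)` -/
def B1 (f : ℝ → ℝ) : Prop := Measurable f ∧ ∃ C, ∀ μ, 0 < μ → |f μ| ≤ C / (1 + μ)

/-- `f` is integrable on `(0,∞)` with integral `v` -/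
def HI (f : ℝ → ℝ) (v : ℝ) : Prop := IntegrableOn f (Ioi 0) ∧ ∫ x in Ioi 0, f x = v

theorem B1.int {f g : ℝ → ℝ} (hf : B1 f) (hg : B1 g) :
    IntegrableOn (fun μ => f μ * g μ) (Ioi 0) := by
  obtain ⟨mf, C, hC⟩ := hf
  obtain ⟨mg, D, hD⟩ := hg
  have h := (integrableOn_add_rpow_Ioi_of_lt (a := -2) (c := 0) (m := 1) (by norm_num)
    (by norm_num)).const_mul (C * D)
  refine Integrable.mono' h (mf.mul mg).aestronglyMeasurable ?_
  refine (ae_restrict_iff' measurableSet_Ioi).mpr (Eventually.of_forall fun x hx => ?_)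
  have hx : 0 < x := hx
  have h1 := hC x hx
  have h2 := hD x hx
  rw [Real.norm_eq_abs, abs_mul]
  calc |f x| * |g x| ≤ (C / (1 + x)) * (D / (1 + x)) :=
        mul_le_mul h1 h2 (abs_nonneg _) ((abs_nonneg _).trans h1)
    _ = C * D * (x + 1) ^ (-2 : ℝ) := by
        rw [Real.rpow_neg (by linarith), show (2 : ℝ) = ((2 : ℕ) : ℝ) by norm_num,
          Real.rpow_natCast, add_comm x 1]
        field_simp

theorem B1.hi {f g : ℝ → ℝ} (hf : B1 f) (hg : B1 g) : ∃ v, HI (fun μ => f μ * g μ) v :=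
  ⟨_, hf.int hg, rfl⟩

theorem B1.add {f g : ℝ → ℝ} (hf : B1 f) (hg : B1 g) : B1 (fun μ => f μ + g μ) := by
  obtain ⟨mf, C, hC⟩ := hf
  obtain ⟨mg, D, hD⟩ := hg
  refine ⟨mf.add mg, C + D, fun μ hμ => ?_⟩
  rw [add_div]
  exact (abs_add_le _ _).trans (add_le_add (hC μ hμ) (hD μ hμ))

theorem B1.cmul {f : ℝ → ℝ} (hf : B1 f) (c : ℝ) : B1 (fun μ => c * f μ) := by
  obtain ⟨mf, C, hC⟩ := hf
  refine ⟨mf.const_mul c, |c| * C, fun μ hμ => ?_⟩
  rw [abs_mul, mul_div_assoc]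
  exact mul_le_mul_of_nonneg_left (hC μ hμ) (abs_nonneg _)

theorem B1.of_le {f : ℝ → ℝ} (mf : Measurable f) {y : ℝ} (hy : 0 < y)
    (h0 : ∀ μ, 0 < μ → 0 ≤ f μ) (h1 : ∀ μ, 0 < μ → f μ ≤ 1 / (μ + y)) : B1 f := by
  refine ⟨mf, 1 + 1 / y, fun μ hμ => ?_⟩
  rw [abs_of_nonneg (h0 μ hμ)]
  refine (h1 μ hμ).trans ?_
  rw [div_le_div_iff₀ (by positivity) (by positivity)]
  have : (1 + 1 / y) * (μ + y) = μ + y + μ / y + 1 := by field_simp; ring
  rw [this]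
  have : 0 ≤ μ / y := by positivity
  linarith

theorem B1.inv {y : ℝ} (hy : 0 < y) : B1 (fun μ => 1 / (μ + y)) :=
  B1.of_le (by fun_prop) hy (fun μ hμ => by positivity) (fun μ _ => le_rfl)

theorem HI.congr {f g : ℝ → ℝ} {v : ℝ} (h : HI f v) (e : ∀ x, 0 < x → f x = g x) : HI g v :=
  ⟨h.1.congr_fun (fun x hx => e x hx) measurableSet_Ioi,
    (setIntegral_congr_fun measurableSet_Ioi (fun x hx => (e x hx).symm)).trans h.2⟩

theorem HI.add {f g : ℝ → ℝ} {v w : ℝ} (h : HI f v) (h' : HI g w) :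
    HI (fun x => f x + g x) (v + w) :=
  ⟨h.1.add h'.1, by rw [integral_add h.1 h'.1, h.2, h'.2]⟩

theorem HI.sub {f g : ℝ → ℝ} {v w : ℝ} (h : HI f v) (h' : HI g w) :
    HI (fun x => f x - g x) (v - w) :=
  ⟨h.1.sub h'.1, by rw [integral_sub h.1 h'.1, h.2, h'.2]⟩

theorem HI.cmul {f : ℝ → ℝ} {v : ℝ} (h : HI f v) (c : ℝ) : HI (fun x => c * f x) (c * v) :=
  ⟨h.1.const_mul c, by rw [integral_const_mul, h.2]⟩

theorem HI.zero : HI (fun _ => 0) 0 := ⟨integrableOn_zero, by simp⟩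

theorem HI.sum {ι : Type*} [Fintype ι] {f : ι → ℝ → ℝ} {v : ι → ℝ} (h : ∀ i, HI (f i) (v i)) :
    HI (fun x => ∑ i, f i x) (∑ i, v i) :=
  ⟨integrable_finsetSum _ fun i _ => (h i).1, by
    rw [integral_finsetSum _ fun i _ => (h i).1]; exact Finset.sum_congr rfl fun i _ => (h i).2⟩

theorem HI.mono {f g : ℝ → ℝ} {v w : ℝ} (h : HI f v) (h' : HI g w)
    (e : ∀ x, 0 < x → f x ≤ g x) : v ≤ w := by
  rw [← h.2, ← h'.2]
  exact setIntegral_mono_on h.1 h'.1 measurableSet_Ioi fun x hx => e x hx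

theorem HI.log {y : ℝ} (hy : 0 < y) : HI (fun x => 1 / (x + y) - 1 / (1 + x)) (-Real.log y) := by
  have hi : IntegrableOn (fun x => 1 / (x + y) - 1 / (1 + x)) (Ioi 0) := by
    refine (((B1.inv hy).cmul (1 - y)).int (B1.inv one_pos)).congr_fun (fun x hx => ?_)
      measurableSet_Ioi
    have hx : 0 < x := hx
    simp only
    field_simp; ring
  refine ⟨hi, ?_⟩
  have ht : Tendsto (fun x => Real.log (x + y) - Real.log (x + 1)) atTop (𝓝 0) := by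
    have := (Real.tendsto_log_comp_add_sub_log y).sub (Real.tendsto_log_comp_add_sub_log 1)
    simpa using this
  rw [integral_Ioi_of_hasDerivAt_of_tendsto' (f := fun x => Real.log (x + y) - Real.log (x + 1))
    (fun x hx => ?_) hi ht]
  · simp
  · have hx : 0 ≤ x := hx
    have h1 := ((hasDerivAt_id x).add_const y).log (by simp only [id]; positivity)
    have h2 := ((hasDerivAt_id x).add_const 1).log (by simp only [id]; positivity)
    have := h1.sub h2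
    simp only [id] at this
    rw [add_comm 1 x]
    exact this

/-- normalised rescaling -/
noncomputable def sc (s : ℝ) (F : ℝ → ℝ) (x : ℝ) : ℝ := F (x / s) / s

theorem HI.sc0 {F : ℝ → ℝ} {v s : ℝ} (h : HI F v) (hs : 0 < s) : HI (sc s F) v := by
  have e : sc s F = fun x => s⁻¹ * F (s⁻¹ * x) := by
    ext x; simp only [sc]; rw [div_eq_inv_mul, div_eq_inv_mul]
  rw [e]
  have h1 : IntegrableOn (fun x => F (s⁻¹ * x)) (Ioi 0) := by
    rw [integrableOn_Ioi_comp_mul_left_iff F 0 (inv_pos.mpr hs), mul_zero]; exact h.1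
  refine ⟨h1.const_mul _, ?_⟩
  rw [integral_const_mul, integral_comp_mul_left_Ioi F 0 (inv_pos.mpr hs), mul_zero, h.2]
  simp [hs.ne']

theorem HI.sc1 {F : ℝ → ℝ} {v s : ℝ} (h : HI F v) (hs : 0 ≤ s) :
    HI (fun x => s * sc s F x) (s * v) := by
  rcases hs.eq_or_lt with rfl | hs
  · simpa using HI.zero
  · exact (h.sc0 hs).cmul s

theorem HI.sc2 {F : ℝ → ℝ} {v s : ℝ} (h : HI F v) (hv : 0 ≤ v) (hs : 0 ≤ s) :
    ∃ w, w ≤ v ∧ HI (sc s F) w := by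
  rcases hs.eq_or_lt with rfl | hs
  · exact ⟨0, hv, HI.zero.congr fun x _ => by simp [sc]⟩
  · exact ⟨v, le_rfl, h.sc0 hs⟩

theorem HI.eta {s : ℝ} (hs : 0 ≤ s) : HI (fun x => s * (1 / (x + s) - 1 / (1 + x))) (η s) := by
  rcases hs.eq_or_lt with rfl | hs
  · simpa using HI.zero
  · have := (HI.log hs).cmul s
    rwa [show s * -Real.log s = η s by simp [Real.negMulLog]] at this

theorem HI.logs {K : Type*} [Fintype K] (t y : K → ℝ) (hy : ∀ k, 0 < y k) :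
    HI (fun x => ∑ k, t k / (x + y k) - (∑ k, t k) / (1 + x)) (∑ k, t k * -Real.log (y k)) := by
  refine (HI.sum fun k => (HI.log (hy k)).cmul (t k)).congr fun x _ => ?_
  rw [Finset.sum_div, ← Finset.sum_sub_distrib]
  exact Finset.sum_congr rfl fun k _ => by ring

/-- the determinant -/
def Nn (α c β δ μ : ℝ) : ℝ := (μ + β) * (μ + δ) + α * (μ + δ) + c * (μ + β)

/-- the optimal multiplier -/
noncomputable def ph (α c β δ μ : ℝ) : ℝ := (μ + δ) / Nn α c β δ μ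

noncomputable def uu (α c β δ μ : ℝ) : ℝ :=
  ((α + c + δ) * μ ^ 2 + 2 * (β * δ + α * δ + c * β) * μ + β * (β * δ + α * δ + c * β)) /
    Nn α c β δ μ ^ 2

noncomputable def vv (α c β δ μ : ℝ) : ℝ :=
  (μ * (μ ^ 2 + 2 * β * μ + (β ^ 2 + α * (β - δ)))) / Nn α c β δ μ ^ 2

section params
variable {α c β δ : ℝ}

theorem Nn_symm (α c β δ μ : ℝ) : Nn c α δ β μ = Nn α c β δ μ := by unfold Nn; ring

theorem Nn_pos (hα : 0 ≤ α) (hc : 0 ≤ c) (hβ : 0 < β) (hδ : 0 < δ) {μ : ℝ} (hμ : 0 ≤ μ) :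
    0 < Nn α c β δ μ := by unfold Nn; positivity

theorem ph_nonneg (hα : 0 ≤ α) (hc : 0 ≤ c) (hβ : 0 < β) (hδ : 0 < δ) {μ : ℝ} (hμ : 0 ≤ μ) :
    0 ≤ ph α c β δ μ := by
  have := Nn_pos hα hc hβ hδ hμ
  unfold ph; positivity

theorem ph_id (hα : 0 ≤ α) (hc : 0 ≤ c) (hβ : 0 < β) (hδ : 0 < δ) {μ : ℝ} (hμ : 0 ≤ μ) :
    (μ + β + α) * ph α c β δ μ + c * ph c α δ β μ = 1 := by
  have := Nn_pos hα hc hβ hδ hμ
  unfold ph
  rw [Nn_symm α c β δ]
  field_simp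
  unfold Nn; ring

theorem ph_B1 (hα : 0 ≤ α) (hc : 0 ≤ c) (hβ : 0 < β) (hδ : 0 < δ) : B1 (ph α c β δ) := by
  refine B1.of_le (by unfold ph Nn; fun_prop) hβ (fun μ hμ => ph_nonneg hα hc hβ hδ hμ.le)
    (fun μ hμ => ?_)
  have h1 := ph_id hα hc hβ hδ hμ.le
  have h2 := ph_nonneg hα hc hβ hδ hμ.le
  have h3 := ph_nonneg hc hα hδ hβ hμ.le
  rw [le_div_iff₀ (by positivity)]
  nlinarith [mul_nonneg hα h2, mul_nonneg hc h3]

theorem uu_nonneg (hα : 0 ≤ α) (hc : 0 ≤ c) (hβ : 0 < β) (hδ : 0 < δ) {μ : ℝ} (hμ : 0 ≤ μ) :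
    0 ≤ uu α c β δ μ := by
  unfold uu; positivity

theorem vv_nonneg (hα : 0 ≤ α) (hβ : 0 < β) (hβδ : δ ≤ β) {μ : ℝ} (hμ : 0 ≤ μ) :
    0 ≤ vv α c β δ μ := by
  have : 0 ≤ β - δ := by linarith
  unfold vv; positivity

theorem uv_id (hα : 0 ≤ α) (hc : 0 ≤ c) (hβ : 0 < β) (hδ : 0 < δ) {μ : ℝ} (hμ : 0 ≤ μ) :
    uu α c β δ μ + vv α c β δ μ = ph c α δ β μ := by
  have := Nn_pos hα hc hβ hδ hμ
  unfold ph uu vv
  rw [Nn_symm α c β δ]
  field_simp
  unfold Nn; ring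

theorem uu_B1 (hα : 0 ≤ α) (hc : 0 ≤ c) (hβ : 0 < β) (hδ : 0 < δ) (hβδ : δ ≤ β) :
    B1 (uu α c β δ) := by
  obtain ⟨-, C, hC⟩ := ph_B1 hc hα hδ hβ
  refine ⟨by unfold uu Nn; fun_prop, C, fun μ hμ => le_trans ?_ (hC μ hμ)⟩
  rw [abs_of_nonneg (uu_nonneg hα hc hβ hδ hμ.le), abs_of_nonneg (ph_nonneg hc hα hδ hβ hμ.le),
    ← uv_id hα hc hβ hδ hμ.le]
  linarith [vv_nonneg (c := c) hα hβ hβδ hμ.le]

theorem vv_B1 (hα : 0 ≤ α) (hc : 0 ≤ c) (hβ : 0 < β) (hδ : 0 < δ) (hβδ : δ ≤ β) :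
    B1 (vv α c β δ) := by
  obtain ⟨-, C, hC⟩ := ph_B1 hc hα hδ hβ
  refine ⟨by unfold vv Nn; fun_prop, C, fun μ hμ => le_trans ?_ (hC μ hμ)⟩
  rw [abs_of_nonneg (vv_nonneg hα hβ hβδ hμ.le), abs_of_nonneg (ph_nonneg hc hα hδ hβ hμ.le),
    ← uv_id hα hc hβ hδ hμ.le]
  linarith [uu_nonneg hα hc hβ hδ hμ.le]

theorem tangent (hα : 0 ≤ α) (hc : 0 ≤ c) (hβ : 0 < β) (hδ : 0 < δ) (hβδ : δ ≤ β) {μ ϱ : ℝ}
    (hμ : 0 ≤ μ) (hϱ : 0 < ϱ) :
    ph c α δ β (μ / ϱ) ≤ uu α c β δ μ + ϱ * vv α c β δ μ := by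
  have hN := Nn_pos hα hc hβ hδ hμ
  set t := α + β + c + δ with ht
  set D := β * δ + α * δ + c * β with hD
  have hM : 0 < μ ^ 2 + t * μ * ϱ + D * ϱ ^ 2 := by positivity
  have e1 : ph c α δ β (μ / ϱ) = ϱ * (μ + β * ϱ) / (μ ^ 2 + t * μ * ϱ + D * ϱ ^ 2) := by
    have h2 := Nn_pos hc hα hδ hβ (div_nonneg hμ hϱ.le)
    unfold ph
    rw [div_eq_div_iff h2.ne' hM.ne']
    unfold Nn
    rw [ht, hD]
    field_simp
    ring
  have hq : 0 ≤ β ^ 2 + α * (β - δ) := by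
    have : 0 ≤ β - δ := by linarith
    positivity
  rw [e1]
  unfold uu vv
  rw [← mul_div_assoc, ← add_div, div_le_div_iff₀ hM (by positivity)]
  have key : ((α + c + δ) * μ ^ 2 + 2 * (β * δ + α * δ + c * β) * μ + β * (β * δ + α * δ + c * β) +
      ϱ * (μ * (μ ^ 2 + 2 * β * μ + (β ^ 2 + α * (β - δ))))) * (μ ^ 2 + t * μ * ϱ + D * ϱ ^ 2) -
      ϱ * (μ + β * ϱ) * Nn α c β δ μ ^ 2 =
      μ * (ϱ - 1) ^ 2 * ((α + c + δ) * μ ^ 3 + D * μ ^ 2 * (2 + ϱ) + D * β * μ * (1 + 2 * ϱ) +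
        D * (β ^ 2 + α * (β - δ)) * ϱ) := by
    unfold Nn; rw [ht, hD]; ring
  have : 0 ≤ μ * (ϱ - 1) ^ 2 * ((α + c + δ) * μ ^ 3 + D * μ ^ 2 * (2 + ϱ) + D * β * μ * (1 + 2 * ϱ) +
        D * (β ^ 2 + α * (β - δ)) * ϱ) := by positivity
  linarith

end params

theorem side {ι : Type*} [Fintype ι] {α k e I1 I2 : ℝ} {s p m : ι → ℝ} {E G1 G2 : ℝ → ℝ}
    (hα : 0 ≤ α) (hk : 0 ≤ k) (hs : ∀ i, 0 ≤ s i) (hp : ∀ i, 0 ≤ p i) (hm : ∀ i, 0 ≤ m i)
    (hE : HI E e) (h1 : HI G1 I1) (h2 : HI G2 I2) (p1 : 0 ≤ I1) (p2 : 0 ≤ I2) :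
    ∃ w, HI (fun x => ∑ i, α * (s i * sc (s i) E x + s i * (1 / (x + s i) - 1 / (1 + x)) -
        p i * sc (s i) G1 x - k * m i * sc (s i) G2 x)) w ∧
      α * (∑ i, s i) * e + α * ∑ i, η (s i) - α * (∑ i, p i) * I1 - α * k * (∑ i, m i) * I2 ≤ w := by
  choose w1 hw1 hw1' using fun i => h1.sc2 p1 (hs i)
  choose w2 hw2 hw2' using fun i => h2.sc2 p2 (hs i)
  refine ⟨_, HI.sum fun i => (((((hE.sc1 (hs i)).add (HI.eta (hs i))).sub
    ((hw1' i).cmul (p i))).sub ((hw2' i).cmul (k * m i))).cmul α), ?_⟩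
  have : α * (∑ i, s i) * e + α * ∑ i, η (s i) - α * (∑ i, p i) * I1 - α * k * (∑ i, m i) * I2 =
      ∑ i, α * (s i * e + η (s i) - p i * I1 - k * m i * I2) := by
    simp only [mul_sub, mul_add, Finset.sum_sub_distrib, Finset.sum_add_distrib, Finset.mul_sum,
      Finset.sum_mul]
    congr 1
    · congr 1
      · congr 1; exact Finset.sum_congr rfl fun i _ => by ring
      · exact Finset.sum_congr rfl fun i _ => by ring
    · exact Finset.sum_congr rfl fun i _ => by ring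
  rw [this]
  refine Finset.sum_le_sum fun i _ => mul_le_mul_of_nonneg_left ?_ hα
  have a1 := mul_le_mul_of_nonneg_left (hw1 i) (hp i)
  have a2 := mul_le_mul_of_nonneg_left (hw2 i) (mul_nonneg hk (hm i))
  linarith

/-- the quadratic lower bound of one block -/
def qd {ι : Type*} [Fintype ι] (a p f : ι → ℝ) (x : ℝ) : ℝ :=
  ∑ i, a i * (2 * f i - a i * f i ^ 2 - x * f i ^ 2 - p i * f i ^ 2)

theorem HI.nonneg {f : ℝ → ℝ} {v : ℝ} (h : HI f v) (e : ∀ x, 0 < x → 0 ≤ f x) : 0 ≤ v :=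
  HI.zero.mono h e

theorem scalar_core {ι κ K : Type*} [Fintype ι] [Fintype κ] [Fintype K]
    {α c β δ J : ℝ} {s p : ι → ℝ} {r q : κ → ℝ} {z : ι → κ → ℝ} {t y : K → ℝ}
    (hα : 0 ≤ α) (hc : 0 ≤ c) (hβ : 0 < β) (hδ : 0 < δ) (hβδ : δ ≤ β)
    (hs : ∀ i, 0 ≤ s i) (hp : ∀ i, 0 ≤ p i) (hr : ∀ l, 0 ≤ r l) (hq : ∀ l, 0 ≤ q l)
    (hs1 : α * ∑ i, s i = α) (hr1 : c * ∑ l, r l = c) (hr2 : ∑ l, r l ≤ 1)
    (hp1 : ∑ i, p i = β) (hq1 : ∑ l, q l = δ)
    (hz : ∀ i l, 0 ≤ z i l) (hz1 : ∀ i, ∑ l, z i l ≤ 1) (hz2 : ∀ l, ∑ i, z i l ≤ 1)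
    (hy : ∀ k, 0 < y k) (ht : ∑ k, t k = α + c)
    (H : ∀ x, 0 < x → ∀ (f : ι → ℝ) (g : κ → ℝ),
      qd (fun i => α * s i) p f x + qd (fun l => c * r l) q g x -
        2 * ∑ i, ∑ l, z i l * (α * s i * f i) * (c * r l * g l) ≤ ∑ k, t k / (x + y k))
    (hJ : HI (fun x => α * ph α c β δ x + c * ph c α δ β x - (α + c) / (1 + x)) J) :
    α * ∑ i, η (s i) + c * ∑ l, η (r l) + J ≤ ∑ k, t k * -Real.log (y k) := by
  set φ := ph α c β δ with hφ
  set ψ := ph c α δ β with hψ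
  set u := uu α c β δ with hu
  set v := vv α c β δ with hv
  have bφ : B1 φ := ph_B1 hα hc hβ hδ
  have bψ : B1 ψ := ph_B1 hc hα hδ hβ
  have bu : B1 u := uu_B1 hα hc hβ hδ hβδ
  have bv : B1 v := vv_B1 hα hc hβ hδ hβδ
  have bω : B1 (fun μ => 1 / (μ + 1)) := B1.inv one_pos
  have φ0 : ∀ x, 0 ≤ x → 0 ≤ φ x := fun x hx => ph_nonneg hα hc hβ hδ hx
  have ψ0 : ∀ x, 0 ≤ x → 0 ≤ ψ x := fun x hx => ph_nonneg hc hα hδ hβ hx
  have u0 : ∀ x, 0 ≤ x → 0 ≤ u x := fun x hx => uu_nonneg hα hc hβ hδ hx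
  have v0 : ∀ x, 0 ≤ x → 0 ≤ v x := fun x hx => vv_nonneg hα hβ hβδ hx
  have i1 : ∀ x, 0 ≤ x → (x + β + α) * φ x + c * ψ x = 1 := fun x hx => ph_id hα hc hβ hδ hx
  have i2 : ∀ x, 0 ≤ x → (x + δ + c) * ψ x + α * φ x = 1 := fun x hx => ph_id hc hα hδ hβ hx
  have i3 : ∀ x, 0 ≤ x → u x + v x = ψ x := fun x hx => uv_id hα hc hβ hδ hx
  obtain ⟨I1, hI1⟩ := bφ.hi bφ
  obtain ⟨I2, hI2⟩ := bφ.hi bv
  obtain ⟨I3, hI3⟩ := bψ.hi bψ
  obtain ⟨I4, hI4⟩ := bφ.hi bu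
  obtain ⟨I5, hI5⟩ := bφ.hi bψ
  obtain ⟨I6, hI6⟩ := bω.hi bφ
  obtain ⟨I7, hI7⟩ := bω.hi bψ
  obtain ⟨e0, he0⟩ : ∃ e0, HI (fun μ => 2 * φ μ - α * φ μ ^ 2 - μ * φ μ ^ 2 -
      2 * c * (φ μ * u μ) - 1 / (1 + μ)) e0 := by
    refine ⟨_, (((((hI1.cmul β).add (hI5.cmul c)).add (hI6.cmul (1 - β - α))).sub
      (hI7.cmul c)).sub (hI4.cmul (2 * c))).congr fun x hx => ?_⟩
    have e1 := i1 x hx.le
    have : (1 : ℝ) / (1 + x) = 1 / (x + 1) := by rw [add_comm]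
    rw [this]
    have e2 : 1 / (x + 1) * (x + 1) = 1 := by field_simp
    set w := 1 / (x + 1)
    linear_combination (φ x - w) * e1 + φ x * e2
  obtain ⟨e1, he1⟩ : ∃ e1, HI (fun μ => 2 * ψ μ - c * ψ μ ^ 2 - μ * ψ μ ^ 2 - 1 / (1 + μ)) e1 := by
    refine ⟨_, ((((hI3.cmul δ).add (hI5.cmul α)).add (hI7.cmul (1 - δ - c))).sub
      (hI6.cmul α)).congr fun x hx => ?_⟩
    have e1 := i2 x hx.le
    have : (1 : ℝ) / (1 + x) = 1 / (x + 1) := by rw [add_comm]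
    rw [this]
    have e2 : 1 / (x + 1) * (x + 1) = 1 := by field_simp
    set w := 1 / (x + 1)
    linear_combination (ψ x - w) * e1 + ψ x * e2
  have p1 : 0 ≤ I1 := hI1.nonneg fun x hx => mul_self_nonneg _
  have p2 : 0 ≤ I2 := hI2.nonneg fun x hx => mul_nonneg (φ0 x hx.le) (v0 x hx.le)
  have p3 : 0 ≤ I3 := hI3.nonneg fun x hx => mul_self_nonneg _
  set m : ι → ℝ := fun i => ∑ l, z i l * r l with hm
  have hm0 : ∀ i, 0 ≤ m i := fun i => Finset.sum_nonneg fun l _ => mul_nonneg (hz i l) (hr l)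
  have hm1 : ∑ i, m i ≤ 1 := by
    refine le_trans ?_ hr2
    rw [hm, Finset.sum_comm]
    refine Finset.sum_le_sum fun l _ => ?_
    rw [← Finset.sum_mul]
    exact mul_le_of_le_one_left (hr l) (hz2 l)
  obtain ⟨wa, hwa, hwa'⟩ := side hα (k := 2 * c) (by positivity) hs hp hm0 he0 hI1 hI2 p1 p2
  obtain ⟨wb, hwb, hwb'⟩ := side hc (k := 0) le_rfl hr hq hq he1 hI3 hI3 p3 p3
  have hJ' : J = α * e0 + c * e1 - α * β * I1 - c * δ * I3 - 2 * α * c * I2 := by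
    have h := (((((he0.cmul α).add (he1.cmul c)).sub (hI1.cmul (α * β))).sub
      (hI3.cmul (c * δ))).sub (hI2.cmul (2 * α * c))).congr
      (g := fun x => α * φ x + c * ψ x - (α + c) / (1 + x)) fun x hx => by
        have a1 := i1 x hx.le
        have a2 := i2 x hx.le
        have a3 := i3 x hx.le
        linear_combination (-α * φ x) * a1 - (c * ψ x) * a2 - 2 * α * c * φ x * a3
    rw [← hJ.2, h.2]
  have main := (hwa.add hwb).mono (HI.logs t y hy) fun x hx => by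
    have h := H x hx (fun i => sc (s i) φ x) (fun l => sc (r l) ψ x)
    have c1 : ∑ i, ∑ l, z i l * (α * s i * sc (s i) φ x) * (c * r l * sc (r l) ψ x) ≤
        ∑ i, α * c * (s i * sc (s i) (fun μ => φ μ * u μ) x +
          m i * sc (s i) (fun μ => φ μ * v μ) x) := by
      refine Finset.sum_le_sum fun i _ => ?_
      rcases (hs i).eq_or_lt with h0 | hsi
      · simp [sc, ← h0]
      have hμ : 0 ≤ x / s i := by positivity
      have f0 := φ0 _ hμ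
      have f1 := u0 _ hμ
      have f2 := v0 _ hμ
      calc ∑ l, z i l * (α * s i * sc (s i) φ x) * (c * r l * sc (r l) ψ x)
          ≤ ∑ l, z i l * (α * c * (φ (x / s i) * u (x / s i)) +
              α * c * (r l * (φ (x / s i) * v (x / s i) / s i))) := by
            refine Finset.sum_le_sum fun l _ => ?_
            rw [mul_assoc]
            refine mul_le_mul_of_nonneg_left ?_ (hz i l)
            rcases (hr l).eq_or_lt with h0 | hrl
            · rw [← h0]; simp only [mul_zero, zero_mul, add_zero]; positivity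
            have tg := tangent hα hc hβ hδ hβδ hμ (div_pos hrl hsi)
            rw [show x / s i / (r l / s i) = x / r l by field_simp, ← hψ, ← hu, ← hv] at tg
            have := mul_le_mul_of_nonneg_left tg (mul_nonneg (mul_nonneg hα hc) f0)
            calc _ = α * c * φ (x / s i) * ψ (x / r l) := by simp only [sc]; field_simp
              _ ≤ _ := this
              _ = _ := by field_simp
        _ = (∑ l, z i l) * (α * c * (φ (x / s i) * u (x / s i))) +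
              α * c * (m i * (φ (x / s i) * v (x / s i) / s i)) := by
            simp only [hm, mul_add, Finset.sum_add_distrib, Finset.sum_mul, Finset.mul_sum]
            congr 1
            exact Finset.sum_congr rfl fun l _ => by ring
        _ ≤ 1 * (α * c * (φ (x / s i) * u (x / s i))) +
              α * c * (m i * (φ (x / s i) * v (x / s i) / s i)) := by
            gcongr
            exact hz1 i
        _ = _ := by simp only [sc]; field_simp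
    have ea : ∑ i, α * (s i * sc (s i) (fun μ => 2 * φ μ - α * φ μ ^ 2 - μ * φ μ ^ 2 -
          2 * c * (φ μ * u μ) - 1 / (1 + μ)) x + s i * (1 / (x + s i) - 1 / (1 + x)) -
          p i * sc (s i) (fun μ => φ μ * φ μ) x -
          2 * c * m i * sc (s i) (fun μ => φ μ * v μ) x) =
        qd (fun i => α * s i) p (fun i => sc (s i) φ x) x - α * (∑ i, s i) / (1 + x) -
          2 * ∑ i, α * c * (s i * sc (s i) (fun μ => φ μ * u μ) x +
          m i * sc (s i) (fun μ => φ μ * v μ) x) := by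
      rw [qd, Finset.mul_sum, Finset.mul_sum, Finset.sum_div, ← Finset.sum_sub_distrib,
        ← Finset.sum_sub_distrib]
      refine Finset.sum_congr rfl fun i _ => ?_
      rcases (hs i).eq_or_lt with h0 | hsi
      · simp [sc, ← h0]
      · simp only [sc]; field_simp; ring
    have eb : ∑ l, c * (r l * sc (r l) (fun μ => 2 * ψ μ - c * ψ μ ^ 2 - μ * ψ μ ^ 2 -
          1 / (1 + μ)) x + r l * (1 / (x + r l) - 1 / (1 + x)) -
          q l * sc (r l) (fun μ => ψ μ * ψ μ) x -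
          0 * q l * sc (r l) (fun μ => ψ μ * ψ μ) x) =
        qd (fun l => c * r l) q (fun l => sc (r l) ψ x) x - c * (∑ l, r l) / (1 + x) := by
      rw [qd, Finset.mul_sum, Finset.sum_div, ← Finset.sum_sub_distrib]
      refine Finset.sum_congr rfl fun l _ => ?_
      rcases (hr l).eq_or_lt with h0 | hrl
      · simp [sc, ← h0]
      · simp only [sc]; field_simp; ring
    rw [ea, eb, hs1, hr1, ht, add_div]
    linarith
  rw [hs1, hp1] at hwa'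
  rw [hr1, hq1] at hwb'
  have : α * (2 * c) * (∑ i, m i) * I2 ≤ α * (2 * c) * 1 * I2 := by gcongr
  linarith

theorem normalise {ι : Type*} [Fintype ι] (a : ι → ℝ) (ha : ∀ i, 0 ≤ a i) :
    ∃ s : ι → ℝ, (∀ i, 0 ≤ s i) ∧ (a = fun i => (∑ j, a j) * s i) ∧
      (∑ j, a j) * ∑ i, s i = ∑ j, a j ∧ ∑ i, s i ≤ 1 ∧
      ∑ i, η (a i) - η (∑ j, a j) = (∑ j, a j) * ∑ i, η (s i) := by
  set α := ∑ j, a j with hα
  have h0 : 0 ≤ α := Finset.sum_nonneg fun i _ => ha i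
  rcases h0.eq_or_lt with h | h
  · have : ∀ k, a k = 0 := fun k =>
      (Finset.sum_eq_zero_iff_of_nonneg fun k _ => ha k).mp h.symm k (Finset.mem_univ k)
    refine ⟨fun _ => 0, fun _ => le_rfl, ?_, ?_, ?_, ?_⟩
    · ext i; simp [this]
    · simp [← h]
    · simp
    · simp [this, ← h]
  · have e1 : ∑ i, a i / α = 1 := by rw [← Finset.sum_div, ← hα, div_self h.ne']
    have e2 : ∀ i, a i = α * (a i / α) := fun i => by field_simp
    refine ⟨fun i => a i / α, fun i => div_nonneg (ha i) h0, funext e2, by rw [e1, mul_one],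
      e1.le, ?_⟩
    have : ∀ i, η (a i) = a i / α * η α + α * η (a i / α) := fun i => by
      rw [← Real.negMulLog_mul, ← e2]
    simp only [this, Finset.sum_add_distrib, ← Finset.sum_mul, ← Finset.mul_sum, e1]
    ring

theorem scalar_main {ι κ K K' : Type*} [Fintype ι] [Fintype κ] [Fintype K] [Fintype K']
    {α c β δ : ℝ} {a p : ι → ℝ} {b q : κ → ℝ} {z : ι → κ → ℝ} {t y : K → ℝ} {t' y' : K' → ℝ}
    (hβ : 0 < β) (hδ : 0 < δ)
    (ha : ∀ i, 0 ≤ a i) (hp : ∀ i, 0 ≤ p i) (hb : ∀ l, 0 ≤ b l) (hq : ∀ l, 0 ≤ q l)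
    (ha1 : ∑ i, a i = α) (hb1 : ∑ l, b l = c) (hp1 : ∑ i, p i = β) (hq1 : ∑ l, q l = δ)
    (hz : ∀ i l, 0 ≤ z i l) (hz1 : ∀ i, ∑ l, z i l ≤ 1) (hz2 : ∀ l, ∑ i, z i l ≤ 1)
    (hy : ∀ k, 0 < y k) (ht : ∑ k, t k = α + c)
    (hy' : ∀ k, 0 < y' k) (ht' : ∑ k, t' k = α + c)
    (H : ∀ x, 0 < x → ∀ (f : ι → ℝ) (g : κ → ℝ),
      qd a p f x + qd b q g x - 2 * ∑ i, ∑ l, z i l * (a i * f i) * (b l * g l) ≤
        ∑ k, t k / (x + y k))
    (H' : ∀ x, 0 < x → ∑ k, t' k / (x + y' k) = α * ph α c β δ x + c * ph c α δ β x) :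
    (∑ i, η (a i) - η α) + (∑ l, η (b l) - η c) + ∑ k, t' k * -Real.log (y' k) ≤
      ∑ k, t k * -Real.log (y k) := by
  have hJ : HI (fun x => α * ph α c β δ x + c * ph c α δ β x - (α + c) / (1 + x))
      (∑ k, t' k * -Real.log (y' k)) :=
    (HI.logs t' y' hy').congr fun x hx => by rw [H' x hx, ht']
  obtain ⟨s, hs, e1, e2, e3, e4⟩ := normalise a ha
  obtain ⟨r, hr, f1, f2, f3, f4⟩ := normalise b hb
  rw [ha1] at e1 e2 e4
  rw [hb1] at f1 f2 f4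
  have hα : 0 ≤ α := ha1 ▸ Finset.sum_nonneg fun i _ => ha i
  have hc : 0 ≤ c := hb1 ▸ Finset.sum_nonneg fun i _ => hb i
  rw [e4, f4]
  subst e1 f1
  rcases le_total δ β with h | h
  · exact scalar_core hα hc hβ hδ h hs hp hr hq e2 f2 f3 hp1 hq1 hz hz1 hz2 hy ht H hJ
  · rw [add_comm (α * _)]
    refine scalar_core (z := fun l i => z i l) hc hα hδ hβ h hr hq hs hp f2 e2 e3 hq1 hp1
      (fun l i => hz i l) hz2 hz1 hy (by rw [ht, add_comm]) (fun x hx g f => ?_)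
      (hJ.congr fun x _ => by ring)
    have := H x hx f g
    rw [Finset.sum_comm] at this
    refine le_trans (le_of_eq ?_) this
    rw [add_comm]
    congr 2
    exact Finset.sum_congr rfl fun l _ => Finset.sum_congr rfl fun i _ => by ring

end Crest.Agent.H4.Gad
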