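import Mathlib
import Crest.Agent.H4.GadA
import Crest.Agent.H4.GadB

/-! The block entropy inequality. -/

set_option autoImplicit false
set_option linter.unusedSectionVars false

namespace Crest.Agent.H4.Gad

open Matrix Finset Crest.Quantum
open scoped ComplexOrder

local notation "η" => Real.negMulLog

variable {n ι κ : Type*} [Fintype n] [Fintype ι] [Fintype κ]
  [DecidableEq n] [DecidableEq ι] [DecidableEq κ]

theorem Dg.left {X : Matrix n n ℂ} {U : Matrix n ι ℂ} {x : ι → ℝ} (h : Dg X U x) :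
    Uᴴ * X = diagonal (fun i => (x i : ℂ)) * Uᴴ := by
  conv_lhs => rw [h.eq]
  rw [← Matrix.mul_assoc, ← Matrix.mul_assoc, h.un.h1, Matrix.one_mul]

theorem Dg.dg_mul {X : Matrix n n ℂ} {U : Matrix n ι ℂ} {x : ι → ℝ} (h : Dg X U x)
    (B : Matrix n n ℂ) (k : ι) : dg U (X * B) k = x k * dg U B k := by
  unfold dg
  rw [← Matrix.mul_assoc, h.left, Matrix.mul_assoc, Matrix.mul_assoc, diagonal_mul,
    Complex.re_ofReal_mul, Matrix.mul_assoc]

theorem dg_ct (W : Matrix n κ ℂ) (X : Matrix n n ℂ) (k : κ) : dg W Xᴴ k = dg W X k := by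
  unfold dg
  have : Wᴴ * Xᴴ * W = (Wᴴ * X * W)ᴴ := by
    simp only [conjTranspose_mul, conjTranspose_conjTranspose, Matrix.mul_assoc]
  rw [this, conjTranspose_apply]; simp

theorem dg_sub (W : Matrix n κ ℂ) (X Y : Matrix n n ℂ) (k : κ) :
    dg W (X - Y) k = dg W X k - dg W Y k := by
  simp [dg, Matrix.mul_sub, Matrix.sub_mul]

theorem R1 {ρ τ : Matrix n n ℂ} {W : Matrix n κ ℂ} {y : κ → ℝ} (h : Dg ρ W y) (hy : ∀ k, 0 < y k)
    (hτ : τ.PosSemidef) (Φ : Matrix n n ℂ) {x : ℝ} (hx : 0 < x) :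
    2 * (Φ * τ).trace.re - x * (Φ * τ * Φᴴ).trace.re - (ρ * (Φ * τ * Φᴴ)).trace.re ≤
      ∑ k, dg W τ k / (x + y k) := by
  rw [← sum_dg h.un, ← sum_dg h.un, ← sum_dg h.un, mul_sum, mul_sum, ← sum_sub_distrib,
    ← sum_sub_distrib]
  refine sum_le_sum fun k _ => ?_
  have hd : 0 < x + y k := add_pos hx (hy k)
  set d := x + y k with hdd
  have h1 := dg_nonneg W (hτ.mul_mul_conjTranspose_same (1 - (d : ℂ) • Φ)) k
  have e : (1 - (d : ℂ) • Φ) * τ * (1 - (d : ℂ) • Φ)ᴴ =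
      τ - (d : ℂ) • (Φ * τ) - (d : ℂ) • (Φ * τ)ᴴ + ((d * d : ℝ) : ℂ) • (Φ * τ * Φᴴ) := by
    rw [conjTranspose_sub, conjTranspose_smul, conjTranspose_one, conjTranspose_mul, hτ.1.eq]
    simp only [Matrix.sub_mul, Matrix.mul_sub, Matrix.one_mul, Matrix.mul_one, Matrix.smul_mul,
      Matrix.mul_smul, smul_sub, smul_smul, Complex.star_def, Complex.conj_ofReal,
      Complex.ofReal_mul]
    abel
  rw [e, dg_add, dg_sub, dg_sub, dg_smul, dg_smul, dg_smul, dg_ct] at h1
  rw [h.dg_mul, le_div_iff₀ hd]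
  have : y k = d - x := by rw [hdd]; ring
  rw [this]
  nlinarith

theorem R2 {ρ τ B : Matrix n n ℂ} {W : Matrix n κ ℂ} {y : κ → ℝ} (h : Dg ρ W y)
    (hy : ∀ k, 0 < y k) {x : ℝ} (hx : 0 < x) (e : τ = (x : ℂ) • B + ρ * B) :
    ∑ k, dg W τ k / (x + y k) = B.trace.re := by
  rw [← sum_dg h.un]
  refine sum_congr rfl fun k _ => ?_
  have hd : 0 < x + y k := add_pos hx (hy k)
  rw [e, dg_add, dg_smul, h.dg_mul]
  field_simp

theorem row_bound {a : n → ℝ} {b : κ → ℝ} {Y : Matrix n κ ℂ}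
    (h : (fromBlocks (diagonal fun i => (a i : ℂ)) Y Yᴴ (diagonal fun l => (b l : ℂ))).PosSemidef)
    (i : n) : ∑ l, ‖Y i l‖ ^ 2 / b l ≤ a i := by
  have h1 := h.dotProduct_mulVec_nonneg
    (Sum.elim (Pi.single i 1) fun l => -(star (Y i l)) / (b l : ℂ))
  have e : star (Sum.elim (Pi.single i 1) fun l => -(star (Y i l)) / (b l : ℂ)) ⬝ᵥ
      (fromBlocks (diagonal fun i => (a i : ℂ)) Y Yᴴ (diagonal fun l => (b l : ℂ))) *ᵥ
      (Sum.elim (Pi.single i 1) fun l => -(star (Y i l)) / (b l : ℂ)) =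
      ((a i - ∑ l, ‖Y i l‖ ^ 2 / b l : ℝ) : ℂ) := by
    rw [fromBlocks_mulVec, dotProduct, Fintype.sum_sum_type]
    simp only [Sum.elim_comp_inl, Sum.elim_comp_inr, Pi.star_apply, Sum.elim_inl, Sum.elim_inr,
      Pi.add_apply, mulVec_diagonal, mulVec_single_one]
    rw [Finset.sum_eq_single i (fun j _ hj => by simp [hj]) (by simp)]
    simp only [Pi.single_eq_same, star_one, mul_one, one_mul, mulVec, dotProduct]
    push_cast
    rw [add_assoc, sub_eq_add_neg, ← sum_neg_distrib, ← sum_add_distrib]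
    refine congrArg₂ (· + ·) (by simp) (sum_congr rfl fun l _ => ?_)
    simp only [col_apply, conjTranspose_apply, Complex.star_def, map_div₀, map_neg,
      Complex.conj_conj, Complex.conj_ofReal]
    rw [← Complex.mul_conj']
    by_cases hb : (b l : ℂ) = 0
    · simp [hb]
    · field_simp; ring
  rw [e] at h1
  have : (0 : ℝ) ≤ a i - ∑ l, ‖Y i l‖ ^ 2 / b l := by exact_mod_cast h1
  linarith

theorem psd_swap {A : Matrix n n ℂ} {B : Matrix n κ ℂ} {C : Matrix κ n ℂ} {D : Matrix κ κ ℂ}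
    (h : (fromBlocks A B C D).PosSemidef) : (fromBlocks D C B A).PosSemidef := by
  have := h.submatrix Sum.swap
  rwa [fromBlocks_submatrix_sum_swap_sum_swap] at this

theorem zero_of_diag {X : Matrix n n ℂ} (h : X.PosSemidef) {j : n} (hj : X j j = 0) (i : n) :
    X i j = 0 := by
  have := (h.dotProduct_mulVec_zero_iff (Pi.single j 1)).mp (by simp [hj])
  simpa using congrFun this i

/-- real symmetric qubit matrix -/
def M2 (a d o : ℝ) : Matrix Bool Bool ℂ := Matrix.of fun s t =>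
  match s, t with
  | false, false => (a : ℂ)
  | true, true => (d : ℂ)
  | _, _ => (o : ℂ)

@[simp] theorem M2_ff (a d o : ℝ) : M2 a d o false false = a := rfl
@[simp] theorem M2_tt (a d o : ℝ) : M2 a d o true true = d := rfl
@[simp] theorem M2_ft (a d o : ℝ) : M2 a d o false true = o := rfl
@[simp] theorem M2_tf (a d o : ℝ) : M2 a d o true false = o := rfl

theorem M2_add (a d o a' d' o' : ℝ) : M2 a d o + M2 a' d' o' = M2 (a + a') (d + d') (o + o') := by
  ext s t; cases s <;> cases t <;> simp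

theorem M2_smul (k a d o : ℝ) : (k : ℂ) • M2 a d o = M2 (k * a) (k * d) (k * o) := by
  ext s t; cases s <;> cases t <;> simp

theorem M2_trace (a d o : ℝ) : (M2 a d o).trace = ((a + d : ℝ) : ℂ) := by
  simp [Matrix.trace, add_comm]

theorem M2_one : (1 : Matrix Bool Bool ℂ) = M2 1 1 0 := by
  ext s t; cases s <;> cases t <;> simp

theorem M2_dg (a d : ℝ) : Dg (M2 a d 0) 1 (fun s => cond s d a) := by
  refine ⟨Un.one, ?_⟩
  ext s t; cases s <;> cases t <;> simp

theorem M2_psd0 {a d : ℝ} (ha : 0 ≤ a) (hd : 0 ≤ d) : (M2 a d 0).PosSemidef :=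
  (M2_dg a d).psd fun s => by cases s <;> simpa

theorem M2_ent0 {a d : ℝ} (ha : 0 ≤ a) (hd : 0 ≤ d) : vnEntropy (M2 a d 0) = η a + η d := by
  rw [(M2_dg a d).ent fun s => by cases s <;> simpa]; simp [add_comm]

theorem M2_psd1 (u v : ℝ) : (M2 (u * u) (v * v) (u * v)).PosSemidef := by
  have := posSemidef_vecMulVec_self_star (fun s : Bool => ((cond s v u : ℝ) : ℂ))
  convert this using 1
  ext s t; cases s <;> cases t <;> simp [vecMulVec_apply, mul_comm]

theorem M2_psd2 {a d : ℝ} (ha : 0 ≤ a) (hd : 0 ≤ d) : (M2 a d (√(a * d))).PosSemidef := by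
  have := M2_psd1 (√a) (√d)
  rwa [Real.mul_self_sqrt ha, Real.mul_self_sqrt hd, ← Real.sqrt_mul ha] at this

theorem scalar_R2 {α c β δ : ℝ} (hα : 0 ≤ α) (hc : 0 ≤ c) (hβ : 0 < β) (hδ : 0 < δ)
    {W : Matrix Bool κ ℂ} {y : κ → ℝ} (h : Dg (M2 (α + β) (c + δ) (√(α * c))) W y)
    (hy : ∀ k, 0 < y k) {x : ℝ} (hx : 0 < x) :
    ∑ k, dg W (M2 α c (√(α * c))) k / (x + y k) = α * ph α c β δ x + c * ph c α δ β x := by
  have i1 := ph_id hα hc hβ hδ hx.le
  have i2 := ph_id hc hα hδ hβ hx.le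
  have i3 : √(α * c) * √(α * c) = α * c := Real.mul_self_sqrt (mul_nonneg hα hc)
  set φ := ph α c β δ x
  set ψ := ph c α δ β x
  set o := √(α * c)
  rw [R2 h hy hx (B := M2 φ ψ 0 * M2 α c o)]
  · simp [Matrix.trace, mul_apply]; ring
  · have j1 : ((x : ℂ) + β + α) * φ + c * ψ = 1 := by exact_mod_cast i1
    have j2 : ((x : ℂ) + δ + c) * ψ + α * φ = 1 := by exact_mod_cast i2
    have j3 : (o : ℂ) * o = α * c := by exact_mod_cast i3
    ext s t; cases s <;> cases t <;> simp [mul_apply]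
    · linear_combination (-α) * j1 - ψ * j3
    · linear_combination (-o) * j1
    · linear_combination (-o) * j2
    · linear_combination (-c) * j2 - φ * j3

theorem u3 (a f : n → ℝ) (P : Matrix n n ℂ) (i : n) :
    ∑ j, (((diagonal fun i => (a i : ℂ)) i j + P i j) *
      ((f j : ℂ) * (diagonal fun i => (a i : ℂ)) j i * f i)).re =
      (a i + (P i i).re) * (a i * f i ^ 2) := by
  rw [Finset.sum_eq_single i (fun j _ hj => by simp [hj]) (by simp)]
  simp only [diagonal_apply_eq, ← Complex.ofReal_mul, Complex.re_mul_ofReal, Complex.add_re,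
    Complex.ofReal_re]
  ring

theorem q1 (a p f : n → ℝ) (x : ℝ) : qd a p f x =
    2 * ∑ i, a i * f i - x * ∑ i, a i * f i ^ 2 - ∑ i, (a i + p i) * (a i * f i ^ 2) := by
  rw [qd, mul_sum, mul_sum, ← sum_sub_distrib, ← sum_sub_distrib]
  exact sum_congr rfl fun _ _ => by ring

theorem cmp_diag {a : n → ℝ} {b : κ → ℝ} {Y : Matrix n κ ℂ} {P : Matrix n n ℂ} {R : Matrix κ κ ℂ}
    (ha : ∀ i, 0 ≤ a i) (hb : ∀ l, 0 ≤ b l)
    (hτ : (fromBlocks (diagonal fun i => (a i : ℂ)) Y Yᴴ (diagonal fun l => (b l : ℂ))).PosSemidef)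
    (hP : P.PosSemidef) (hR : R.PosSemidef) (hβ : 0 < P.trace.re) (hδ : 0 < R.trace.re)
    {W : Matrix (n ⊕ κ) ι ℂ} {y : ι → ℝ}
    (h : Dg (fromBlocks (diagonal fun i => (a i : ℂ)) Y Yᴴ (diagonal fun l => (b l : ℂ)) +
      fromBlocks P 0 0 R) W y) (hy : ∀ k, 0 < y k)
    {W' : Matrix Bool Bool ℂ} {y' : Bool → ℝ}
    (h' : Dg (M2 (∑ i, a i + P.trace.re) (∑ l, b l + R.trace.re) (√((∑ i, a i) * ∑ l, b l))) W' y')
    (hy' : ∀ k, 0 < y' k) :
    (∑ i, η (a i) - η (∑ i, a i)) + (∑ l, η (b l) - η (∑ l, b l)) +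
      ∑ k, dg W' (M2 (∑ i, a i) (∑ l, b l) (√((∑ i, a i) * ∑ l, b l))) k * -Real.log (y' k) ≤
    ∑ k, dg W (fromBlocks (diagonal fun i => (a i : ℂ)) Y Yᴴ (diagonal fun l => (b l : ℂ))) k *
      -Real.log (y k) := by
  have hα : 0 ≤ ∑ i, a i := sum_nonneg fun i _ => ha i
  have hc : 0 ≤ ∑ l, b l := sum_nonneg fun i _ => hb i
  have hw : ∀ i l, ‖Y i l‖ ^ 2 / (a i * b l) * (a i * b l) = ‖Y i l‖ ^ 2 := by
    intro i l
    by_cases h0 : a i * b l = 0
    · have : Y i l = 0 := by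
        rcases mul_eq_zero.mp h0 with h1 | h1
        · have := zero_of_diag hτ (j := Sum.inl i) (by simp [h1]) (Sum.inr l)
          simpa using this
        · have := zero_of_diag hτ (j := Sum.inr l) (by simp [h1]) (Sum.inl i)
          simpa using this
      simp [this]
    · exact div_mul_cancel₀ _ h0
  refine scalar_main (p := fun i => (P i i).re) (q := fun l => (R l l).re)
    (z := fun i l => ‖Y i l‖ ^ 2 / (a i * b l)) hβ hδ ha
    (fun i => by simpa [dg_one_left] using dg_nonneg 1 hP i) hb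
    (fun i => by simpa [dg_one_left] using dg_nonneg 1 hR i) rfl rfl
    (by simp [Matrix.trace]) (by simp [Matrix.trace])
    (fun i l => div_nonneg (by positivity) (mul_nonneg (ha i) (hb l))) (fun i => ?_) (fun l => ?_)
    hy ?_ hy' ?_ (fun x hx f g => ?_) (fun x hx => scalar_R2 hα hc hβ hδ h' hy' hx)
  · have := row_bound hτ i
    rcases (ha i).eq_or_lt with h0 | h0
    · simp [← h0]
    · calc ∑ l, ‖Y i l‖ ^ 2 / (a i * b l) = (∑ l, ‖Y i l‖ ^ 2 / b l) / a i := by
            rw [sum_div]; exact sum_congr rfl fun l _ => by rw [div_div, mul_comm]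
        _ ≤ 1 := (div_le_one h0).mpr this
  · have h2 := psd_swap hτ
    have := row_bound (Y := Yᴴ) (by simpa using h2) l
    rcases (hb l).eq_or_lt with h0 | h0
    · simp [← h0]
    · calc ∑ i, ‖Y i l‖ ^ 2 / (a i * b l) = (∑ i, ‖Yᴴ l i‖ ^ 2 / a i) / b l := by
            rw [sum_div]; exact sum_congr rfl fun l _ => by simp [div_div]
        _ ≤ 1 := (div_le_one h0).mpr this
  · rw [sum_dg h.un]; simp [Matrix.trace]
  · rw [sum_dg h'.un, M2_trace]; simp
  · refine le_trans (le_of_eq ?_) (R1 h hy hτ (diagonal fun j => ((Sum.elim f g j : ℝ) : ℂ)) hx)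
    have e : ∀ i l, ‖Y i l‖ ^ 2 / (a i * b l) * (a i * f i) * (b l * g l) =
        ‖Y i l‖ ^ 2 * f i * g l := fun i l => by
      linear_combination (f i * g l) * hw i l
    simp only [e]
    have e1 : (diagonal fun j => ((Sum.elim f g j : ℝ) : ℂ))ᴴ =
        diagonal fun j => ((Sum.elim f g j : ℝ) : ℂ) := by
      rw [diagonal_conjTranspose]; congr 1; ext j; simp
    rw [e1]
    set τ := fromBlocks (diagonal fun i => (a i : ℂ)) Y Yᴴ (diagonal fun l => (b l : ℂ)) with hτd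
    have t1 : (diagonal (fun j => ((Sum.elim f g j : ℝ) : ℂ)) * τ).trace.re =
        ∑ i, a i * f i + ∑ l, b l * g l := by
      simp [Matrix.trace, hτd, mul_comm]
    have t2 : (diagonal (fun j => ((Sum.elim f g j : ℝ) : ℂ)) * τ *
        diagonal (fun j => ((Sum.elim f g j : ℝ) : ℂ))).trace.re =
        ∑ i, a i * f i ^ 2 + ∑ l, b l * g l ^ 2 := by
      simp only [Matrix.trace, diag_apply, mul_diagonal, diagonal_mul, hτd, Fintype.sum_sum_type,
        fromBlocks_apply₁₁, fromBlocks_apply₂₂, diagonal_apply_eq, Sum.elim_inl, Sum.elim_inr,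
        Complex.add_re, Complex.re_sum, ← Complex.ofReal_mul, Complex.ofReal_re]
      congr 1 <;> exact sum_congr rfl fun _ _ => by ring
    have t3 : ((τ + fromBlocks P 0 0 R) * (diagonal (fun j => ((Sum.elim f g j : ℝ) : ℂ)) * τ *
        diagonal (fun j => ((Sum.elim f g j : ℝ) : ℂ)))).trace.re =
        ∑ i, (a i + (P i i).re) * (a i * f i ^ 2) + ∑ l, (b l + (R l l).re) * (b l * g l ^ 2) +
          2 * ∑ i, ∑ l, ‖Y i l‖ ^ 2 * f i * g l := by
      have u1 : ∀ i l, (Y i l * ((g l : ℂ) * star (Y i l) * f i)).re = ‖Y i l‖ ^ 2 * f i * g l := by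
        intro i l
        have : Y i l * ((g l : ℂ) * star (Y i l) * f i) = ((‖Y i l‖ ^ 2 * f i * g l : ℝ) : ℂ) := by
          push_cast; rw [← Complex.mul_conj', Complex.star_def]; ring
        rw [this, Complex.ofReal_re]
      have u2 : ∀ i l, (star (Y i l) * ((f i : ℂ) * Y i l * g l)).re = ‖Y i l‖ ^ 2 * f i * g l := by
        intro i l
        have : star (Y i l) * ((f i : ℂ) * Y i l * g l) = ((‖Y i l‖ ^ 2 * f i * g l : ℝ) : ℂ) := by
          push_cast; rw [← Complex.mul_conj', Complex.star_def]; ring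
        rw [this, Complex.ofReal_re]
      rw [Matrix.trace]
      simp only [diag_apply, mul_apply (M := τ + fromBlocks P 0 0 R), mul_diagonal, diagonal_mul]
      simp only [hτd, Fintype.sum_sum_type, Matrix.add_apply, fromBlocks_apply₁₁, fromBlocks_apply₂₂,
        fromBlocks_apply₁₂, fromBlocks_apply₂₁, Sum.elim_inl, Sum.elim_inr, Complex.add_re,
        Complex.re_sum, Matrix.zero_apply, add_zero, conjTranspose_apply, u1, u2, sum_add_distrib]
      rw [sum_congr rfl fun i _ => u3 a f P i, sum_congr rfl fun i _ => u3 b g R i,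
        sum_comm (f := fun l i => ‖Y i l‖ ^ 2 * f i * g l)]
      ring
    rw [t1, t2, t3]
    rw [q1, q1]; ring

theorem dg_conj {T : Matrix n n ℂ} (hT : Un T) (W : Matrix n κ ℂ) (X : Matrix n n ℂ) (k : κ) :
    dg (Tᴴ * W) (Tᴴ * X * T) k = dg W X k := by
  unfold dg
  have : (Tᴴ * W)ᴴ * (Tᴴ * X * T) * (Tᴴ * W) = Wᴴ * (T * Tᴴ) * X * (T * Tᴴ) * W := by
    simp only [conjTranspose_mul, conjTranspose_conjTranspose, Matrix.mul_assoc]
  rw [this, hT.h2]; simp

theorem cmp {A P : Matrix n n ℂ} {Q R : Matrix κ κ ℂ} {Y : Matrix n κ ℂ}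
    (hτ : (fromBlocks A Y Yᴴ Q).PosSemidef)
    (hP : P.PosSemidef) (hR : R.PosSemidef) (hβ : 0 < P.trace.re) (hδ : 0 < R.trace.re)
    {W : Matrix (n ⊕ κ) ι ℂ} {y : ι → ℝ}
    (h : Dg (fromBlocks A Y Yᴴ Q + fromBlocks P 0 0 R) W y) (hy : ∀ k, 0 < y k)
    {W' : Matrix Bool Bool ℂ} {y' : Bool → ℝ}
    (h' : Dg (M2 (A.trace.re + P.trace.re) (Q.trace.re + R.trace.re)
      (√(A.trace.re * Q.trace.re))) W' y')
    (hy' : ∀ k, 0 < y' k) :
    hs A + hs Q +
      ∑ k, dg W' (M2 A.trace.re Q.trace.re (√(A.trace.re * Q.trace.re))) k * -Real.log (y' k) ≤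
    ∑ k, dg W (fromBlocks A Y Yᴴ Q) k * -Real.log (y k) := by
  obtain ⟨U, a, hU, ha⟩ := exists_dg (psd_b11 hτ)
  obtain ⟨V, b, hV, hb⟩ := exists_dg (psd_b22 hτ)
  have hT := hU.un.blocks hV.un
  have e1 : (fromBlocks U 0 0 V)ᴴ * fromBlocks A Y Yᴴ Q * fromBlocks U 0 0 V =
      fromBlocks (diagonal fun i => (a i : ℂ)) (Uᴴ * Y * V) (Uᴴ * Y * V)ᴴ
        (diagonal fun l => (b l : ℂ)) := by
    rw [conj_blocks, hU.conj, hV.conj]
    simp only [conjTranspose_mul, conjTranspose_conjTranspose, Matrix.mul_assoc]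
  have e2 : (fromBlocks U 0 0 V)ᴴ * fromBlocks P 0 0 R * fromBlocks U 0 0 V =
      fromBlocks (Uᴴ * P * U) 0 0 (Vᴴ * R * V) := by
    rw [conj_blocks]; simp
  have h2 := h.conjU hT
  rw [Matrix.mul_add, Matrix.add_mul, e1, e2] at h2
  have h3 := hτ.conjTranspose_mul_mul_same (fromBlocks U 0 0 V)
  rw [e1] at h3
  have := cmp_diag ha hb h3 (hP.conjTranspose_mul_mul_same U) (hR.conjTranspose_mul_mul_same V)
    (by rwa [trace_conj hU.un]) (by rwa [trace_conj hV.un]) h2 hy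
    (W' := W') (y' := y') (by rwa [trace_conj hU.un, trace_conj hV.un, ← hU.trace, ← hV.trace]) hy'
  simp only [← e1, dg_conj hT] at this
  unfold hs
  rw [hU.ent ha, hV.ent hb, hU.trace, hV.trace]
  exact this

theorem telescope (f g D : ℝ → ℝ) (K : ℝ)
    (hf : ∀ s s', 0 ≤ s' → s' < s → s ≤ 1 → (s - s') * (D s + K) ≤ f s - f s')
    (hg : ∀ s s', 0 ≤ s → s < s' → s' ≤ 1 → g s' - g s ≤ (s' - s) * D s) :
    K + (g 1 - g 0) ≤ f 1 - f 0 := by
  have key : ∀ N : ℕ, K + (g 1 - g 0) ≤ f 1 - f 0 + (1 / ((N : ℝ) + 1)) * (D 0 - D 1) := by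
    intro N
    set h : ℝ := 1 / ((N : ℝ) + 1) with hh
    have hpos : 0 < h := by positivity
    have hN : ((N : ℝ) + 1) * h = 1 := by rw [hh]; field_simp
    have ind : ∀ j : ℕ, j ≤ N + 1 →
        j * h * K + (g (j * h) - g 0) ≤ f (j * h) - f 0 + h * (D 0 - D (j * h)) := by
      intro j
      induction j with
      | zero => intro _; simp
      | succ j ih =>
        intro hj
        have ih := ih (by omega)
        have hj' : ((j + 1 : ℕ) : ℝ) * h ≤ 1 := by
          rw [← hN]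
          have : ((j + 1 : ℕ) : ℝ) ≤ (N : ℝ) + 1 := by exact_mod_cast hj
          gcongr
        have hlt : (j : ℝ) * h < ((j + 1 : ℕ) : ℝ) * h := by push_cast; nlinarith
        have a1 := hf _ _ (by positivity) hlt hj'
        have a2 := hg _ _ (by positivity) hlt hj'
        have e : ((j + 1 : ℕ) : ℝ) * h - j * h = h := by push_cast; ring
        rw [e] at a1 a2
        have e' : ((j + 1 : ℕ) : ℝ) * h * K = j * h * K + h * K := by push_cast; ring
        rw [e']
        linarith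
    have := ind (N + 1) le_rfl
    rw [show ((N + 1 : ℕ) : ℝ) * h = 1 by push_cast; exact hN] at this
    linarith
  have ht : Filter.Tendsto (fun N : ℕ => f 1 - f 0 + (1 / ((N : ℝ) + 1)) * (D 0 - D 1))
      Filter.atTop (nhds (f 1 - f 0 + 0 * (D 0 - D 1))) :=
    (tendsto_one_div_add_atTop_nhds_zero_nat.mul_const _).const_add _
  have := ge_of_tendsto' ht key
  simpa using this

theorem Dg.ge {ρ : Matrix n n ℂ} {W : Matrix n κ ℂ} {y : κ → ℝ} (h : Dg ρ W y) {ε : ℝ}
    (hε : (ρ - (ε : ℂ) • 1).PosSemidef) (k : κ) : ε ≤ y k := by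
  have := dg_nonneg W hε k
  rw [dg_sub, dg_smul, dg_one h.un, h.dg_self] at this
  linarith

/-- Klein along a ray -/
theorem klein_ray {τ S : Matrix n n ℂ} (hτ : τ.PosSemidef) (hS : S.PosSemidef) {s s' : ℝ}
    (hs' : 0 ≤ s') {W : Matrix n κ ℂ} {y : κ → ℝ} (h : Dg ((s : ℂ) • τ + S) W y)
    (hy : ∀ k, 0 < y k) :
    vnEntropy ((s' : ℂ) • τ + S) ≤ vnEntropy ((s : ℂ) • τ + S) +
      (s' - s) * (∑ k, dg W τ k * -Real.log (y k) - τ.trace.re) := by
  have h1 := klein ((hτ.smul (a := (s' : ℂ)) (by exact_mod_cast hs')).add hS) h hy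
  refine h1.trans (le_of_eq ?_)
  congr 1
  rw [← sum_dg h.un, ← sum_sub_distrib, mul_sum]
  refine sum_congr rfl fun k _ => ?_
  have := h.dg_self k
  rw [dg_add, dg_smul] at this
  rw [dg_add, dg_smul, ← this]; ring

theorem trace_re_nonneg {X : Matrix n n ℂ} (hX : X.PosSemidef) : 0 ≤ X.trace.re :=
  (Complex.nonneg_iff.mp hX.trace_nonneg).1

theorem E3pos {A P : Matrix n n ℂ} {Q R : Matrix κ κ ℂ} {Y : Matrix n κ ℂ}
    (hτ : (fromBlocks A Y Yᴴ Q).PosSemidef) {ε : ℝ} (hε : 0 < ε)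
    (hP : (P - (ε : ℂ) • 1).PosSemidef) (hR : (R - (ε : ℂ) • 1).PosSemidef)
    (hβ : 0 < P.trace.re) (hδ : 0 < R.trace.re) :
    hs A + hs Q + hs P + hs R + vnEntropy (M2 (A.trace.re + P.trace.re) (Q.trace.re + R.trace.re)
      (√(A.trace.re * Q.trace.re))) ≤ vnEntropy (fromBlocks A Y Yᴴ Q + fromBlocks P 0 0 R) := by
  have hεc : (0 : ℂ) ≤ (ε : ℂ) := by exact_mod_cast hε.le
  have hP0 : P.PosSemidef := by
    simpa using hP.add (PosSemidef.one.smul hεc)
  have hR0 : R.PosSemidef := by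
    simpa using hR.add (PosSemidef.one.smul hεc)
  set α := A.trace.re with hα
  set c := Q.trace.re with hc
  set β := P.trace.re with hβ'
  set δ := R.trace.re with hδ'
  have hα0 : 0 ≤ α := trace_re_nonneg (psd_b11 hτ)
  have hc0 : 0 ≤ c := trace_re_nonneg (psd_b22 hτ)
  set τ := fromBlocks A Y Yᴴ Q with hτd
  set S := fromBlocks P 0 0 R with hS
  set m := M2 α c (√(α * c)) with hm
  set S' := M2 β δ 0 with hS'
  have hS0 : S.PosSemidef := psd_blocks hP0 hR0
  have hS0' : S'.PosSemidef := M2_psd0 hβ.le hδ.le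
  have hm0 : m.PosSemidef := M2_psd2 hα0 hc0
  have hex : ∀ s : ℝ, ∃ (W : Matrix Bool Bool ℂ) (y : Bool → ℝ), 0 ≤ s →
      Dg ((s : ℂ) • m + S') W y ∧ ∀ k, 0 < y k := by
    intro s
    by_cases hs0 : 0 ≤ s
    · have h1 : ((s : ℂ) • m).PosSemidef := hm0.smul (by exact_mod_cast hs0)
      obtain ⟨W, y, hW, -⟩ := exists_dg (h1.add hS0')
      refine ⟨W, y, fun _ => ⟨hW, fun k => lt_of_lt_of_le (lt_min hβ hδ) (hW.ge ?_ k)⟩⟩
      have : (s : ℂ) • m + S' - ((min β δ : ℝ) : ℂ) • 1 =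
          (s : ℂ) • m + M2 (β - min β δ) (δ - min β δ) 0 := by
        rw [add_sub_assoc, hS', M2_one, M2_smul]
        congr 1
        ext a b; cases a <;> cases b <;> simp
      rw [this]
      exact h1.add (M2_psd0 (by simp) (by simp))
    · exact ⟨1, 0, fun h => absurd h hs0⟩
  choose W' y' hW' using hex
  have T := telescope (fun s => vnEntropy ((s : ℂ) • τ + S)) (fun s => vnEntropy ((s : ℂ) • m + S'))
    (fun s => ∑ k, dg (W' s) m k * -Real.log (y' s k) - m.trace.re) (hs A + hs Q) ?_ ?_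
  · simp only [Complex.ofReal_one, one_smul, Complex.ofReal_zero, zero_smul, zero_add] at T
    rw [hS, ent_blocks hP0 hR0, hS', M2_ent0 hβ.le hδ.le, hm, M2_add, add_zero] at T
    unfold hs at T ⊢
    linarith
  · intro s s' h0 h1 _
    have hs : 0 < s := lt_of_le_of_lt h0 h1
    have hsc : (0 : ℂ) ≤ (s : ℂ) := by exact_mod_cast hs.le
    obtain ⟨W, y, hW, -⟩ := exists_dg ((hτ.smul hsc).add hS0)
    have hy : ∀ k, 0 < y k := fun k => lt_of_lt_of_le hε (hW.ge ?_ k)
    swap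
    · have : (s : ℂ) • τ + S - (ε : ℂ) • 1 =
          (s : ℂ) • τ + fromBlocks (P - (ε : ℂ) • 1) 0 0 (R - (ε : ℂ) • 1) := by
        rw [add_sub_assoc, hS]
        congr 1
        ext a b; cases a <;> cases b <;> simp [one_apply]
      rw [this]
      exact (hτ.smul hsc).add (psd_blocks hP hR)
    have k1 := klein_ray hτ hS0 h0 hW hy
    have e1 : (s : ℂ) • τ = fromBlocks ((s : ℂ) • A) ((s : ℂ) • Y) ((s : ℂ) • Y)ᴴ ((s : ℂ) • Q) := by
      rw [hτd, fromBlocks_smul, conjTranspose_smul]; simp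
    have t1 : ((s : ℂ) • A).trace.re = s * α := by simp [hα]
    have t2 : ((s : ℂ) • Q).trace.re = s * c := by simp [hc]
    have t3 : √(s * α * (s * c)) = s * √(α * c) := by
      rw [show s * α * (s * c) = (s * s) * (α * c) by ring, Real.sqrt_mul (mul_self_nonneg s),
        Real.sqrt_mul_self hs.le]
    have k2 := cmp (e1 ▸ hτ.smul hsc) hP0 hR0 hβ hδ (e1 ▸ hW) hy (W' := W' s) (y' := y' s)
      (by
        rw [t1, t2, t3]
        have := (hW' s hs.le).1
        rwa [hm, hS', M2_smul, M2_add, add_zero] at this) (hW' s hs.le).2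
    rw [t1, t2, t3, ← M2_smul, ← e1, hs_smul (psd_b11 hτ) hs.le, hs_smul (psd_b22 hτ) hs.le] at k2
    simp only [dg_smul, mul_assoc, ← mul_sum] at k2
    have k3 : Gad.hs A + Gad.hs Q + ∑ k, dg (W' s) m k * -Real.log (y' s k) ≤
        ∑ k, dg W τ k * -Real.log (y k) := by
      refine le_of_mul_le_mul_left ?_ hs
      linarith
    have t4 : τ.trace.re = m.trace.re := by
      rw [hm, M2_trace, hτd, Complex.ofReal_re, hα, hc]
      simp [Matrix.trace]
    have : 0 ≤ s - s' := by linarith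
    rw [t4] at k1
    nlinarith
  · intro s s' h0 h1 _
    have := klein_ray hm0 hS0' (h0.trans h1.le) (hW' s h0).1 (hW' s h0).2
    linarith

theorem ent_lim {X : Matrix n n ℂ} (hX : X.PosSemidef) (k : ℝ) (hk : 0 ≤ k) :
    Filter.Tendsto (fun ε : ℝ => vnEntropy (X + ((k * ε : ℝ) : ℂ) • 1)) (nhdsWithin 0 (Set.Ioi 0))
      (nhds (vnEntropy X)) := by
  obtain ⟨U, x, hU, hx⟩ := exists_dg hX
  have h1 : Continuous fun ε : ℝ => ∑ i, η (x i + k * ε) :=
    continuous_finsetSum _ fun i _ => Real.continuous_negMulLog.comp (by fun_prop)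
  have h2 := (h1.tendsto 0).mono_left (nhdsWithin_le_nhds (s := Set.Ioi 0))
  simp only [mul_zero, add_zero, ← hU.ent hx] at h2
  refine h2.congr' (eventually_nhdsWithin_of_forall fun ε hε => ?_)
  have hε : 0 < ε := hε
  exact ((hU.add_const (k * ε)).ent fun i => add_nonneg (hx i) (by positivity)).symm

theorem hs_add_const {X : Matrix n n ℂ} (hX : X.PosSemidef) {ε : ℝ} (hε : 0 ≤ ε) :
    hs X ≤ hs (X + (ε : ℂ) • 1) := by
  have h1 := hs_add hX (PosSemidef.one.smul (a := (ε : ℂ)) (by exact_mod_cast hε))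
  have h2 : 0 ≤ hs ((ε : ℂ) • (1 : Matrix n n ℂ)) := by
    rw [hs_smul PosSemidef.one hε]
    refine mul_nonneg hε ?_
    have : Dg (1 : Matrix n n ℂ) 1 (fun _ => 1) := ⟨Un.one, by simp⟩
    unfold hs
    rw [this.ent fun _ => zero_le_one]
    simp only [Real.negMulLog_one, sum_const_zero, trace_one, Complex.natCast_re, zero_sub]
    rw [Real.negMulLog, neg_mul, neg_neg]
    exact mul_nonneg (Nat.cast_nonneg _) (Real.log_natCast_nonneg _)
  linarith

/-- The block entropy inequality. -/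
theorem E3 [Nonempty n] {A P Q R Y : Matrix n n ℂ}
    (hτ : (fromBlocks A Y Yᴴ Q).PosSemidef) (hP : P.PosSemidef) (hR : R.PosSemidef) :
    hs A + hs Q + hs P + hs R + vnEntropy (M2 (A.trace.re + P.trace.re) (Q.trace.re + R.trace.re)
      (√(A.trace.re * Q.trace.re))) ≤ vnEntropy (fromBlocks A Y Yᴴ Q + fromBlocks P 0 0 R) := by
  have hm : (M2 (A.trace.re + P.trace.re) (Q.trace.re + R.trace.re)
      (√(A.trace.re * Q.trace.re))).PosSemidef := by
    have := (M2_psd2 (trace_re_nonneg (psd_b11 hτ)) (trace_re_nonneg (psd_b22 hτ))).add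
      (M2_psd0 (trace_re_nonneg hP) (trace_re_nonneg hR))
    rwa [M2_add, add_zero] at this
  have l1 := (ent_lim hm (Fintype.card n) (Nat.cast_nonneg _)).const_add (hs A + hs Q + hs P + hs R)
  have l2 := ent_lim (hτ.add (psd_blocks hP hR)) 1 zero_le_one
  refine le_of_tendsto_of_tendsto l1 l2 (eventually_nhdsWithin_of_forall fun ε hε => ?_)
  have hε : 0 < ε := hε
  have hc : (0 : ℝ) < Fintype.card n := by exact_mod_cast Fintype.card_pos
  have t : ∀ X : Matrix n n ℂ, (X + (ε : ℂ) • 1).trace.re = X.trace.re + Fintype.card n * ε := by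
    intro X; simp [trace_add, trace_smul, mul_comm]
  have := E3pos (P := P + (ε : ℂ) • 1) (R := R + (ε : ℂ) • 1) hτ hε (by simpa using hP)
    (by simpa using hR) (by rw [t]; have := trace_re_nonneg hP; positivity)
    (by rw [t]; have := trace_re_nonneg hR; positivity)
  have a1 := hs_add_const hP hε.le
  have a2 := hs_add_const hR hε.le
  have e1 : fromBlocks A Y Yᴴ Q + fromBlocks (P + (ε : ℂ) • 1) 0 0 (R + (ε : ℂ) • 1) =
      fromBlocks A Y Yᴴ Q + fromBlocks P 0 0 R + ((1 * ε : ℝ) : ℂ) • 1 := by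
    rw [add_assoc]
    congr 1
    ext a b; cases a <;> cases b <;> simp [one_apply]
  have e2 : M2 (A.trace.re + (P + (ε : ℂ) • 1).trace.re) (Q.trace.re + (R + (ε : ℂ) • 1).trace.re)
      (√(A.trace.re * Q.trace.re)) = M2 (A.trace.re + P.trace.re) (Q.trace.re + R.trace.re)
      (√(A.trace.re * Q.trace.re)) + ((Fintype.card n * ε : ℝ) : ℂ) • 1 := by
    rw [t, t, M2_one, M2_smul, M2_add]
    congr 1 <;> ring
  rw [e1, e2] at this
  simp only
  linarith

end Crest.Agent.H4.Gad
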