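import Mathlib
import Crest.Agent.H4.GadC
import Crest.Prelude.Def_AmpDamp

/-! The qubit side: the two-level entropy, its convexity, and the key entropy bound. -/

set_option autoImplicit false
set_option linter.unusedSectionVars false

namespace Crest.Agent.H4.Gad

open Matrix Finset Crest.Quantum Crest.MathPhysics.AmpDamp
open scoped ComplexOrder

local notation "η" => Real.negMulLog

variable {n ι κ : Type*} [Fintype n] [Fintype ι] [Fintype κ]
  [DecidableEq n] [DecidableEq ι] [DecidableEq κ]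

/-- entanglement-of-formation function -/
noncomputable def eof (C : ℝ) : ℝ := Real.binEntropy ((1 + √(1 - C ^ 2)) / 2)

theorem eof_mono {C C' : ℝ} (h0 : 0 ≤ C) (h : C ≤ C') : eof C ≤ eof C' := by
  have h1 : √(1 - C' ^ 2) ≤ √(1 - C ^ 2) := Real.sqrt_le_sqrt (by nlinarith)
  have h2 : √(1 - C ^ 2) ≤ 1 := Real.sqrt_le_one.mpr (by nlinarith)
  have h3 : 0 ≤ √(1 - C' ^ 2) := Real.sqrt_nonneg _
  exact Real.binEntropy_strictAntiOn.antitoneOn ⟨by linarith, by linarith⟩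
    ⟨by linarith, by linarith⟩ (by linarith)

theorem eof_convex : ConvexOn ℝ (Set.Icc 0 1) eof := by
  have hw : ∀ C ∈ interior (Set.Icc (0 : ℝ) 1), 0 < C ∧ 0 < √(1 - C ^ 2) ∧ √(1 - C ^ 2) < 1 ∧
      √(1 - C ^ 2) ^ 2 = 1 - C ^ 2 ∧
      HasDerivAt (fun C : ℝ => √(1 - C ^ 2)) (-C / √(1 - C ^ 2)) C := by
    intro C hC
    rw [interior_Icc] at hC
    have h1 : 0 < 1 - C ^ 2 := by nlinarith [hC.1, hC.2]
    have h2 := Real.sqrt_pos.mpr h1
    refine ⟨hC.1, h2, ?_, Real.sq_sqrt h1.le, ?_⟩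
    · rw [Real.sqrt_lt' one_pos]; nlinarith [hC.1]
    · have := ((hasDerivAt_pow 2 C).const_sub 1).sqrt h1.ne'
      refine this.congr_deriv ?_
      field_simp
      norm_num [mul_comm]
  refine convexOn_of_hasDerivWithinAt2_nonneg (convex_Icc 0 1)
    (f' := fun C => C * (Real.log (1 + √(1 - C ^ 2)) - Real.log (1 - √(1 - C ^ 2))) /
      (2 * √(1 - C ^ 2)))
    (f'' := fun C => ((Real.log (1 + √(1 - C ^ 2)) - Real.log (1 - √(1 - C ^ 2))) / 2 -
      √(1 - C ^ 2)) / √(1 - C ^ 2) ^ 3) ?_ (fun C hC => ?_) (fun C hC => ?_) (fun C hC => ?_)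
  · unfold eof; fun_prop
  · obtain ⟨h0, h1, h2, h3, h4⟩ := hw C hC
    set w := √(1 - C ^ 2) with hwd
    have a1 := (Real.hasDerivAt_binEntropy (p := (1 + w) / 2) (by positivity)
      (by linarith)).comp C ((h4.const_add 1).div_const 2)
    refine HasDerivAt.hasDerivWithinAt (HasDerivAt.congr_deriv a1 ?_)
    rw [show 1 - (1 + w) / 2 = (1 - w) / 2 by ring, Real.log_div (by linarith) two_ne_zero,
      Real.log_div (by linarith) two_ne_zero]
    field_simp; ring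
  · obtain ⟨h0, h1, h2, h3, h4⟩ := hw C hC
    have a1 := (h4.const_add 1).log (by linarith)
    have a2 := (h4.const_sub 1).log (by linarith)
    have a3 := ((hasDerivAt_id C).mul (a1.sub a2)).div (h4.const_mul 2) (by positivity)
    refine HasDerivAt.hasDerivWithinAt (HasDerivAt.congr_deriv a3 ?_)
    simp only [id, Pi.mul_apply, Pi.sub_apply]
    set w := √(1 - C ^ 2) with hwd
    set L := Real.log (1 + w) - Real.log (1 - w)
    have b1 : 1 - w ≠ 0 := by linarith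
    have b2 : 1 + w ≠ 0 := by linarith
    have b3 : C ^ 2 = 1 - w ^ 2 := by linarith
    field_simp
    rw [b3]; ring
  · obtain ⟨h0, h1, h2, h3, h4⟩ := hw C hC
    set w := √(1 - C ^ 2) with hwd
    have b1 : 0 < 1 - w := by linarith
    have := Real.le_log_one_add_of_nonneg (x := 2 * w / (1 - w)) (by positivity)
    rw [show 1 + 2 * w / (1 - w) = (1 + w) / (1 - w) by field_simp; ring,
      Real.log_div (by linarith) b1.ne',
      show 2 * (2 * w / (1 - w)) / (2 * w / (1 - w) + 2) = 2 * w by field_simp; ring] at this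
    exact div_nonneg (by linarith) (by positivity)

/-- determinant of the output of the pure state with population `q` -/
def vdet (γ ν q : ℝ) : ℝ := γ * ν * (1 - ν) + γ * (1 - γ) * (q - ν) ^ 2

/-- entropy of the output of the pure state with population `q` -/
noncomputable def gent (γ ν q : ℝ) : ℝ := Real.binEntropy ((1 + √(1 - 4 * vdet γ ν q)) / 2)

theorem gadRate_eq (γ ν p : ℝ) :
    gadRate γ ν p = Real.binEntropy ((1 - γ) * p + γ * ν) - gent γ ν p := rfl

theorem gent_jensen {γ ν : ℝ} (hγ : γ ∈ Set.Icc (0 : ℝ) 1) (hν : ν ∈ Set.Icc (0 : ℝ) 1)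
    (p q : ι → ℝ) (hp : ∀ a, 0 ≤ p a) (hp1 : ∑ a, p a = 1) (hq : ∀ a, q a ∈ Set.Icc (0 : ℝ) 1) :
    gent γ ν (∑ a, p a * q a) ≤ ∑ a, p a * gent γ ν (q a) := by
  obtain ⟨g0, g1⟩ := hγ
  obtain ⟨n0, n1⟩ := hν
  have hA : 0 ≤ γ * ν * (1 - ν) := mul_nonneg (mul_nonneg g0 n0) (by linarith)
  have hB : 0 ≤ γ * (1 - γ) := mul_nonneg g0 (by linarith)
  set z : ℝ → ℂ := fun q => ⟨2 * √(γ * ν * (1 - ν)), 2 * √(γ * (1 - γ)) * (q - ν)⟩ with hz
  have e1 : ∀ q, ‖z q‖ ^ 2 = 4 * vdet γ ν q := fun q => by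
    rw [Complex.sq_norm, hz, Complex.normSq_mk, vdet]
    have a1 := Real.mul_self_sqrt hA
    have a2 := Real.mul_self_sqrt hB
    linear_combination 4 * a1 + 4 * (q - ν) ^ 2 * a2
  have e2 : ∀ q, gent γ ν q = eof ‖z q‖ := fun q => by rw [eof, e1, gent]
  have e3 : ∀ a, ‖z (q a)‖ ∈ Set.Icc (0 : ℝ) 1 := fun a => by
    refine ⟨norm_nonneg _, ?_⟩
    have h1 : 4 * vdet γ ν (q a) ≤ 1 := by
      obtain ⟨q0, q1⟩ := hq a
      have : 0 ≤ (1 - γ) * (q a * (1 - q a)) :=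
        mul_nonneg (by linarith) (mul_nonneg q0 (by linarith))
      unfold vdet
      nlinarith [sq_nonneg (1 - 2 * (γ * ν + (1 - γ) * q a))]
    rw [← e1] at h1
    nlinarith [norm_nonneg (z (q a))]
  have e4 : z (∑ a, p a * q a) = ∑ a, (p a : ℂ) * z (q a) := by
    apply Complex.ext
    · simp only [hz, Complex.re_sum, Complex.re_ofReal_mul, ← sum_mul, hp1, one_mul]
    · simp only [hz, Complex.im_sum, Complex.im_ofReal_mul]
      have : ∀ a, p a * (2 * √(γ * (1 - γ)) * (q a - ν)) =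
          2 * √(γ * (1 - γ)) * (p a * q a) - 2 * √(γ * (1 - γ)) * ν * p a := fun a => by ring
      simp only [this, sum_sub_distrib, ← mul_sum, hp1]; ring
  have e5 : ‖z (∑ a, p a * q a)‖ ≤ ∑ a, p a * ‖z (q a)‖ := by
    rw [e4]
    refine (norm_sum_le _ _).trans (le_of_eq (sum_congr rfl fun a _ => ?_))
    rw [norm_mul, Complex.norm_real, Real.norm_of_nonneg (hp a)]
  simp only [e2]
  refine (eof_mono (norm_nonneg _) e5).trans ?_
  have := eof_convex.map_sum_le (t := univ) (w := p) (p := fun a => ‖z (q a)‖)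
    (fun a _ => hp a) hp1 (fun a _ => e3 a)
  simpa using this

theorem M2_ent {a d o : ℝ} (h : (M2 a d o).PosSemidef) (h1 : a + d = 1) :
    vnEntropy (M2 a d o) = Real.binEntropy ((1 + √(1 - 4 * (a * d - o * o))) / 2) := by
  obtain ⟨U, x, hU, hx⟩ := exists_dg h
  have t1 := hU.trace
  rw [M2_trace, Complex.ofReal_re, h1] at t1
  have t2 : (M2 a d o * M2 a d o).trace.re = ∑ i, x i * x i := by
    rw [← sum_dg hU.un]
    exact sum_congr rfl fun i _ => by rw [hU.dg_mul, hU.dg_self]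
  have t3 : (M2 a d o * M2 a d o).trace.re = a * a + d * d + 2 * (o * o) := by
    simp [Matrix.trace, mul_apply]; ring
  rw [t3] at t2
  simp only [Fintype.sum_bool] at t1 t2
  have e : 1 - 4 * (a * d - o * o) = (x true - x false) ^ 2 := by
    have : d = 1 - a := by linarith
    have h2 : x false = 1 - x true := by linarith
    rw [this, h2] at t2
    rw [this, h2]
    linarith
  rw [hU.ent hx, e, Real.sqrt_sq_eq_abs, Real.binEntropy_eq_negMulLog_add_negMulLog_one_sub,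
    Fintype.sum_bool]
  rcases le_total (x true) (x false) with h2 | h2
  · rw [abs_of_nonpos (by linarith), add_comm]
    congr 2 <;> linarith
  · rw [abs_of_nonneg (by linarith)]
    congr 2 <;> linarith

theorem gad_M2 (γ ν a d o : ℝ) : gadMap γ ν (M2 a d o) =
    M2 ((1 - γ * ν) * a + γ * (1 - ν) * d) (γ * ν * a + (1 - γ + γ * ν) * d) (√(1 - γ) * o) := by
  ext s t; cases s <;> cases t <;> simp [gadMap]

/-- the splitting constant -/
theorem exists_split {γ ν : ℝ} (hγ : γ ∈ Set.Icc (0 : ℝ) 1) (hν : ν ∈ Set.Icc (0 : ℝ) 1) :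
    ∃ y, 0 ≤ y ∧ y ≤ 1 - γ + γ * ν ∧ (1 - γ * ν) * y = 1 - γ := by
  obtain ⟨g0, g1⟩ := hγ
  obtain ⟨n0, n1⟩ := hν
  have hx : 0 ≤ 1 - γ * ν := by nlinarith
  rcases hx.eq_or_lt with h | h
  · refine ⟨0, le_rfl, by nlinarith, ?_⟩
    nlinarith
  · refine ⟨(1 - γ) / (1 - γ * ν), div_nonneg (by linarith) hx, ?_, by field_simp⟩
    rw [div_le_iff₀ h]
    have : 0 ≤ γ * γ * (ν * (1 - ν)) := mul_nonneg (mul_nonneg g0 g0) (mul_nonneg n0 (by linarith))
    nlinarith

/-- the output of the channel on the qubit factor, in block form -/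
noncomputable def outB (γ ν : ℝ) (A X X' C : Matrix n n ℂ) : Matrix (n ⊕ n) (n ⊕ n) ℂ :=
  fromBlocks (((1 - γ * ν : ℝ) : ℂ) • A + ((γ * (1 - ν) : ℝ) : ℂ) • C) (((√(1 - γ) : ℝ) : ℂ) • X)
    (((√(1 - γ) : ℝ) : ℂ) • X') (((γ * ν : ℝ) : ℂ) • A + ((1 - γ + γ * ν : ℝ) : ℂ) • C)

theorem psd_b21 {A X X' C : Matrix n n ℂ} (h : (fromBlocks A X X' C).PosSemidef) : X' = Xᴴ :=
  ((isHermitian_fromBlocks_iff.mp h.1).2.1).symm

theorem star_bound [Nonempty n] {γ ν : ℝ} (hγ : γ ∈ Set.Icc (0 : ℝ) 1) (hν : ν ∈ Set.Icc (0 : ℝ) 1)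
    {A X X' C : Matrix n n ℂ} (h : (fromBlocks A X X' C).PosSemidef)
    (h1 : A.trace.re + C.trace.re = 1) :
    (outB γ ν A X X' C).PosSemidef ∧
      gent γ ν C.trace.re + hs A + hs C ≤ vnEntropy (outB γ ν A X X' C) := by
  obtain ⟨y, y0, y1, y2⟩ := exists_split hγ hν
  obtain ⟨g0, g1⟩ := hγ
  obtain ⟨n0, n1⟩ := hν
  obtain rfl := psd_b21 h
  have hx : 0 ≤ 1 - γ * ν := by nlinarith
  have hβ : 0 ≤ γ * (1 - ν) := mul_nonneg g0 (by linarith)
  have hδ : 0 ≤ γ * ν := mul_nonneg g0 n0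
  have hε : 0 ≤ 1 - γ + γ * ν - y := by linarith
  set x := 1 - γ * ν with hxd
  have hA := psd_b11 h
  have hC := psd_b22 h
  have sm : ∀ {B : Matrix n n ℂ} {k : ℝ}, B.PosSemidef → 0 ≤ k → ((k : ℂ) • B).PosSemidef :=
    fun hB hk => hB.smul (by exact_mod_cast hk)
  have hτ : (fromBlocks ((x : ℂ) • A) (((√(1 - γ) : ℝ) : ℂ) • X) (((√(1 - γ) : ℝ) : ℂ) • X)ᴴ
      ((y : ℂ) • C)).PosSemidef := by
    have := h.conjTranspose_mul_mul_same
      (fromBlocks (((√x : ℝ) : ℂ) • (1 : Matrix n n ℂ)) 0 0 (((√y : ℝ) : ℂ) • (1 : Matrix n n ℂ)))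
    rw [conj_blocks] at this
    simp only [conjTranspose_smul, conjTranspose_one, Matrix.smul_mul, Matrix.mul_smul,
      Matrix.one_mul, Matrix.mul_one, smul_smul, Complex.star_def, Complex.conj_ofReal,
      ← Complex.ofReal_mul, Real.mul_self_sqrt hx, Real.mul_self_sqrt y0] at this ⊢
    rwa [mul_comm √y, ← Real.sqrt_mul hx, y2] at this
  have hP := sm hC hβ
  have hR := (sm hA hδ).add (sm hC hε)
  have e : outB γ ν A X Xᴴ C = fromBlocks ((x : ℂ) • A) (((√(1 - γ) : ℝ) : ℂ) • X)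
      (((√(1 - γ) : ℝ) : ℂ) • X)ᴴ ((y : ℂ) • C) + fromBlocks (((γ * (1 - ν) : ℝ) : ℂ) • C) 0 0
      (((γ * ν : ℝ) : ℂ) • A + ((1 - γ + γ * ν - y : ℝ) : ℂ) • C) := by
    rw [outB, fromBlocks_add, conjTranspose_smul]
    congr 1
    · simp
    · simp
    · push_cast; module
  refine ⟨e ▸ hτ.add (psd_blocks hP hR), ?_⟩
  have k := E3 hτ hP hR
  have k2 := hs_add (sm hA hδ) (sm hC hε)
  rw [← e, hs_smul hA hx, hs_smul hC y0, hs_smul hC hβ] at k
  rw [hs_smul hA hδ, hs_smul hC hε] at k2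
  have ts : ∀ (B : Matrix n n ℂ) (k : ℝ), ((k : ℂ) • B).trace.re = k * B.trace.re :=
    fun B k => by simp
  have hm := (M2_psd2 (trace_re_nonneg (psd_b11 hτ)) (trace_re_nonneg (psd_b22 hτ))).add
      (M2_psd0 (trace_re_nonneg hP) (trace_re_nonneg hR))
  rw [M2_add, add_zero] at hm
  have a0 := trace_re_nonneg hA
  have c0 := trace_re_nonneg hC
  rw [M2_ent hm (by simp only [trace_add, Complex.add_re, ts]; linear_combination h1),
    Real.mul_self_sqrt (mul_nonneg (trace_re_nonneg (psd_b11 hτ))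
      (trace_re_nonneg (psd_b22 hτ)))] at k
  simp only [trace_add, Complex.add_re, ts] at k
  have e2 : (x * A.trace.re + γ * (1 - ν) * C.trace.re) *
      (y * C.trace.re + (γ * ν * A.trace.re + (1 - γ + γ * ν - y) * C.trace.re)) -
      x * A.trace.re * (y * C.trace.re) = vdet γ ν C.trace.re := by
    have : A.trace.re = 1 - C.trace.re := by linarith
    rw [this, vdet]
    linear_combination (-(1 - C.trace.re) * C.trace.re) * y2
  rw [e2] at k
  unfold gent
  linarith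

end Crest.Agent.H4.Gad
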