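import Mathlib
import Crest.Agent.H4.GadD

/-! Channel-level consequences. -/

set_option autoImplicit false
set_option linter.unusedSectionVars false

namespace Crest.Agent.H4.Gad

open Matrix Finset Crest.Quantum Crest.MathPhysics.AmpDamp
open scoped ComplexOrder Kronecker

local notation "η" => Real.negMulLog

variable {d e ι κ : Type*} [Fintype d] [Fintype e] [Fintype ι] [Fintype κ]
  [DecidableEq d] [DecidableEq e]

/-- the channel properties used -/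
structure Ch (Ψ : Matrix d d ℂ → Matrix e e ℂ) : Prop where
  lin : IsLinearMap ℂ Ψ
  pos2 : ∀ M : Matrix (Bool × d) (Bool × d) ℂ, M.PosSemidef → (blockwise Ψ M).PosSemidef
  tp : ∀ M, (Ψ M).trace = M.trace

def Ens (q : ι → ℝ) (ρ : ι → Matrix d d ℂ) : Prop :=
  (∀ a, 0 ≤ q a) ∧ ∑ a, q a = 1 ∧ ∀ a, IsDensity (ρ a)

noncomputable def hol (Ψ : Matrix d d ℂ → Matrix e e ℂ) (q : ι → ℝ) (ρ : ι → Matrix d d ℂ) : ℝ :=
  vnEntropy (∑ a, (q a : ℂ) • Ψ (ρ a)) - ∑ a, q a * vnEntropy (Ψ (ρ a))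

theorem toFin (Ψ : Matrix d d ℂ → Matrix e e ℂ) {q : ι → ℝ} {ρ : ι → Matrix d d ℂ} (h : Ens q ρ) :
    ∃ (m : ℕ) (q' : Fin m → ℝ) (ρ' : Fin m → Matrix d d ℂ),
      IsEnsemble q' ρ' ∧ holevoInfo Ψ q' ρ' = hol Ψ q ρ := by
  set f := (Fintype.equivFin ι).symm
  refine ⟨_, fun a => q (f a), fun a => ρ (f a), ⟨fun a => h.1 _, ?_, fun a => h.2.2 _⟩, ?_⟩
  · rw [← h.2.1]; exact f.sum_comp q
  · unfold holevoInfo hol
    rw [f.sum_comp fun a => (q a : ℂ) • Ψ (ρ a), f.sum_comp fun a => q a * vnEntropy (Ψ (ρ a))]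

theorem Ch.of_isChannel {Ψ : Matrix d d ℂ → Matrix e e ℂ} (h : IsChannel Ψ) : Ch Ψ := by
  refine ⟨h.1, fun M hM => ?_, h.2.2⟩
  have := (h.2.1 2 _ (hM.submatrix (Prod.map finTwoEquiv id))).submatrix
    (Prod.map finTwoEquiv.symm id)
  convert this using 1
  ext ⟨s, i⟩ ⟨t, j⟩
  simp only [blockwise, of_apply, submatrix_apply, Prod.map, id]
  congr 1
  ext a b
  simp [block]

theorem Ch.pos1 {Ψ : Matrix d d ℂ → Matrix e e ℂ} (h : Ch Ψ) {ρ : Matrix d d ℂ}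
    (hρ : ρ.PosSemidef) : (Ψ ρ).PosSemidef :=
  (h.pos2 _ (hρ.submatrix Prod.snd)).submatrix (fun i => (false, i))

theorem Ch.dens {Ψ : Matrix d d ℂ → Matrix e e ℂ} (h : Ch Ψ) {ρ : Matrix d d ℂ}
    (hρ : IsDensity ρ) : IsDensity (Ψ ρ) := ⟨h.pos1 hρ.1, by rw [h.tp, hρ.2]⟩

theorem lin_sum {Ψ : Matrix d d ℂ → Matrix e e ℂ} (h : IsLinearMap ℂ Ψ) (q : ι → ℝ)
    (ρ : ι → Matrix d d ℂ) : Ψ (∑ a, (q a : ℂ) • ρ a) = ∑ a, (q a : ℂ) • Ψ (ρ a) := by
  have := map_sum (IsLinearMap.mk' Ψ h) (fun a => (q a : ℂ) • ρ a) univ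
  simpa only [IsLinearMap.mk'_apply, h.map_smul] using this

theorem tensor_eq (γ ν : ℝ) (Ψ : Matrix d d ℂ → Matrix e e ℂ)
    (M : Matrix (Bool × d) (Bool × d) ℂ) :
    qubitTensor (gadMap γ ν) Ψ M = (outB γ ν (Ψ (block M false false)) (Ψ (block M false true))
      (Ψ (block M true false)) (Ψ (block M true true))).submatrix
        (Equiv.boolProdEquivSum e) (Equiv.boolProdEquivSum e) := by
  ext ⟨s, i⟩ ⟨t, j⟩
  cases s <;> cases t <;>
    simp [qubitTensor, qubitCoeff, gadMap, outB, Matrix.single, add_comm]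

theorem Ch.blocks {Ψ : Matrix d d ℂ → Matrix e e ℂ} (h : Ch Ψ)
    {M : Matrix (Bool × d) (Bool × d) ℂ} (hM : M.PosSemidef) :
    (fromBlocks (Ψ (block M false false)) (Ψ (block M false true))
      (Ψ (block M true false)) (Ψ (block M true true))).PosSemidef := by
  have := (h.pos2 M hM).submatrix (Equiv.boolProdEquivSum e).symm
  convert this using 1
  ext a b
  cases a <;> cases b <;> rfl

theorem block_psd {M : Matrix (Bool × d) (Bool × d) ℂ} (hM : M.PosSemidef) (s : Bool) :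
    (block M s s).PosSemidef := hM.submatrix (fun i => (s, i))

theorem block_trace (M : Matrix (Bool × d) (Bool × d) ℂ) :
    M.trace = (block M false false).trace + (block M true true).trace := by
  simp [Matrix.trace, Fintype.sum_prod_type, block, add_comm]

theorem block_lin (s t : Bool) :
    IsLinearMap ℂ (fun M : Matrix (Bool × d) (Bool × d) ℂ => block M s t) :=
  ⟨fun _ _ => rfl, fun _ _ => rfl⟩

theorem tensor_lin (Φ : Matrix Bool Bool ℂ → Matrix Bool Bool ℂ)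
    {Ψ : Matrix d d ℂ → Matrix e e ℂ} (h : IsLinearMap ℂ Ψ) :
    IsLinearMap ℂ (qubitTensor Φ Ψ) := by
  constructor
  · intro M N
    ext a b
    simp only [qubitTensor, of_apply, (block_lin _ _).map_add, h.map_add, Matrix.add_apply,
      mul_add, sum_add_distrib]
  · intro c M
    ext a b
    simp only [qubitTensor, of_apply, (block_lin _ _).map_smul, h.map_smul, Matrix.smul_apply,
      smul_eq_mul, mul_sum, mul_left_comm]

theorem norm_block [Nonempty d] {B : Matrix d d ℂ} (hB : B.PosSemidef) :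
    ∃ ρ, IsDensity ρ ∧ B = ((B.trace.re : ℝ) : ℂ) • ρ := by
  have h0 := trace_re_nonneg hB
  have e : ((B.trace.re : ℝ) : ℂ) = B.trace :=
    Complex.ext (by simp) (by simpa using (Complex.nonneg_iff.mp hB.trace_nonneg).2)
  rcases h0.eq_or_lt with h | h
  · have hc : (0 : ℝ) < Fintype.card d := by exact_mod_cast Fintype.card_pos
    refine ⟨(((Fintype.card d : ℝ)⁻¹ : ℝ) : ℂ) • 1, ⟨PosSemidef.one.smul ?_, ?_⟩, ?_⟩
    · exact_mod_cast (inv_pos.mpr hc).le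
    · simp
    · rw [← h, hB.trace_eq_zero_iff.mp (by rw [← e, ← h]; simp)]; simp
  · refine ⟨((B.trace.re⁻¹ : ℝ) : ℂ) • B, ⟨hB.smul ?_, ?_⟩, ?_⟩
    · exact_mod_cast (inv_pos.mpr h).le
    · rw [trace_smul, ← e, smul_eq_mul, ← Complex.ofReal_mul]; simp [h.ne']
    · rw [smul_smul, ← Complex.ofReal_mul, mul_inv_cancel₀ h.ne']; simp

variable {γ ν : ℝ} {Ψ : Matrix d d ℂ → Matrix e e ℂ}

theorem single [Nonempty d] [Nonempty e] (hγ : γ ∈ Set.Icc (0 : ℝ) 1) (hν : ν ∈ Set.Icc (0 : ℝ) 1)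
    (h : Ch Ψ) {ρ : Matrix (Bool × d) (Bool × d) ℂ} (hρ : IsDensity ρ) :
    ∃ (q : ℝ) (ρ0 ρ1 : Matrix d d ℂ), q ∈ Set.Icc (0 : ℝ) 1 ∧ IsDensity ρ0 ∧ IsDensity ρ1 ∧
      block ρ false false = ((1 - q : ℝ) : ℂ) • ρ0 ∧ block ρ true true = (q : ℂ) • ρ1 ∧
      gent γ ν q + (1 - q) * vnEntropy (Ψ ρ0) + q * vnEntropy (Ψ ρ1) ≤
        vnEntropy (qubitTensor (gadMap γ ν) Ψ ρ) := by
  obtain ⟨ρ0, d0, e0⟩ := norm_block (block_psd hρ.1 false)
  obtain ⟨ρ1, d1, e1⟩ := norm_block (block_psd hρ.1 true)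
  have t : (block ρ false false).trace.re + (block ρ true true).trace.re = 1 := by
    rw [← Complex.add_re, ← block_trace, hρ.2]; simp
  have a0 := trace_re_nonneg (block_psd hρ.1 false)
  have a1 := trace_re_nonneg (block_psd hρ.1 true)
  obtain ⟨k1, k2⟩ := star_bound hγ hν (h.blocks hρ.1) (by rw [h.tp, h.tp, t])
  rw [h.tp] at k2
  set q := (block ρ true true).trace.re
  have : (block ρ false false).trace.re = 1 - q := by linarith
  rw [this] at e0 a0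
  refine ⟨q, ρ0, ρ1, ⟨a1, by linarith⟩, d0, d1, e0, e1, ?_⟩
  rw [tensor_eq, ent_submatrix k1]
  refine le_trans (le_of_eq ?_) k2
  rw [e0, e1, h.lin.map_smul, h.lin.map_smul, hs_smul (h.pos1 d0.1) a0, hs_smul (h.pos1 d1.1) a1,
    hs_density (h.dens d0), hs_density (h.dens d1)]

theorem upper [Nonempty e] (hγ : γ ∈ Set.Icc (0 : ℝ) 1) (hν : ν ∈ Set.Icc (0 : ℝ) 1)
    (h : Ch Ψ) {ρ : Matrix (Bool × d) (Bool × d) ℂ} (hρ : IsDensity ρ) :
    vnEntropy (qubitTensor (gadMap γ ν) Ψ ρ) ≤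
      Real.binEntropy ((1 - γ) * (block ρ true true).trace.re + γ * ν) +
        vnEntropy (Ψ (block ρ false false + block ρ true true)) := by
  have t : (block ρ false false).trace.re + (block ρ true true).trace.re = 1 := by
    rw [← Complex.add_re, ← block_trace, hρ.2]; simp
  obtain ⟨k1, -⟩ := star_bound hγ hν (h.blocks hρ.1) (by rw [h.tp, h.tp, t])
  rw [tensor_eq, ent_submatrix k1]
  unfold outB at k1 ⊢
  have k2 := ent_pinch k1
  have k3 := hs_add (psd_b11 k1) (psd_b22 k1)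
  set A := Ψ (block ρ false false) with hA
  set C := Ψ (block ρ true true) with hC
  have e1 : ((1 - γ * ν : ℝ) : ℂ) • A + ((γ * (1 - ν) : ℝ) : ℂ) • C +
      (((γ * ν : ℝ) : ℂ) • A + ((1 - γ + γ * ν : ℝ) : ℂ) • C) =
      Ψ (block ρ false false + block ρ true true) := by
    rw [h.lin.map_add, ← hA, ← hC]; push_cast; module
  have hd : IsDensity (block ρ false false + block ρ true true) :=
    ⟨(block_psd hρ.1 false).add (block_psd hρ.1 true), by rw [trace_add, ← block_trace, hρ.2]⟩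
  rw [e1, hs_density (h.dens hd)] at k3
  unfold hs at k3
  have ts : ∀ (B : Matrix e e ℂ) (k : ℝ), ((k : ℂ) • B).trace.re = k * B.trace.re :=
    fun B k => by simp
  simp only [trace_add, Complex.add_re, ts, hA, hC, h.tp] at k3
  rw [Real.binEntropy_eq_negMulLog_add_negMulLog_one_sub]
  set q := (block ρ true true).trace.re
  have : (block ρ false false).trace.re = 1 - q := by linarith
  rw [this, show (1 - γ * ν) * (1 - q) + γ * (1 - ν) * q = 1 - ((1 - γ) * q + γ * ν) by ring,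
    show γ * ν * (1 - q) + (1 - γ + γ * ν) * q = (1 - γ) * q + γ * ν by ring] at k3
  linarith

theorem Ens.avg {q : ι → ℝ} {ρ : ι → Matrix d d ℂ} (h : Ens q ρ) :
    IsDensity (∑ a, (q a : ℂ) • ρ a) := by
  refine ⟨posSemidef_sum _ fun a _ => (h.2.2 a).1.smul (by exact_mod_cast h.1 a), ?_⟩
  simp only [trace_sum, trace_smul, (h.2.2 _).2, smul_eq_mul, mul_one]
  exact_mod_cast h.2.1

theorem step [Nonempty d] [Nonempty e] (hγ : γ ∈ Set.Icc (0 : ℝ) 1) (hν : ν ∈ Set.Icc (0 : ℝ) 1)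
    (h : Ch Ψ) {p : ι → ℝ} {ρ : ι → Matrix (Bool × d) (Bool × d) ℂ} (hρ : Ens p ρ) :
    ∃ (q : ι → ℝ) (p' : ι × Bool → ℝ) (ρ' : ι × Bool → Matrix d d ℂ),
      (∀ a, q a ∈ Set.Icc (0 : ℝ) 1) ∧ Ens p' ρ' ∧
      hol (qubitTensor (gadMap γ ν) Ψ) p ρ ≤
        (Real.binEntropy ((1 - γ) * (∑ a, p a * q a) + γ * ν) - ∑ a, p a * gent γ ν (q a)) +
          hol Ψ p' ρ' := by
  choose q ρ0 ρ1 hq d0 d1 e0 e1 k using fun a => single hγ hν h (hρ.2.2 a)
  refine ⟨q, fun z => p z.1 * cond z.2 (q z.1) (1 - q z.1), fun z => cond z.2 (ρ1 z.1) (ρ0 z.1),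
    hq, ⟨?_, ?_, ?_⟩, ?_⟩
  · rintro ⟨a, _ | _⟩
    · exact mul_nonneg (hρ.1 a) (by simpa using (hq a).2)
    · exact mul_nonneg (hρ.1 a) (hq a).1
  · rw [Fintype.sum_prod_type]
    exact (sum_congr rfl fun a _ => by simp; ring).trans hρ.2.1
  · rintro ⟨a, _ | _⟩
    · exact d0 a
    · exact d1 a
  · have u := upper hγ hν h hρ.avg
    rw [lin_sum (tensor_lin _ h.lin), lin_sum (block_lin true true),
      lin_sum (block_lin false false)] at u
    have t1 : (∑ a, (p a : ℂ) • block (ρ a) true true).trace.re = ∑ a, p a * q a := by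
      simp only [e1, trace_sum, trace_smul, (d1 _).2, smul_eq_mul, mul_one, ← Complex.ofReal_mul,
        ← Complex.ofReal_sum, Complex.ofReal_re]
    have t2 : Ψ (∑ a, (p a : ℂ) • block (ρ a) false false + ∑ a, (p a : ℂ) • block (ρ a) true true) =
        ∑ z : ι × Bool, ((p z.1 * cond z.2 (q z.1) (1 - q z.1) : ℝ) : ℂ) •
          Ψ (cond z.2 (ρ1 z.1) (ρ0 z.1)) := by
      rw [← lin_sum h.lin, Fintype.sum_prod_type, ← sum_add_distrib]
      congr 1
      refine sum_congr rfl fun a _ => ?_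
      rw [e0, e1, Fintype.sum_bool, smul_smul, smul_smul, add_comm]
      simp
    rw [t1, t2] at u
    have s := sum_le_sum fun a (_ : a ∈ univ) => mul_le_mul_of_nonneg_left (k a) (hρ.1 a)
    unfold hol
    have t3 : ∑ z : ι × Bool, (p z.1 * cond z.2 (q z.1) (1 - q z.1)) *
          vnEntropy (Ψ (cond z.2 (ρ1 z.1) (ρ0 z.1))) + ∑ a, p a * gent γ ν (q a) =
        ∑ a, p a * (gent γ ν (q a) + (1 - q a) * vnEntropy (Ψ (ρ0 a)) +
          q a * vnEntropy (Ψ (ρ1 a))) := by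
      rw [Fintype.sum_prod_type, ← sum_add_distrib]
      refine sum_congr rfl fun a _ => ?_
      simp only [Fintype.sum_bool, cond_true, cond_false]; ring
    linarith

theorem kraus_pos2 {J : Type*} [Fintype J] (K : J → Matrix e d ℂ)
    (hΨ : ∀ M, Ψ M = ∑ j, K j * M * (K j)ᴴ) (M : Matrix (Bool × d) (Bool × d) ℂ)
    (hM : M.PosSemidef) : (blockwise Ψ M).PosSemidef := by
  have : blockwise Ψ M = ∑ j, ((1 : Matrix Bool Bool ℂ) ⊗ₖ K j) * M *
      ((1 : Matrix Bool Bool ℂ) ⊗ₖ K j)ᴴ := by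
    ext ⟨s, i⟩ ⟨t, k⟩
    simp only [blockwise, of_apply, hΨ, Matrix.sum_apply]
    refine sum_congr rfl fun j _ => ?_
    cases s <;> cases t <;>
      simp [mul_apply, Fintype.sum_prod_type, block, one_apply]
  rw [this]
  exact posSemidef_sum _ fun j _ => hM.mul_mul_conjTranspose_same _

/-- Kraus operators -/
noncomputable def kr (γ ν : ℝ) (j : Bool × Bool) (s s' : Bool) : ℝ :=
  match j, s, s' with
  | (false, false), false, false => √(1 - ν)
  | (false, false), true, true => √(1 - ν) * √(1 - γ)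
  | (false, true), false, true => √(1 - ν) * √γ
  | (true, false), false, false => √ν * √(1 - γ)
  | (true, false), true, true => √ν
  | (true, true), true, false => √ν * √γ
  | _, _, _ => 0

theorem coeff_kraus (hγ : γ ∈ Set.Icc (0 : ℝ) 1) (hν : ν ∈ Set.Icc (0 : ℝ) 1) (s t s' t' : Bool) :
    qubitCoeff (gadMap γ ν) s t s' t' = ∑ j, ((kr γ ν j s s' : ℝ) : ℂ) * (kr γ ν j t t' : ℝ) := by
  have a1 : √γ * √γ = γ := Real.mul_self_sqrt hγ.1
  have a2 : √ν * √ν = ν := Real.mul_self_sqrt hν.1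
  have a3 : √(1 - γ) * √(1 - γ) = 1 - γ := Real.mul_self_sqrt (by linarith [hγ.2])
  have a4 : √(1 - ν) * √(1 - ν) = 1 - ν := Real.mul_self_sqrt (by linarith [hν.2])
  simp only [← Complex.ofReal_mul, ← Complex.ofReal_sum]
  cases s <;> cases t <;> cases s' <;> cases t' <;>
    simp only [qubitCoeff, gadMap, Matrix.single, of_apply, kr, Fintype.sum_prod_type,
      Fintype.sum_bool] <;> simp <;> norm_cast <;> grind

theorem gad_apply (γ ν : ℝ) (M : Matrix Bool Bool ℂ) (s t : Bool) :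
    gadMap γ ν M s t = ∑ s', ∑ t', qubitCoeff (gadMap γ ν) s t s' t' * M s' t' := by
  cases s <;> cases t <;> simp [qubitCoeff, gadMap, Matrix.single, add_comm]

theorem gad_ch (hγ : γ ∈ Set.Icc (0 : ℝ) 1) (hν : ν ∈ Set.Icc (0 : ℝ) 1) : Ch (gadMap γ ν) := by
  refine ⟨⟨fun M N => ?_, fun c M => ?_⟩,
    kraus_pos2 (fun j => Matrix.of fun s s' => ((kr γ ν j s s' : ℝ) : ℂ)) fun M => ?_, fun M => ?_⟩
  · ext s t; simp only [gad_apply, Matrix.add_apply, mul_add, sum_add_distrib]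
  · ext s t; simp only [gad_apply, Matrix.smul_apply, smul_eq_mul, mul_sum, mul_left_comm]
  · ext s t
    simp only [gad_apply, coeff_kraus hγ hν, Matrix.sum_apply, mul_apply, conjTranspose_apply,
      of_apply, Complex.star_def, Complex.conj_ofReal, sum_mul]
    rw [sum_comm]
    conv_rhs => rw [sum_comm]
    refine sum_congr rfl fun t' _ => ?_
    rw [sum_comm]
    exact sum_congr rfl fun j _ => sum_congr rfl fun s' _ => by ring
  · simp [Matrix.trace, gadMap]; ring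

theorem tensor_kron (h : IsLinearMap ℂ Ψ) (ρ1 : Matrix Bool Bool ℂ) (ρ2 : Matrix d d ℂ) :
    qubitTensor (gadMap γ ν) Ψ (ρ1 ⊗ₖ ρ2) = gadMap γ ν ρ1 ⊗ₖ Ψ ρ2 := by
  ext ⟨s, i⟩ ⟨t, j⟩
  have : ∀ s' t', block (ρ1 ⊗ₖ ρ2) s' t' = ρ1 s' t' • ρ2 := fun s' t' => rfl
  simp only [qubitTensor, of_apply, this, h.map_smul, kroneckerMap_apply, gad_apply, sum_mul,
    Matrix.smul_apply, smul_eq_mul, mul_assoc]

theorem Ens.kron {q1 : ι → ℝ} {ρ1 : ι → Matrix e e ℂ} {q2 : κ → ℝ} {ρ2 : κ → Matrix d d ℂ}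
    (h1 : Ens q1 ρ1) (h2 : Ens q2 ρ2) :
    Ens (fun z : ι × κ => q1 z.1 * q2 z.2) (fun z => ρ1 z.1 ⊗ₖ ρ2 z.2) :=
  ⟨fun z => mul_nonneg (h1.1 _) (h2.1 _), by
    rw [Fintype.sum_prod_type]; simp only [← mul_sum, h2.2.1, mul_one, h1.2.1],
    fun z => density_kron (h1.2.2 _) (h2.2.2 _)⟩

theorem Ens.map (h : Ch Ψ) {q : ι → ℝ} {ρ : ι → Matrix d d ℂ} (h1 : Ens q ρ) :
    Ens q (fun a => Ψ (ρ a)) := ⟨h1.1, h1.2.1, fun a => h.dens (h1.2.2 a)⟩

theorem hol_kron (hγ : γ ∈ Set.Icc (0 : ℝ) 1) (hν : ν ∈ Set.Icc (0 : ℝ) 1) (h : Ch Ψ)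
    {q1 : ι → ℝ} {ρ1 : ι → Matrix Bool Bool ℂ} {q2 : κ → ℝ} {ρ2 : κ → Matrix d d ℂ}
    (h1 : Ens q1 ρ1) (h2 : Ens q2 ρ2) :
    hol (qubitTensor (gadMap γ ν) Ψ) (fun z : ι × κ => q1 z.1 * q2 z.2) (fun z => ρ1 z.1 ⊗ₖ ρ2 z.2) =
      hol (gadMap γ ν) q1 ρ1 + hol Ψ q2 ρ2 := by
  have g := gad_ch hγ hν
  unfold hol
  simp only [tensor_kron h.lin]
  have e1 : ∑ z : ι × κ, ((q1 z.1 * q2 z.2 : ℝ) : ℂ) • (gadMap γ ν (ρ1 z.1) ⊗ₖ Ψ (ρ2 z.2)) =
      (∑ a, (q1 a : ℂ) • gadMap γ ν (ρ1 a)) ⊗ₖ (∑ b, (q2 b : ℂ) • Ψ (ρ2 b)) := by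
    ext ⟨s, i⟩ ⟨t, j⟩
    simp only [Matrix.sum_apply, Matrix.smul_apply, kroneckerMap_apply, smul_eq_mul,
      Fintype.sum_prod_type, sum_mul_sum, Complex.ofReal_mul]
    exact sum_congr rfl fun _ _ => sum_congr rfl fun _ _ => by ring
  rw [e1, ent_kron (h1.map g).avg (h2.map h).avg, Fintype.sum_prod_type]
  have e2 : ∀ a b, vnEntropy (gadMap γ ν (ρ1 a) ⊗ₖ Ψ (ρ2 b)) =
      vnEntropy (gadMap γ ν (ρ1 a)) + vnEntropy (Ψ (ρ2 b)) := fun a b =>
    ent_kron (g.dens (h1.2.2 a)) (h.dens (h2.2.2 b))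
  have e3 : ∀ a, ∑ b, q1 a * q2 b * (vnEntropy (gadMap γ ν (ρ1 a)) + vnEntropy (Ψ (ρ2 b))) =
      q1 a * vnEntropy (gadMap γ ν (ρ1 a)) + q1 a * ∑ b, q2 b * vnEntropy (Ψ (ρ2 b)) := by
    intro a
    have : ∀ b, q1 a * q2 b * (vnEntropy (gadMap γ ν (ρ1 a)) + vnEntropy (Ψ (ρ2 b))) =
        q1 a * vnEntropy (gadMap γ ν (ρ1 a)) * q2 b + q1 a * (q2 b * vnEntropy (Ψ (ρ2 b))) :=
      fun b => by ring
    simp only [this, sum_add_distrib, ← mul_sum, h2.2.1, mul_one]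
  simp only [e2, e3, sum_add_distrib, ← sum_mul, h1.2.1]
  ring

/-- the pure states -/
noncomputable def psi (q : ℝ) (b : Bool) : Matrix Bool Bool ℂ :=
  M2 (1 - q) q (cond b 1 (-1) * √((1 - q) * q))

theorem psi_dens {q : ℝ} (hq : q ∈ Set.Icc (0 : ℝ) 1) (b : Bool) : IsDensity (psi q b) := by
  have h1 : 0 ≤ 1 - q := by linarith [hq.2]
  refine ⟨?_, by rw [psi, M2_trace]; simp⟩
  have := M2_psd1 (√(1 - q)) (cond b 1 (-1) * √q)
  rw [Real.mul_self_sqrt h1] at this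
  convert this using 1
  rw [psi, Real.sqrt_mul h1]
  congr 1
  · cases b <;> simp [Real.mul_self_sqrt hq.1]
  · ring

theorem psi_ent (hγ : γ ∈ Set.Icc (0 : ℝ) 1) (hν : ν ∈ Set.Icc (0 : ℝ) 1) {q : ℝ}
    (hq : q ∈ Set.Icc (0 : ℝ) 1) (b : Bool) : vnEntropy (gadMap γ ν (psi q b)) = gent γ ν q := by
  have h := (gad_ch hγ hν).pos1 (psi_dens hq b).1
  rw [psi, gad_M2] at h ⊢
  rw [M2_ent h (by ring), gent]
  congr 5
  have a1 : √(1 - γ) * √(1 - γ) = 1 - γ := Real.mul_self_sqrt (by linarith [hγ.2])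
  have a2 : √((1 - q) * q) * √((1 - q) * q) = (1 - q) * q :=
    Real.mul_self_sqrt (mul_nonneg (by linarith [hq.2]) hq.1)
  have a3 : (cond b 1 (-1) : ℝ) * cond b 1 (-1) = 1 := by cases b <;> simp
  have : √(1 - γ) * (cond b 1 (-1) * √((1 - q) * q)) * (√(1 - γ) * (cond b 1 (-1) * √((1 - q) * q))) =
      (1 - γ) * ((1 - q) * q) := by
    calc _ = (√(1 - γ) * √(1 - γ)) * (cond b 1 (-1) * cond b 1 (-1)) *
          (√((1 - q) * q) * √((1 - q) * q)) := by ring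
      _ = _ := by rw [a1, a2, a3]; ring
  rw [this, vdet]; ring

theorem psi_ens (hγ : γ ∈ Set.Icc (0 : ℝ) 1) (hν : ν ∈ Set.Icc (0 : ℝ) 1) {p q : ι → ℝ}
    (hp : ∀ a, 0 ≤ p a) (hp1 : ∑ a, p a = 1) (hq : ∀ a, q a ∈ Set.Icc (0 : ℝ) 1) :
    Ens (fun z : ι × Bool => p z.1 / 2) (fun z => psi (q z.1) z.2) ∧
      hol (gadMap γ ν) (fun z : ι × Bool => p z.1 / 2) (fun z => psi (q z.1) z.2) =
        Real.binEntropy ((1 - γ) * (∑ a, p a * q a) + γ * ν) - ∑ a, p a * gent γ ν (q a) := by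
  refine ⟨⟨fun z => by have := hp z.1; positivity, ?_, fun z => psi_dens (hq _) _⟩, ?_⟩
  · rw [Fintype.sum_prod_type]
    exact (sum_congr rfl fun a _ => by simp; ring).trans hp1
  · unfold hol
    rw [← lin_sum (gad_ch hγ hν).lin]
    set Q := ∑ a, p a * q a with hQ
    have e1 : ∑ z : ι × Bool, ((p z.1 / 2 : ℝ) : ℂ) • psi (q z.1) z.2 = M2 (1 - Q) Q 0 := by
      have : ∀ a, ∑ b, ((p a / 2 : ℝ) : ℂ) • psi (q a) b = M2 (p a - p a * q a) (p a * q a) 0 := by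
        intro a
        rw [Fintype.sum_bool, psi, psi, M2_smul, M2_smul, M2_add]
        congr 1
        · ring
        · ring
        · simp
      rw [Fintype.sum_prod_type]
      simp only [this]
      ext s t
      cases s <;> cases t <;>
        simp only [Matrix.sum_apply, M2_ff, M2_ft, M2_tf, M2_tt, ← Complex.ofReal_sum,
          sum_sub_distrib, hp1, ← hQ, sum_const_zero]
    have q0 : 0 ≤ Q := sum_nonneg fun a _ => mul_nonneg (hp a) (hq a).1
    have q1 : Q ≤ 1 := by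
      rw [← hp1]; exact sum_le_sum fun a _ => mul_le_of_le_one_right (hp a) (hq a).2
    obtain ⟨g0, g1⟩ := hγ
    obtain ⟨n0, n1⟩ := hν
    have b1 : 0 ≤ 1 - γ * ν := by nlinarith
    have b2 : 0 ≤ γ * (1 - ν) := mul_nonneg g0 (by linarith)
    have b3 : 0 ≤ γ * ν := mul_nonneg g0 n0
    have b4 : 0 ≤ 1 - Q := by linarith
    have b5 : 0 ≤ 1 - γ + γ * ν := by linarith
    rw [e1, gad_M2, mul_zero, M2_ent0 (by positivity) (by positivity),
      Real.binEntropy_eq_negMulLog_add_negMulLog_one_sub, Fintype.sum_prod_type, add_comm]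
    congr 1
    · congr 2 <;> ring
    · refine sum_congr rfl fun a _ => ?_
      simp only [psi_ent ⟨g0, g1⟩ ⟨n0, n1⟩ (hq a), Fintype.sum_bool]; ring

theorem tensor_tp (h : Ch Ψ) (M : Matrix (Bool × d) (Bool × d) ℂ) :
    (qubitTensor (gadMap γ ν) Ψ M).trace = M.trace := by
  rw [block_trace M, ← h.tp, ← h.tp, block_trace]
  have e1 : block (qubitTensor (gadMap γ ν) Ψ M) false false =
      ((1 - γ * ν : ℝ) : ℂ) • Ψ (block M false false) +
        ((γ * (1 - ν) : ℝ) : ℂ) • Ψ (block M true true) := by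
    rw [tensor_eq]; rfl
  have e2 : block (qubitTensor (gadMap γ ν) Ψ M) true true =
      ((γ * ν : ℝ) : ℂ) • Ψ (block M false false) +
        ((1 - γ + γ * ν : ℝ) : ℂ) • Ψ (block M true true) := by
    rw [tensor_eq]; rfl
  rw [e1, e2]
  simp only [trace_add, trace_smul, smul_eq_mul]
  push_cast; ring

/-- splitting off the first qubit -/
def spl (n : ℕ) : Bool × (Fin n → Bool) ≃ (Fin (n + 1) → Bool) := Fin.consEquiv fun _ => Bool

theorem power_succ (Φ : Matrix Bool Bool ℂ → Matrix Bool Bool ℂ) (n : ℕ)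
    (M : Matrix (Fin (n + 1) → Bool) (Fin (n + 1) → Bool) ℂ) :
    qubitPower (n + 1) Φ M = (qubitTensor Φ (qubitPower n Φ) (M.submatrix (spl n) (spl n))).submatrix
      (spl n).symm (spl n).symm := by
  ext σ τ
  simp only [qubitPower, qubitTensor, of_apply, submatrix_apply, block]
  rw [← (spl n).sum_comp, Fintype.sum_prod_type]
  refine sum_congr rfl fun s' _ => ?_
  simp only [mul_sum]
  conv_rhs => rw [sum_comm]
  refine sum_congr rfl fun σ' _ => ?_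
  rw [← (spl n).sum_comp, Fintype.sum_prod_type]
  refine sum_congr rfl fun t' _ => sum_congr rfl fun τ' _ => ?_
  rw [Fin.prod_univ_succ, mul_assoc]
  rfl

theorem trace_sub (M : Matrix d d ℂ) (f : e ≃ d) : (M.submatrix f f).trace = M.trace :=
  f.sum_comp fun i => M i i

theorem power_zero (Φ : Matrix Bool Bool ℂ → Matrix Bool Bool ℂ)
    (M : Matrix (Fin 0 → Bool) (Fin 0 → Bool) ℂ) : qubitPower 0 Φ M = M := by
  ext σ τ
  simp only [qubitPower, of_apply, Fintype.sum_unique, univ_eq_empty, prod_empty, one_mul]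
  congr 1 <;> exact Subsingleton.elim _ _

theorem power_ch (hγ : γ ∈ Set.Icc (0 : ℝ) 1) (hν : ν ∈ Set.Icc (0 : ℝ) 1) (n : ℕ) :
    Ch (qubitPower n (gadMap γ ν)) := by
  have lin : ∀ n, IsLinearMap ℂ (qubitPower n (gadMap γ ν)) := fun n =>
    ⟨fun M N => by
      ext s t; simp only [qubitPower, of_apply, Matrix.add_apply, mul_add, sum_add_distrib],
    fun c M => by
      ext s t
      simp only [qubitPower, of_apply, Matrix.smul_apply, smul_eq_mul, mul_sum, mul_left_comm]⟩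
  have pos : ∀ n, ∀ M : Matrix (Bool × (Fin n → Bool)) (Bool × (Fin n → Bool)) ℂ, M.PosSemidef →
      (blockwise (qubitPower n (gadMap γ ν)) M).PosSemidef := fun n =>
    kraus_pos2 (fun J : Fin n → Bool × Bool => Matrix.of fun σ σ' =>
      ∏ i, ((kr γ ν (J i) (σ i) (σ' i) : ℝ) : ℂ)) fun M => by
      ext σ τ
      simp only [qubitPower, coeff_kraus hγ hν, Matrix.sum_apply, mul_apply, conjTranspose_apply,
        of_apply, Complex.star_def, map_prod, Complex.conj_ofReal, sum_mul, Fintype.prod_sum,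
        prod_mul_distrib]
      rw [sum_comm]
      conv_rhs => rw [sum_comm]
      refine sum_congr rfl fun t' _ => ?_
      rw [sum_comm]
      exact sum_congr rfl fun j _ => sum_congr rfl fun s' _ => by ring
  induction n with
  | zero => exact ⟨lin 0, pos 0, fun M => by rw [power_zero]⟩
  | succ n ih =>
    exact ⟨lin _, pos _, fun M => by rw [power_succ, trace_sub, tensor_tp ih, trace_sub]⟩

theorem dens_sub {M : Matrix d d ℂ} (h : IsDensity M) (f : e ≃ d) : IsDensity (M.submatrix f f) :=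
  ⟨h.1.submatrix f, by rw [trace_sub, h.2]⟩

theorem Ens.sub {q : ι → ℝ} {ρ : ι → Matrix d d ℂ} (h : Ens q ρ) (f : e ≃ d) :
    Ens q (fun a => (ρ a).submatrix f f) := ⟨h.1, h.2.1, fun a => dens_sub (h.2.2 a) f⟩

theorem hol_succ (hγ : γ ∈ Set.Icc (0 : ℝ) 1) (hν : ν ∈ Set.Icc (0 : ℝ) 1) (n : ℕ) {q : ι → ℝ}
    {ρ : ι → Matrix (Fin (n + 1) → Bool) (Fin (n + 1) → Bool) ℂ} (h : Ens q ρ) :
    hol (qubitPower (n + 1) (gadMap γ ν)) q ρ =
      hol (qubitTensor (gadMap γ ν) (qubitPower n (gadMap γ ν))) q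
        (fun a => (ρ a).submatrix (spl n) (spl n)) := by
  have c := power_ch hγ hν (n + 1)
  have e : ∀ M, qubitTensor (gadMap γ ν) (qubitPower n (gadMap γ ν)) (M.submatrix (spl n) (spl n)) =
      (qubitPower (n + 1) (gadMap γ ν) M).submatrix (spl n) (spl n) := fun M => by
    rw [power_succ]; simp
  unfold hol
  simp only [e, ent_submatrix (c.pos1 (h.2.2 _).1)]
  rw [← ent_submatrix (h.map c).avg.1 (spl n)]
  congr 2
  ext a b
  simp [Matrix.sum_apply]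

theorem hol_zero {q : ι → ℝ} {ρ : ι → Matrix (Fin 0 → Bool) (Fin 0 → Bool) ℂ} (h : Ens q ρ) :
    hol (qubitPower 0 (gadMap γ ν)) q ρ = 0 := by
  have e : ∀ M : Matrix (Fin 0 → Bool) (Fin 0 → Bool) ℂ, IsDensity M → vnEntropy M = 0 := by
    intro M hM
    obtain ⟨U, x, hU, hx⟩ := exists_dg hM.1
    have := hU.trace
    rw [hM.2, Fintype.sum_unique] at this
    rw [hU.ent hx, Fintype.sum_unique, ← this]; simp
  unfold hol
  simp only [power_zero, e _ h.avg, e _ (h.2.2 _)]; simp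

theorem power_upper (hγ : γ ∈ Set.Icc (0 : ℝ) 1) (hν : ν ∈ Set.Icc (0 : ℝ) 1) {R : ℝ}
    (hR : ∀ p ∈ Set.Icc (0 : ℝ) 1, gadRate γ ν p ≤ R) (n : ℕ) :
    ∀ (ι : Type) [Fintype ι] (q : ι → ℝ) (ρ : ι → Matrix (Fin n → Bool) (Fin n → Bool) ℂ),
      Ens q ρ → hol (qubitPower n (gadMap γ ν)) q ρ ≤ n * R := by
  induction n with
  | zero => intro ι _ q ρ h; rw [hol_zero h]; simp
  | succ n ih =>
    intro ι _ p ρ h
    classical
    obtain ⟨q, p', ρ', hq, he, k⟩ := step hγ hν (power_ch hγ hν n) (h.sub (spl n))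
    have k1 := ih _ p' ρ' he
    have k2 := gent_jensen hγ hν p q h.1 h.2.1 hq
    have k3 := hR (∑ a, p a * q a) ⟨sum_nonneg fun a _ => mul_nonneg (h.1 a) (hq a).1, by
      rw [← h.2.1]; exact sum_le_sum fun a _ => mul_le_of_le_one_right (h.1 a) (hq a).2⟩
    rw [gadRate_eq] at k3
    rw [hol_succ hγ hν n h]
    push_cast
    linarith

theorem power_lower (hγ : γ ∈ Set.Icc (0 : ℝ) 1) (hν : ν ∈ Set.Icc (0 : ℝ) 1) {p : ℝ}
    (hp : p ∈ Set.Icc (0 : ℝ) 1) (n : ℕ) :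
    ∃ (m : ℕ) (q : Fin m → ℝ) (ρ : Fin m → Matrix (Fin n → Bool) (Fin n → Bool) ℂ),
      IsEnsemble q ρ ∧ n * gadRate γ ν p ≤ holevoInfo (qubitPower n (gadMap γ ν)) q ρ := by
  induction n with
  | zero =>
    have h : Ens (fun _ : Fin 1 => (1 : ℝ))
        (fun _ => (1 : Matrix (Fin 0 → Bool) (Fin 0 → Bool) ℂ)) :=
      ⟨fun _ => zero_le_one, by simp, fun _ => ⟨PosSemidef.one, by simp⟩⟩
    exact ⟨1, _, _, h, by rw [Nat.cast_zero, zero_mul]; exact (hol_zero h).ge⟩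
  | succ n ih =>
    obtain ⟨m, q, ρ, h, k⟩ := ih
    have h' : Ens q ρ := h
    have k' : n * gadRate γ ν p ≤ hol (qubitPower n (gadMap γ ν)) q ρ := k
    obtain ⟨h1, k1⟩ := psi_ens hγ hν (p := fun _ : Unit => (1 : ℝ)) (q := fun _ => p)
      (fun _ => zero_le_one) (by simp) (fun _ => hp)
    have h2 := (h1.kron h').sub (spl n).symm
    obtain ⟨m', q', ρ', h3, k3⟩ := toFin (qubitPower (n + 1) (gadMap γ ν)) h2
    refine ⟨m', q', ρ', h3, ?_⟩
    rw [k3, hol_succ hγ hν n h2]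
    simp only [submatrix_submatrix, Equiv.symm_comp_self, submatrix_id_id]
    rw [hol_kron hγ hν (power_ch hγ hν n) h1 h', k1]
    simp only [Fintype.sum_unique, one_mul, ← gadRate_eq]
    push_cast
    linarith

theorem rate_max (γ ν : ℝ) : ∃ p ∈ Set.Icc (0 : ℝ) 1, ∀ p' ∈ Set.Icc (0 : ℝ) 1,
    gadRate γ ν p' ≤ gadRate γ ν p := by
  have hc : Continuous (gadRate γ ν) := by unfold gadRate; fun_prop
  obtain ⟨p, hp, h⟩ := isCompact_Icc.exists_isMaxOn (Set.nonempty_Icc.mpr zero_le_one)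
    hc.continuousOn
  exact ⟨p, hp, fun p' hp' => h hp'⟩

end Crest.Agent.H4.Gad
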