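import Mathlib

/-! Tracial states on C⋆-algebras: the 2-seminorm and basic definitions for the generator problem. -/

open scoped ComplexConjugate InnerProductSpace Topology
open Filter

namespace Crest.Agent.H4.Gen

/-- A tracial state on a unital C⋆-algebra. -/
structure TS (A : Type*) [CStarAlgebra A] where
  τ : A →ₗ[ℂ] ℂ
  one : τ 1 = 1
  star' : ∀ x, τ (star x) = conj (τ x)
  pos : ∀ x, 0 ≤ (τ (star x * x)).re
  tr : ∀ x y, τ (x * y) = τ (y * x)

variable {A : Type*} [CStarAlgebra A]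

namespace TS

variable (T : TS A)

/-- The pre-Hilbert space `L²(A, τ)` (not completed, not separated). -/
@[nolint unusedArguments]
def L2 (_T : TS A) := A

noncomputable instance : AddCommGroup T.L2 := inferInstanceAs (AddCommGroup A)
noncomputable instance : Module ℂ T.L2 := inferInstanceAs (Module ℂ A)

/-- The identity map `A → L²`. -/
noncomputable def Λ : A ≃ₗ[ℂ] T.L2 := LinearEquiv.refl ℂ _

noncomputable abbrev core : PreInnerProductSpace.Core ℂ T.L2 where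
  inner a b := T.τ (star (T.Λ.symm a) * T.Λ.symm b)
  conj_inner_symm := by
    intro x y
    rw [← T.star']; simp
  re_inner_nonneg x := T.pos _
  add_left _ _ _ := by rw [map_add, star_add, add_mul, map_add]
  smul_left := by simp [smul_mul_assoc]

noncomputable instance : SeminormedAddCommGroup T.L2 :=
  InnerProductSpace.Core.toSeminormedAddCommGroup (c := T.core)
noncomputable instance : InnerProductSpace ℂ T.L2 :=
  InnerProductSpace.ofCore T.core

lemma inner_Λ (x y : A) : ⟪T.Λ x, T.Λ y⟫_ℂ = T.τ (star x * y) := rfl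

/-- The 2-seminorm. -/
noncomputable def n2 (x : A) : ℝ := ‖T.Λ x‖

lemma n2_def (x : A) : T.n2 x = ‖T.Λ x‖ := rfl

lemma n2_nonneg (x : A) : 0 ≤ T.n2 x := norm_nonneg _

lemma n2_sq (x : A) : T.n2 x ^ 2 = (T.τ (star x * x)).re := by
  rw [n2, ← inner_Λ, ← inner_self_eq_norm_sq (𝕜 := ℂ)]; rfl

lemma τ_star_mul_self (x : A) : T.τ (star x * x) = ((T.n2 x ^ 2 : ℝ) : ℂ) := by
  rw [← inner_Λ, inner_self_eq_norm_sq_to_K, n2]; simp

@[simp] lemma n2_zero : T.n2 0 = 0 := by simp [n2]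
lemma n2_add_le (x y : A) : T.n2 (x + y) ≤ T.n2 x + T.n2 y := by
  simp only [n2, map_add]; exact norm_add_le _ _
lemma n2_sub_le (x y : A) : T.n2 (x - y) ≤ T.n2 x + T.n2 y := by
  simp only [n2, map_sub]; exact norm_sub_le _ _
lemma n2_smul (c : ℂ) (x : A) : T.n2 (c • x) = ‖c‖ * T.n2 x := by
  simp only [n2, map_smul, norm_smul]
@[simp] lemma n2_neg (x : A) : T.n2 (-x) = T.n2 x := by simp [n2]
lemma n2_sub_comm (x y : A) : T.n2 (x - y) = T.n2 (y - x) := by
  rw [← T.n2_neg, neg_sub]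
lemma n2_triangle (x y z : A) : T.n2 (x - z) ≤ T.n2 (x - y) + T.n2 (y - z) := by
  have := T.n2_add_le (x - y) (y - z); rwa [sub_add_sub_cancel] at this
lemma n2_sum_le {ι : Type*} (s : Finset ι) (f : ι → A) :
    T.n2 (∑ i ∈ s, f i) ≤ ∑ i ∈ s, T.n2 (f i) := by
  simp only [n2, map_sum]; exact norm_sum_le _ _
lemma n2_eq_dist (x y : A) : T.n2 (x - y) = dist (T.Λ x) (T.Λ y) := by
  rw [dist_eq_norm, n2, map_sub]

lemma n2_add_sq (x y : A) :
    T.n2 (x + y) ^ 2 = T.n2 x ^ 2 + 2 * (T.τ (star x * y)).re + T.n2 y ^ 2 := by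
  simp only [n2, map_add]
  rw [norm_add_sq (𝕜 := ℂ), inner_Λ]; rfl

lemma n2_sub_sq (x y : A) :
    T.n2 (x - y) ^ 2 = T.n2 x ^ 2 - 2 * (T.τ (star x * y)).re + T.n2 y ^ 2 := by
  simp only [n2, map_sub]
  rw [norm_sub_sq (𝕜 := ℂ), inner_Λ]; rfl

lemma parallelogram (x y : A) :
    T.n2 (x + y) ^ 2 + T.n2 (x - y) ^ 2 = 2 * T.n2 x ^ 2 + 2 * T.n2 y ^ 2 := by
  rw [n2_add_sq, n2_sub_sq]; ring

lemma cs (x y : A) : ‖T.τ (star x * y)‖ ≤ T.n2 x * T.n2 y := by
  rw [← inner_Λ]; exact norm_inner_le_norm _ _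

@[simp] lemma n2_star (x : A) : T.n2 (star x) = T.n2 x := by
  have h : T.n2 (star x) ^ 2 = T.n2 x ^ 2 := by
    rw [n2_sq, n2_sq, star_star, T.tr]
  exact (sq_eq_sq₀ (T.n2_nonneg _) (T.n2_nonneg _)).1 h

lemma cs' (x y : A) : ‖T.τ (x * y)‖ ≤ T.n2 x * T.n2 y := by
  have := T.cs (star x) y
  rwa [star_star, n2_star] at this

lemma tr3 (x y z : A) : T.τ (x * y * z) = T.τ (z * x * y) := by
  rw [T.tr, mul_assoc]

lemma n2_one : T.n2 1 = 1 := by
  have h : T.n2 1 ^ 2 = 1 := by rw [n2_sq]; simp [T.one]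
  nlinarith [T.n2_nonneg 1]

include T in
lemma nontrivial : Nontrivial A := by
  refine ⟨⟨1, 0, fun h => ?_⟩⟩
  have := T.one
  rw [h, map_zero] at this
  exact zero_ne_one this

lemma n2_mul_le (a x : A) : T.n2 (a * x) ≤ ‖a‖ * T.n2 x := by
  letI := CStarAlgebra.spectralOrder A
  haveI := CStarAlgebra.spectralOrderedRing A
  have h1 : star a * a ≤ algebraMap ℝ A (‖a‖ ^ 2) := CStarAlgebra.star_mul_le_algebraMap_norm_sq
  obtain ⟨b, hb⟩ := (CStarAlgebra.nonneg_iff_eq_star_mul_self).1 (sub_nonneg.2 h1)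
  have h2 : 0 ≤ (T.τ (star (b * x) * (b * x))).re := T.pos _
  have h3 : star (b * x) * (b * x) = ((‖a‖ ^ 2 : ℝ) : ℂ) • (star x * x) - star (a * x) * (a * x) := by
    rw [star_mul, mul_assoc, ← mul_assoc (star b), ← hb, star_mul, Algebra.algebraMap_eq_smul_one]
    simp only [sub_mul, mul_sub, mul_assoc, smul_mul_assoc, one_mul, mul_smul_comm]
    rw [Complex.coe_smul]
  rw [h3, map_sub, map_smul, τ_star_mul_self, τ_star_mul_self] at h2
  simp only [smul_eq_mul, ← Complex.ofReal_mul, Complex.sub_re, Complex.ofReal_re] at h2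
  have h4 : T.n2 (a * x) ^ 2 ≤ (‖a‖ * T.n2 x) ^ 2 := by nlinarith
  exact (sq_le_sq₀ (T.n2_nonneg _) (mul_nonneg (norm_nonneg _) (T.n2_nonneg _))).1 h4

lemma n2_mul_le' (x a : A) : T.n2 (x * a) ≤ T.n2 x * ‖a‖ := by
  have := T.n2_mul_le (star a) (star x)
  rw [← star_mul, n2_star, n2_star, norm_star] at this
  linarith

lemma n2_le_norm (x : A) : T.n2 x ≤ ‖x‖ := by
  have := T.n2_mul_le x 1
  rwa [mul_one, n2_one, mul_one] at this

lemma norm_τ_le_n2 (x : A) : ‖T.τ x‖ ≤ T.n2 x := by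
  have := T.cs' 1 x
  rwa [one_mul, n2_one, one_mul] at this

lemma norm_τ_le (x : A) : ‖T.τ x‖ ≤ ‖x‖ := (T.norm_τ_le_n2 x).trans (T.n2_le_norm x)

lemma continuous_τ : Continuous T.τ :=
  (T.τ.mkContinuous 1 (fun x => by simpa using T.norm_τ_le x)).continuous

lemma n2_mul3_le (a x b : A) : T.n2 (a * x * b) ≤ ‖a‖ * T.n2 x * ‖b‖ :=
  (T.n2_mul_le' _ _).trans (mul_le_mul_of_nonneg_right (T.n2_mul_le _ _) (norm_nonneg _))

lemma n2_isometry_mul {u : A} (hu : star u * u = 1) (x : A) : T.n2 (u * x) = T.n2 x := by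
  have h : T.n2 (u * x) ^ 2 = T.n2 x ^ 2 := by
    rw [n2_sq, n2_sq, star_mul, mul_assoc, ← mul_assoc (star u), hu, one_mul]
  exact (sq_eq_sq₀ (T.n2_nonneg _) (T.n2_nonneg _)).1 h

lemma n2_unitary_mul {u : A} (hu : u ∈ unitary A) (x : A) : T.n2 (u * x) = T.n2 x :=
  T.n2_isometry_mul hu.1 x

lemma n2_mul_unitary {u : A} (hu : u ∈ unitary A) (x : A) : T.n2 (x * u) = T.n2 x := by
  rw [← T.n2_star, star_mul, T.n2_isometry_mul (by rw [star_star]; exact hu.2), n2_star]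

lemma n2_unitary {u : A} (hu : u ∈ unitary A) : T.n2 u = 1 := by
  have := T.n2_unitary_mul hu 1
  rwa [mul_one, n2_one] at this

lemma τ_conj {u : A} (hu : star u * u = 1) (x : A) : T.τ (u * x * star u) = T.τ x := by
  rw [tr3, hu, one_mul]

lemma τ_smul_one (c : ℂ) : T.τ (c • (1 : A)) = c := by simp [T.one]

lemma τ_centre (x : A) : T.τ (x - T.τ x • (1 : A)) = 0 := by simp [T.one]

include T in
lemma norm_unitary {u : A} (hu : u ∈ unitary A) : ‖u‖ = 1 := by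
  haveI := T.nontrivial
  exact CStarRing.norm_of_mem_unitary hu

/-- The trace of a projection, as a real number. -/
noncomputable def t (p : A) : ℝ := (T.τ p).re

lemma n2_sq_proj {p : A} (hp : IsStarProjection p) : T.n2 p ^ 2 = T.t p := by
  rw [n2_sq, hp.isSelfAdjoint.star_eq, hp.isIdempotentElem.eq, t]

lemma τ_proj {p : A} (hp : IsStarProjection p) : T.τ p = (T.t p : ℂ) := by
  have := T.τ_star_mul_self p
  rwa [hp.isSelfAdjoint.star_eq, hp.isIdempotentElem.eq, T.n2_sq_proj hp] at this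

lemma t_nonneg {p : A} (hp : IsStarProjection p) : 0 ≤ T.t p := by
  rw [← T.n2_sq_proj hp]; positivity

lemma t_one : T.t 1 = 1 := by simp [t, T.one]
lemma t_add (p q : A) : T.t (p + q) = T.t p + T.t q := by simp [t]
lemma t_sub (p q : A) : T.t (p - q) = T.t p - T.t q := by simp [t]

lemma t_le_one {p : A} (hp : IsStarProjection p) : T.t p ≤ 1 := by
  have := T.t_nonneg hp.one_sub
  rw [t_sub, t_one] at this; linarith

lemma norm_τ_proj_mul {p : A} (hp : IsStarProjection p) (x : A) :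
    ‖T.τ (p * x)‖ ≤ T.t p * ‖x‖ := by
  have h1 : T.τ (p * x) = T.τ (p * (x * p)) := by
    rw [← mul_assoc, tr3, hp.isIdempotentElem.eq]
  rw [h1, ← T.n2_sq_proj hp]
  calc _ ≤ T.n2 p * T.n2 (x * p) := T.cs' _ _
    _ ≤ T.n2 p * (‖x‖ * T.n2 p) := mul_le_mul_of_nonneg_left (T.n2_mul_le _ _) (T.n2_nonneg _)
    _ = _ := by ring

/-- Bounded 2-norm convergence. -/
structure Conv (x : ℕ → A) (a : A) : Prop where
  bdd : ∃ C, ∀ n, ‖x n‖ ≤ C
  lim : Tendsto (fun n => T.n2 (x n - a)) atTop (𝓝 0)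

/-- Faithful and complete: `(A, τ)` is a tracial von Neumann algebra. -/
structure W : Prop where
  faithful : ∀ x, T.n2 x = 0 → x = 0
  complete : ∀ (x : ℕ → A) (C : ℝ), (∀ n, ‖x n‖ ≤ C) → CauchySeq (fun n => T.Λ (x n)) →
    ∃ a, ‖a‖ ≤ C ∧ Tendsto (fun n => T.n2 (x n - a)) atTop (𝓝 0)

/-- A subalgebra closed under bounded 2-norm limits. -/
def Cl (S : StarSubalgebra ℂ A) : Prop := ∀ x a, (∀ n, x n ∈ S) → T.Conv x a → a ∈ S

/-- 2-norm separability. -/
def Sep : Prop := ∃ D : Set A, D.Countable ∧ ∀ a, ∀ ε > 0, ∃ d ∈ D, T.n2 (a - d) < ε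

variable {T}

lemma Conv.const (a : A) : T.Conv (fun _ => a) a := ⟨⟨‖a‖, fun _ => le_rfl⟩, by simp⟩

lemma Conv.of_tendsto {x : ℕ → A} {a : A} (h : Tendsto x atTop (𝓝 a)) : T.Conv x a := by
  refine ⟨?_, ?_⟩
  · obtain ⟨C, hC⟩ := (h.norm.bddAbove_range)
    exact ⟨C, fun n => hC ⟨n, rfl⟩⟩
  · exact squeeze_zero (fun _ => T.n2_nonneg _) (fun n => T.n2_le_norm _)
      (tendsto_iff_norm_sub_tendsto_zero.1 h)

lemma Conv.add {x y : ℕ → A} {a b : A} (hx : T.Conv x a) (hy : T.Conv y b) :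
    T.Conv (fun n => x n + y n) (a + b) := by
  obtain ⟨C, hC⟩ := hx.bdd
  obtain ⟨D, hD⟩ := hy.bdd
  refine ⟨⟨C + D, fun n => (norm_add_le _ _).trans (add_le_add (hC n) (hD n))⟩, ?_⟩
  refine squeeze_zero (fun _ => T.n2_nonneg _) (fun n => ?_) (by simpa using hx.lim.add hy.lim)
  rw [add_sub_add_comm]; exact T.n2_add_le _ _

lemma Conv.smul {x : ℕ → A} {a : A} (c : ℂ) (hx : T.Conv x a) :
    T.Conv (fun n => c • x n) (c • a) := by
  obtain ⟨C, hC⟩ := hx.bdd
  refine ⟨⟨‖c‖ * C, fun n => by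
    rw [norm_smul]; exact mul_le_mul_of_nonneg_left (hC n) (norm_nonneg _)⟩, ?_⟩
  have := hx.lim.const_mul ‖c‖
  simp only [mul_zero] at this
  refine this.congr (fun n => ?_)
  rw [← smul_sub, n2_smul]

lemma Conv.neg {x : ℕ → A} {a : A} (hx : T.Conv x a) : T.Conv (fun n => -x n) (-a) := by
  simpa using hx.smul (-1)

lemma Conv.sub {x y : ℕ → A} {a b : A} (hx : T.Conv x a) (hy : T.Conv y b) :
    T.Conv (fun n => x n - y n) (a - b) := by
  simpa [sub_eq_add_neg] using hx.add hy.neg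

lemma Conv.star {x : ℕ → A} {a : A} (hx : T.Conv x a) :
    T.Conv (fun n => star (x n)) (star a) := by
  obtain ⟨C, hC⟩ := hx.bdd
  refine ⟨⟨C, fun n => by rw [norm_star]; exact hC n⟩, hx.lim.congr (fun n => ?_)⟩
  rw [← star_sub, n2_star]

lemma Conv.mul {x y : ℕ → A} {a b : A} (hx : T.Conv x a) (hy : T.Conv y b) :
    T.Conv (fun n => x n * y n) (a * b) := by
  obtain ⟨C, hC⟩ := hx.bdd
  obtain ⟨D, hD⟩ := hy.bdd
  have hC0 : 0 ≤ C := (norm_nonneg _).trans (hC 0)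
  refine ⟨⟨C * D, fun n => (norm_mul_le _ _).trans
    (mul_le_mul (hC n) (hD n) (norm_nonneg _) hC0)⟩, ?_⟩
  have h := (hy.lim.const_mul C).add (hx.lim.mul_const ‖b‖)
  simp only [mul_zero, zero_mul, add_zero] at h
  refine squeeze_zero (fun _ => T.n2_nonneg _) (fun n => ?_) h
  have e : x n * y n - a * b = x n * (y n - b) + (x n - a) * b := by noncomm_ring
  rw [e]
  refine (T.n2_add_le _ _).trans (add_le_add ?_ (T.n2_mul_le' _ _))
  exact (T.n2_mul_le _ _).trans (mul_le_mul_of_nonneg_right (hC n) (T.n2_nonneg _))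

lemma Conv.τ {x : ℕ → A} {a : A} (hx : T.Conv x a) :
    Tendsto (fun n => T.τ (x n)) atTop (𝓝 (T.τ a)) := by
  rw [tendsto_iff_norm_sub_tendsto_zero]
  refine squeeze_zero (fun _ => norm_nonneg _) (fun n => ?_) hx.lim
  rw [← map_sub]; exact T.norm_τ_le_n2 _

lemma Conv.t {x : ℕ → A} {a : A} (hx : T.Conv x a) :
    Tendsto (fun n => T.t (x n)) atTop (𝓝 (T.t a)) :=
  (Complex.continuous_re.tendsto _).comp hx.τ

lemma Conv.n2 {x : ℕ → A} {a : A} (hx : T.Conv x a) :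
    Tendsto (fun n => T.n2 (x n)) atTop (𝓝 (T.n2 a)) := by
  have : Tendsto (fun n => T.Λ (x n)) atTop (𝓝 (T.Λ a)) := by
    rw [tendsto_iff_norm_sub_tendsto_zero]
    simpa only [TS.n2, map_sub] using hx.lim
  exact this.norm

lemma Conv.unique (hW : T.W) {x : ℕ → A} {a b : A} (ha : T.Conv x a) (hb : T.Conv x b) :
    a = b := by
  have h := (ha.sub hb).n2
  simp only [sub_self, n2_zero] at h
  exact sub_eq_zero.1 (hW.faithful _ (tendsto_nhds_unique h tendsto_const_nhds))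

lemma Conv.congr {x y : ℕ → A} {a : A} (hx : T.Conv x a) (h : ∀ n, x n = y n) : T.Conv y a := by
  have : x = y := funext h
  exact this ▸ hx

/-- If two bounded-convergent sequences eventually agree, the limits agree. -/
lemma Conv.eq_of_eventually (hW : T.W) {x y : ℕ → A} {a b : A} (ha : T.Conv x a) (hb : T.Conv y b)
    (h : ∀ᶠ n in atTop, x n = y n) : a = b := by
  have h1 := (ha.sub hb).n2
  have h2 : Tendsto (fun n => T.n2 (x n - y n)) atTop (𝓝 0) :=
    tendsto_const_nhds.congr' (h.mono fun n hn => by simp [hn])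
  exact sub_eq_zero.1 (hW.faithful _ (tendsto_nhds_unique h1 h2))

lemma W.conv (hW : T.W) {x : ℕ → A} {C : ℝ} (hC : ∀ n, ‖x n‖ ≤ C)
    (h : CauchySeq (fun n => T.Λ (x n))) : ∃ a, ‖a‖ ≤ C ∧ T.Conv x a := by
  obtain ⟨a, ha, hl⟩ := hW.complete x C hC h
  exact ⟨a, ha, ⟨C, hC⟩, hl⟩

lemma Cl.isClosed {S : StarSubalgebra ℂ A} (hS : T.Cl S) : IsClosed (S : Set A) :=
  IsSeqClosed.isClosed fun x a hx ha => hS x a hx (Conv.of_tendsto ha)

lemma cl_top : T.Cl ⊤ := fun _ _ _ _ => StarSubalgebra.mem_top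

lemma W.t_pos (hW : T.W) {p : A} (hp : IsStarProjection p) (h0 : p ≠ 0) : 0 < T.t p := by
  rw [← T.n2_sq_proj hp]
  have : T.n2 p ≠ 0 := fun h => h0 (hW.faithful _ h)
  positivity

/-- Restriction of a tracial state to a closed subalgebra. -/
noncomputable def restrict (T : TS A) (S : StarSubalgebra ℂ A) [IsClosed (S : Set A)] : TS S where
  τ := T.τ ∘ₗ S.toSubalgebra.val.toLinearMap
  one := T.one
  star' x := T.star' x
  pos x := T.pos x
  tr x y := T.tr x y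

lemma restrict_τ (S : StarSubalgebra ℂ A) [IsClosed (S : Set A)] (x : S) :
    (T.restrict S).τ x = T.τ x := rfl

lemma restrict_n2 (S : StarSubalgebra ℂ A) [IsClosed (S : Set A)] (x : S) :
    (T.restrict S).n2 x = T.n2 x := rfl

lemma W.restrict (hW : T.W) {S : StarSubalgebra ℂ A} [IsClosed (S : Set A)] (hS : T.Cl S) :
    (T.restrict S).W where
  faithful x hx := Subtype.ext (hW.faithful _ hx)
  complete x C hC h := by
    have h' : CauchySeq (fun n => T.Λ (x n : A)) := by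
      rw [Metric.cauchySeq_iff] at h ⊢
      intro ε hε
      obtain ⟨N, hN⟩ := h ε hε
      refine ⟨N, fun m hm n hn => ?_⟩
      have := hN m hm n hn
      rw [← n2_eq_dist] at this ⊢
      exact this
    obtain ⟨a, ha, hc⟩ := hW.conv (x := fun n => (x n : A)) hC h'
    exact ⟨⟨a, hS _ _ (fun n => (x n).2) hc⟩, ha, hc.lim⟩

end TS

/-- Irreducibility of a subalgebra: trivial relative commutant. -/
def Irr (P : StarSubalgebra ℂ A) : Prop :=
  ∀ z : A, (∀ p ∈ P, z * p = p * z) → ∃ c : ℂ, z = c • (1 : A)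

/-- `a` or `a⋆`. -/
def sg (a : A) : Bool → A
  | true => a
  | false => star a

/-- Admissible nonempty words `a^{e₁} x₁ a^{e₂} x₂ ⋯ a^{e_k} x_k` of length `k` and first sign
`e₁`, with letters in `S`, centred at the sign changes. -/
inductive Adm (T : TS A) (a : A) (S : Set A) : ℕ → Bool → A → Prop
  | single (e : Bool) (x : A) (hx : x ∈ S) : Adm T a S 1 e (sg a e * x)
  | cons (k : ℕ) (e e' : Bool) (x w : A) (hx : x ∈ S) (hc : e ≠ e' → T.τ x = 0)
      (hw : Adm T a S k e' w) : Adm T a S (k + 1) e (sg a e * x * w)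

/-- `a` is (R-)free over the set `S`. -/
def Fr (T : TS A) (a : A) (S : Set A) : Prop :=
  ∀ k e w, ∀ x₀ ∈ S, Adm T a S k e w → T.τ (x₀ * w) = 0

/-- Popa's asymptotic freeness for the inclusion `P ⊆ A`. -/
def Popa (T : TS A) (P : StarSubalgebra ℂ A) : Prop :=
  ∀ (X : Set A), X.Finite → (∀ x ∈ X, ‖x‖ ≤ 1) → ∀ (n : ℕ), ∀ ε > 0, ∃ a ∈ P, a ∈ unitary A ∧
    ∀ k ≤ n, ∀ e w, ∀ x₀ ∈ X, Adm T a X k e w → ‖T.τ (x₀ * w)‖ ≤ ε

/-- Noncommutative ⋆-polynomials in one variable with coefficients in `P`. -/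
inductive Poly (P : StarSubalgebra ℂ A) : (A → A) → Prop
  | const (p : A) (hp : p ∈ P) : Poly P (fun _ => p)
  | id : Poly P (fun u => u)
  | star_id : Poly P (fun u => star u)
  | add (F G : A → A) (hF : Poly P F) (hG : Poly P G) : Poly P (fun u => F u + G u)
  | mul (F G : A → A) (hF : Poly P F) (hG : Poly P G) : Poly P (fun u => F u * G u)

/-- The local improvement statement. -/
def Local (T : TS A) (P : StarSubalgebra ℂ A) : Prop :=
  ∀ u ∈ unitary A, ∀ (y : A) (L : ℝ), 0 < L → ‖y‖ ≤ L → ∀ ε > 0,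
    ∃ u' ∈ unitary A, T.n2 (u' - u) < ε ∧ ∃ F, Poly P F ∧ (∀ v ∈ unitary A, F v ∈ unitary A) ∧
      T.n2 y ^ 2 / (64 * L) ≤ ‖T.τ (star y * F u')‖

/-- The ⋆-algebra generated by `P` and `v` is 2-norm dense. -/
def Dense2 (T : TS A) (P : StarSubalgebra ℂ A) (v : A) : Prop :=
  ∀ b : A, ∀ δ > 0, ∃ F, Poly P F ∧ T.n2 (b - F v) < δ

end Crest.Agent.H4.Gen
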