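import Crest.Agent.H4.GenI

/-! Range projections, maximal partial isometries. -/

open scoped ComplexConjugate InnerProductSpace Topology
open Filter

namespace Crest.Agent.H4.Gen

variable {A : Type*} [CStarAlgebra A] {T : TS A}

lemma eq_zero_of_star_mul_self {x : A} (h : star x * x = 0) : x = 0 :=
  (CStarRing.star_mul_self_eq_zero_iff x).1 h

lemma eq_zero_of_mul_star_self {x : A} (h : x * star x = 0) : x = 0 :=
  (CStarRing.mul_star_self_eq_zero_iff x).1 h

lemma spec_nonneg (V : A) : ∀ s ∈ spectrum ℝ (V * star V), 0 ≤ s := by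
  letI := CStarAlgebra.spectralOrder A
  haveI := CStarAlgebra.spectralOrderedRing A
  exact fun s hs => spectrum_nonneg_of_nonneg (mul_star_self_nonneg V) hs

lemma TS.re_τ_cfc_nonneg (T : TS A) (b : A) (g : ℝ → ℝ) (h0 : ∀ s ∈ spectrum ℝ b, 0 ≤ g s) :
    0 ≤ (T.τ (cfc g b)).re := by
  letI := CStarAlgebra.spectralOrder A
  haveI := CStarAlgebra.spectralOrderedRing A
  obtain ⟨c, hc⟩ := CStarAlgebra.nonneg_iff_eq_star_mul_self.1 (cfc_nonneg h0)
  rw [hc]; exact T.pos c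

lemma cfc_mem' {S : StarSubalgebra ℂ A} (hS : IsClosed (S : Set A)) (f : ℝ → ℝ) {a : A}
    (ha : a ∈ S) : cfc f a ∈ S :=
  cfc_mem (𝕜' := ℂ) (hs := hS) f ha

lemma TS.cauchy_of_mono (T : TS A) (x : ℕ → A) (φ : ℕ → ℝ) (hm : Monotone φ) (hb : ∀ n, φ n ≤ 1)
    (h : ∀ n m, n ≤ m → T.n2 (x m - x n) ^ 2 ≤ φ m - φ n) : CauchySeq (fun n => T.Λ (x n)) := by
  have hc : CauchySeq φ :=
    (tendsto_atTop_ciSup hm ⟨1, by rintro _ ⟨n, rfl⟩; exact hb n⟩).cauchySeq
  rw [Metric.cauchySeq_iff'] at hc ⊢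
  intro ε hε
  obtain ⟨N, hN⟩ := hc (ε ^ 2) (by positivity)
  refine ⟨N, fun n hn => ?_⟩
  rw [← T.n2_eq_dist]
  have h1 := h N n hn
  have h2 := hN n hn
  rw [Real.dist_eq] at h2
  have h3 := le_abs_self (φ n - φ N)
  exact lt_of_pow_lt_pow_left₀ 2 hε.le (by linarith)

/-- The range projection. -/
theorem exists_rp (hW : T.W) {S : StarSubalgebra ℂ A} (hS : T.Cl S) {V : A} (hV : V ∈ S) :
    ∃ r ∈ S, IsStarProjection r ∧ r * V = V ∧ (∀ y, y * V = 0 → y * r = 0) ∧
      ∀ q, IsStarProjection q → V * q = V → T.t r ≤ T.t q := by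
  haveI := T.nontrivial
  set b := V * star V with hb
  have hbs : IsSelfAdjoint b := IsSelfAdjoint.mul_star_self V
  have hsp : ∀ s ∈ spectrum ℝ b, 0 ≤ s := spec_nonneg V
  have hbS : b ∈ S := mul_mem hV (star_mem hV)
  let ε : ℕ → ℝ := fun n => 1 / ((n : ℝ) + 1)
  have hε : ∀ n, 0 < ε n := fun n => by positivity
  have hεt : Tendsto ε atTop (𝓝 0) := tendsto_one_div_add_atTop_nhds_zero_nat
  have hεa : Antitone ε := fun n m h => by
    apply one_div_le_one_div_of_le (by positivity)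
    have : (n : ℝ) ≤ m := by exact_mod_cast h
    linarith
  have hne : ∀ n, ∀ s ∈ spectrum ℝ b, s + ε n ≠ 0 := fun n s hs =>
    (add_pos_of_nonneg_of_pos (hsp s hs) (hε n)).ne'
  have hpos : ∀ n, ∀ s ∈ spectrum ℝ b, 0 < s + ε n := fun n s hs =>
    add_pos_of_nonneg_of_pos (hsp s hs) (hε n)
  have hcg : ∀ n, ContinuousOn (fun s => (s + ε n)⁻¹) (spectrum ℝ b) := fun n =>
    (continuousOn_id.add continuousOn_const).inv₀ (hne n)
  have hcf : ∀ n, ContinuousOn (fun s => s * (s + ε n)⁻¹) (spectrum ℝ b) := fun n =>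
    continuousOn_id.mul (hcg n)
  let e : ℕ → A := fun n => cfc (fun s => s * (s + ε n)⁻¹) b
  have hf01 : ∀ n, ∀ s ∈ spectrum ℝ b, 0 ≤ s * (s + ε n)⁻¹ ∧ s * (s + ε n)⁻¹ ≤ 1 := by
    intro n s hs
    refine ⟨mul_nonneg (hsp s hs) (inv_nonneg.2 (hpos n s hs).le), ?_⟩
    rw [← div_eq_mul_inv, div_le_one (hpos n s hs)]; linarith [hε n]
  have hfm : ∀ n m, n ≤ m → ∀ s ∈ spectrum ℝ b, s * (s + ε n)⁻¹ ≤ s * (s + ε m)⁻¹ := by
    intro n m h s hs
    refine mul_le_mul_of_nonneg_left ?_ (hsp s hs)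
    exact inv_anti₀ (hpos m s hs) (by linarith [hεa h])
  have he1 : ∀ n, ‖e n‖ ≤ 1 := fun n => norm_cfc_le zero_le_one fun s hs => by
    rw [Real.norm_eq_abs, abs_of_nonneg (hf01 n s hs).1]; exact (hf01 n s hs).2
  have hes : ∀ n, IsSelfAdjoint (e n) := fun n => cfc_predicate _ _
  have heb : ∀ n, e n = b * cfc (fun s => (s + ε n)⁻¹) b := fun n => by
    simp only [e]
    rw [cfc_mul _ _ b (continuousOn_id' _) (hcg n), cfc_id' ℝ b]
  have hdiff : ∀ n m, n ≤ m → T.n2 (e m - e n) ^ 2 ≤ T.t (e m) - T.t (e n) := by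
    intro n m h
    have hd : e m - e n = cfc (fun s => s * (s + ε m)⁻¹ - s * (s + ε n)⁻¹) b := by
      rw [cfc_sub _ _ b (hcf m) (hcf n)]
    have hc := (hcf m).fun_sub (hcf n)
    have h0 := T.re_τ_cfc_nonneg b (fun s => (s * (s + ε m)⁻¹ - s * (s + ε n)⁻¹) -
      (s * (s + ε m)⁻¹ - s * (s + ε n)⁻¹) * (s * (s + ε m)⁻¹ - s * (s + ε n)⁻¹)) (fun s hs => by
        have h1 := hfm n m h s hs
        have h2 := (hf01 m s hs).2
        have h3 := (hf01 n s hs).1
        nlinarith)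
    rw [cfc_sub _ _ b hc (hc.fun_mul hc), cfc_mul _ _ b hc hc, ← hd, map_sub, Complex.sub_re] at h0
    rw [T.n2_sq, ((hes m).sub (hes n)).star_eq, ← T.t_sub, TS.t]
    linarith
  have hmono : Monotone fun n => T.t (e n) := fun n m h => by
    have := hdiff n m h
    have h2 := sq_nonneg (T.n2 (e m - e n))
    simp only; linarith
  have hb1 : ∀ n, T.t (e n) ≤ 1 := fun n =>
    (Complex.re_le_norm _).trans ((T.norm_τ_le _).trans (he1 n))
  obtain ⟨r, -, hr⟩ := hW.conv he1 (T.cauchy_of_mono e _ hmono hb1 hdiff)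
  have hrV : r * V = V := by
    refine (hr.mul (TS.Conv.const V)).unique hW (TS.Conv.of_tendsto ?_)
    rw [tendsto_iff_norm_sub_tendsto_zero]
    have hsq : Tendsto (fun n => √(ε n)) atTop (𝓝 0) := by
      simpa using hεt.sqrt
    refine squeeze_zero (fun _ => norm_nonneg _) (fun n => ?_) hsq
    apply Real.le_sqrt_of_sq_le
    have h1 : e n * V - V = (e n - 1) * V := by rw [sub_mul, one_mul]
    have h2 : e n - 1 = cfc (fun s => s * (s + ε n)⁻¹ - 1) b := by
      rw [cfc_sub _ _ b (hcf n) continuousOn_const, cfc_const_one ℝ b]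
    have hc : ContinuousOn (fun s => s * (s + ε n)⁻¹ - 1) (spectrum ℝ b) :=
      (hcf n).sub continuousOn_const
    have h3 : (e n - 1) * V * star ((e n - 1) * V) =
        cfc (fun s => (s * (s + ε n)⁻¹ - 1) * s * (s * (s + ε n)⁻¹ - 1)) b := by
      rw [cfc_mul _ _ b (hc.fun_mul (continuousOn_id' _)) hc, cfc_mul _ _ b hc (continuousOn_id' _), ← h2,
        cfc_id' ℝ b, star_mul, ((hes n).sub (IsSelfAdjoint.one A)).star_eq, hb]
      simp only [mul_assoc]
    rw [h1, sq, ← CStarRing.norm_self_mul_star, h3]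
    refine norm_cfc_le (hε n).le fun s hs => ?_
    have hp := hpos n s hs
    have hs0 := hsp s hs
    have he := hε n
    have : (s * (s + ε n)⁻¹ - 1) * s * (s * (s + ε n)⁻¹ - 1) = ε n * (s * ε n / (s + ε n) ^ 2) := by
      field_simp; ring
    rw [this, Real.norm_eq_abs, abs_of_nonneg (by positivity)]
    refine mul_le_of_le_one_right he.le ?_
    rw [div_le_one (by positivity)]; nlinarith
  have hy : ∀ y, y * V = 0 → y * r = 0 := by
    intro y hy
    refine ((TS.Conv.const y).mul hr).unique hW ((TS.Conv.const 0).congr fun n => ?_)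
    rw [heb, hb, ← mul_assoc, ← mul_assoc, hy, zero_mul, zero_mul]
  have hrs : star r = r := hr.star.unique hW (hr.congr fun n => (hes n).star_eq.symm)
  have hrr : r * r = r := by
    have := hy (1 - r) (by rw [sub_mul, one_mul, hrV, sub_self])
    rw [sub_mul, one_mul, sub_eq_zero] at this
    exact this.symm
  refine ⟨r, hS _ _ (fun n => cfc_mem' hS.isClosed _ hbS) hr, ⟨hrr, hrs⟩, hrV, hy, ?_⟩
  intro q hq hVq
  refine le_of_tendsto' hr.t fun n => ?_
  have hck : ContinuousOn (fun s => (√(s + ε n))⁻¹) (spectrum ℝ b) :=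
    (continuousOn_id.add continuousOn_const).sqrt.inv₀
      (fun s hs => (Real.sqrt_pos.2 (hpos n s hs)).ne')
  set k := cfc (fun s => (√(s + ε n))⁻¹) b with hk
  have hks : IsSelfAdjoint k := cfc_predicate _ _
  have hkbk : k * b * k = e n := by
    have : k * b * k = cfc (fun s => (√(s + ε n))⁻¹ * s * (√(s + ε n))⁻¹) b := by
      rw [cfc_mul _ _ b (hck.fun_mul (continuousOn_id' _)) hck, cfc_mul _ _ b hck (continuousOn_id' _),
        cfc_id' ℝ b]
    rw [this]
    refine cfc_congr fun s hs => ?_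
    have hp := hpos n s hs
    rw [mul_assoc, mul_comm s, ← mul_assoc, ← mul_inv, Real.mul_self_sqrt hp.le, mul_comm]
  have h1 : e n = (k * V) * star (k * V) := by
    rw [← hkbk, star_mul, hks.star_eq, hb]; simp only [mul_assoc]
  have h2 : ‖k * V‖ ≤ 1 := by
    have := he1 n
    rw [h1, CStarRing.norm_self_mul_star] at this
    nlinarith [norm_nonneg (k * V)]
  have h3 : T.τ (e n) = T.τ (q * (star (k * V) * (k * V))) := by
    rw [h1, T.tr, T.tr q, mul_assoc, mul_assoc k V q, hVq]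
  rw [TS.t, h3]
  refine (Complex.re_le_norm _).trans ((T.norm_τ_proj_mul hq _).trans ?_)
  refine mul_le_of_le_one_right (T.t_nonneg hq) ?_
  rw [CStarRing.norm_star_mul_self]
  nlinarith [norm_nonneg (k * V)]

/-- A Brezis–Browder type maximality principle. -/
theorem exists_max {α : Type*} (𝒮 : Set α) (R : α → α → Prop) (φ : α → ℝ) (hne : 𝒮.Nonempty)
    (hrefl : ∀ x ∈ 𝒮, R x x) (hbd : ∀ x ∈ 𝒮, φ x ≤ 1)
    (hmono : ∀ x ∈ 𝒮, ∀ y ∈ 𝒮, R x y → φ x ≤ φ y)
    (htrans : ∀ x ∈ 𝒮, ∀ y ∈ 𝒮, ∀ z ∈ 𝒮, R x y → R y z → R x z)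
    (hup : ∀ x : ℕ → α, (∀ n, x n ∈ 𝒮) → (∀ n, R (x n) (x (n + 1))) → ∃ y ∈ 𝒮, ∀ n, R (x n) y) :
    ∃ y ∈ 𝒮, ∀ z ∈ 𝒮, R y z → φ z ≤ φ y := by
  have hstep : ∀ (n : ℕ) (x : 𝒮), ∃ y : 𝒮, R x y ∧ ∀ z ∈ 𝒮, R x z → φ z ≤ φ y + 1 / ((n : ℝ) + 1) := by
    intro n x
    have hb : BddAbove (φ '' {z | z ∈ 𝒮 ∧ R x z}) := ⟨1, by rintro _ ⟨z, hz, rfl⟩; exact hbd z hz.1⟩
    have hn : (φ '' {z | z ∈ 𝒮 ∧ R x z}).Nonempty := ⟨_, x, ⟨x.2, hrefl _ x.2⟩, rfl⟩
    obtain ⟨_, ⟨y, hy, rfl⟩, hy2⟩ := exists_lt_of_lt_csSup hn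
      (show sSup (φ '' {z | z ∈ 𝒮 ∧ R x z}) - 1 / ((n : ℝ) + 1) < _ from
        sub_lt_self _ (by positivity))
    refine ⟨⟨y, hy.1⟩, hy.2, fun z hz hxz => ?_⟩
    have := le_csSup hb ⟨z, ⟨hz, hxz⟩, rfl⟩
    simp only; linarith
  choose nx hnx using hstep
  obtain ⟨x0, hx0⟩ := hne
  let x : ℕ → 𝒮 := fun n => Nat.rec ⟨x0, hx0⟩ (fun n y => nx n y) n
  have hx : ∀ n, x (n + 1) = nx n (x n) := fun n => rfl
  obtain ⟨y, hy, hxy⟩ := hup (fun n => (x n).1) (fun n => (x n).2) (fun n => by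
    rw [hx]; exact (hnx n (x n)).1)
  refine ⟨y, hy, fun z hz hyz => ?_⟩
  have hlim : Tendsto (fun n : ℕ => φ y + 1 / ((n : ℝ) + 1)) atTop (𝓝 (φ y + 0)) :=
    tendsto_const_nhds.add tendsto_one_div_add_atTop_nhds_zero_nat
  rw [add_zero] at hlim
  refine ge_of_tendsto' hlim fun n => ?_
  have h1 := (hnx n (x n)).2 z hz (htrans _ (x n).2 _ hy _ hz (hxy n) hyz)
  have h2 := hmono _ (x (n + 1)).2 _ hy (hxy (n + 1))
  rw [hx] at h2
  linarith

lemma pi_self {v : A} (hv : IsStarProjection (star v * v)) : v * (star v * v) = v := by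
  have h := hv.isIdempotentElem.eq
  rw [← sub_eq_zero]
  apply eq_zero_of_star_mul_self
  have : star (v * (star v * v) - v) * (v * (star v * v) - v) =
      (star v * v) * (star v * v) * (star v * v) - (star v * v) * (star v * v)
        - (star v * v) * (star v * v) + star v * v := by
    simp only [star_sub, star_mul, star_star]; noncomm_ring
  rw [this, h, h]; abel

lemma pi_norm_le {v : A} (hv : IsStarProjection (star v * v)) : ‖v‖ ≤ 1 := by
  have := hv.norm_le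
  rw [CStarRing.norm_star_mul_self] at this
  nlinarith [norm_nonneg v]

lemma pi_le {v w : A} (hv : IsStarProjection (star v * v)) (hw : IsStarProjection (star w * w))
    (h : w * (star v * v) = v) : (star w * w) * (star v * v) = star v * v := by
  set p := star v * v with hp
  set q := star w * w with hq
  have h1 : p * q * p = p := by
    have : star (w * p) * (w * p) = p := by rw [h]
    rw [star_mul, hv.isSelfAdjoint.star_eq] at this
    rw [hq]; simpa only [mul_assoc] using this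
  rw [← sub_eq_zero]
  apply eq_zero_of_star_mul_self
  have : star (q * p - p) * (q * p - p) = p * (q * q) * p - p * q * p - p * q * p + p * p := by
    simp only [star_sub, star_mul, hv.isSelfAdjoint.star_eq, hw.isSelfAdjoint.star_eq]
    noncomm_ring
  rw [this, hw.isIdempotentElem.eq, hv.isIdempotentElem.eq, h1]; abel

lemma pi_n2_sub (T : TS A) {v w : A} (hv : IsStarProjection (star v * v))
    (hw : IsStarProjection (star w * w)) (h : w * (star v * v) = v) :
    T.n2 (w - v) ^ 2 = T.t (star w * w) - T.t (star v * v) := by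
  have h1 : star w * v = star v * v := by
    conv_lhs => rw [← h, ← mul_assoc, pi_le hv hw h]
  rw [T.n2_sub_sq, T.n2_sq, T.n2_sq, h1, TS.t, TS.t]; ring

/-- Existence of a maximal partial isometry in a closed family. -/
theorem exists_max_pi (hW : T.W) (𝒮 : Set A) (hne : 𝒮.Nonempty)
    (hpi : ∀ v ∈ 𝒮, IsStarProjection (star v * v))
    (hcl : ∀ x a, (∀ n, x n ∈ 𝒮) → T.Conv x a → a ∈ 𝒮) :
    ∃ v ∈ 𝒮, ∀ w ∈ 𝒮, w * (star v * v) = v → T.t (star w * w) ≤ T.t (star v * v) := by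
  have htrans : ∀ x ∈ 𝒮, ∀ y ∈ 𝒮, ∀ z ∈ 𝒮, y * (star x * x) = x → z * (star y * y) = y →
      z * (star x * x) = x := by
    intro x hx y hy z _ h1 h2
    rw [← pi_le (hpi x hx) (hpi y hy) h1, ← mul_assoc, h2, h1]
  have hmono : ∀ x ∈ 𝒮, ∀ y ∈ 𝒮, y * (star x * x) = x → T.t (star x * x) ≤ T.t (star y * y) := by
    intro x hx y hy h
    have := pi_n2_sub T (hpi x hx) (hpi y hy) h
    nlinarith [sq_nonneg (T.n2 (y - x))]
  refine exists_max 𝒮 (fun v w => w * (star v * v) = v) (fun v => T.t (star v * v)) hne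
    (fun x hx => pi_self (hpi x hx)) (fun x hx => T.t_le_one (hpi x hx)) hmono htrans ?_
  intro x hx hR
  have hR' : ∀ n m, n ≤ m → x m * (star (x n) * x n) = x n := by
    intro n m h
    induction m, h using Nat.le_induction with
    | base => exact pi_self (hpi _ (hx n))
    | succ m _ ih => exact htrans _ (hx n) _ (hx m) _ (hx (m + 1)) ih (hR m)
  obtain ⟨a, -, ha⟩ := hW.conv (fun n => pi_norm_le (hpi _ (hx n)))
    (T.cauchy_of_mono x (fun n => T.t (star (x n) * x n))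
      (fun n m h => hmono _ (hx n) _ (hx m) (hR' n m h)) (fun n => T.t_le_one (hpi _ (hx n)))
      (fun n m h => (pi_n2_sub T (hpi _ (hx n)) (hpi _ (hx m)) (hR' n m h)).le))
  refine ⟨a, hcl x a hx ha, fun n => ?_⟩
  exact (ha.mul (TS.Conv.const _)).eq_of_eventually hW (TS.Conv.const _)
    ((eventually_ge_atTop n).mono fun m hm => hR' n m hm)

end Crest.Agent.H4.Gen
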