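import Crest.Agent.H4.GenB

/-! Dixmier averaging in 2-norm, corner irreducibility. -/

open scoped ComplexConjugate InnerProductSpace Topology
open Filter

namespace Crest.Agent.H4.Gen

variable {A : Type*} [CStarAlgebra A] {T : TS A}

/-- Unitaries of `P` commuting with `f`. -/
def GU (P : StarSubalgebra ℂ A) (f : A) : Set A := {U | U ∈ P ∧ U ∈ unitary A ∧ U * f = f * U}

/-- Irreducibility of the corner `f P f ⊆ f A f`. -/
def CIrr (P : StarSubalgebra ℂ A) (f : A) : Prop :=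
  ∀ z, f * z = z → z * f = z → (∀ U ∈ GU P f, z * U = U * z) → ∃ c : ℂ, z = c • f

lemma GU.one (P : StarSubalgebra ℂ A) (f : A) : (1 : A) ∈ GU P f :=
  ⟨one_mem _, one_mem _, by simp⟩

lemma GU.mul {P : StarSubalgebra ℂ A} {f U V : A} (hU : U ∈ GU P f) (hV : V ∈ GU P f) :
    U * V ∈ GU P f :=
  ⟨mul_mem hU.1 hV.1, mul_mem hU.2.1 hV.2.1, by
    rw [mul_assoc, hV.2.2, ← mul_assoc, hU.2.2, mul_assoc]⟩

lemma GU.star_comm {P : StarSubalgebra ℂ A} {f U : A} (hf : IsStarProjection f)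
    (hU : U ∈ GU P f) : star U * f = f * star U := by
  have := congrArg star hU.2.2
  simpa [hf.isSelfAdjoint.star_eq] using this.symm

lemma GU.smul {P : StarSubalgebra ℂ A} {f U : A} (hU : U ∈ GU P f) {c : ℂ} (hc : ‖c‖ = 1) :
    c • U ∈ GU P f := by
  have h1 : conj c * c = 1 := by rw [Complex.conj_mul', hc]; simp
  refine ⟨SMulMemClass.smul_mem _ hU.1, ⟨?_, ?_⟩, by simp [hU.2.2]⟩
  · rw [star_smul, smul_mul_smul_comm, hU.2.1.1]; simp [h1]
  · rw [star_smul, smul_mul_smul_comm, hU.2.1.2]; simp [mul_comm c, h1]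

lemma commute_of_GU {P : StarSubalgebra ℂ A} (hP : IsClosed (P : Set A)) {f : A}
    (hf : IsSelfAdjoint f) {z : A} (hz : ∀ U ∈ GU P f, z * U = U * z) {p : A} (hp : p ∈ P)
    (hpf : p * f = f * p) : z * p = p * z := by
  let Q : StarSubalgebra ℂ A := P ⊓ StarSubalgebra.centralizer ℂ {f}
  haveI hQ : IsClosed (Q : Set A) := hP.inter (Set.isClosed_centralizer _)
  have hmem : ∀ x, x ∈ Q ↔ x ∈ P ∧ x * f = f * x := by
    intro x
    simp only [Q, StarSubalgebra.mem_inf, StarSubalgebra.mem_centralizer_iff, Set.mem_singleton_iff,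
      forall_eq, hf.star_eq, and_self]
    exact ⟨fun h => ⟨h.1, h.2.symm⟩, fun h => ⟨h.1, h.2.symm⟩⟩
  obtain ⟨u, c, hu, -⟩ := CStarAlgebra.exists_sum_four_unitary (⟨p, (hmem p).2 ⟨hp, hpf⟩⟩ : Q)
  have hp' : p = ∑ i, c i • ((u i : Q) : A) := by
    have := congrArg (fun x : Q => (x : A)) hu
    simpa using this
  rw [hp', Finset.mul_sum, Finset.sum_mul]
  refine Finset.sum_congr rfl fun i _ => ?_
  have h1 := (hmem _).1 (u i : Q).2
  have h2 : ((u i : Q) : A) ∈ unitary A :=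
    ⟨congrArg Subtype.val (u i).2.1, congrArg Subtype.val (u i).2.2⟩
  rw [mul_smul_comm, smul_mul_assoc, hz _ ⟨h1.1, h2, h1.2⟩]

lemma TS.n2_conj (T : TS A) {U : A} (hU : U ∈ unitary A) (x : A) :
    T.n2 (U * x * star U) = T.n2 x := by
  rw [T.n2_mul_unitary (Unitary.star_mem hU), T.n2_unitary_mul hU]

lemma norm_conj_le (T : TS A) {U : A} (hU : U ∈ unitary A) (x : A) : ‖U * x * star U‖ ≤ ‖x‖ := by
  calc _ ≤ ‖U‖ * ‖x‖ * ‖star U‖ := norm_mul₃_le
    _ = _ := by rw [norm_star, T.norm_unitary hU]; ring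

theorem DA0 (hW : T.W) {P : StarSubalgebra ℂ A} {f : A} (hf : IsStarProjection f) (hf0 : f ≠ 0)
    (hI : CIrr P f) {J : Type*} [Fintype J] (z y : J → A) (hz1 : ∀ j, f * z j = z j)
    (hz2 : ∀ j, z j * f = z j) (hz0 : ∀ j, T.τ (z j) = 0) {ε : ℝ} (hε : 0 < ε) :
    ∃ U ∈ GU P f, ∑ j, (T.τ (U * z j * star U * y j)).re < ε := by
  by_contra hcon
  push Not at hcon
  let C : Set (J → A) := {x | (∀ j, ‖x j‖ ≤ ‖z j‖ ∧ f * x j = x j ∧ x j * f = x j ∧ T.τ (x j) = 0) ∧
    ∀ U ∈ GU P f, ε ≤ ∑ j, (T.τ (U * x j * star U * y j)).re}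
  let N : (J → A) → ℝ := fun x => ∑ j, T.n2 (x j) ^ 2
  have hzC : z ∈ C := ⟨fun j => ⟨le_rfl, hz1 j, hz2 j, hz0 j⟩, hcon⟩
  have hbdd : BddBelow (N '' C) := ⟨0, by
    rintro _ ⟨x, -, rfl⟩; exact Finset.sum_nonneg fun j _ => sq_nonneg _⟩
  set m := sInf (N '' C) with hm
  have hmle : ∀ x ∈ C, m ≤ N x := fun x hx => csInf_le hbdd ⟨x, hx, rfl⟩
  have hmid : ∀ x ∈ C, ∀ x' ∈ C, (fun j => (1 / 2 : ℂ) • (x j + x' j)) ∈ C := by
    intro x hx x' hx'
    refine ⟨fun j => ⟨?_, ?_, ?_, ?_⟩, fun U hU => ?_⟩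
    · rw [norm_smul]
      have := norm_add_le (x j) (x' j)
      have h1 := (hx.1 j).1
      have h2 := (hx'.1 j).1
      norm_num; linarith
    · rw [mul_smul_comm, mul_add, (hx.1 j).2.1, (hx'.1 j).2.1]
    · rw [smul_mul_assoc, add_mul, (hx.1 j).2.2.1, (hx'.1 j).2.2.1]
    · rw [map_smul, map_add, (hx.1 j).2.2.2, (hx'.1 j).2.2.2]; simp
    · have h1 := hx.2 U hU
      have h2 := hx'.2 U hU
      have : ∀ j, (T.τ (U * ((1 / 2 : ℂ) • (x j + x' j)) * star U * y j)).re =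
          (1 / 2) * (T.τ (U * x j * star U * y j)).re
            + (1 / 2) * (T.τ (U * x' j * star U * y j)).re := by
        intro j
        simp only [mul_smul_comm, smul_mul_assoc, mul_add, add_mul, map_smul, map_add, smul_eq_mul]
        simp
      simp only [this, Finset.sum_add_distrib, ← Finset.mul_sum]
      linarith
  have hpar : ∀ x ∈ C, ∀ x' ∈ C, ∀ j, T.n2 (x j - x' j) ^ 2 ≤ 2 * (N x - m) + 2 * (N x' - m) := by
    intro x hx x' hx' j
    have h1 := hmle _ (hmid x hx x' hx')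
    have h2 : ∀ j, T.n2 (x j - x' j) ^ 2 = 2 * T.n2 (x j) ^ 2 + 2 * T.n2 (x' j) ^ 2
        - 4 * T.n2 ((1 / 2 : ℂ) • (x j + x' j)) ^ 2 := by
      intro j
      rw [T.n2_smul, ← T.parallelogram]; norm_num; ring
    have h3 : T.n2 (x j - x' j) ^ 2 ≤ ∑ j, T.n2 (x j - x' j) ^ 2 :=
      Finset.single_le_sum (f := fun j => T.n2 (x j - x' j) ^ 2) (fun _ _ => sq_nonneg _)
        (Finset.mem_univ j)
    simp only [h2, Finset.sum_sub_distrib, Finset.sum_add_distrib, ← Finset.mul_sum] at h3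
    simp only [N] at h1 ⊢
    rw [h2]; linarith
  have hinv : ∀ x ∈ C, ∀ U ∈ GU P f, (fun j => U * x j * star U) ∈ C ∧
      N (fun j => U * x j * star U) = N x := by
    intro x hx U hU
    refine ⟨⟨fun j => ⟨(norm_conj_le T hU.2.1 _).trans (hx.1 j).1, ?_, ?_, ?_⟩, fun U' hU' => ?_⟩, ?_⟩
    · rw [← mul_assoc, ← mul_assoc, ← hU.2.2, mul_assoc U f, (hx.1 j).2.1]
    · rw [mul_assoc, GU.star_comm hf hU, ← mul_assoc, mul_assoc U, (hx.1 j).2.2.1]
    · rw [T.τ_conj hU.2.1.1, (hx.1 j).2.2.2]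
    · have := hx.2 _ (GU.mul hU' hU)
      simpa only [star_mul, mul_assoc] using this
    · simp only [N, T.n2_conj hU.2.1]
  have hseq : ∀ n : ℕ, ∃ x ∈ C, N x < m + 1 / ((n : ℝ) + 1) := by
    intro n
    obtain ⟨_, ⟨x, hx, rfl⟩, h⟩ := exists_lt_of_csInf_lt (s := N '' C) ⟨_, z, hzC, rfl⟩
      (show m < m + 1 / ((n : ℝ) + 1) from lt_add_of_pos_right _ (by positivity))
    exact ⟨x, hx, h⟩
  choose x hxC hxN using hseq
  have hb0 : Tendsto (fun n : ℕ => √(4 * (1 / ((n : ℝ) + 1)))) atTop (𝓝 0) := by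
    simpa using (tendsto_one_div_add_atTop_nhds_zero_nat.const_mul (4 : ℝ)).sqrt
  have hanti : ∀ n k : ℕ, k ≤ n → 1 / ((n : ℝ) + 1) ≤ 1 / ((k : ℝ) + 1) := fun n k h => by
    apply one_div_le_one_div_of_le (by positivity)
    have : (k : ℝ) ≤ n := by exact_mod_cast h
    linarith
  have hconv : ∀ j, T.Conv (fun n => x n j) 0 := by
    intro j
    obtain ⟨a, -, ha⟩ := hW.conv (x := fun n => x n j) (fun n => ((hxC n).1 j).1)
      (cauchySeq_of_le_tendsto_0 _ (fun n k M hn hk => by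
        rw [← T.n2_eq_dist]
        apply Real.le_sqrt_of_sq_le
        have := hpar _ (hxC n) _ (hxC k) j
        have h1 := hxN n
        have h2 := hxN k
        have h3 := hanti n M hn
        have h4 := hanti k M hk
        linarith) hb0)
    have ha1 : f * a = a := ((TS.Conv.const f).mul ha).unique hW
      (ha.congr fun n => ((hxC n).1 j).2.1.symm)
    have ha2 : a * f = a := (ha.mul (TS.Conv.const f)).unique hW
      (ha.congr fun n => ((hxC n).1 j).2.2.1.symm)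
    have ha0 : T.τ a = 0 := tendsto_nhds_unique ha.τ
      (tendsto_const_nhds.congr fun n => ((hxC n).1 j).2.2.2.symm)
    have hcomm : ∀ U ∈ GU P f, a * U = U * a := by
      intro U hU
      have h1 := (ha.sub (((TS.Conv.const U).mul ha).mul (TS.Conv.const (star U)))).n2
      have h2 : Tendsto (fun n => T.n2 (x n j - U * x n j * star U)) atTop (𝓝 0) := by
        refine squeeze_zero (fun _ => T.n2_nonneg _) (fun n => ?_) hb0
        apply Real.le_sqrt_of_sq_le
        have := hpar _ (hxC n) _ (hinv _ (hxC n) U hU).1 j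
        rw [(hinv _ (hxC n) U hU).2] at this
        have h1 := hxN n
        linarith
      have h3 := sub_eq_zero.1 (hW.faithful _ (tendsto_nhds_unique h1 h2))
      conv_lhs => rw [h3, mul_assoc, hU.2.1.1, mul_one]
    obtain ⟨c, hc⟩ := hI a ha1 ha2 hcomm
    have hc0 : c = 0 := by
      rw [hc, map_smul, T.τ_proj hf, smul_eq_mul, mul_eq_zero] at ha0
      rcases ha0 with h | h
      · exact h
      · exact absurd (by exact_mod_cast h) (hW.t_pos hf hf0).ne'
    rw [hc, hc0, zero_smul] at ha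
    exact ha
  have hlim : Tendsto (fun n => ∑ j, (T.τ (x n j * y j)).re) atTop (𝓝 0) := by
    have := tendsto_finsetSum (Finset.univ : Finset J) fun j _ =>
      (Complex.continuous_re.tendsto _).comp ((hconv j).mul (TS.Conv.const (y j))).τ
    simpa using this
  have hge : ε ≤ 0 := ge_of_tendsto' hlim fun n => by
    simpa using (hxC n).2 1 (GU.one P f)
  linarith

theorem DA (hW : T.W) {P : StarSubalgebra ℂ A} {f : A} (hf : IsStarProjection f) (hf0 : f ≠ 0)
    (hI : CIrr P f) {J : Type*} [Fintype J] (z y : J → A) (hz1 : ∀ j, f * z j = z j)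
    (hz2 : ∀ j, z j * f = z j) {ε : ℝ} (hε : 0 < ε) :
    ∃ U ∈ GU P f, ∑ j, (T.τ (U * z j * star U * y j)).re <
      ∑ j, (T.τ (z j) / (T.t f : ℂ) * T.τ (f * y j)).re + ε := by
  have ht : (T.t f : ℂ) ≠ 0 := by exact_mod_cast (hW.t_pos hf hf0).ne'
  obtain ⟨U, hU, h⟩ := DA0 hW hf hf0 hI (fun j => z j - (T.τ (z j) / (T.t f : ℂ)) • f) y
    (fun j => by rw [mul_sub, hz1, mul_smul_comm, hf.isIdempotentElem.eq])
    (fun j => by rw [sub_mul, hz2, smul_mul_assoc, hf.isIdempotentElem.eq])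
    (fun j => by rw [map_sub, map_smul, T.τ_proj hf, smul_eq_mul, div_mul_cancel₀ _ ht, sub_self])
    hε
  refine ⟨U, hU, ?_⟩
  have hUf : U * f * star U = f := by rw [hU.2.2, mul_assoc, hU.2.1.2, mul_one]
  simp only [mul_sub, sub_mul, mul_smul_comm, smul_mul_assoc, hUf, map_sub, map_smul,
    Complex.sub_re, Finset.sum_sub_distrib, smul_eq_mul] at h
  linarith

lemma cirr_one {P : StarSubalgebra ℂ A} (hP : IsClosed (P : Set A)) (hI : Irr P) : CIrr P 1 :=
  fun z _ _ hz => hI z fun p hp => commute_of_GU hP (IsSelfAdjoint.one A) hz hp (by simp)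

theorem DA1 (hW : T.W) {P : StarSubalgebra ℂ A} (hP : T.Cl P) (hI : Irr P)
    {J : Type*} [Fintype J] (z y : J → A) {ε : ℝ} (hε : 0 < ε) :
    ∃ U ∈ P, U ∈ unitary A ∧ ∑ j, (T.τ (U * z j * star U * y j)).re <
      ∑ j, (T.τ (z j) * T.τ (y j)).re + ε := by
  haveI := T.nontrivial
  obtain ⟨U, hU, h⟩ := DA hW (IsStarProjection.one A) one_ne_zero (cirr_one hP.isClosed hI) z y
    (fun _ => one_mul _) (fun _ => mul_one _) hε
  refine ⟨U, hU.1, hU.2.1, ?_⟩
  simpa [T.t_one] using h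

theorem cirr (hW : T.W) {P : StarSubalgebra ℂ A} (hP : T.Cl P) (hI : Irr P) {f : A} (hfP : f ∈ P)
    (hf : IsStarProjection f) (hf0 : f ≠ 0) : CIrr P f := by
  intro z hz1 hz2 hz
  have htp := hW.t_pos hf hf0
  have ht : (T.t f : ℂ) ≠ 0 := by exact_mod_cast htp.ne'
  refine ⟨T.τ z / (T.t f : ℂ), ?_⟩
  rw [← sub_eq_zero]
  set w := z - (T.τ z / (T.t f : ℂ)) • f with hw
  have hff := hf.isIdempotentElem.eq
  have hw1 : f * w = w := by rw [hw, mul_sub, hz1, mul_smul_comm, hff]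
  have hw2 : w * f = w := by rw [hw, sub_mul, hz2, smul_mul_assoc, hff]
  have hw0 : T.τ w = 0 := by
    rw [hw, map_sub, map_smul, T.τ_proj hf, smul_eq_mul, div_mul_cancel₀ _ ht, sub_self]
  have hwc : ∀ U ∈ GU P f, w * U = U * w := by
    intro U hU
    rw [hw, sub_mul, mul_sub, hz U hU, smul_mul_assoc, mul_smul_comm, hU.2.2]
  have hw3 : star w * f = star w := by
    have := congrArg star hw1
    rwa [star_mul, hf.isSelfAdjoint.star_eq] at this
  apply hW.faithful
  by_contra hne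
  have hpos : 0 < T.t f * T.n2 w ^ 2 := by
    have := T.n2_nonneg w
    positivity
  obtain ⟨U, hUP, hU, h⟩ := DA1 hW hP hI ![w, f] ![star w, -(star w * w)] hpos
  have hc := commute_of_GU hP.isClosed hf.isSelfAdjoint hwc
    (mul_mem (mul_mem hfP hUP) hfP) (by simp only [← mul_assoc, hff]; rw [mul_assoc _ f f, hff])
  have key : star w * U * w = star w * w * U * f := by
    calc star w * U * w = (star w * f) * U * (f * w) := by rw [hw3, hw1]
      _ = star w * (f * U * f * w) := by simp only [mul_assoc]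
      _ = star w * (w * (f * U * f)) := by rw [hc]
      _ = star w * (w * f) * U * f := by simp only [mul_assoc]
      _ = _ := by rw [hw2]
  have key2 : T.τ (U * w * star U * star w) = T.τ (U * f * star U * (star w * w)) := by
    rw [T.tr, ← mul_assoc, ← mul_assoc, key, T.tr (U * f * star U)]
    simp only [mul_assoc]
  simp only [Fin.sum_univ_two, Matrix.cons_val_zero, Matrix.cons_val_one, hw0, zero_mul,
    mul_neg, map_neg, key2, T.τ_star_mul_self, T.τ_proj hf, ← Complex.ofReal_mul,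
    Complex.neg_re, Complex.ofReal_re, Complex.zero_re] at h
  linarith

end Crest.Agent.H4.Gen
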