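import Crest.Agent.H4.GenC

/-! Diffuseness, small projections, halving. -/

open scoped ComplexConjugate InnerProductSpace Topology
open Filter

namespace Crest.Agent.H4.Gen

variable {A : Type*} [CStarAlgebra A] {T : TS A}

lemma exists_orthonormal (hW : T.W) (hA : ¬ FiniteDimensional ℂ A) (k : ℕ) :
    ∃ x : Fin k → A, Orthonormal ℂ (fun i => T.Λ (x i)) := by
  have h1 : (k : Cardinal) ≤ Module.rank ℂ A := by
    rw [FiniteDimensional, ← Module.rank_lt_aleph0_iff, not_lt] at hA
    exact (Cardinal.natCast_lt_aleph0).le.trans hA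
  obtain ⟨v, hv⟩ := exists_linearIndependent_of_le_rank h1
  letI : NormedAddCommGroup T.L2 := NormedAddCommGroup.ofSeparation fun x hx => hW.faithful x hx
  have hv' : LinearIndependent ℂ (fun i => T.Λ (v i)) := hv
  exact ⟨fun i => T.Λ.symm (InnerProductSpace.gramSchmidtNormed ℂ (fun i => T.Λ (v i)) i),
    InnerProductSpace.gramSchmidtNormed_orthonormal hv'⟩

lemma not_minimal (hW : T.W) {P : StarSubalgebra ℂ A} (hP : T.Cl P) (hI : Irr P)
    (hA : ¬ FiniteDimensional ℂ A) {f : A} (hf : IsStarProjection f) (hf0 : f ≠ 0) :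
    ¬ ∀ x, ∃ c : ℂ, f * x * f = c • f := by
  intro h
  have htp := hW.t_pos hf hf0
  have ht1 := T.t_le_one hf
  obtain ⟨k, hk⟩ := exists_nat_gt (3 / T.t f ^ 2)
  rw [div_lt_iff₀ (by positivity)] at hk
  obtain ⟨x, hx⟩ := exists_orthonormal hW hA k
  have hx1 : ∀ i, T.τ (star (x i) * x i) = 1 := fun i => by
    rw [T.τ_star_mul_self, T.n2_def, hx.1 i]; simp
  obtain ⟨U, -, hU, h1⟩ := DA1 hW hP hI (fun _ : Fin k => f) (fun i => -(star (x i) * x i)) one_pos
  obtain ⟨V, -, hV, h2⟩ := DA1 hW hP hI (fun _ : Fin k => f)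
    (fun i => -(x i * (U * f * star U) * star (x i))) one_pos
  simp only [mul_neg, map_neg, hx1, T.τ_proj hf, mul_one, Complex.neg_re, Complex.ofReal_re,
    Finset.sum_neg_distrib, Finset.sum_const, Finset.card_univ, Fintype.card_fin,
    nsmul_eq_mul, Complex.re_ofReal_mul, ← Finset.mul_sum] at h1 h2
  have h3 : ∀ i, T.τ (x i * (U * f * star U) * star (x i)) =
      T.τ (U * f * star U * (star (x i) * x i)) := fun i => by
    rw [T.tr3, T.tr]
  simp only [h3] at h2
  have hff := hf.isIdempotentElem.eq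
  have hfs := hf.isSelfAdjoint.star_eq
  have h4 : ∀ i, (T.τ (V * f * star V * (x i * (U * f * star U) * star (x i)))).re =
      ‖⟪T.Λ (x i), T.Λ (V * f * star U)⟫_ℂ‖ ^ 2 / T.t f := by
    intro i
    obtain ⟨c, hc⟩ := h (star V * x i * U)
    have e1 : T.τ (V * f * star V * (x i * (U * f * star U) * star (x i))) =
        T.τ (star (f * (star V * x i * U) * f) * (f * (star V * x i * U) * f)) := by
      simp only [star_mul, star_star, hfs]
      calc _ = T.τ (V * (f * f) * star V * (x i * (U * (f * f) * star U) * star (x i))) := by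
            rw [hff]
        _ = T.τ ((V * f * f * star V * x i * U * f) * (f * star U * star (x i))) := by
            simp only [mul_assoc]
        _ = T.τ ((f * star U * star (x i)) * (V * f * f * star V * x i * U * f)) := T.tr _ _
        _ = _ := by simp only [mul_assoc]
    have e2 : ⟪T.Λ (x i), T.Λ (V * f * star U)⟫_ℂ = conj (T.τ (f * (star V * x i * U) * f)) := by
      rw [T.inner_Λ, ← T.star']
      simp only [star_mul, star_star, hfs]
      calc _ = T.τ ((star (x i) * V * f) * (f * star U)) := by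
            conv_lhs => rw [← hff]
            simp only [mul_assoc]
        _ = T.τ ((f * star U) * (star (x i) * V * f)) := T.tr _ _
        _ = _ := by simp only [mul_assoc]
    rw [e1, e2, hc, T.τ_star_mul_self, T.n2_smul, map_smul, T.τ_proj hf, Complex.ofReal_re,
      mul_pow, T.n2_sq_proj hf, RCLike.norm_conj, smul_eq_mul, norm_mul, Complex.norm_real,
      Real.norm_eq_abs, abs_of_pos htp]
    field_simp
  have h5 : ∑ i, ‖⟪T.Λ (x i), T.Λ (V * f * star U)⟫_ℂ‖ ^ 2 ≤ T.t f := by
    refine (hx.sum_inner_products_le (T.Λ (V * f * star U))).trans (le_of_eq ?_)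
    rw [← T.n2_def, T.n2_mul_unitary (Unitary.star_mem hU), T.n2_unitary_mul hV, T.n2_sq_proj hf]
  simp only [h4, ← Finset.sum_div] at h2
  have h6 : (∑ i, ‖⟪T.Λ (x i), T.Λ (V * f * star U)⟫_ℂ‖ ^ 2) / T.t f ≤ 1 := by
    rwa [div_le_one htp]
  set a := ∑ i, (T.τ (U * f * star U * (star (x i) * x i))).re
  have h7 : T.t f * (k * T.t f - 1) ≤ T.t f * a := mul_le_mul_of_nonneg_left (by linarith) htp.le
  nlinarith

lemma cfc_eq_zero_of_τ (hW : T.W) (b : A) (g : ℝ → ℝ) (h0 : ∀ s ∈ spectrum ℝ b, 0 ≤ g s)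
    (h : (T.τ (cfc g b)).re = 0) : cfc g b = 0 := by
  letI := CStarAlgebra.spectralOrder A
  haveI := CStarAlgebra.spectralOrderedRing A
  obtain ⟨c, hc⟩ := CStarAlgebra.nonneg_iff_eq_star_mul_self.1 (cfc_nonneg h0)
  rw [hc, ← T.n2_sq, pow_eq_zero_iff two_ne_zero] at h
  rw [hc, hW.faithful c h, mul_zero]

lemma sub_proj_of_sa (hW : T.W) {P : StarSubalgebra ℂ A} (hP : T.Cl P) {f b : A}
    (hb : IsSelfAdjoint b) (hbP : b ∈ P) (hfb : f * b = b) (hb0 : b ≠ 0) (hτ : (T.τ b).re = 0) :
    ∃ q ∈ P, IsStarProjection q ∧ q ≠ 0 ∧ q ≠ f ∧ f * q = q := by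
  have hc1 : ContinuousOn (fun s : ℝ => max s 0) (spectrum ℝ b) := by fun_prop
  have hc2 : ContinuousOn (fun s : ℝ => max (-s) 0) (spectrum ℝ b) := by fun_prop
  set p := cfc (fun s : ℝ => max s 0) b with hp
  set n := cfc (fun s : ℝ => max (-s) 0) b with hn
  have hps : IsSelfAdjoint p := cfc_predicate _ _
  have hns : IsSelfAdjoint n := cfc_predicate _ _
  have hpn : p - n = b := by
    rw [hp, hn, ← cfc_sub _ _ b hc1 hc2]
    conv_rhs => rw [← cfc_id' ℝ b]
    exact cfc_congr fun s _ => max_zero_sub_max_neg_zero_eq_self s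
  have hnp : n * p = 0 := by
    rw [hp, hn, ← cfc_mul _ _ b hc2 hc1, ← cfc_zero ℝ b]
    refine cfc_congr fun s _ => ?_
    rcases le_total s 0 with h | h
    · simp [max_eq_right h]
    · simp [max_eq_right (neg_nonpos.2 h)]
  have hpn0 : p * n = 0 := by
    have := congrArg star hnp
    rwa [star_mul, hps.star_eq, hns.star_eq, star_zero] at this
  have hτ' : (T.τ p).re = (T.τ n).re := by
    rw [← hpn, map_sub, Complex.sub_re] at hτ; linarith
  have hp0 : p ≠ 0 := by
    intro h
    have : n = 0 := cfc_eq_zero_of_τ hW b _ (fun s _ => le_max_right _ _) (by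
      rw [← hn, ← hτ', h]; simp)
    exact hb0 (by rw [← hpn, h, this, sub_zero])
  have hn0 : n ≠ 0 := by
    intro h
    have : p = 0 := cfc_eq_zero_of_τ hW b _ (fun s _ => le_max_right _ _) (by
      rw [← hp, hτ', h]; simp)
    exact hb0 (by rw [← hpn, h, this, sub_zero])
  have hfb' : (1 - f) * b = 0 := by rw [sub_mul, one_mul, hfb, sub_self]
  have hfp : (1 - f) * p = 0 := by
    apply eq_zero_of_mul_star_self
    have : p * p = b * p := by rw [← hpn, sub_mul, hnp, sub_zero]
    rw [star_mul, hps.star_eq, ← mul_assoc, mul_assoc _ p p, this, ← mul_assoc, hfb']; simp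
  have hfn : (1 - f) * n = 0 := by
    apply eq_zero_of_mul_star_self
    have : n * n = -(b * n) := by rw [← hpn, sub_mul, hpn0, zero_sub, neg_neg]
    rw [star_mul, hns.star_eq, ← mul_assoc, mul_assoc _ n n, this, mul_neg, ← mul_assoc, hfb']; simp
  obtain ⟨r, hrP, hr, hrp, hry, -⟩ := exists_rp hW hP (cfc_mem' hP.isClosed (fun s : ℝ => max s 0) hbP)
  refine ⟨r, hrP, hr, fun h => hp0 ?_, fun h => hn0 ?_, ?_⟩
  · rw [hp, ← hrp, h, zero_mul]
  · have h1 := hry n hnp
    have h2 : r * n = 0 := by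
      have := congrArg star h1
      rwa [star_mul, hr.isSelfAdjoint.star_eq, hns.star_eq, star_zero] at this
    rw [sub_mul, one_mul, ← h, h2, sub_zero] at hfn
    exact hfn
  · have := hry _ hfp
    rw [sub_mul, one_mul, sub_eq_zero] at this
    exact this.symm

theorem exists_sub_proj (hW : T.W) {P : StarSubalgebra ℂ A} (hP : T.Cl P) (hI : Irr P)
    (hA : ¬ FiniteDimensional ℂ A) {f : A} (hfP : f ∈ P) (hf : IsStarProjection f) (hf0 : f ≠ 0) :
    ∃ q ∈ P, IsStarProjection q ∧ q ≠ 0 ∧ q ≠ f ∧ f * q = q := by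
  by_contra hcon
  have htp := hW.t_pos hf hf0
  have hff := hf.isIdempotentElem.eq
  have hfs := hf.isSelfAdjoint.star_eq
  have hsa : ∀ b ∈ P, IsSelfAdjoint b → f * b = b → ∃ c : ℂ, b = c • f := by
    intro b hbP hb hfb
    by_contra hne
    push Not at hne
    refine hcon (sub_proj_of_sa hW hP (b := b - (((T.τ b).re / T.t f : ℝ) : ℂ) • f) ?_
      (sub_mem hbP (SMulMemClass.smul_mem _ hfP)) ?_ (sub_ne_zero.2 (hne _)) ?_)
    · rw [IsSelfAdjoint, star_sub, star_smul, hb.star_eq, hfs]; simp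
    · rw [mul_sub, hfb, mul_smul_comm, hff]
    · rw [map_sub, map_smul, T.τ_proj hf, smul_eq_mul, ← Complex.ofReal_mul, Complex.sub_re,
        Complex.ofReal_re, div_mul_cancel₀ _ htp.ne', sub_self]
  refine not_minimal hW hP hI hA hf hf0 fun x => ?_
  refine cirr hW hP hI hfP hf hf0 _ (by simp only [← mul_assoc, hff])
    (by rw [mul_assoc, hff]) fun U hU => ?_
  have hUs := GU.star_comm hf hU
  obtain ⟨c₁, h₁⟩ := hsa (f * U + f * star U)
    (add_mem (mul_mem hfP hU.1) (mul_mem hfP (star_mem hU.1)))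
    (by rw [IsSelfAdjoint, star_add, star_mul, star_mul, star_star, hfs, hUs, hU.2.2, add_comm])
    (by simp only [mul_add, ← mul_assoc, hff])
  obtain ⟨c₂, h₂⟩ := hsa (Complex.I • (f * U - f * star U))
    (SMulMemClass.smul_mem _ (sub_mem (mul_mem hfP hU.1) (mul_mem hfP (star_mem hU.1))))
    (by
      rw [IsSelfAdjoint, star_smul, star_sub, star_mul, star_mul, star_star, hfs, hUs, hU.2.2]
      simp [smul_sub]; abel)
    (by simp only [mul_smul_comm, mul_sub, ← mul_assoc, hff])
  have h3 : f * U = ((c₁ - Complex.I * c₂) / 2) • f := by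
    have : f * U = (1 / 2 : ℂ) • ((f * U + f * star U) -
        Complex.I • (Complex.I • (f * U - f * star U))) := by
      rw [smul_smul, Complex.I_mul_I]; module
    rw [this, h₁, h₂]; module
  calc f * x * f * U = f * x * (f * U) := by simp only [mul_assoc]
    _ = ((c₁ - Complex.I * c₂) / 2) • (f * x * f) := by rw [h3, mul_smul_comm]
    _ = (f * U) * x * f := by rw [h3]; simp only [smul_mul_assoc]
    _ = U * (f * x * f) := by rw [← hU.2.2]; simp only [mul_assoc]

lemma proj_sub {f q : A} (hf : IsStarProjection f) (hq : IsStarProjection q) (h : f * q = q) :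
    IsStarProjection (f - q) := by
  have h' : q * f = q := by
    have := congrArg star h
    rwa [star_mul, hf.isSelfAdjoint.star_eq, hq.isSelfAdjoint.star_eq] at this
  refine ⟨?_, hf.isSelfAdjoint.sub hq.isSelfAdjoint⟩
  rw [IsIdempotentElem, sub_mul, mul_sub, mul_sub, h, h', hf.isIdempotentElem.eq,
    hq.isIdempotentElem.eq, sub_self, sub_zero]

theorem exists_small_proj (hW : T.W) {P : StarSubalgebra ℂ A} (hP : T.Cl P) (hI : Irr P)
    (hA : ¬ FiniteDimensional ℂ A) {f : A} (hfP : f ∈ P) (hf : IsStarProjection f) (hf0 : f ≠ 0)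
    {δ : ℝ} (hδ : 0 < δ) :
    ∃ q ∈ P, IsStarProjection q ∧ q ≠ 0 ∧ f * q = q ∧ T.t q ≤ δ := by
  have key : ∀ n : ℕ, ∃ q ∈ P, IsStarProjection q ∧ q ≠ 0 ∧ f * q = q ∧ T.t q ≤ (1 / 2) ^ n := by
    intro n
    induction n with
    | zero => exact ⟨f, hfP, hf, hf0, hf.isIdempotentElem.eq, by simpa using T.t_le_one hf⟩
    | succ n ih =>
      obtain ⟨e, heP, he, he0, hfe, het⟩ := ih
      obtain ⟨q, hqP, hq, hq0, hqe, heq⟩ := exists_sub_proj hW hP hI hA heP he he0
      have hfq : f * q = q := by rw [← heq, ← mul_assoc, hfe]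
      by_cases h : T.t q ≤ T.t e / 2
      · exact ⟨q, hqP, hq, hq0, hfq, by rw [pow_succ]; linarith⟩
      · refine ⟨e - q, sub_mem heP hqP, proj_sub he hq heq, sub_ne_zero.2 hqe.symm,
          by rw [mul_sub, hfe, hfq], ?_⟩
        rw [T.t_sub, pow_succ]; linarith
  obtain ⟨n, hn⟩ := exists_pow_lt_of_lt_one hδ (show (1 / 2 : ℝ) < 1 by norm_num)
  obtain ⟨q, h1, h2, h3, h4, h5⟩ := key n
  exact ⟨q, h1, h2, h3, h4, h5.trans hn.le⟩

/-- A nonzero partial isometry under a nonzero element. -/
theorem exists_pi (hW : T.W) {y : A} (hy : y ≠ 0) :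
    ∃ w, w ≠ 0 ∧ IsStarProjection (star w * w) ∧ (∀ l, l * y = 0 → l * w = 0) ∧
      ∀ r, y * r = 0 → w * r = 0 := by
  set a := star y * y with ha
  have has : IsSelfAdjoint a := IsSelfAdjoint.star_mul_self y
  have hsp : ∀ s ∈ spectrum ℝ a, 0 ≤ s := by
    have := spec_nonneg (star y); rwa [star_star] at this
  have ha0 : 0 < ‖a‖ := norm_pos_iff.2 fun h => hy (eq_zero_of_star_mul_self h)
  set c := ‖a‖ / 2 with hc
  have hc0 : 0 < c := by positivity
  have hm : ∀ s : ℝ, 0 < max s c := fun s => lt_max_of_lt_right hc0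
  have hcd : ContinuousOn (fun s : ℝ => max (s - c) 0) (spectrum ℝ a) := by fun_prop
  have hcg : ContinuousOn (fun s : ℝ => (√(max s c))⁻¹) (spectrum ℝ a) :=
    ContinuousOn.inv₀ (by fun_prop) fun s _ => (Real.sqrt_pos.2 (hm s)).ne'
  have hch : ContinuousOn (fun s : ℝ => max (s - c) 0 * (max s c)⁻¹) (spectrum ℝ a) :=
    hcd.fun_mul (ContinuousOn.inv₀ (by fun_prop) fun s _ => (hm s).ne')
  set d := cfc (fun s : ℝ => max (s - c) 0) a with hd
  set g := cfc (fun s : ℝ => (√(max s c))⁻¹) a with hg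
  have hgs : IsSelfAdjoint g := cfc_predicate _ _
  have hd0 : d ≠ 0 := by
    intro h
    rw [hd, ← cfc_zero ℝ a] at h
    have h1 := eqOn_of_cfc_eq_cfc h hcd continuousOn_const has
    have h2 : ‖cfc (fun s : ℝ => s) a‖ ≤ c := norm_cfc_le hc0.le fun s hs => by
      have h3 : max (s - c) 0 = 0 := h1 hs
      rw [Real.norm_eq_abs, abs_of_nonneg (hsp s hs)]
      have := le_max_left (s - c) 0
      linarith
    rw [cfc_id' ℝ a] at h2
    linarith
  have hda : d = a * cfc (fun s : ℝ => max (s - c) 0 * (max s c)⁻¹) a := by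
    have : a * cfc (fun s : ℝ => max (s - c) 0 * (max s c)⁻¹) a =
        cfc (fun s : ℝ => s * (max (s - c) 0 * (max s c)⁻¹)) a := by
      rw [cfc_mul _ _ a (continuousOn_id' _) hch, cfc_id' ℝ a]
    rw [this]
    refine cfc_congr fun s _ => ?_
    rcases le_total s c with h | h
    · simp [max_eq_right (sub_nonpos.2 h)]
    · have : s ≠ 0 := (hc0.trans_le h).ne'
      simp only [max_eq_left h]; field_simp
  have hgd : (g * a * g - 1) * d = 0 := by
    have : (g * a * g - 1) * d = cfc (fun s : ℝ => ((√(max s c))⁻¹ * s * (√(max s c))⁻¹ - 1) *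
        max (s - c) 0) a := by
      have h1 := hcg.fun_mul (continuousOn_id' _)
      have h2 := h1.fun_mul hcg
      rw [cfc_mul _ _ a (h2.fun_sub continuousOn_const) hcd, cfc_sub _ _ a h2 continuousOn_const,
        cfc_mul _ _ a h1 hcg, cfc_mul _ _ a hcg (continuousOn_id' _), cfc_id' ℝ a,
        cfc_const_one ℝ a]
    rw [this, ← cfc_zero ℝ a]
    refine cfc_congr fun s _ => ?_
    rcases le_total s c with h | h
    · simp [max_eq_right (sub_nonpos.2 h)]
    · have hs : 0 < s := hc0.trans_le h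
      have : (√s)⁻¹ * s * (√s)⁻¹ = 1 := by
        rw [mul_assoc, mul_comm s, ← mul_assoc, ← mul_inv, Real.mul_self_sqrt hs.le,
          inv_mul_cancel₀ hs.ne']
      simp [max_eq_left h, this]
  obtain ⟨q, -, hq, hqd, hqy, -⟩ := exists_rp hW TS.cl_top (StarSubalgebra.mem_top (x := d))
  have hww : star (y * g * q) * (y * g * q) = q := by
    have h1 := hqy _ hgd
    rw [sub_mul, one_mul, sub_eq_zero] at h1
    rw [star_mul, star_mul, hq.isSelfAdjoint.star_eq, hgs.star_eq]
    calc _ = q * (g * a * g * q) := by rw [ha]; simp only [mul_assoc]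
      _ = q := by rw [h1, hq.isIdempotentElem.eq]
  refine ⟨y * g * q, fun h => hd0 ?_, by rw [hww]; exact hq, fun l hl => ?_, fun r hr => ?_⟩
  · rw [h, mul_zero] at hww
    rw [← hqd, ← hww, zero_mul]
  · rw [← mul_assoc, ← mul_assoc, hl, zero_mul, zero_mul]
  · have h1 : star r * star y = 0 := by rw [← star_mul, hr, star_zero]
    have h2 := hqy (star r) (by rw [hda, ha, ← mul_assoc, ← mul_assoc, h1, zero_mul, zero_mul])
    have h3 : q * r = 0 := by
      have := congrArg star h2
      rwa [star_mul, star_star, hq.isSelfAdjoint.star_eq, star_zero] at this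
    rw [mul_assoc, h3, mul_zero]

lemma pi_star {v : A} (hv : IsStarProjection (star v * v)) : IsStarProjection (v * star v) := by
  refine ⟨?_, IsSelfAdjoint.mul_star_self v⟩
  rw [IsIdempotentElem, ← mul_assoc, mul_assoc v, pi_self hv]

lemma TS.Conv.proj (hW : T.W) {x : ℕ → A} {a : A} (hx : T.Conv x a)
    (h : ∀ n, IsStarProjection (x n)) : IsStarProjection a :=
  ⟨(hx.mul hx).unique hW (hx.congr fun n => (h n).isIdempotentElem.eq.symm),
    hx.star.unique hW (hx.congr fun n => (h n).isSelfAdjoint.star_eq.symm)⟩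

theorem halvStmt : HalvStmt := by
  intro A _ T hW hI hA
  obtain ⟨v, ⟨hv, hvv⟩, hmax⟩ := exists_max_pi hW {v | IsStarProjection (star v * v) ∧ v * v = 0}
    ⟨0, by simpa using IsStarProjection.zero A, by simp⟩ (fun v hv => hv.1)
    (fun x a hx ha => ⟨(ha.star.mul ha).proj hW fun n => (hx n).1,
      (ha.mul ha).unique hW ((TS.Conv.const 0).congr fun n => (hx n).2.symm)⟩)
  refine ⟨v, hvv, ?_⟩
  by_contra hne
  have hv' := pi_star hv
  have hss : star v * star v = 0 := by rw [← star_mul, hvv, star_zero]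
  have hvs : v * (star v * v) = v := pi_self hv
  have hsv : star v * (v * star v) = star v := by
    have := congrArg star hvs
    simpa only [star_mul, star_star, mul_assoc] using this
  have hpp : IsStarProjection (star v * v + v * star v) := by
    refine ⟨?_, hv.isSelfAdjoint.add hv'.isSelfAdjoint⟩
    rw [IsIdempotentElem, add_mul, mul_add, mul_add, hv.isIdempotentElem.eq,
      hv'.isIdempotentElem.eq]
    have h1 : star v * v * (v * star v) = 0 := by
      rw [mul_assoc, ← mul_assoc v v, hvv]; simp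
    have h2 : v * star v * (star v * v) = 0 := by
      rw [mul_assoc, ← mul_assoc (star v), hss]; simp
    rw [h1, h2]; simp
  set e := 1 - (star v * v + v * star v) with he
  have hep : IsStarProjection e := hpp.one_sub
  have he0 : e ≠ 0 := sub_ne_zero.2 (Ne.symm hne)
  have hve : v * e = 0 := by
    rw [he, mul_sub, mul_add, hvs, ← mul_assoc, hvv]; simp
  have hev : e * v = 0 := by
    rw [he, sub_mul, add_mul, mul_assoc, hvv, mul_assoc, hvs]; simp
  have hse : star v * e = 0 := by
    have := congrArg star hev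
    rwa [star_mul, hep.isSelfAdjoint.star_eq, star_zero] at this
  have hes : e * star v = 0 := by
    have := congrArg star hve
    rwa [star_mul, hep.isSelfAdjoint.star_eq, star_zero] at this
  obtain ⟨q, -, hq, hq0, hqe, heq⟩ := exists_sub_proj hW TS.cl_top hI hA StarSubalgebra.mem_top hep he0
  have hqe' : q * e = q := by
    have := congrArg star heq
    rwa [star_mul, hep.isSelfAdjoint.star_eq, hq.isSelfAdjoint.star_eq] at this
  have hq' := proj_sub hep hq heq
  have hq'0 : e - q ≠ 0 := sub_ne_zero.2 hqe.symm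
  have hpos := mul_pos (hW.t_pos hq hq0) (hW.t_pos hq' hq'0)
  obtain ⟨U, -, -, hU⟩ := DA1 hW TS.cl_top hI (fun _ : Unit => q) (fun _ => -(e - q)) hpos
  have hy : (e - q) * U * q ≠ 0 := by
    intro h
    have : T.τ (U * q * star U * (e - q)) = 0 := by
      rw [T.tr, ← mul_assoc, ← mul_assoc, h]; simp
    simp only [Finset.univ_unique, Finset.sum_singleton, mul_neg, map_neg, this, T.τ_proj hq,
      T.τ_proj hq', ← Complex.ofReal_mul, Complex.neg_re, Complex.ofReal_re] at hU
    simp at hU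
  obtain ⟨w, hw0, hw, hwl, hwr⟩ := exists_pi hW hy
  have hl : ∀ l, l * (e - q) = 0 → l * w = 0 := fun l h =>
    hwl l (by rw [← mul_assoc, ← mul_assoc, h]; simp)
  have hr : ∀ r, q * r = 0 → w * r = 0 := fun r h => hwr r (by rw [mul_assoc, h]; simp)
  have hle : ∀ l, l * e = 0 → l * w = 0 := fun l h =>
    hl l (by rw [← heq, mul_sub, ← mul_assoc, h]; simp)
  have hre : ∀ r, e * r = 0 → w * r = 0 := fun r h => hr r (by rw [← hqe', mul_assoc, h]; simp)
  have h1 : v * w = 0 := hle v hve
  have h2 : star v * w = 0 := hle _ hse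
  have h3 : w * v = 0 := hre v hev
  have h4 : w * star v = 0 := hre _ hes
  have h5 : w * w = 0 := hr w (hl q (by rw [mul_sub, hqe', hq.isIdempotentElem.eq, sub_self]))
  have h6 : star w * v = 0 := by
    have := congrArg star h2
    rwa [star_mul, star_star, star_zero] at this
  have h7 : v * star w = 0 := by
    have := congrArg star h4
    rwa [star_mul, star_star, star_zero] at this
  have h8 : star (v + w) * (v + w) = star v * v + star w * w := by
    rw [star_add, add_mul, mul_add, mul_add, h2, h6]; simp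
  have h9 : IsStarProjection (star (v + w) * (v + w)) := by
    rw [h8]
    refine ⟨?_, hv.isSelfAdjoint.add hw.isSelfAdjoint⟩
    rw [IsIdempotentElem, add_mul, mul_add, mul_add, hv.isIdempotentElem.eq,
      hw.isIdempotentElem.eq, mul_assoc, ← mul_assoc v, h7, mul_assoc (star w), ← mul_assoc w, h4]
    simp
  have := hmax (v + w) ⟨h9, by rw [add_mul, mul_add, mul_add, hvv, h1, h3, h5]; simp⟩
    (by rw [add_mul, hvs, ← mul_assoc, h4]; simp)
  rw [h8, T.t_add] at this
  have hpos' := hW.t_pos hw fun h => hw0 (eq_zero_of_star_mul_self h)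
  linarith

end Crest.Agent.H4.Gen
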