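import Crest.Agent.H4.GenD

/-! Local quantisation. -/

open scoped ComplexConjugate InnerProductSpace Topology
open Filter

namespace Crest.Agent.H4.Gen

variable {A : Type*} [CStarAlgebra A] {T : TS A}

lemma le_of_sq_le_sq' {a b : ℝ} (hb : 0 ≤ b) (h : a ^ 2 ≤ b ^ 2) : a ≤ b :=
  (le_abs_self a).trans (abs_le_of_sq_le_sq' h hb |>.2 |> fun _ => abs_le_of_sq_le_sq h hb)

lemma norm_c_le (hW : T.W) {f : A} (hf : IsStarProjection f) (hf0 : f ≠ 0) (y : A) :
    ‖T.τ (f * y) / (T.t f : ℂ)‖ ≤ ‖y‖ := by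
  have htp := hW.t_pos hf hf0
  rw [norm_div, Complex.norm_real, Real.norm_eq_abs, abs_of_pos htp, div_le_iff₀ htp, mul_comm]
  exact T.norm_τ_proj_mul hf y

lemma lq_step (hW : T.W) {P : StarSubalgebra ℂ A} {f : A} (hf : IsStarProjection f) (hf0 : f ≠ 0)
    (hI : CIrr P f) {J : Type*} [Fintype J] (y : J → A) (hy : ∀ j, ‖y j‖ ≤ 1)
    {q : A} (hqP : q ∈ P) (hq : IsStarProjection q) (hq0 : q ≠ 0) (hfq : f * q = q) (m : ℕ)
    (hm : (m : ℝ) ^ 2 * T.t q ≤ T.t f) (k : ℕ) (hk : k ≤ m) :
    ∃ V ∈ P, f * V = V ∧ V * q = V ∧ T.n2 V ≤ k * T.n2 q ∧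
      ∑ j, T.n2 (star V * y j * V - ((k : ℂ) * (T.τ (f * y j) / (T.t f : ℂ))) • q) ^ 2 ≤
        k * ((8 * Fintype.card J + 1) * T.t q) := by
  classical
  have htp := hW.t_pos hf hf0
  have htq := hW.t_pos hq hq0
  have hqq := hq.isIdempotentElem.eq
  have hqs := hq.isSelfAdjoint.star_eq
  have hfs := hf.isSelfAdjoint.star_eq
  have hqf : q * f = q := by
    have := congrArg star hfq
    rwa [star_mul, hfs, hqs] at this
  induction k with
  | zero => exact ⟨0, zero_mem _, by simp, by simp, by simp, by simp⟩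
  | succ k ih =>
    obtain ⟨V, hVP, hfV, hVq, hV2, hS⟩ := ih (Nat.le_of_succ_le hk)
    set c : J → ℂ := fun j => T.τ (f * y j) / (T.t f : ℂ) with hc
    have hc1 : ∀ j, ‖c j‖ ≤ 1 := fun j => (norm_c_le hW hf hf0 _).trans (hy j)
    set S : J → A := fun j => star V * y j * V - ((k : ℂ) * c j) • q with hSdef
    have hqV : q * star V = star V := by
      have := congrArg star hVq
      rwa [star_mul, hqs] at this
    have hSq : ∀ j, S j * q = S j := fun j => by
      simp only [hSdef, sub_mul, smul_mul_assoc, mul_assoc, hVq, hqq]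
    have hqS : ∀ j, q * S j = S j := fun j => by
      simp only [hSdef, mul_sub, mul_smul_comm, ← mul_assoc, hqV, hqq]
    have hSq' : ∀ j, q * star (S j) = star (S j) := fun j => by
      have := congrArg star (hSq j)
      rwa [star_mul, hqs] at this
    have hqS' : ∀ j, star (S j) * q = star (S j) := fun j => by
      have := congrArg star (hqS j)
      rwa [star_mul, hqs] at this
    let Y : A := ∑ j, (y j * V * star (y j * V) + star (y j) * V * star (star (y j) * V))
    obtain ⟨U, hU, hDA⟩ := DA hW hf hf0 hI (J := Option J)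
      (fun o => o.elim q fun j => star (S j)) (fun o => o.elim Y y)
      (fun o => by
        cases o with
        | none => exact hfq
        | some j => simp only [Option.elim]; rw [← hSq', ← mul_assoc, hfq])
      (fun o => by
        cases o with
        | none => exact hqf
        | some j => simp only [Option.elim]; rw [← hqS', mul_assoc, hqf])
      (half_pos htq)
    simp only [Fintype.sum_option, Option.elim] at hDA
    -- the pieces
    set L : J → A := fun j => q * star U * y j * V + star V * y j * (U * q) with hL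
    set Q : J → A := fun j => q * star U * y j * (U * q) - c j • q with hQ
    have hU1 := T.norm_unitary hU.2.1
    have hQ2 : ∀ j, T.n2 (Q j) ^ 2 ≤ 4 * T.t q := by
      intro j
      have h1 : T.n2 (q * star U * y j * (U * q)) ≤ T.n2 q := by
        rw [← mul_assoc]
        refine (T.n2_mul_le _ _).trans (mul_le_of_le_one_left (T.n2_nonneg _) ?_)
        calc _ ≤ ‖q * star U‖ * ‖y j‖ * ‖U‖ := norm_mul₃_le
          _ ≤ (1 * 1) * 1 * 1 := by
            gcongr
            · refine (norm_mul_le _ _).trans ?_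
              rw [norm_star, hU1]; gcongr; exact hq.norm_le
            · exact hy j
            · exact hU1.le
          _ = 1 := by norm_num
      have h2 : T.n2 (c j • q) ≤ T.n2 q := by
        rw [T.n2_smul]; exact mul_le_of_le_one_left (T.n2_nonneg _) (hc1 j)
      have h3 : T.n2 (Q j) ≤ 2 * T.n2 q := (T.n2_sub_le _ _).trans (by linarith)
      rw [← T.n2_sq_proj hq]
      nlinarith [T.n2_nonneg (Q j)]
    have hL2 : ∑ j, T.n2 (L j) ^ 2 ≤ 2 * (T.τ (U * q * star U * Y)).re := by
      simp only [Y, Finset.mul_sum, map_sum, Complex.re_sum]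
      refine Finset.sum_le_sum fun j _ => ?_
      have h1 : T.n2 (q * star U * y j * V) ^ 2 =
          (T.τ (U * q * star U * (y j * V * star (y j * V)))).re := by
        rw [T.n2_sq, T.tr]
        simp only [star_mul, star_star, hqs]
        congr 1
        calc _ = T.τ ((q * star U * (y j * V * (star V * star (y j)))) * (U * q)) := by
              simp only [mul_assoc]
          _ = T.τ ((U * q) * (q * star U * (y j * V * (star V * star (y j))))) := T.tr _ _
          _ = T.τ (U * (q * q) * star U * (y j * V * (star V * star (y j)))) := by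
              simp only [mul_assoc]
          _ = _ := by rw [hqq]
      have h2 : T.n2 (star V * y j * (U * q)) ^ 2 =
          (T.τ (U * q * star U * (star (y j) * V * star (star (y j) * V)))).re := by
        rw [T.n2_sq]
        simp only [star_mul, star_star, hqs]
        congr 1
        calc _ = T.τ ((q * star U * (star (y j) * V * (star V * y j))) * (U * q)) := by
              simp only [mul_assoc]
          _ = T.τ ((U * q) * (q * star U * (star (y j) * V * (star V * y j)))) := T.tr _ _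
          _ = T.τ (U * (q * q) * star U * (star (y j) * V * (star V * y j))) := by
              simp only [mul_assoc]
          _ = _ := by rw [hqq]
      have h3 := T.parallelogram (q * star U * y j * V) (star V * y j * (U * q))
      have h4 := sq_nonneg (T.n2 (q * star U * y j * V - star V * y j * (U * q)))
      rw [mul_add, map_add, Complex.add_re, ← h1, ← h2]
      simp only [hL]
      linarith
    have hSQ : ∀ j, (T.τ (star (S j) * Q j)).re =
        (T.τ (U * star (S j) * star U * y j)).re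
          - (T.τ (star (S j)) / (T.t f : ℂ) * T.τ (f * y j)).re := by
      intro j
      simp only [hQ, mul_sub, mul_smul_comm, hqS', map_sub, map_smul, Complex.sub_re, smul_eq_mul]
      congr 2
      · calc _ = T.τ ((star (S j) * q * star U * y j) * (U * q)) := by simp only [mul_assoc]
          _ = T.τ ((U * q) * (star (S j) * q * star U * y j)) := T.tr _ _
          _ = T.τ (U * (q * star (S j) * q) * star U * y j) := by simp only [mul_assoc]
          _ = _ := by rw [hSq', hqS']
      · simp only [hc]; ring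
    have hY : (T.τ q / (T.t f : ℂ) * T.τ (f * Y)).re ≤ 2 * Fintype.card J * T.t q := by
      have h0 : ∀ x : A, ‖x‖ ≤ 1 → ‖T.τ (f * (x * V * star (x * V)))‖ ≤ (k * T.n2 q) ^ 2 := by
        intro x hx
        have h1 : T.n2 (x * V) ≤ k * T.n2 q :=
          (T.n2_mul_le _ _).trans ((mul_le_of_le_one_left (T.n2_nonneg _) hx).trans hV2)
        have h2 : T.n2 (f * (x * V)) ≤ k * T.n2 q :=
          (T.n2_mul_le _ _).trans ((mul_le_of_le_one_left (T.n2_nonneg _) hf.norm_le).trans h1)
        rw [← mul_assoc, sq]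
        refine (T.cs' _ _).trans ?_
        rw [T.n2_star]
        exact mul_le_mul h2 h1 (T.n2_nonneg _) ((T.n2_nonneg _).trans h1)
      have h1 : ‖T.τ (f * Y)‖ ≤ Fintype.card J * (2 * (k * T.n2 q) ^ 2) := by
        simp only [Y, Finset.mul_sum, map_sum]
        refine (norm_sum_le _ _).trans ?_
        rw [← Finset.card_univ, ← nsmul_eq_mul]
        refine Finset.sum_le_card_nsmul _ _ _ fun j _ => ?_
        rw [mul_add, map_add]
        refine (norm_add_le _ _).trans ?_
        have := h0 _ (hy j)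
        have := h0 (star (y j)) (by rw [norm_star]; exact hy j)
        linarith
      have h2 : (k * T.n2 q) ^ 2 ≤ T.t f := by
        rw [mul_pow, T.n2_sq_proj hq]
        refine le_trans ?_ hm
        have : (k : ℝ) ≤ m := by exact_mod_cast Nat.le_of_succ_le hk
        gcongr
      refine (Complex.re_le_norm _).trans ?_
      rw [norm_mul, norm_div, T.τ_proj hq, Complex.norm_real, Complex.norm_real, Real.norm_eq_abs,
        Real.norm_eq_abs, abs_of_pos htp, abs_of_pos htq, div_mul_eq_mul_div, div_le_iff₀ htp]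
      calc _ ≤ T.t q * (Fintype.card J * (2 * T.t f)) := by gcongr; exact h1.trans (by gcongr)
        _ = _ := by ring
    have hsum : ∑ j, T.n2 (S j + Q j + L j) ^ 2 + ∑ j, T.n2 (S j + Q j - L j) ^ 2 ≤
        2 * (((k + 1 : ℕ) : ℝ) * ((8 * Fintype.card J + 1) * T.t q)) := by
      rw [← Finset.sum_add_distrib]
      simp only [T.parallelogram]
      simp only [T.n2_add_sq, hSQ, Finset.sum_add_distrib, ← Finset.mul_sum,
        Finset.sum_sub_distrib]
      have h1 : ∑ j, T.n2 (Q j) ^ 2 ≤ Fintype.card J * (4 * T.t q) := by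
        rw [← Finset.card_univ, ← nsmul_eq_mul]
        exact Finset.sum_le_card_nsmul _ _ _ fun j _ => hQ2 j
      push_cast
      nlinarith
    have hfin : ∀ σ : ℂ, ‖σ‖ = 1 → star σ = σ → σ * σ = 1 →
        ∑ j, T.n2 (S j + Q j + σ • L j) ^ 2 ≤ ((k + 1 : ℕ) : ℝ) * ((8 * Fintype.card J + 1) * T.t q) →
        ∃ V ∈ P, f * V = V ∧ V * q = V ∧ T.n2 V ≤ ((k + 1 : ℕ) : ℝ) * T.n2 q ∧
          ∑ j, T.n2 (star V * y j * V - (((k + 1 : ℕ) : ℂ) * c j) • q) ^ 2 ≤
            ((k + 1 : ℕ) : ℝ) * ((8 * Fintype.card J + 1) * T.t q) := by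
      intro σ h1 h2 h3 h4
      refine ⟨V + σ • (U * q), add_mem hVP (SMulMemClass.smul_mem _ (mul_mem hU.1 hqP)), ?_, ?_,
        ?_, le_of_eq_of_le ?_ h4⟩
      · rw [mul_add, hfV, mul_smul_comm, ← mul_assoc, ← hU.2.2, mul_assoc, hfq]
      · rw [add_mul, hVq, smul_mul_assoc, mul_assoc, hqq]
      · refine (T.n2_add_le _ _).trans ?_
        rw [T.n2_smul, h1, T.n2_unitary_mul hU.2.1]; push_cast; linarith
      · refine Finset.sum_congr rfl fun j _ => ?_
        congr 2
        simp only [hSdef, hQ, hL, star_add, star_smul, star_mul, hqs, h2, add_mul, mul_add,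
          smul_mul_assoc, mul_smul_comm, smul_smul, h3, one_smul, smul_add]
        push_cast
        module
    by_cases h : ∑ j, T.n2 (S j + Q j + L j) ^ 2 ≤
        ((k + 1 : ℕ) : ℝ) * ((8 * Fintype.card J + 1) * T.t q)
    · exact hfin 1 (by simp) (by simp) (by simp) (by simpa using h)
    · exact hfin (-1) (by simp) (by simp) (by simp) (by
        simp only [neg_smul, one_smul, ← sub_eq_add_neg]; linarith)

theorem LQ (hW : T.W) {P : StarSubalgebra ℂ A} (hP : T.Cl P) (hI : Irr P)
    (hA : ¬ FiniteDimensional ℂ A) {f : A} (hfP : f ∈ P) (hf : IsStarProjection f) (hf0 : f ≠ 0)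
    {J : Type*} [Fintype J] (y : J → A) (hy : ∀ j, ‖y j‖ ≤ 1) {ε : ℝ} (hε : 0 < ε) {t₀ : ℝ}
    (ht₀ : 0 < t₀) :
    ∃ r ∈ P, IsStarProjection r ∧ r ≠ 0 ∧ f * r = r ∧ T.t r ≤ t₀ ∧
      ∀ j, T.n2 (r * y j * r - (T.τ (f * y j) / (T.t f : ℂ)) • r) ≤ ε * T.n2 r := by
  haveI := T.nontrivial
  have htp := hW.t_pos hf hf0
  set δ : ℝ := min (1 / 4) (ε ^ 2 / 52) with hδ
  have hδ0 : 0 < δ := by positivity
  have hδ1 : δ ≤ 1 / 4 := min_le_left _ _
  have hδ2 : δ ≤ ε ^ 2 / 52 := min_le_right _ _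
  set K : ℝ := 8 * Fintype.card (Option J) + 1 with hK
  have hK0 : 0 < K := by positivity
  obtain ⟨m, hm⟩ := exists_nat_gt (K / δ ^ 2)
  have hm0 : (0 : ℝ) < m := lt_trans (by positivity) hm
  obtain ⟨q, hqP, hq, hq0, hfq, hqt⟩ := exists_small_proj hW hP hI hA hfP hf hf0
    (show 0 < min t₀ (T.t f / (m : ℝ) ^ 2) by positivity)
  obtain ⟨V, hVP, hfV, hVq, -, hS⟩ := lq_step hW hf hf0 (cirr hW hP hI hfP hf hf0)
    (fun o : Option J => o.elim 1 y) (fun o => by
      cases o with
      | none => simp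
      | some j => exact hy j) hqP hq hq0 hfq m (by
      have := hqt.trans (min_le_right _ _)
      rwa [le_div_iff₀ (by positivity), mul_comm] at this) m le_rfl
  set s := T.n2 q with hs
  have hs2 : s ^ 2 = T.t q := T.n2_sq_proj hq
  have hs0 : 0 < s := lt_of_le_of_ne (T.n2_nonneg _) fun h => hq0 (hW.faithful _ h.symm)
  obtain ⟨W, hWdef⟩ : ∃ W : A, W = ((√m : ℝ) : ℂ)⁻¹ • V := ⟨_, rfl⟩
  have hWy : ∀ (x : A) (c : ℂ), star W * x * W - c • q =
      ((m : ℝ) : ℂ)⁻¹ • (star V * x * V - ((m : ℂ) * c) • q) := by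
    intro x c
    have h1 : ((√m : ℝ) : ℂ)⁻¹ * ((√m : ℝ) : ℂ)⁻¹ = ((m : ℝ) : ℂ)⁻¹ := by
      rw [← mul_inv, ← Complex.ofReal_mul, Real.mul_self_sqrt hm0.le]
    have h2 : ((m : ℝ) : ℂ)⁻¹ * ((m : ℂ) * c) = c := by
      have : (m : ℂ) ≠ 0 := by exact_mod_cast hm0.ne'
      push_cast; field_simp
    rw [hWdef, star_smul, smul_mul_assoc, smul_mul_assoc, mul_smul_comm, smul_smul, smul_sub,
      smul_smul, h2]
    simp only [star_inv₀, Complex.star_def, Complex.conj_ofReal, h1]
  have hsmall : ∀ o : Option J, T.n2 (star W * (o.elim 1 y) * W -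
      (T.τ (f * (o.elim 1 y)) / (T.t f : ℂ)) • q) ≤ δ * s := by
    intro o
    have h1 := (Finset.single_le_sum (f := fun o : Option J => T.n2 (star V * (o.elim 1 y) * V -
      ((m : ℂ) * (T.τ (f * (o.elim 1 y)) / (T.t f : ℂ))) • q) ^ 2) (fun _ _ => sq_nonneg _)
      (Finset.mem_univ o)).trans hS
    rw [hWy, T.n2_smul, norm_inv, Complex.norm_real, Real.norm_eq_abs, abs_of_pos hm0,
      inv_mul_le_iff₀ hm0]
    refine le_of_sq_le_sq' (by positivity) (h1.trans ?_)
    rw [div_lt_iff₀ (by positivity)] at hm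
    rw [← hK, ← hs2]
    calc (m : ℝ) * (K * s ^ 2) ≤ m * (m * δ ^ 2 * s ^ 2) := by gcongr
      _ = _ := by ring
  have hWP : W ∈ P := hWdef ▸ SMulMemClass.smul_mem _ hVP
  have hfW : f * W = W := by rw [hWdef, mul_smul_comm, hfV]
  have hWq : W * q = W := by rw [hWdef, smul_mul_assoc, hVq]
  have ha : T.n2 (star W * W - q) ≤ δ * s := by
    have := hsmall none
    have ht : (T.t f : ℂ) ≠ 0 := by exact_mod_cast htp.ne'
    simpa [T.τ_proj hf, div_self ht] using this
  obtain ⟨r, hrP, hr, hrW, hry, hrt⟩ := exists_rp hW hP hWP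
  have hrt' := hrt q hq hWq
  have hrs := hr.isSelfAdjoint.star_eq
  have hrr := hr.isIdempotentElem.eq
  have hWr : star W * r = star W := by
    have := congrArg star hrW
    rwa [star_mul, hrs] at this
  obtain ⟨b, hb⟩ : ∃ b : A, b = W * star W := ⟨_, rfl⟩
  have hab : T.n2 b = T.n2 (star W * W) := by
    refine (sq_eq_sq₀ (T.n2_nonneg _) (T.n2_nonneg _)).1 ?_
    rw [T.n2_sq, T.n2_sq, hb]
    simp only [star_mul, star_star]
    rw [mul_assoc W, T.tr W]; simp only [mul_assoc]
  have hrb : T.n2 (r - b) ≤ δ * s := by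
    refine le_trans ?_ ha
    rw [T.n2_sub_comm _ q]
    refine le_of_sq_le_sq' (T.n2_nonneg _) ?_
    rw [T.n2_sub_sq, T.n2_sub_sq, hab, T.n2_sq_proj hr, T.n2_sq_proj hq, hrs,
      hq.isSelfAdjoint.star_eq, hb, ← mul_assoc, hrW, T.tr q, mul_assoc, hWq, T.tr W]
    linarith
  have hb2 : T.n2 b ≤ 2 * s := by
    have := T.n2_add_le (star W * W - q) q
    rw [sub_add_cancel] at this
    nlinarith
  have hr1 : T.n2 r ≤ s := le_of_sq_le_sq' hs0.le (by rw [T.n2_sq_proj hr, hs2]; exact hrt')
  have hr2 : s / 2 ≤ T.n2 r := by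
    have h1 := T.n2_sub_le (star W * W) (star W * W - q)
    rw [sub_sub_cancel] at h1
    have h2 := T.n2_sub_le r (r - b)
    rw [sub_sub_cancel] at h2
    nlinarith
  refine ⟨r, hrP, hr, fun h => ?_, ?_, hrt'.trans (hqt.trans (min_le_left _ _)), fun j => ?_⟩
  · rw [h, T.n2_zero] at hr2; linarith
  · have := hry (1 - f) (by rw [sub_mul, one_mul, hfW, sub_self])
    rw [sub_mul, one_mul, sub_eq_zero] at this
    exact this.symm
  set c := T.τ (f * y j) / (T.t f : ℂ) with hc
  have hc1 : ‖c‖ ≤ 1 := (norm_c_le hW hf hf0 _).trans (hy j)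
  change T.n2 (r * y j * r - c • r) ≤ _
  obtain ⟨Z, hZ⟩ : ∃ Z : A, Z = r * y j * r - c • r := ⟨_, rfl⟩
  rw [← hZ]
  have hZr : Z * r = Z := by rw [hZ, sub_mul, smul_mul_assoc, mul_assoc, hrr]
  have hrZ : r * Z = Z := by rw [hZ, mul_sub, mul_smul_comm, ← mul_assoc, ← mul_assoc, hrr]
  have hZ1 : ‖Z‖ ≤ 2 := by
    rw [hZ]
    refine (norm_sub_le _ _).trans ?_
    have h1 : ‖r * y j * r‖ ≤ 1 * 1 * 1 :=
      norm_mul₃_le.trans (by gcongr; exacts [hr.norm_le, hy j, hr.norm_le])
    have h2 : ‖c • r‖ ≤ 1 * 1 := by rw [norm_smul]; gcongr; exact hr.norm_le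
    linarith
  have hZ2 : T.n2 Z ≤ 2 * s := by
    rw [← hZr]
    exact (T.n2_mul_le _ _).trans (mul_le_mul hZ1 hr1 (T.n2_nonneg _) (by norm_num))
  have hWZ : T.n2 (star W * Z * W) ≤ 2 * (δ * s) := by
    have : star W * Z * W = (star W * y j * W - c • q) - c • (star W * W - q) := by
      rw [hZ, mul_sub, sub_mul, ← mul_assoc, ← mul_assoc, hWr, mul_assoc _ r, hrW, mul_smul_comm,
        hWr, smul_mul_assoc, smul_sub]
      abel
    rw [this]
    refine (T.n2_sub_le _ _).trans ?_
    have h1 := hsmall (some j)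
    have h2 : T.n2 (c • (star W * W - q)) ≤ 1 * (δ * s) := by
      rw [T.n2_smul]; gcongr; exact T.n2_nonneg _
    simp only [Option.elim] at h1
    linarith
  have hdec : star Z * Z = star Z * ((r - b) * Z) + star Z * b * Z * (r - b) + star Z * b * Z * b := by
    rw [sub_mul, hrZ, mul_sub, mul_sub, mul_assoc _ Z r, hZr]
    simp only [mul_assoc]; abel
  have h1 : ‖T.τ (star Z * ((r - b) * Z))‖ ≤ (2 * s) * (δ * s * 2) := by
    refine (T.cs _ _).trans (mul_le_mul hZ2 ?_ (T.n2_nonneg _) (by positivity))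
    exact (T.n2_mul_le' _ _).trans (mul_le_mul hrb hZ1 (norm_nonneg _) (by positivity))
  have h2 : ‖T.τ (star Z * b * Z * (r - b))‖ ≤ (2 * (2 * s) * 2) * (δ * s) := by
    refine (T.cs' _ _).trans (mul_le_mul ?_ hrb (T.n2_nonneg _) (by positivity))
    refine (T.n2_mul3_le _ _ _).trans ?_
    rw [norm_star]
    gcongr
    exact T.n2_nonneg _
  have h3 : (T.τ (star Z * b * Z * b)).re ≤ (2 * (δ * s)) ^ 2 := by
    have : T.τ (star Z * b * Z * b) = T.τ (star (star W * Z * W) * (star W * Z * W)) := by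
      simp only [star_mul, star_star, hb]
      rw [← mul_assoc _ W (star W), T.tr _ (star W)]; simp only [mul_assoc]
    rw [this, ← T.n2_sq]
    gcongr
    exact T.n2_nonneg _
  have h4 : T.n2 Z ^ 2 ≤ 13 * δ * s ^ 2 := by
    rw [T.n2_sq, hdec, map_add, map_add, Complex.add_re, Complex.add_re]
    have := Complex.re_le_norm (T.τ (star Z * ((r - b) * Z)))
    have := Complex.re_le_norm (T.τ (star Z * b * Z * (r - b)))
    have : (2 * (δ * s)) ^ 2 ≤ δ * s ^ 2 := by nlinarith [mul_pos hδ0 (pow_pos hs0 2)]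
    nlinarith
  refine le_of_sq_le_sq' (mul_nonneg hε.le (T.n2_nonneg _)) (h4.trans ?_)
  have h5 : s ^ 2 ≤ 4 * T.n2 r ^ 2 := by nlinarith
  calc 13 * δ * s ^ 2 ≤ 13 * (ε ^ 2 / 52) * (4 * T.n2 r ^ 2) := by gcongr
    _ = _ := by ring

end Crest.Agent.H4.Gen
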