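import Crest.Agent.H4.GenE

/-! Popa's asymptotic freeness lemma by incremental patching with random phases. -/

open scoped ComplexConjugate InnerProductSpace Topology
open Filter

namespace Crest.Agent.H4.Gen

variable {A : Type*} [CStarAlgebra A] {T : TS A} {ι : Type*}

lemma exists_phases (n : ℕ) : ∃ lam : ℕ → ℂ, (∀ k, ‖lam k‖ = 1) ∧
    ∀ e j, 1 ≤ j → j ≤ n → ∑ k ∈ Finset.range (n + 1), sg (lam k) e ^ j = 0 := by
  have h := Complex.isPrimitiveRoot_exp (n + 1) (Nat.succ_ne_zero n)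
  set ζ := Complex.exp (2 * Real.pi * Complex.I / ((n + 1 : ℕ) : ℂ))
  have h1 : ‖ζ‖ = 1 := h.norm'_eq_one (Nat.succ_ne_zero n)
  have key : ∀ j, 1 ≤ j → j ≤ n → ∑ k ∈ Finset.range (n + 1), (ζ ^ k) ^ j = 0 := by
    intro j hj hjn
    have h2 : ζ ^ j ≠ 1 := h.pow_ne_one_of_pos_of_lt (by omega) (by omega)
    have h3 := mul_geom_sum (ζ ^ j) (n + 1)
    rw [← pow_mul, mul_comm j, pow_mul, h.pow_eq_one, one_pow, sub_self, mul_eq_zero] at h3
    rcases h3 with h3 | h3
    · exact absurd (sub_eq_zero.1 h3) h2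
    · rw [← h3]
      exact Finset.sum_congr rfl fun k _ => by rw [← pow_mul, ← pow_mul, mul_comm]
  refine ⟨fun k => ζ ^ k, fun k => by rw [norm_pow, h1, one_pow], fun e j hj hjn => ?_⟩
  cases e with
  | true => exact key j hj hjn
  | false =>
    have := congrArg star (key j hj hjn)
    simpa only [star_sum, star_pow, star_zero, sg] using this

/-- Evaluation of a word. -/
def ev (x : ι → A) (v : A) : List (Bool × ι) → A
  | [] => 1
  | p :: L => sg v p.1 * x p.2 * ev x v L

/-- The admissibility relation. -/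
def Rel (T : TS A) (x : ι → A) (p p' : Bool × ι) : Prop := p.1 ≠ p'.1 → T.τ (x p.2) = 0

lemma ev_append (x : ι → A) (v : A) (L L' : List (Bool × ι)) :
    ev x v (L ++ L') = ev x v L * ev x v L' := by
  induction L with
  | nil => simp [ev]
  | cons p L ih => simp [ev, ih, mul_assoc]

lemma norm_sg (v : A) (e : Bool) : ‖sg v e‖ = ‖v‖ := by
  cases e <;> simp [sg]

lemma norm_mul_le_one {a b : A} (ha : ‖a‖ ≤ 1) (hb : ‖b‖ ≤ 1) : ‖a * b‖ ≤ 1 :=
  (norm_mul_le _ _).trans (mul_le_one₀ ha (norm_nonneg _) hb)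

lemma norm_ev_le (T : TS A) {x : ι → A} (hx : ∀ i, ‖x i‖ ≤ 1) {v : A} (hv : ‖v‖ ≤ 1)
    (L : List (Bool × ι)) : ‖ev x v L‖ ≤ 1 := by
  haveI := T.nontrivial
  induction L with
  | nil => simp [ev]
  | cons p L ih =>
    exact norm_mul_le_one (norm_mul_le_one (by rwa [norm_sg]) (hx _)) ih

lemma sg_add_smul (v q : A) (hq : star q = q) (c : ℂ) (e : Bool) :
    sg (v + c • q) e = sg v e + sg c e • q := by
  cases e <;> simp [sg, hq]

lemma TS.Conv.sg {x : ℕ → A} {a : A} (hx : T.Conv x a) (e : Bool) :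
    T.Conv (fun n => sg (x n) e) (sg a e) := by
  cases e
  · exact hx.star
  · exact hx

lemma TS.Conv.ev (y : ι → A) {x : ℕ → A} {a : A} (hx : T.Conv x a) (L : List (Bool × ι)) :
    T.Conv (fun n => ev y (x n) L) (ev y a L) := by
  induction L with
  | nil => exact TS.Conv.const 1
  | cons p L ih => exact ((hx.sg p.1).mul (TS.Conv.const _)).mul ih

lemma D_bound {x : ι → A} (hx : ∀ i, ‖x i‖ ≤ 1) {v q : A} (hv : ‖v‖ ≤ 1) (hq : IsStarProjection q)
    {c : ℂ} (hc : ‖c‖ = 1) (hv' : ‖v + c • q‖ ≤ 1) (L : List (Bool × ι)) :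
    ∀ Z : A, ‖Z‖ ≤ 1 → ‖T.τ (Z * ev x (v + c • q) L) - T.τ (Z * ev x v L)‖ ≤ L.length * T.t q := by
  induction L with
  | nil => intro Z _; simp [ev]
  | cons p L ih =>
    intro Z hZ
    have h1 := ih (Z * sg v p.1 * x p.2)
      (norm_mul_le_one (norm_mul_le_one hZ (by rwa [norm_sg])) (hx _))
    have h2 : ‖sg c p.1 * T.τ (q * (x p.2 * ev x (v + c • q) L * Z))‖ ≤ T.t q := by
      rw [norm_mul, norm_sg, hc, one_mul]
      exact (T.norm_τ_proj_mul hq _).trans (mul_le_of_le_one_right (T.t_nonneg hq)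
        (norm_mul_le_one (norm_mul_le_one (hx _) (norm_ev_le T hx hv' L)) hZ))
    have h3 : T.τ (Z * ev x (v + c • q) (p :: L)) - T.τ (Z * ev x v (p :: L)) =
        (T.τ (Z * sg v p.1 * x p.2 * ev x (v + c • q) L) - T.τ (Z * sg v p.1 * x p.2 * ev x v L))
          + sg c p.1 * T.τ (q * (x p.2 * ev x (v + c • q) L * Z)) := by
      rw [← mul_assoc q, T.tr _ Z]
      simp only [ev, sg_add_smul _ _ hq.isSelfAdjoint.star_eq, add_mul, mul_add, smul_mul_assoc,
        mul_smul_comm, map_add, map_smul, smul_eq_mul, mul_assoc]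
      ring
    rw [h3, List.length_cons]
    refine (norm_add_le _ _).trans ?_
    push_cast; linarith

section mean

variable {x : ι → A} (hx : ∀ i, ‖x i‖ ≤ 1) {v q : A} (hv : ‖v‖ ≤ 1) (hq : IsStarProjection q)
  {n : ℕ} {lam : ℕ → ℂ} (hl1 : ∀ k, ‖lam k‖ = 1)
  (hl2 : ∀ e j, 1 ≤ j → j ≤ n → ∑ k ∈ Finset.range (n + 1), sg (lam k) e ^ j = 0)
  (hv' : ∀ k, ‖v + lam k • q‖ ≤ 1) {c : A → ℂ} (hc1 : ∀ Y, ‖Y‖ ≤ 1 → ‖c Y‖ ≤ 1) {ε β : ℝ}
  (hε : 0 ≤ ε) (hβ : 0 ≤ β)
  (hLQ : ∀ i L', L'.length ≤ n →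
    T.n2 (q * (x i * ev x v L') * q - c (x i * ev x v L') • q) ≤ ε * T.n2 q)
  (hcβ : ∀ e₀ i L' e i', e ≠ e₀ → L'.length + 2 ≤ n →
    (((e₀, i) :: L') ++ [(e, i')]).IsChain (Rel T x) → ‖c (x i * ev x v L')‖ ≤ β)

include hx hv hq hl1 hl2 hv' hc1 hε hβ hLQ hcβ

lemma meanH {Z : A} (hZ : ‖Z‖ ≤ 1) (L : List (Bool × ι)) :
    ∀ e₀ i L' j, 1 ≤ j → j + L.length ≤ n → L'.length + 1 + L.length ≤ n →
      (((e₀, i) :: L') ++ L).IsChain (Rel T x) →
      ‖∑ k ∈ Finset.range (n + 1), sg (lam k) e₀ ^ j *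
          T.τ (q * (x i * ev x v L') * ev x (v + lam k • q) L * Z)‖ ≤
        (n + 1) * ((2 ^ L.length - 1) * ((ε + β) * T.t q)) := by
  have ht := T.t_nonneg hq
  have hqq := hq.isIdempotentElem.eq
  induction L with
  | nil =>
    intro e₀ i L' j hj hjn _ _
    simp only [ev, ← Finset.sum_mul, hl2 e₀ j hj (by simpa using hjn)]
    simp
  | cons p L ih =>
    intro e₀ i L' j hj hjn hlen hch
    obtain ⟨e, i'⟩ := p
    simp only [List.length_cons] at hjn hlen
    set Y := x i * ev x v L' with hY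
    have hY1 : ‖Y‖ ≤ 1 := norm_mul_le_one (hx _) (norm_ev_le T hx hv _)
    have hA1 := ih e₀ i (L' ++ [(e, i')]) j hj (by omega) (by simp; omega) (by
      simpa only [List.cons_append, List.append_assoc, List.nil_append] using hch)
    have hch2 : (((e, i') :: []) ++ L).IsChain (Rel T x) := hch.right_of_append
    have hsplit : ∀ k, T.τ (q * Y * ev x (v + lam k • q) ((e, i') :: L) * Z) =
        T.τ (q * (x i * ev x v (L' ++ [(e, i')])) * ev x (v + lam k • q) L * Z)
          + sg (lam k) e * (c Y * T.τ (q * (x i' * ev x v []) * ev x (v + lam k • q) L * Z))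
          + sg (lam k) e * T.τ ((q * Y * q - c Y • q) * (x i' * ev x (v + lam k • q) L * Z)) := by
      intro k
      simp only [ev, ev_append, sg_add_smul _ _ hq.isSelfAdjoint.star_eq, add_mul, mul_add,
        smul_mul_assoc, mul_smul_comm, map_add, map_smul, smul_eq_mul, mul_assoc, hY, mul_one,
        sub_mul, map_sub]
      ring
    have hE : ∀ k, ‖T.τ ((q * Y * q - c Y • q) * (x i' * ev x (v + lam k • q) L * Z))‖ ≤
        ε * T.t q := by
      intro k
      have h1 : q * (q * Y * q - c Y • q) = q * Y * q - c Y • q := by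
        rw [mul_sub, mul_smul_comm, ← mul_assoc, ← mul_assoc, hqq]
      rw [← h1, mul_assoc, T.tr, mul_assoc]
      refine (T.cs' _ _).trans ?_
      have h2 : T.n2 (x i' * ev x (v + lam k • q) L * Z * q) ≤ T.n2 q :=
        (T.n2_mul_le _ _).trans (mul_le_of_le_one_left (T.n2_nonneg _)
          (norm_mul_le_one (norm_mul_le_one (hx _) (norm_ev_le T hx (hv' k) L)) hZ))
      calc _ ≤ (ε * T.n2 q) * T.n2 q := mul_le_mul (hLQ i L' (by omega)) h2 (T.n2_nonneg _)
            (mul_nonneg hε (T.n2_nonneg _))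
        _ = _ := by rw [mul_assoc, ← sq, T.n2_sq_proj hq]
    have hsum : ∀ (F : ℕ → ℂ) (B : ℝ), (∀ k, ‖F k‖ ≤ B) →
        ‖∑ k ∈ Finset.range (n + 1), F k‖ ≤ (n + 1) * B := by
      intro F B hF
      refine (norm_sum_le _ _).trans ?_
      have := Finset.sum_le_card_nsmul (Finset.range (n + 1)) (fun k => ‖F k‖) B fun k _ => hF k
      simpa using this
    have hA3 := hsum (fun k => sg (lam k) e₀ ^ j * (sg (lam k) e *
        T.τ ((q * Y * q - c Y • q) * (x i' * ev x (v + lam k • q) L * Z)))) (ε * T.t q) fun k => by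
      rw [norm_mul, norm_mul, norm_pow, norm_sg, norm_sg, hl1, one_pow, one_mul, one_mul]
      exact hE k
    have hB0 : 0 ≤ (2 ^ L.length - 1 : ℝ) * ((ε + β) * T.t q) :=
      mul_nonneg (sub_nonneg.2 (one_le_pow₀ one_le_two)) (by positivity)
    have hA2 : ‖∑ k ∈ Finset.range (n + 1), sg (lam k) e₀ ^ j * (sg (lam k) e *
        (c Y * T.τ (q * (x i' * ev x v []) * ev x (v + lam k • q) L * Z)))‖ ≤
        (n + 1) * ((2 ^ L.length - 1) * ((ε + β) * T.t q)) + (n + 1) * (β * T.t q) := by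
      by_cases he : e = e₀
      · subst he
        have h1 := ih e i' [] (j + 1) (by omega) (by omega) (by simp; omega) hch2
        have h2 : ∑ k ∈ Finset.range (n + 1), sg (lam k) e ^ j * (sg (lam k) e *
            (c Y * T.τ (q * (x i' * ev x v []) * ev x (v + lam k • q) L * Z))) =
            c Y * ∑ k ∈ Finset.range (n + 1), sg (lam k) e ^ (j + 1) *
              T.τ (q * (x i' * ev x v []) * ev x (v + lam k • q) L * Z) := by
          rw [Finset.mul_sum]
          exact Finset.sum_congr rfl fun k _ => by ring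
        rw [h2, norm_mul]
        have h3 : 0 ≤ ((n : ℝ) + 1) * (β * T.t q) := by positivity
        have h4 := mul_le_mul (hc1 Y hY1) h1 (norm_nonneg _) zero_le_one
        linarith
      · have h1 := hcβ e₀ i L' e i' he (by omega) (by
          have : ((e₀, i) :: L') ++ (e, i') :: L = (((e₀, i) :: L') ++ [(e, i')]) ++ L := by simp
          rw [this] at hch
          exact hch.left_of_append)
        have h2 := hsum (fun k => sg (lam k) e₀ ^ j * (sg (lam k) e *
          (c Y * T.τ (q * (x i' * ev x v []) * ev x (v + lam k • q) L * Z)))) (β * T.t q) fun k => by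
          rw [norm_mul, norm_mul, norm_mul, norm_pow, norm_sg, norm_sg, hl1, one_pow, one_mul,
            one_mul]
          refine mul_le_mul h1 ?_ (norm_nonneg _) hβ
          rw [mul_assoc, mul_assoc]
          exact (T.norm_τ_proj_mul hq _).trans (mul_le_of_le_one_right ht
            (norm_mul_le_one (norm_mul_le_one (hx _) (norm_ev_le T hx hv _))
              (norm_mul_le_one (norm_ev_le T hx (hv' k) L) hZ)))
        have h3 : 0 ≤ ((n : ℝ) + 1) * ((2 ^ L.length - 1) * ((ε + β) * T.t q)) := by positivity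
        linarith
    simp only [hsplit, mul_add (sg (lam _) e₀ ^ j), Finset.sum_add_distrib]
    refine (norm_add₃_le).trans ?_
    rw [List.length_cons, pow_succ]
    nlinarith

lemma meanD (L : List (Bool × ι)) : ∀ Z : A, ‖Z‖ ≤ 1 → L.length ≤ n → L.IsChain (Rel T x) →
    ‖∑ k ∈ Finset.range (n + 1), (T.τ (Z * ev x (v + lam k • q) L) - T.τ (Z * ev x v L))‖ ≤
      (n + 1) * (L.length * (2 ^ n * ((ε + β) * T.t q))) := by
  have ht := T.t_nonneg hq
  induction L with
  | nil => intro Z _ _ _; simp [ev]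
  | cons p L ih =>
    intro Z hZ hlen hch
    obtain ⟨e, i⟩ := p
    simp only [List.length_cons] at hlen
    have h1 := ih (Z * sg v e * x i)
      (norm_mul_le_one (norm_mul_le_one hZ (by rwa [norm_sg])) (hx _)) (by omega) hch.tail
    have h2 := meanH hx hv hq hl1 hl2 hv' hc1 hε hβ hLQ hcβ hZ L e i [] 1 le_rfl (by omega)
      (by simp; omega) hch
    have h3 : ∀ k, T.τ (Z * ev x (v + lam k • q) ((e, i) :: L)) - T.τ (Z * ev x v ((e, i) :: L)) =
        (T.τ (Z * sg v e * x i * ev x (v + lam k • q) L) - T.τ (Z * sg v e * x i * ev x v L))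
          + sg (lam k) e ^ 1 * T.τ (q * (x i * ev x v []) * ev x (v + lam k • q) L * Z) := by
      intro k
      rw [T.tr _ Z]
      simp only [ev, sg_add_smul _ _ hq.isSelfAdjoint.star_eq, add_mul, mul_add, smul_mul_assoc,
        mul_smul_comm, map_add, map_smul, smul_eq_mul, mul_assoc, mul_one, one_mul]
      ring
    simp only [h3, Finset.sum_add_distrib]
    refine (norm_add_le _ _).trans ?_
    have h4 : (2 ^ L.length - 1 : ℝ) ≤ 2 ^ n := by
      have : (2 : ℝ) ^ L.length ≤ 2 ^ n := pow_le_pow_right₀ one_le_two (by omega)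
      linarith
    have h5 : ((n : ℝ) + 1) * ((2 ^ L.length - 1) * ((ε + β) * T.t q)) ≤
        (n + 1) * (2 ^ n * ((ε + β) * T.t q)) := by gcongr
    rw [List.length_cons]; push_cast
    nlinarith

end mean

end Crest.Agent.H4.Gen
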