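import Crest.Agent.H4.GenF

/-! Popa's asymptotic freeness lemma: the patching argument. -/

open scoped ComplexConjugate InnerProductSpace Topology
open Filter

namespace Crest.Agent.H4.Gen

variable {A : Type*} [CStarAlgebra A] {T : TS A} {ι : Type*}

lemma sq_norm_add_le (a d : ℂ) : ‖a + d‖ ^ 2 = ‖a‖ ^ 2 + 2 * (conj a * d).re + ‖d‖ ^ 2 := by
  simp only [Complex.sq_norm, Complex.normSq_apply, Complex.add_re, Complex.add_im, Complex.mul_re,
    Complex.conj_re, Complex.conj_im]
  ring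

lemma patch_alg {v q : A} (hv : IsStarProjection (star v * v)) (hn : v * star v = star v * v)
    (hq : IsStarProjection q) (hfq : (1 - star v * v) * q = q) {c : ℂ} (hc : ‖c‖ = 1) :
    star (v + c • q) * (v + c • q) = star v * v + q ∧
      (v + c • q) * star (v + c • q) = star v * v + q ∧
      IsStarProjection (star v * v + q) ∧ (v + c • q) * (star v * v) = v := by
  have hqs := hq.isSelfAdjoint.star_eq
  have hqq := hq.isIdempotentElem.eq
  have hpq : star v * v * q = 0 := by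
    rw [sub_mul, one_mul, sub_eq_self] at hfq; exact hfq
  have hqp : q * (star v * v) = 0 := by
    have := congrArg star hpq
    rwa [star_mul, hqs, hv.isSelfAdjoint.star_eq, star_zero] at this
  have hvq : v * q = 0 := by rw [← pi_self hv, mul_assoc, hpq, mul_zero]
  have hqv : q * v = 0 := by
    rw [← pi_self hv, ← mul_assoc v, hn, ← mul_assoc, hqp, zero_mul]
  have hqs' : q * star v = 0 := by
    have := congrArg star hvq
    rwa [star_mul, hqs, star_zero] at this
  have hsq : star v * q = 0 := by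
    have := congrArg star hqv
    rwa [star_mul, hqs, star_zero] at this
  have h1 : conj c * c = 1 := by rw [Complex.conj_mul', hc]; simp
  have h2 : c * conj c = 1 := by rw [mul_comm, h1]
  refine ⟨?_, ?_, ⟨?_, hv.isSelfAdjoint.add hq.isSelfAdjoint⟩, ?_⟩
  · simp [add_mul, mul_add, hqs, hsq, hqv, hqq, smul_smul, h1, h2]
  · simp [add_mul, mul_add, hqs, hqs', hvq, hqq, smul_smul, h1, h2, hn]
  · rw [IsIdempotentElem, add_mul, mul_add, mul_add, hv.isIdempotentElem.eq, hpq, hqp, hqq]; simp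
  · rw [add_mul, pi_self hv, smul_mul_assoc, hqp]; simp

theorem popa_core (hW : T.W) {P : StarSubalgebra ℂ A} (hP : T.Cl P) (hI : Irr P)
    (hA : ¬ FiniteDimensional ℂ A) [Finite ι] {x : ι → A} (hx : ∀ i, ‖x i‖ ≤ 1) {i₁ : ι}
    (hi₁ : x i₁ = 1) (n : ℕ) {ε : ℝ} (hε : 0 < ε) :
    ∃ a ∈ P, a ∈ unitary A ∧ ∀ i L, L ≠ [] → L.length ≤ n → L.IsChain (Rel T x) →
      ‖T.τ (x i * ev x a L)‖ ≤ ε := by
  classical
  have hfin : {w : ι × List (Bool × ι) | w.2 ≠ [] ∧ w.2.length ≤ n ∧ w.2.IsChain (Rel T x)}.Finite :=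
    ((Set.finite_univ (α := ι)).prod (List.finite_length_le (Bool × ι) n)).subset
      fun w hw => ⟨trivial, hw.2.1⟩
  obtain ⟨𝒲, h𝒲⟩ : ∃ 𝒲 : Finset (ι × List (Bool × ι)), ∀ w, w ∈ 𝒲 ↔
      w.2 ≠ [] ∧ w.2.length ≤ n ∧ w.2.IsChain (Rel T x) := ⟨hfin.toFinset, fun w => by simp⟩
  set η : ℝ := ε / (2 * (n + 1)) with hη
  have hη0 : 0 < η := by positivity
  set K : ℝ := 𝒲.card * (2 * (n * 2 ^ n * (1 + 2 / η)) + 1) with hK
  have hK0 : 0 ≤ K := by positivity
  set e₁ : ℝ := (ε / 2) ^ 2 * Real.exp (-K) with he₁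
  have he₁0 : 0 < e₁ := by positivity
  let Ψ : A → ℝ := fun v => ∑ w ∈ 𝒲, ‖T.τ (x w.1 * ev x v w.2)‖ ^ 2
  have hΨ : ∀ v, ∀ w ∈ 𝒲, ∀ Φ, Ψ v ≤ Φ → ‖T.τ (x w.1 * ev x v w.2)‖ ≤ √Φ := fun v w hw Φ h =>
    Real.le_sqrt_of_sq_le ((Finset.single_le_sum
      (f := fun w : ι × List (Bool × ι) => ‖T.τ (x w.1 * ev x v w.2)‖ ^ 2)
      (fun _ _ => sq_nonneg _) hw).trans h)
  obtain ⟨v, ⟨hvP, hv, hn, hvΨ⟩, hmax⟩ := exists_max_pi hW
    {v | v ∈ P ∧ IsStarProjection (star v * v) ∧ v * star v = star v * v ∧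
      Ψ v ≤ e₁ * Real.exp (K * T.t (star v * v))}
    ⟨0, zero_mem _, by simpa using IsStarProjection.zero A, by simp, by
      have : Ψ 0 = 0 := Finset.sum_eq_zero fun w hw => by
        obtain ⟨p, L, h⟩ := List.exists_cons_of_ne_nil ((h𝒲 w).1 hw).1
        rw [h]; cases hp : p.1 <;> simp [ev, sg, hp]
      rw [this]; positivity⟩
    (fun v hv => hv.2.1)
    (fun y a hy ha => ⟨hP y a (fun k => (hy k).1) ha, (ha.star.mul ha).proj hW fun k => (hy k).2.1,
      (ha.mul ha.star).unique hW ((ha.star.mul ha).congr fun k => (hy k).2.2.1.symm), by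
        refine le_of_tendsto_of_tendsto' (f := fun k => Ψ (y k))
          (g := fun k => e₁ * Real.exp (K * T.t (star (y k) * y k))) (b := atTop) ?_ ?_
          fun k => (hy k).2.2.2
        · exact tendsto_finsetSum _ fun w _ =>
            (((TS.Conv.const _).mul (ha.ev x w.2)).τ.norm).pow 2
        · exact ((Real.continuous_exp.tendsto _).comp
            ((ha.star.mul ha).t.const_mul K)).const_mul e₁⟩)
  have hv1 := pi_norm_le hv
  set p := star v * v with hp
  have hf := hv.one_sub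
  have hsmall : T.t (1 - p) ≤ η := by
    by_contra hcon
    push Not at hcon
    have hf0 : 1 - p ≠ 0 := by
      intro h; rw [h] at hcon; simp [TS.t] at hcon; linarith
    set Φ := e₁ * Real.exp (K * T.t p) with hΦ
    have hΦ1 : e₁ ≤ Φ := le_mul_of_one_le_right he₁0.le
      (Real.one_le_exp (mul_nonneg hK0 (T.t_nonneg hv)))
    have hΦ0 : 0 < Φ := he₁0.trans_le hΦ1
    haveI : Finite {w : ι × List (Bool × ι) // w.2.length ≤ n} :=
      (((Set.finite_univ (α := ι)).prod (List.finite_length_le (Bool × ι) n)).subset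
        (t := {w : ι × List (Bool × ι) | w.2.length ≤ n}) fun w hw => ⟨trivial, hw⟩).to_subtype
    letI := Fintype.ofFinite {w : ι × List (Bool × ι) // w.2.length ≤ n}
    obtain ⟨q, hqP, hq, hq0, hfq, hqt, hLQ⟩ := LQ hW hP hI hA
      (sub_mem (one_mem _) (mul_mem (star_mem hvP) hvP)) hf hf0
      (fun w : {w : ι × List (Bool × ι) // w.2.length ≤ n} => x w.1.1 * ev x v w.1.2)
      (fun w => norm_mul_le_one (hx _) (norm_ev_le T hx hv1 _)) (Real.sqrt_pos.2 he₁0)
      (show 0 < e₁ / (n + 1) ^ 2 by positivity)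
    have htq := hW.t_pos hq hq0
    obtain ⟨lam, hl1, hl2⟩ := exists_phases n
    have hpa := fun k => patch_alg hv hn hq hfq (hl1 k)
    have hv' : ∀ k, ‖v + lam k • q‖ ≤ 1 := fun k => pi_norm_le (by rw [(hpa k).1]; exact (hpa k).2.2.1)
    have hmean := meanD (T := T) hx hv1 hq hl1 hl2 hv'
      (c := fun Y => T.τ ((1 - p) * Y) / (T.t (1 - p) : ℂ))
      (fun Y hY => (norm_c_le hW hf hf0 Y).trans hY) (Real.sqrt_nonneg e₁)
      (show 0 ≤ 2 * √Φ / η by positivity) (fun i L' h => hLQ ⟨(i, L'), h⟩) (by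
        intro e₀ i L' e i' he hlen hch
        have h1 : ‖T.τ (x i * ev x v L')‖ ≤ √Φ := by
          cases L' with
          | nil =>
            have : T.τ (x i) = 0 := (List.isChain_cons_cons.1 hch).1 (Ne.symm he)
            simp [ev, this]
          | cons p' L' =>
            exact hΨ v (i, p' :: L') ((h𝒲 _).2 ⟨by simp, by simp at hlen ⊢; omega,
              hch.left_of_append.tail⟩) Φ hvΨ
        have h2 : ‖T.τ (p * (x i * ev x v L'))‖ ≤ √Φ := by
          have h3 := hΨ v (i₁, ((e₀, i) :: L') ++ [(e, i₁)]) ((h𝒲 _).2 ⟨by simp, by simp; omega, by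
            rw [List.isChain_append] at hch ⊢
            exact ⟨hch.1, List.isChain_singleton _, fun a ha b hb => by
              simp only [List.head?_cons, Option.mem_def, Option.some.injEq] at hb
              subst hb
              exact hch.2.2 a ha (e, i') rfl⟩⟩) Φ hvΨ
          have h4 : sg v e * sg v e₀ = p := by
            cases e <;> cases e₀
            · exact absurd rfl he
            · rfl
            · exact hn
            · exact absurd rfl he
          simp only [ev_append, ev, hi₁, one_mul, mul_one] at h3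
          rw [T.tr, ← mul_assoc, ← mul_assoc, h4, mul_assoc] at h3
          exact h3
        rw [norm_div, Complex.norm_real, Real.norm_eq_abs, abs_of_pos (hη0.trans hcon), sub_mul,
          one_mul, map_sub]
        gcongr
        exact (norm_sub_le _ _).trans (by linarith))
    have hsum : ∑ k ∈ Finset.range (n + 1), Ψ (v + lam k • q) ≤
        ∑ k ∈ Finset.range (n + 1), Φ * Real.exp (K * T.t q) := by
      have hw : ∀ w ∈ 𝒲, ∑ k ∈ Finset.range (n + 1), ‖T.τ (x w.1 * ev x (v + lam k • q) w.2)‖ ^ 2 ≤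
          (n + 1) * ‖T.τ (x w.1 * ev x v w.2)‖ ^ 2 +
            (n + 1) * (Φ * T.t q * (2 * (n * 2 ^ n * (1 + 2 / η)) + 1)) := by
        intro w hw
        obtain ⟨-, hlen, hch⟩ := (h𝒲 w).1 hw
        set a := T.τ (x w.1 * ev x v w.2) with ha
        set D : ℕ → ℂ := fun k => T.τ (x w.1 * ev x (v + lam k • q) w.2) - a with hD
        have h1 : ∀ k, T.τ (x w.1 * ev x (v + lam k • q) w.2) = a + D k := fun k => by simp [hD]
        have hlen' : (w.2.length : ℝ) ≤ n := by exact_mod_cast hlen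
        have h2 : ∀ k, ‖D k‖ ^ 2 ≤ Φ * T.t q := fun k => by
          have h3 := D_bound (T := T) hx hv1 hq (hl1 k) (hv' k) w.2 _ (hx w.1)
          have h4 : ‖D k‖ ≤ (n + 1) * T.t q := h3.trans (by gcongr; linarith)
          rw [le_div_iff₀ (by positivity)] at hqt
          calc _ ≤ ((n + 1) * T.t q) ^ 2 := by gcongr
            _ = (T.t q * (n + 1) ^ 2) * T.t q := by ring
            _ ≤ _ := by gcongr; linarith
        have h3 : ‖∑ k ∈ Finset.range (n + 1), D k‖ ≤
            (n + 1) * (n * (2 ^ n * ((√Φ + 2 * √Φ / η) * T.t q))) := by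
          refine (hmean w.2 _ (hx w.1) hlen hch).trans ?_
          gcongr
        have h4 : ‖a‖ ≤ √Φ := hΨ v w hw Φ hvΨ
        have h5 : (conj a * ∑ k ∈ Finset.range (n + 1), D k).re ≤
            (n + 1) * (Φ * T.t q * (n * 2 ^ n * (1 + 2 / η))) := by
          refine (Complex.re_le_norm _).trans ?_
          rw [norm_mul, RCLike.norm_conj]
          calc _ ≤ √Φ * ((n + 1) * (n * (2 ^ n * ((√Φ + 2 * √Φ / η) * T.t q)))) := by gcongr
            _ = (n + 1) * ((√Φ * √Φ) * T.t q * (n * 2 ^ n * (1 + 2 / η))) := by ring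
            _ = _ := by rw [Real.mul_self_sqrt hΦ0.le]
        have h6 := Finset.sum_le_card_nsmul (Finset.range (n + 1)) (fun k => ‖D k‖ ^ 2) _
          fun k _ => h2 k
        simp only [h1, sq_norm_add_le, Finset.sum_add_distrib, ← Finset.mul_sum, ← Complex.re_sum,
          Finset.sum_const, Finset.card_range, nsmul_eq_mul] at h6 ⊢
        push_cast at h6 ⊢
        nlinarith
      simp only [Ψ]
      rw [Finset.sum_comm]
      refine (Finset.sum_le_sum hw).trans ?_
      simp only [Finset.sum_add_distrib, ← Finset.mul_sum, Finset.sum_const, Finset.card_range,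
        nsmul_eq_mul]
      have h1 := Real.add_one_le_exp (K * T.t q)
      have h2 : Φ + 𝒲.card * (Φ * T.t q * (2 * (n * 2 ^ n * (1 + 2 / η)) + 1)) ≤
          Φ * Real.exp (K * T.t q) := by
        calc _ = Φ * (K * T.t q + 1) := by rw [hK]; ring
          _ ≤ _ := by gcongr
      have h3 : ∑ w ∈ 𝒲, ‖T.τ (x w.1 * ev x v w.2)‖ ^ 2 ≤ Φ := hvΨ
      push_cast
      calc _ = ((n : ℝ) + 1) * (∑ w ∈ 𝒲, ‖T.τ (x w.1 * ev x v w.2)‖ ^ 2 +
            𝒲.card * (Φ * T.t q * (2 * (n * 2 ^ n * (1 + 2 / η)) + 1))) := by ring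
        _ ≤ ((n : ℝ) + 1) * (Φ * Real.exp (K * T.t q)) :=
            mul_le_mul_of_nonneg_left (by linarith) (by positivity)
        _ = _ := by ring
    obtain ⟨k, -, hk⟩ := Finset.exists_le_of_sum_le Finset.nonempty_range_add_one hsum
    have := hmax (v + lam k • q) ⟨add_mem hvP (SMulMemClass.smul_mem _ hqP),
      by rw [(hpa k).1]; exact (hpa k).2.2.1, by rw [(hpa k).1, (hpa k).2.1], by
        rw [(hpa k).1, T.t_add, mul_add, Real.exp_add, ← mul_assoc]; exact hk⟩ (hpa k).2.2.2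
    rw [(hpa k).1, T.t_add] at this
    linarith
  have hpa := patch_alg hv hn hf hf.isIdempotentElem.eq (c := 1) (by simp)
  have hu : v + (1 : ℂ) • (1 - p) ∈ unitary A := ⟨by rw [hpa.1]; simp [hp], by rw [hpa.2.1]; simp [hp]⟩
  refine ⟨v + (1 : ℂ) • (1 - p), add_mem hvP (SMulMemClass.smul_mem _
    (sub_mem (one_mem _) (mul_mem (star_mem hvP) hvP))), hu, fun i L h0 hlen hch => ?_⟩
  have h1 := D_bound (T := T) hx hv1 hf (c := 1) (by simp) (T.norm_unitary hu).le L _ (hx i)
  have h2 := hΨ v (i, L) ((h𝒲 _).2 ⟨h0, hlen, hch⟩) ((ε / 2) ^ 2) (hvΨ.trans (by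
    rw [he₁, mul_assoc, ← Real.exp_add]
    refine mul_le_of_le_one_right (by positivity) (Real.exp_le_one_iff.2 ?_)
    have := T.t_le_one hv
    nlinarith))
  rw [Real.sqrt_sq (by positivity)] at h2
  have h3 : (L.length : ℝ) * T.t (1 - p) ≤ ε / 2 := by
    have hlen' : (L.length : ℝ) ≤ n + 1 := by exact_mod_cast Nat.le_succ_of_le hlen
    calc _ ≤ ((n : ℝ) + 1) * η := by gcongr; exact T.t_nonneg hf
      _ = _ := by rw [hη]; field_simp
  have h4 := norm_add_le (T.τ (x i * ev x (v + (1 : ℂ) • (1 - p)) L) - T.τ (x i * ev x v L))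
    (T.τ (x i * ev x v L))
  rw [sub_add_cancel] at h4
  linarith

theorem popaStmt : PopaStmt := by
  intro A _ T P hW hP hI hA X hX hX1 n ε hε
  haveI := T.nontrivial
  haveI : Finite (insert (1 : A) X : Set A) := (hX.insert 1).to_subtype
  obtain ⟨a, haP, ha, h⟩ := popa_core hW hP hI hA (ι := (insert (1 : A) X : Set A))
    (x := Subtype.val) (fun i => by
      rcases i.2 with h | h
      · rw [h]; simp
      · exact hX1 _ h) (i₁ := ⟨1, Set.mem_insert _ _⟩) rfl n hε
  refine ⟨a, haP, ha, fun k hk e w x₀ hx₀ hw => ?_⟩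
  have key : ∀ k e w, Adm T a X k e w → ∃ (i : (insert (1 : A) X : Set A))
      (L : List (Bool × (insert (1 : A) X : Set A))), ((e, i) :: L).length = k ∧
      ((e, i) :: L).IsChain (Rel T Subtype.val) ∧ w = ev Subtype.val a ((e, i) :: L) := by
    intro k e w hw
    induction hw with
    | single e x hx =>
      exact ⟨⟨x, Set.mem_insert_of_mem _ hx⟩, [], rfl, List.isChain_singleton _, by simp [ev]⟩
    | cons k e e' x w hx hc _ ih =>
      obtain ⟨i, L, h1, h2, h3⟩ := ih
      exact ⟨⟨x, Set.mem_insert_of_mem _ hx⟩, (e', i) :: L, by rw [List.length_cons, h1],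
        List.isChain_cons_cons.2 ⟨hc, h2⟩, by rw [h3]; rfl⟩
  obtain ⟨i, L, h1, h2, h3⟩ := key k e w hw
  rw [h3]
  exact h ⟨x₀, Set.mem_insert_of_mem _ hx₀⟩ _ (by simp) (h1.le.trans hk) h2

end Crest.Agent.H4.Gen
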