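import Crest.Agent.H4.GenA

/-! Interface statements for the generator problem (row 95). -/

namespace Crest.Agent.H4.Gen

universe u

/-- (A) Popa's asymptotic freeness lemma. -/
def PopaStmt : Prop := ∀ (A : Type u) [CStarAlgebra A] (T : TS A) (P : StarSubalgebra ℂ A),
  T.W → T.Cl P → Irr P → ¬ FiniteDimensional ℂ A → Popa T P

/-- (B) The local improvement lemma. -/
def LocalStmt : Prop := ∀ (A : Type u) [CStarAlgebra A] (T : TS A) (P : StarSubalgebra ℂ A),
  Popa T P → Local T P

/-- (C1) Greedy approximation and Baire category. -/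
def MainStmt : Prop := ∀ (A : Type u) [CStarAlgebra A] (T : TS A) (P : StarSubalgebra ℂ A),
  T.W → T.Sep → Local T P →
    ∀ u ∈ unitary A, ∀ ε > 0, ∃ v ∈ unitary A, T.n2 (v - u) < ε ∧ Dense2 T P v

/-- (C2) A 2-norm dense subalgebra closed under bounded 2-limits is everything. -/
def TopStmt : Prop := ∀ (A : Type u) [CStarAlgebra A] (T : TS A) (P S : StarSubalgebra ℂ A) (v : A),
  T.Cl S → P ≤ S → v ∈ S → Dense2 T P v → S = ⊤

/-- (D0) Halving in a II₁ factor. -/
def HalvStmt : Prop := ∀ (A : Type u) [CStarAlgebra A] (T : TS A),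
  T.W → Irr (⊤ : StarSubalgebra ℂ A) → ¬ FiniteDimensional ℂ A →
    ∃ v : A, v * v = 0 ∧ star v * v + v * star v = 1

/-- (D) Single generation, abstract form. -/
def SingleStmt : Prop := ∀ (A : Type u) [CStarAlgebra A] (T : TS A),
  T.W → T.Sep → Irr (⊤ : StarSubalgebra ℂ A) → ¬ FiniteDimensional ℂ A →
    ∃ x : A, ∀ S : StarSubalgebra ℂ A, T.Cl S → x ∈ S → S = ⊤

end Crest.Agent.H4.Gen
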