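import Crest.Agent.Lead.HcI

/-! Row 121: the local statement and the patching argument. -/

set_option autoImplicit false

universe u

namespace Crest.Agent.H4.Hc

open scoped InnerProductSpace
open Finset Crest.Agent.H5.KS Crest.OpAlg Crest.Agent.Lead.Hc

section alg
variable {A : Type*} [NormedRing A] [NormedAlgebra ℂ A]

lemma hd_add {k : ℕ} (g g' : Co A k) (a : Fin (k + 1) → A) :
    hochschildDiff (g + g') a = hochschildDiff g a + hochschildDiff g' a := by
  simp only [hochschildDiff, ContinuousMultilinearMap.add_apply, Pi.add_apply, mul_add, add_mul, smul_add,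
    sum_add_distrib]
  abel

lemma hd_cen {k : ℕ} {G g : (Fin k → A) → A} {z : A} (hz : ∀ a, z * a = a * z)
    (h : ∀ x, z * G x = z * g x) (a : Fin (k + 1) → A) :
    z * hochschildDiff G a = z * hochschildDiff g a := by
  simp only [hochschildDiff, mul_add, mul_sum, mul_smul_comm, h, ← mul_assoc, hz (a 0)]
  simp only [mul_assoc, h]

lemma norm_slice_le {k : ℕ} (f : Co A (k + 1)) (x : Fin k → A) :
    ‖slice f x‖ ≤ ‖f‖ * ∏ i, ‖x i‖ := by
  have := (ContinuousMultilinearMap.curryRight (Ei := fun _ : Fin (k + 1) => A) f).le_opNorm x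
  rwa [ContinuousMultilinearMap.curryRight_norm] at this

end alg

variable {H : Type*} [NormedAddCommGroup H] [InnerProductSpace ℂ H] [CompleteSpace H]
  {M : VonNeumannAlgebra H}

section fam
variable {ι : Type} [Fintype ι] [DecidableEq ι] {s : ι → H →L[ℂ] H} {z : H →L[ℂ] H}

omit [Fintype ι] in
lemma fam_pi (hz : IsStarProjection z) (hs : ∀ i j, star (s i) * s j = if i = j then z else 0)
    (i : ι) : PI (s i) := PI.of_dom (by rw [hs, if_pos rfl]; exact hz)

lemma fam_col (hz : IsStarProjection z) (hs : ∀ i j, star (s i) * s j = if i = j then z else 0)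
    (ξ : ι → H) : ‖∑ i, s i (ξ i)‖ ^ 2 ≤ ∑ i, ‖ξ i‖ ^ 2 := by
  rw [H9.VN.norm_sq_sum_orth]
  · exact sum_le_sum fun i _ => pow_le_pow_left₀ (norm_nonneg _)
      (apply_le_of_le_one (fam_pi hz hs i).norm_le _) 2
  · intro i j hij
    rw [← inner_star_mul, hs, if_neg hij]; simp

lemma fam_row (hz : IsStarProjection z) (hs : ∀ i j, star (s i) * s j = if i = j then z else 0)
    (ξ : H) : ∑ i, ‖star (s i) ξ‖ ^ 2 ≤ ‖ξ‖ ^ 2 :=
  H9.VN.bessel (fun i => star (s i)) (fun i => (fam_pi hz hs i).star.norm_le)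
    (fun i j hij => by rw [star_star, hs, if_neg hij]) _ ξ

end fam

lemma norm_le_of_sq {T : H →L[ℂ] H} {c : ℝ} (hc : 0 ≤ c) (h : ∀ ξ, ‖T ξ‖ ^ 2 ≤ c ^ 2 * ‖ξ‖ ^ 2) :
    ‖T‖ ≤ c :=
  T.opNorm_le_bound hc fun ξ => (sq_le_sq₀ (norm_nonneg _) (by positivity)).1 (by
    rw [mul_pow]; exact h ξ)

/-- slices of a multimodular cochain are completely bounded -/
lemma cb_slice {k : ℕ} (f : Co (Al M) (k + 1)) (z : Al M) (t : ℕ → Al M)
    (hz : Cen M (z : H →L[ℂ] H)) (ht : ∀ n m, star (t n) * t m = if n = m then z else 0)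
    (h0 : ∀ x y, slice f x (y * z) = slice f x y * z)
    (h1 : ∀ n x y, slice f x (y * t n) = slice f x y * t n)
    (h2 : ∀ n (x x' : Fin k → Al M), (∀ i, x i * star (t n) = star (t n) * x' i) →
      ∀ y, slice f x (star (t n) * y) = star (t n) * slice f x' y) (x : Fin k → Al M) :
    CB M ((Lm z).comp (slice f x)) (‖f‖ * ∏ i, ‖x i‖) := by
  classical
  intro ι κ _ _ Y hY ζ
  have hzc : ∀ a : Al M, z * a = a * z := fun a => Subtype.ext (hz.comm _ a.2)
  have hzz : z * z = z := Subtype.ext hz.sq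
  let s : ι → Al M := fun i => t (Fintype.equivFin ι i)
  let r : κ → Al M := fun j => t (Fintype.equivFin κ j)
  have hs : ∀ i j, star (s i) * s j = if i = j then z else 0 := fun i j => by
    rw [ht]; simp [Fin.val_inj]
  have hr : ∀ i j, star (r i) * r j = if i = j then z else 0 := fun i j => by
    rw [ht]; simp [Fin.val_inj]
  have hs' : ∀ i j, star (s i : H →L[ℂ] H) * s j = if i = j then (z : H →L[ℂ] H) else 0 :=
    fun i j => by
      have := congrArg Subtype.val (hs i j)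
      split_ifs at this ⊢ <;> exact this
  have hr' : ∀ i j, star (r i : H →L[ℂ] H) * r j = if i = j then (z : H →L[ℂ] H) else 0 :=
    fun i j => by
      have := congrArg Subtype.val (hr i j)
      split_ifs at this ⊢ <;> exact this
  have hsz : ∀ i, z * star (s i) = star (s i) := fun i => by
    have := (fam_pi hz.proj hs' i).seq
    rw [hs', if_pos rfl] at this
    exact Subtype.ext this
  let Yh : Al M := ∑ i, ∑ j, s i * Y i j * star (r j)
  let Φ : Al M → Al M := fun a => ∑ i, s i * a * star (s i)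
  have hΦ : ∀ a i, a * star (s i) = star (s i) * Φ a := fun a i => by
    simp only [Φ, mul_sum, ← mul_assoc, hs, ite_mul, zero_mul, sum_ite_eq, mem_univ, if_true]
    rw [hzc, mul_assoc, hsz]
  have hΦn : ∀ a, ‖Φ a‖ ≤ ‖a‖ := fun a => by
    refine norm_le_of_sq (T := (Φ a : H →L[ℂ] H)) (norm_nonneg _) fun ξ => ?_
    have e : (Φ a : H →L[ℂ] H) ξ =
        ∑ i, (s i : H →L[ℂ] H) ((a : H →L[ℂ] H) (star (s i : H →L[ℂ] H) ξ)) := by
      simp [Φ]
    rw [e]
    refine (fam_col hz.proj hs' _).trans ?_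
    refine le_trans ?_ (mul_le_mul_of_nonneg_left (fam_row hz.proj hs' ξ) (sq_nonneg _))
    rw [mul_sum]
    refine sum_le_sum fun i _ => ?_
    rw [← mul_pow]
    exact pow_le_pow_left₀ (norm_nonneg _) ((a : H →L[ℂ] H).le_opNorm _) 2
  have hYn : ‖Yh‖ ≤ 1 := by
    refine norm_le_of_sq (T := (Yh : H →L[ℂ] H)) zero_le_one fun ξ => ?_
    have e : (Yh : H →L[ℂ] H) ξ = ∑ i, (s i : H →L[ℂ] H)
        (∑ j, (Y i j : H →L[ℂ] H) (star (r j : H →L[ℂ] H) ξ)) := by
      simp [Yh]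
    rw [e, one_pow, one_mul]
    exact (fam_col hz.proj hs' _).trans ((hY _).trans (fam_row hz.proj hr' ξ))
  have hYij : ∀ i j, star (s i) * Yh * r j = Y i j * z := fun i j => by
    simp only [Yh, mul_sum, sum_mul, ← mul_assoc, hs, ite_mul, zero_mul]
    rw [sum_comm]
    simp only [sum_ite_eq, mem_univ, if_true, mul_assoc, hr, mul_ite, mul_zero, sum_ite_eq',
      mem_univ, if_true]
    rw [← mul_assoc, hzc, mul_assoc, hzz]
  set W := slice f (fun l => Φ (x l)) Yh with hW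
  have hWn : ‖W‖ ≤ ‖f‖ * ∏ i, ‖x i‖ := by
    refine ((slice f _).le_opNorm _).trans ?_
    calc _ ≤ (‖f‖ * ∏ i, ‖Φ (x i)‖) * 1 :=
          mul_le_mul (norm_slice_le _ _) hYn (norm_nonneg _) (by positivity)
      _ ≤ _ := by
          rw [mul_one]
          exact mul_le_mul_of_nonneg_left
            (prod_le_prod (fun _ _ => norm_nonneg _) fun i _ => hΦn _) (norm_nonneg _)
  have hT : ∀ i j, ((Lm z).comp (slice f x)) (Y i j) = star (s i) * W * r j := fun i j => by
    change z * slice f x (Y i j) = _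
    rw [hzc, ← h0, ← hYij, h1, h2 _ x (fun l => Φ (x l)) (fun l => hΦ _ _)]
  have e : ∀ i, ∑ j, ((((Lm z).comp (slice f x)) (Y i j) : Al M) : H →L[ℂ] H) (ζ j) =
      star (s i : H →L[ℂ] H) ((W : H →L[ℂ] H) (∑ j, (r j : H →L[ℂ] H) (ζ j))) := fun i => by
    simp only [hT, map_sum]; rfl
  simp only [e]
  refine (fam_row hz.proj hs' _).trans ?_
  have h3 := fam_col hz.proj hr' ζ
  have h4 := (W : H →L[ℂ] H).le_opNorm (∑ j, (r j : H →L[ℂ] H) (ζ j))
  calc _ ≤ ((‖f‖ * ∏ i, ‖x i‖) * ‖∑ j, (r j : H →L[ℂ] H) (ζ j)‖) ^ 2 :=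
        pow_le_pow_left₀ (norm_nonneg _)
          (h4.trans (mul_le_mul_of_nonneg_right hWn (norm_nonneg _))) 2
    _ ≤ _ := by
        rw [mul_pow]
        exact mul_le_mul_of_nonneg_left h3 (sq_nonneg _)

lemma Tr.cut' {z z' : H →L[ℂ] H} {k : ℕ} {ζ : Fin k → H} (h : Tr M z ζ) (hz' : Cen M z')
    (hle : z' * z = z') : Tr M z' fun a => z' (ζ a) where
  ct := h.ct.cut hz'
  cut a := by rw [← ContinuousLinearMap.mul_apply, hz'.sq]
  norm := le_trans (sum_le_sum fun a _ =>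
    pow_le_pow_left₀ (norm_nonneg _) (proj_apply_le hz'.proj _) 2) h.norm
  faith z'' h1 h2 h3 := by
    obtain ⟨a, ha⟩ := h.faith z'' h1 h2 (by rw [← h3, mul_assoc, hle])
    exact ⟨a, by rwa [← ContinuousLinearMap.mul_apply, h3]⟩

lemma exists_Tr {z : H →L[ℂ] H} (hz : Cen M z) (h0 : z ≠ 0) (hN : NS M z) :
    ∃ z', Cen M z' ∧ z' ≠ 0 ∧ z' * z = z' ∧ ∃ (k : ℕ) (ζ : Fin k → H), Tr M z' ζ := by
  have hE : Sys M (fun _ : Unit => (1 : H →L[ℂ] H)) 1 1 :=
    ⟨fun _ => one_mem _, one_mem _, IsStarProjection.one _, fun i j => by simp, by simp⟩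
  obtain ⟨z', h1, h2, h3, k, ζ, h4, h5⟩ := exists_trace hE hz h0 (by rwa [one_mul])
  set c : ℝ := (∑ a, ‖ζ a‖ ^ 2 + 1)⁻¹ with hc
  have hs : 0 ≤ ∑ a, ‖ζ a‖ ^ 2 := sum_nonneg fun _ _ => sq_nonneg _
  have hc0 : 0 < c := by positivity
  have hc1 : c * (∑ a, ‖ζ a‖ ^ 2 + 1) = 1 := inv_mul_cancel₀ (by positivity)
  refine ⟨z', h1, h2, h3, k, fun a => z' ((c : ℂ) • ζ a), ?_, fun a => ?_, ?_, ?_⟩
  · refine CT.cut (fun x hx => ?_) h1
    have := mul_le_mul_of_nonneg_left (h4 x hx) (sq_nonneg c)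
    simp only [map_smul, norm_smul, mul_pow, Complex.norm_real, Real.norm_eq_abs, sq_abs,
      ← mul_sum]
    linarith
  · rw [← ContinuousLinearMap.mul_apply, h1.sq]
  · refine le_trans (sum_le_sum fun a _ =>
      pow_le_pow_left₀ (norm_nonneg _) (proj_apply_le h1.proj _) 2) ?_
    simp only [norm_smul, mul_pow, Complex.norm_real, Real.norm_eq_abs, sq_abs, ← mul_sum]
    nlinarith
  · intro z'' a1 a2 a3
    obtain ⟨a, ha⟩ := h5 z'' a1 a2 a3
    refine ⟨a, ?_⟩
    rw [← ContinuousLinearMap.mul_apply, a3, map_smul]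
    exact smul_ne_zero (by exact_mod_cast hc0.ne') ha

theorem localStmt (hS : ShiftStmt.{u}) (hF : FinalStmt.{u}) (hD : DiagStmt.{u}) (hI : InfStmt.{u})
    (hL : LimStmt.{u}) (hCS : CSStmt.{u}) (hM : MeanStmt.{u}) (h1 : CoreIStmt.{u})
    (h2 : CoreIIStmt.{u}) : LocalStmt.{u} := by
  intro H _ _ _ M k f hf
  obtain ⟨C, hC0, hC⟩ := hS (Al M) k
  refine ⟨(2 * C + 3) * ‖f‖, fun z hz h0 => ?_⟩
  have hCf : 0 ≤ C * ‖f‖ := by positivity
  by_cases hN : NS M z
  · obtain ⟨z₁, a1, a2, a3, l, ζ, hT⟩ := exists_Tr hz h0 hN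
    have key : ∃ z', Cen M z' ∧ z' ≠ 0 ∧ z' * z = z' ∧ MeanAt M z' := by
      by_cases hA : H9.VN.NoAb M z₁
      · exact ⟨z₁, a1, a2, a3, hM H M z₁ l ζ a1 hT (h2 H M z₁ l ζ a1 hA hT)⟩
      · simp only [H9.VN.NoAb, not_forall, not_exists, not_and] at hA
        obtain ⟨r, rM, pr, r0, zr, hr⟩ := hA
        have hAb : H9.VN.Ab M r := H9.VN.ab_of_nilfree M rM pr fun x xM b1 b2 b3 => by
          by_contra h
          exact hr x xM h b1 b2 b3
        obtain ⟨z', c1, c2, c3, n, v, v1, v2, v3, v4, v5⟩ :=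
          NS.fam (hN.mono (f' := z₁) (by rw [hz.comm _ a1.mem, a3])) a1.mem a1.proj rM pr r0
        have c4 : z' * z₁ = z' := c3 z₁ a1 zr
        rw [← c1.comm _ a1.mem, c4] at v5
        have hFr : Frame M z' v := ⟨v1, fun b => by
          rw [← c1.comm _ (v1 b), ← v5, sum_mul, sum_eq_single b]
          · exact (v2 b).eq
          · intro a _ hab
            rw [mul_assoc, v4 a b hab, mul_zero]
          · simp, v5⟩
        have hT' := Tr.cut' hT c1 c4
        exact ⟨z', c1, c2, by rw [← c4, mul_assoc, a3], hM H M z' l _ c1 hT'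
          (h1 H M z' r l _ _ v c1 hAb hFr v3 hT'.norm)⟩
    obtain ⟨z', c1, c2, c3, Λ, l1, l2⟩ := key
    obtain ⟨g, g1, g2⟩ := hF (Al M) k f hf ⟨z', c1.mem⟩ Λ (3 * ‖f‖) (by positivity)
      (fun b => Subtype.ext (l1 b)) (fun x b => (l2 _).2.1 b) (fun x y => (l2 _).2.2 y)
      (fun x => (l2 _).1.trans (by
        rw [mul_assoc]
        exact mul_le_mul_of_nonneg_left (norm_slice_le f x) (by norm_num)))
    refine ⟨z', c1, c2, c3, g, by nlinarith, fun a => ?_⟩
    rw [g2]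
    change ((f a : H →L[ℂ] H) * z' - f a) * z' = 0
    rw [sub_mul, mul_assoc, c1.sq, sub_self]
  · obtain ⟨z', c1, c2, c3, t, t1, t2⟩ := hI H M z hz hN
    let Z : Al M := ⟨z', c1.mem⟩
    let T : ℕ → Al M := fun n => ⟨t n, t1 n⟩
    have hT : ∀ n m, star (T n) * T m = if n = m then Z else 0 := fun n m => by
      apply Subtype.ext
      have := t2 n m
      split_ifs at this ⊢ <;> exact this
    have hzc : ∀ a : Al M, Z * a = a * Z := fun a => Subtype.ext (c1.comm _ a.2)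
    obtain ⟨m, hm⟩ := hD H M Z T c1 hT
    obtain ⟨L, hL'⟩ := hL H M
    obtain ⟨g₀, f', b1, b2, b3, b4, b5, b6⟩ := hC L hL' _ m hm f hf
    obtain ⟨Λ, l1, l2⟩ := hCS H M
    have hcb : ∀ x, CB M ((Lm Z).comp (slice f' x)) (‖f'‖ * ∏ i, ‖x i‖) :=
      cb_slice f' Z T c1 hT (b5 _ (by simp)) (fun n => b5 _ (by simp)) (fun n => b6 _ (by simp))
    let Λ' : (Al M →L[ℂ] Al M) →ₗ[ℂ] Al M :=
      Λ ∘ₗ (ContinuousLinearMap.compL ℂ (Al M) (Al M) (Al M) (Lm Z)).toLinearMap
    have hΛ' : ∀ S, Λ' S = Λ ((Lm Z).comp S) := fun _ => rfl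
    obtain ⟨g, g1, g2⟩ := hF (Al M) k f' b4 Z Λ' ‖f'‖ (norm_nonneg _)
      (fun b => by
        have e : (Lm Z).comp (Lm b) = Lm (Z * b) := by
          ext1 y
          exact (mul_assoc _ _ _).symm
        rw [hΛ', ← hzc, e, l1])
      (fun x b => by
        rw [hΛ', hΛ', ← (l2 _ _ (by positivity) (hcb x)).2.1 b]
        congr 1
        ext1 y
        change Z * (b * _) = b * (Z * _)
        rw [← mul_assoc, hzc, mul_assoc])
      (fun x y => by
        rw [hΛ', hΛ', ← (l2 _ _ (by positivity) (hcb x)).2.2 y]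
        rfl)
      (fun x => (l2 _ _ (by positivity) (hcb x)).1)
    refine ⟨z', c1, c2, c3, g₀ + g, (norm_add_le _ _).trans (by nlinarith [norm_nonneg f]),
      fun a => ?_⟩
    have e : hochschildDiff (g₀ + g) a - f a = f' a * Z - f' a := by
      rw [hd_add, g2, b3]; abel
    erw [e]
    change ((f' a : H →L[ℂ] H) * z' - f' a) * z' = 0
    rw [sub_mul, mul_assoc, c1.sq, sub_self]

lemma patch_elem {ι : Type*} (z : ι → H →L[ℂ] H) (hz : ∀ i, Cen M (z i))
    (ho : ∀ i j, i ≠ j → z i * z j = 0) (b : ι → Al M) {c : ℝ} (hc : 0 ≤ c) (hb : ∀ i, ‖b i‖ ≤ c) :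
    ∃ B : Al M, ‖B‖ ≤ c ∧ ∀ i, z i * B = z i * b i := by
  rcases hc.eq_or_lt with rfl | hc
  · refine ⟨0, by simp, fun i => ?_⟩
    rw [norm_le_zero_iff.1 (hb i)]
  have hcc : ((c : ℂ)) ≠ 0 := by exact_mod_cast hc.ne'
  obtain ⟨A, AM, An, hs, -⟩ := H9.VN.exists_orth_sum M
    (fun i => (c : ℂ)⁻¹ • (z i * (b i : H →L[ℂ] H)))
    (fun i => vsmul_mem _ (mul_mem (hz i).mem (b i).2))
    (fun i => by
      rw [norm_smul, norm_inv, Complex.norm_real, Real.norm_of_nonneg hc.le, inv_mul_le_iff₀ hc,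
        mul_one]
      refine (norm_mul_le _ _).trans ?_
      have h1 := (hz i).proj.norm_le
      have h2 : ‖(b i : H →L[ℂ] H)‖ ≤ c := hb i
      nlinarith [norm_nonneg (z i), norm_nonneg (b i : H →L[ℂ] H)])
    (fun i j hij => by
      rw [star_smul, smul_mul_smul_comm, star_mul, (hz i).star_eq, mul_assoc, ← mul_assoc (z i),
        ho i j hij]; simp)
    (fun i j hij => by
      rw [star_smul, smul_mul_smul_comm, (hz i).comm _ (b i).2, (hz j).comm _ (b j).2, star_mul,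
        (hz j).star_eq, mul_assoc, ← mul_assoc (z i), ho i j hij]; simp)
  refine ⟨⟨(c : ℂ) • A, vsmul_mem _ AM⟩, ?_, fun i => ?_⟩
  · change ‖(c : ℂ) • A‖ ≤ c
    rw [norm_smul, Complex.norm_real, Real.norm_of_nonneg hc.le]
    nlinarith
  · change z i * ((c : ℂ) • A) = _
    rw [mul_smul_comm, H9.VN.mul_sum_single hs i (fun j hj => by
      rw [mul_smul_comm, ← mul_assoc, ho i j hj.symm]; simp), mul_smul_comm, smul_smul,
      mul_inv_cancel₀ hcc, one_smul, ← mul_assoc, (hz i).sq]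

theorem patch (hL : LocalStmt.{u}) (H : Type u) [NormedAddCommGroup H] [InnerProductSpace ℂ H]
    [CompleteSpace H] (M : VonNeumannAlgebra H) (k : ℕ) (f : Co (Al M) (k + 1))
    (hf : ∀ a, hochschildDiff f a = 0) : ∃ g : Co (Al M) k, ∀ a, hochschildDiff g a = f a := by
  obtain ⟨C, hC⟩ := hL H M k f hf
  obtain ⟨S, hQ, hR, hmax⟩ := H9.VN.exists_maximal_pairwise
    (fun z : H →L[ℂ] H => Cen M z ∧ z ≠ 0 ∧ ∃ g : Co (Al M) k, ‖g‖ ≤ C ∧
      ∀ a, ((hochschildDiff g a - f a : Al M) : H →L[ℂ] H) * z = 0) (fun z z' => z * z' = 0)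
  have huniq : ∀ D : H →L[ℂ] H, (∀ z ∈ S, z * D = 0) → D = 0 := by
    obtain ⟨R, pR, R1, R2⟩ := exists_rpS S
    have hc : ∀ t : H →L[ℂ] H, (∀ z ∈ S, t * z = z * t) → (1 - R) * t * R = 0 := fun t ht =>
      R2 _ fun z hz => by
        rw [mul_assoc, ht z hz, ← mul_assoc, sub_mul, one_mul, R1 z hz, sub_self, zero_mul]
    have hRc : Cen M R := ⟨mem_of_comm fun t ht => comm_of_inv pR
        (hc t fun z hz => comm_of_mem (hQ z hz).1.mem ht)
        (hc _ fun z hz => comm_of_mem (hQ z hz).1.mem (star_mem ht)), pR, fun a ha =>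
      (comm_of_inv pR (hc a fun z hz => ((hQ z hz).1.comm a ha).symm)
        (hc _ fun z hz => ((hQ z hz).1.comm _ (star_mem ha)).symm)).symm⟩
    have hR1 : 1 - R = 0 := by
      by_contra h
      obtain ⟨z', c1, c2, c3, c4⟩ := hC _ hRc.one_sub h
      have h1 : ∀ z ∈ S, z' * z = 0 := fun z hz => by
        rw [← c3, mul_assoc, sub_mul, one_mul, R1 z hz, sub_self, mul_zero]
      have h2 := hmax z' ⟨c1, c2, c4⟩ fun z hz =>
        ⟨by rw [← c1.comm _ (hQ z hz).1.mem, h1 z hz], h1 z hz⟩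
      exact c2 (by rw [← c1.sq, h1 z' h2])
    intro D hD
    have h3 := R2 (star D) fun z hz => by
      have := congrArg star (hD z hz)
      rwa [star_mul, (hQ z hz).1.star_eq, star_zero] at this
    rw [← sub_eq_zero.1 hR1, mul_one] at h3
    simpa using h3
  choose g hg1 hg2 using fun z : S => (hQ z z.2).2.2
  have hex : ∀ x : Fin k → Al M, ∃ B : Al M, ‖B‖ ≤ max C 0 * ∏ i, ‖x i‖ ∧
      ∀ z : S, z.1 * B = z.1 * g z x := fun x =>
    patch_elem (fun z : S => z.1) (fun z => (hQ z z.2).1)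
      (fun i j hij => hR i.2 j.2 fun h => hij (Subtype.ext h)) (fun z => g z x) (by positivity)
      fun z => ((g z).le_opNorm x).trans
        (mul_le_mul_of_nonneg_right ((hg1 z).trans (le_max_left _ _)) (by positivity))
  choose G hG1 hG2 using hex
  have hu : ∀ B B' : Al M, (∀ z : S, z.1 * B = z.1 * B') → B = B' := fun B B' h =>
    Subtype.ext (sub_eq_zero.1 (huniq _ fun z hz => by rw [mul_sub, h ⟨z, hz⟩, sub_self]))
  let G' : MultilinearMap ℂ (fun _ : Fin k => Al M) (Al M) :=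
    { toFun := G
      map_update_add' := fun x i a b => hu _ _ fun z => by
        rw [hG2, (g z).map_update_add, AddMemClass.coe_add, AddMemClass.coe_add, mul_add, mul_add,
          hG2, hG2]
      map_update_smul' := fun x i c a => hu _ _ fun z => by
        rw [hG2, (g z).map_update_smul, SetLike.val_smul, SetLike.val_smul, mul_smul_comm,
          mul_smul_comm, hG2] }
  refine ⟨G'.mkContinuous _ hG1, fun a => hu _ _ fun z => ?_⟩
  let Z : Al M := ⟨z.1, (hQ z z.2).1.mem⟩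
  have hzc : ∀ a : Al M, Z * a = a * Z := fun a => Subtype.ext ((hQ z z.2).1.comm _ a.2)
  have h1 := hd_cen (G := G) (g := g z) hzc (fun x => Subtype.ext (hG2 x z)) a
  have h2 : Z * (hochschildDiff (g z) a - f a) = 0 := by
    rw [hzc]; exact Subtype.ext (hg2 z a)
  rw [mul_sub, sub_eq_zero, ← h1] at h2
  exact congrArg Subtype.val h2

end Crest.Agent.H4.Hc
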