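import Crest.Agent.H3.HcC
import Crest.Agent.H4.HcLoc

/-! Row 121: the arc lemma. -/

set_option autoImplicit false

universe u

namespace Crest.Agent.H4.Hc

open scoped InnerProductSpace ComplexConjugate
open Finset Crest.Agent.H5.KS Crest.OpAlg Crest.Agent.Lead.Hc

lemma norm_pow_sub_one_le {t : ℂ} (ht : ‖t‖ = 1) (m : ℕ) : ‖t ^ m - 1‖ ≤ m * ‖t - 1‖ := by
  rw [← geom_sum_mul, norm_mul]
  refine mul_le_mul_of_nonneg_right ((norm_sum_le _ _).trans ?_) (norm_nonneg _)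
  simp [ht]

lemma norm_geom_le {t : ℂ} (ht : ‖t‖ = 1) (N : ℕ) : ‖∑ n ∈ range N, t ^ (n + 1)‖ * ‖t - 1‖ ≤ 2 := by
  have : (∑ n ∈ range N, t ^ (n + 1)) * (t - 1) = t * (t ^ N - 1) := by
    rw [← geom_sum_mul, ← mul_assoc, mul_sum]
    simp only [pow_succ']
  rw [← norm_mul, this, norm_mul, ht, one_mul]
  refine (norm_sub_le _ _).trans ?_
  rw [norm_pow, ht, one_pow, norm_one]; norm_num

lemma block_le {t : ℂ} (ht : ‖t‖ = 1) {N : ℕ} (hN : 0 < N) :
    ‖∑ n ∈ range N, (t ^ (n + 1) - conj t ^ (n + 1))‖ / N ≤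
      24 * (2 * (N * ‖t - 1‖)) / (1 + 2 * (N * ‖t - 1‖)) - 24 * (N * ‖t - 1‖) / (1 + N * ‖t - 1‖) := by
  set x := N * ‖t - 1‖ with hx
  have hx0 : 0 ≤ x := by positivity
  have hN' : (0 : ℝ) < N := by exact_mod_cast hN
  have hc : ‖conj t‖ = 1 := by rw [Complex.norm_conj, ht]
  have hd : ‖conj t - 1‖ = ‖t - 1‖ := by rw [← Complex.norm_conj (t - 1)]; simp
  have e : 24 * (2 * x) / (1 + 2 * x) - 24 * x / (1 + x) = 24 * x / ((1 + 2 * x) * (1 + x)) := by
    field_simp; ring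
  rw [e, div_le_div_iff₀ hN' (by positivity)]
  set S := ‖∑ n ∈ range N, (t ^ (n + 1) - conj t ^ (n + 1))‖ with hS
  have hS0 : 0 ≤ S := norm_nonneg _
  rcases le_total x 1 with h | h
  · have h1 : S ≤ N * (2 * x) := by
      refine (norm_sum_le _ _).trans ((sum_le_card_nsmul _ _ (2 * x) fun n hn => ?_).trans (by simp))
      have h2 : ((n + 1 : ℕ) : ℝ) ≤ N := by exact_mod_cast mem_range.1 hn
      have h3 := norm_pow_sub_one_le ht (n + 1)
      have h4 := norm_pow_sub_one_le hc (n + 1)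
      rw [hd] at h4
      have h5 : ((n + 1 : ℕ) : ℝ) * ‖t - 1‖ ≤ x := mul_le_mul_of_nonneg_right h2 (norm_nonneg _)
      calc ‖t ^ (n + 1) - conj t ^ (n + 1)‖ = ‖(t ^ (n + 1) - 1) - (conj t ^ (n + 1) - 1)‖ := by
            congr 1; ring
        _ ≤ _ := (norm_sub_le _ _).trans (by linarith)
    have h2 : (1 + 2 * x) * (1 + x) ≤ 6 := by nlinarith
    calc S * ((1 + 2 * x) * (1 + x)) ≤ (N * (2 * x)) * 6 := by gcongr
      _ ≤ _ := by nlinarith [mul_nonneg hx0 hN'.le]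
  · have h1 : S * ‖t - 1‖ ≤ 4 := by
      have h3 := norm_geom_le ht N
      have h4 := norm_geom_le hc N
      rw [hd] at h4
      have h5 : S ≤ ‖∑ n ∈ range N, t ^ (n + 1)‖ + ‖∑ n ∈ range N, conj t ^ (n + 1)‖ := by
        rw [hS, sum_sub_distrib]; exact norm_sub_le _ _
      nlinarith [norm_nonneg (t - 1)]
    have h2 : (1 + 2 * x) * (1 + x) ≤ 6 * x ^ 2 := by nlinarith
    have h3 : S * x ≤ 4 * N := by rw [hx]; nlinarith
    calc S * ((1 + 2 * x) * (1 + x)) ≤ S * (6 * x ^ 2) := by gcongr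
      _ = 6 * x * (S * x) := by ring
      _ ≤ 6 * x * (4 * N) := by gcongr
      _ = _ := by ring

lemma exists_weights {η : ℝ} (hη : 0 < η) : ∃ (K : ℕ) (w : ℕ → ℝ), (∀ n, 0 ≤ w n) ∧
    ∑ n ∈ range K, w n = 1 ∧ ∀ t : ℂ, ‖t‖ = 1 →
      ‖∑ n ∈ range K, (w n : ℂ) * (t ^ (n + 1) - conj t ^ (n + 1))‖ ≤ η := by
  obtain ⟨L, hL⟩ := exists_nat_gt (24 / η)
  have hL0 : (0 : ℝ) < L := lt_trans (by positivity) hL
  let w : ℕ → ℝ := fun n => ∑ k ∈ range L, if n < 2 ^ k then ((L : ℝ) * (2 ^ k : ℕ))⁻¹ else 0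
  have key : ∀ g : ℕ → ℂ, ∑ n ∈ range (2 ^ L), (w n : ℂ) * g n =
      ∑ k ∈ range L, ((((L : ℝ) * (2 ^ k : ℕ))⁻¹ : ℝ) : ℂ) * ∑ n ∈ range (2 ^ k), g n := by
    intro g
    simp only [w, Complex.ofReal_sum, sum_mul]
    rw [sum_comm]
    refine sum_congr rfl fun k hk => ?_
    have h1 : range (2 ^ k) = (range (2 ^ L)).filter (· < 2 ^ k) := by
      ext n
      have : 2 ^ k ≤ 2 ^ L := Nat.pow_le_pow_right (by norm_num) (mem_range.1 hk).le
      simp only [mem_range, mem_filter]; omega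
    rw [h1, sum_filter, mul_sum]
    refine sum_congr rfl fun n _ => ?_
    split_ifs <;> simp
  refine ⟨2 ^ L, w, fun n => sum_nonneg fun k _ => by split_ifs <;> positivity, ?_, fun t ht => ?_⟩
  · have := key fun _ => 1
    simp only [mul_one, sum_const, card_range, nsmul_eq_mul] at this
    have h2 : ∀ k ∈ range L, ((((L : ℝ) * (2 ^ k : ℕ))⁻¹ : ℝ) : ℂ) * ((2 ^ k : ℕ) : ℂ) =
        (((L : ℝ)⁻¹ : ℝ) : ℂ) := fun k _ => by
      have : (L : ℂ) ≠ 0 := by exact_mod_cast hL0.ne'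
      push_cast; field_simp
    rw [sum_congr rfl h2, sum_const, card_range, nsmul_eq_mul] at this
    have h3 : ((∑ n ∈ range (2 ^ L), w n : ℝ) : ℂ) = (((L : ℝ) * (L : ℝ)⁻¹ : ℝ) : ℂ) := by
      push_cast at this ⊢; exact this
    rw [mul_inv_cancel₀ hL0.ne'] at h3
    exact_mod_cast h3
  · rw [key]
    let F : ℕ → ℝ := fun k => 24 * ((2 ^ k : ℕ) * ‖t - 1‖) / (1 + (2 ^ k : ℕ) * ‖t - 1‖)
    have h1 : ∀ k ∈ range L, ‖((((L : ℝ) * (2 ^ k : ℕ))⁻¹ : ℝ) : ℂ) *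
        ∑ n ∈ range (2 ^ k), (t ^ (n + 1) - conj t ^ (n + 1))‖ ≤ (L : ℝ)⁻¹ * (F (k + 1) - F k) := by
      intro k _
      have h := block_le ht (N := 2 ^ k) (by positivity)
      have e : F (k + 1) = 24 * (2 * ((2 ^ k : ℕ) * ‖t - 1‖)) / (1 + 2 * ((2 ^ k : ℕ) * ‖t - 1‖)) := by
        simp only [F]; push_cast; ring
      rw [norm_mul, Complex.norm_real, Real.norm_of_nonneg (by positivity), mul_inv, mul_assoc,
        ← div_eq_inv_mul _ ((2 ^ k : ℕ) : ℝ), e]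
      exact mul_le_mul_of_nonneg_left h (by positivity)
    refine (norm_sum_le _ _).trans ((sum_le_sum h1).trans ?_)
    rw [← mul_sum, sum_range_sub]
    have h2 : F L ≤ 24 := by
      simp only [F]
      rw [div_le_iff₀ (by positivity)]; linarith
    have h3 : 0 ≤ F 0 := by simp only [F]; positivity
    rw [div_lt_iff₀ hη] at hL
    rw [inv_mul_le_iff₀ hL0]
    linarith

variable {H : Type*} [NormedAddCommGroup H] [InnerProductSpace ℂ H] [CompleteSpace H]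
  {M : VonNeumannAlgebra H}

lemma RB.norm_le' {T : (H →L[ℂ] H) →ₗ[ℂ] (H →L[ℂ] H)} (hT : RB M T) {y : H →L[ℂ] H} (hy : y ∈ M) :
    ‖T y‖ ≤ ‖y‖ := by
  have := hT.row Unit (fun _ => y) ‖y‖ (fun _ => hy) (fun ξ => by
    rw [Fintype.sum_unique, ← mul_pow, ← nstar]
    exact pow_le_pow_left₀ (norm_nonneg _) ((star y).le_opNorm _) 2)
  rw [← nstar]
  exact norm_le_of_sq (norm_nonneg _) fun ξ => by simpa using this ξ

lemma norm_tr_le {k : ℕ} {ζ : Fin k → H} (hζ : ∑ a, ‖ζ a‖ ^ 2 ≤ 1) (y : H →L[ℂ] H) :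
    ‖tr ζ y‖ ≤ ‖y‖ := by
  refine (norm_sum_le _ _).trans ?_
  calc ∑ a, ‖⟪ζ a, y (ζ a)⟫_ℂ‖ ≤ ∑ a, ‖y‖ * ‖ζ a‖ ^ 2 := sum_le_sum fun a _ =>
        (norm_inner_le_norm _ _).trans (by nlinarith [y.le_opNorm (ζ a), norm_nonneg (ζ a)])
    _ ≤ ‖y‖ := by rw [← mul_sum]; exact mul_le_of_le_one_right (norm_nonneg _) hζ

/-- the basic estimate for the approximate trace -/
lemma phi1 {k : ℕ} {ζ : Fin k → H} (hζ : CT M ζ) {a W p v : H →L[ℂ] H} (ha : a ∈ M) (hW : W ∈ M)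
    (hp : p ∈ M) (hv : v ∈ M) (pp : IsStarProjection p) (a1 : ‖a‖ ≤ 1) (v1 : ‖v‖ ≤ 1) :
    ‖tr ζ (a * (W * p) * v)‖ ≤ 2 * ‖W‖ * ∑ j, ‖p (ζ j)‖ ^ 2 := by
  set ψ := ∑ j, ‖p (ζ j)‖ ^ 2 with hψ
  have hψ0 : 0 ≤ ψ := sum_nonneg fun _ _ => sq_nonneg _
  have h1 := hζ (a * W * p) (mul_mem (mul_mem ha hW) hp)
  have h2 := hζ (star v * p) (mul_mem (star_mem hv) hp)
  have h1' : ∑ j, ‖(a * W * p) (ζ j)‖ ^ 2 ≤ ‖W‖ ^ 2 * ψ := by
    rw [hψ, mul_sum]
    refine sum_le_sum fun j _ => ?_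
    rw [← mul_pow]
    refine pow_le_pow_left₀ (norm_nonneg _) (((a * W).le_opNorm _).trans ?_) 2
    exact mul_le_mul_of_nonneg_right ((norm_mul_le _ _).trans
      (mul_le_of_le_one_left (norm_nonneg _) a1)) (norm_nonneg _)
  have h2' : ∑ j, ‖(star v * p) (ζ j)‖ ^ 2 ≤ ψ := sum_le_sum fun j _ =>
    pow_le_pow_left₀ (norm_nonneg _) (apply_le_of_le_one (s := star v) (by rwa [nstar]) (p (ζ j))) 2
  have e : ∀ j, ⟪ζ j, (a * (W * p) * v) (ζ j)⟫_ℂ =
      ⟪star (a * W * p) (ζ j), star (star v * p) (ζ j)⟫_ℂ := fun j => by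
    rw [inner_star_left, star_mul (star v), star_star, pstar pp, ← ContinuousLinearMap.mul_apply]
    congr 2
    simp only [mul_assoc, pmul' pp]
  unfold tr
  refine (norm_sum_le _ _).trans ?_
  simp only [e]
  refine (sum_le_sum fun j _ => norm_inner_le_norm _ _).trans ?_
  refine (sq_le_sq₀ (sum_nonneg fun _ _ => by positivity) (by positivity)).1 ?_
  refine (sum_mul_sq_le_sq_mul_sq _ _ _).trans ?_
  calc _ ≤ (2 * (‖W‖ ^ 2 * ψ)) * (2 * ψ) :=
        mul_le_mul (by linarith) (by linarith) (sum_nonneg fun _ _ => sq_nonneg _) (by positivity)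
    _ = _ := by ring

section part
variable {z : H →L[ℂ] H} {ι : Type} [Fintype ι] {σ : ι → H →L[ℂ] H}

lemma norm_diag (h : Part M z σ) (α : ι → ℂ) {η : ℝ} (hη : 0 ≤ η)
    (hα : ∀ i, σ i ≠ 0 → ‖α i‖ ≤ η) : ‖∑ i, α i • σ i‖ ≤ η := by
  refine norm_le_of_sq hη fun ξ => ?_
  rw [ContinuousLinearMap.sum_apply, H9.VN.norm_sq_sum_orth]
  · refine le_trans ?_ (mul_le_mul_of_nonneg_left (H9.VN.bessel_proj σ h.proj h.orth univ ξ)
      (sq_nonneg η))
    rw [mul_sum]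
    refine sum_le_sum fun i _ => ?_
    by_cases hi : σ i = 0
    · simp [hi]
    · rw [ContinuousLinearMap.smul_apply, norm_smul, mul_pow]
      exact mul_le_mul_of_nonneg_right (pow_le_pow_left₀ (norm_nonneg _) (hα i hi) 2) (sq_nonneg _)
  · intro i j hij
    rw [ContinuousLinearMap.smul_apply, ContinuousLinearMap.smul_apply, inner_smul_left,
      inner_smul_right, ← inner_star_mul, pstar (h.proj i), h.orth i j hij]
    simp

lemma diag_mul_single (h : Part M z σ) (α : ι → ℂ) (j : ι) : (∑ i, α i • σ i) * σ j = α j • σ j := by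
  rw [sum_mul, sum_eq_single j]
  · rw [smul_mul_assoc, pmul (h.proj j)]
  · intro i _ hij
    rw [smul_mul_assoc, h.orth i j hij, smul_zero]
  · simp

lemma diag_pow (h : Part M z σ) (α : ι → ℂ) (n : ℕ) :
    (∑ i, α i • σ i) ^ (n + 1) = ∑ i, α i ^ (n + 1) • σ i := by
  induction n with
  | zero => simp
  | succ n ih =>
    rw [pow_succ, ih, mul_sum]
    refine sum_congr rfl fun j _ => ?_
    rw [mul_smul_comm, diag_mul_single h (fun i => α i ^ (n + 1)), smul_smul, ← pow_succ']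

lemma diag_star (h : Part M z σ) (α : ι → ℂ) :
    star (∑ i, α i • σ i) = ∑ i, conj (α i) • σ i := by
  rw [sstar]
  exact sum_congr rfl fun i _ => by rw [star_smul, pstar (h.proj i), Complex.star_def]

end part

lemma exists_diag_approx {z c : H →L[ℂ] H} (hz : Cen M z) (hc : H7.Batch.CU M z c) {δ : ℝ}
    (hδ : 0 < δ) : ∃ (ι : Type) (_ : Fintype ι) (σ : ι → H →L[ℂ] H) (μ : ι → ℂ), Part M z σ ∧
      (∀ i, ‖μ i‖ = 1) ∧ ‖c - ∑ i, μ i • σ i‖ ≤ 2 * δ := by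
  let N₀ : VonNeumannAlgebra H :=
    { toStarSubalgebra := StarSubalgebra.centralizer ℂ {c, z}
      centralizer_centralizer' := by simp }
  have hN₀ : ∀ y, y ∈ N₀ ↔ (c * y = y * c ∧ star c * y = y * star c) ∧ z * y = y * z := fun y => by
    change y ∈ StarSubalgebra.centralizer ℂ {c, z} ↔ _
    rw [StarSubalgebra.mem_centralizer_iff]
    simp [hz.star_eq]
  have cz := hc.mul_g hz.proj
  have zc := hc.g_mul hz.proj
  have hcN : c ∈ N₀ := (hN₀ c).2 ⟨⟨rfl, by rw [hc.2.1, hc.2.2]⟩, hz.comm _ hc.1⟩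
  have hzN : z ∈ N₀ := (hN₀ z).2 ⟨⟨(hz.comm _ hc.1).symm, (hz.comm _ (star_mem hc.1)).symm⟩, rfl⟩
  have hle : ∀ x ∈ N₀.commutant, x ∈ M := fun x hx => mem_of_comm fun y hy =>
    VonNeumannAlgebra.mem_commutant_iff.1 hx y ((hN₀ y).2
      ⟨⟨(comm_of_mem hc.1 hy).symm, (comm_of_mem (star_mem hc.1) hy).symm⟩,
        (comm_of_mem hz.mem hy).symm⟩)
  have hAb : H9.VN.Ab N₀.commutant z := by
    refine ⟨VonNeumannAlgebra.mem_commutant_iff.2 fun g hg => ((hN₀ g).1 hg).2.symm, hz.proj,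
      fun a ha b hb _ _ _ _ => ?_⟩
    have ha' := VonNeumannAlgebra.mem_commutant_iff.1 ha
    exact VonNeumannAlgebra.mem_commutant_iff.1 hb a
      ((hN₀ a).2 ⟨⟨ha' _ hcN, ha' _ (star_mem hcN)⟩, ha' _ hzN⟩)
  obtain ⟨ι, _, σ, hσ, h⟩ := H3.Hc.exists_part hAb {c} (fun a ha => by
    rw [mem_singleton.1 ha]
    exact ⟨VonNeumannAlgebra.mem_commutant_iff.2 fun g hg => ((hN₀ g).1 hg).1.1.symm, zc, cz⟩) hδ
  obtain ⟨s, hs, hcs⟩ := h c (mem_singleton_self c)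
  obtain ⟨l, rfl⟩ := (Submodule.mem_span_range_iff_exists_fun ℂ).1 hs
  have hσ' : Part M z σ := ⟨fun i => hle _ (hσ.mem i), hσ.proj, hσ.orth, hσ.sum⟩
  refine ⟨ι, inferInstance, σ, fun i => if l i = 0 then 1 else l i / ‖l i‖, hσ', fun i => ?_, ?_⟩
  · by_cases h0 : l i = 0 <;> simp [h0]
  · have e : c - ∑ i, (if l i = 0 then 1 else l i / ‖l i‖) • σ i = (c - ∑ i, l i • σ i) +
        ∑ i, (l i - if l i = 0 then 1 else l i / ‖l i‖) • σ i := by
      simp only [sub_smul, sum_sub_distrib]; abel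
    rw [e]
    refine (norm_add_le _ _).trans ?_
    have := norm_diag hσ' (fun i => l i - if l i = 0 then 1 else l i / ‖l i‖) hδ.le fun i hi => by
      have n1 : ‖σ i‖ = 1 := by
        have h2 := CStarRing.norm_star_mul_self (x := σ i)
        rw [pstar (hσ.proj i), pmul (hσ.proj i)] at h2
        have h3 : 0 < ‖σ i‖ := norm_pos_iff.2 hi
        nlinarith
      have n2 : ‖c * σ i‖ = 1 := by
        have : star (c * σ i) * (c * σ i) = σ i := by
          rw [star_mul, pstar (hσ.proj i), mul_assoc, ← mul_assoc (star c), hc.2.1,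
            H3.Hc.part_mul_left hσ', pmul (hσ.proj i)]
        have h2 := CStarRing.norm_star_mul_self (x := c * σ i)
        rw [this, n1] at h2
        nlinarith [norm_nonneg (c * σ i)]
      have n3 : ‖c * σ i - l i • σ i‖ ≤ δ := by
        rw [← diag_mul_single hσ' l i, ← sub_mul]
        refine (norm_mul_le _ _).trans ?_
        rw [n1, mul_one]; exact hcs
      have n4 := abs_norm_sub_norm_le (c * σ i) (l i • σ i)
      rw [n2, norm_smul, n1, mul_one] at n4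
      replace n4 := n4.trans n3
      split_ifs with h0
      · rw [h0] at n4 ⊢
        simp only [norm_zero, sub_zero, abs_one] at n4
        simp only [zero_sub, norm_neg, norm_one]
        linarith
      · have hl : (‖l i‖ : ℂ) ≠ 0 := by simpa using h0
        have : l i - l i / ‖l i‖ = (l i / ‖l i‖) * ((‖l i‖ - 1 : ℝ) : ℂ) := by
          push_cast; field_simp
        rw [this, norm_mul, norm_div, Complex.norm_real, norm_norm, div_self (by simpa using h0),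
          one_mul, Complex.norm_real, Real.norm_eq_abs, abs_sub_comm]
        linarith
    linarith

lemma norm_pow_sub_le {c d : H →L[ℂ] H} (hc : ‖c‖ ≤ 1) (hd : ‖d‖ ≤ 1) (n : ℕ) :
    ‖c ^ n - d ^ n‖ ≤ n * ‖c - d‖ ∧ ‖c ^ n‖ ≤ 1 ∧ ‖d ^ n‖ ≤ 1 := by
  induction n with
  | zero => simp [ContinuousLinearMap.one_def, ContinuousLinearMap.norm_id_le]
  | succ n ih =>
    refine ⟨?_, by rw [pow_succ]; exact mul_le_one' ih.2.1 hc,
      by rw [pow_succ]; exact mul_le_one' ih.2.2 hd⟩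
    have e : c ^ (n + 1) - d ^ (n + 1) = c ^ n * (c - d) + (c ^ n - d ^ n) * d := by
      rw [pow_succ, pow_succ]; noncomm_ring
    rw [e]
    refine (norm_add_le _ _).trans ?_
    have h1 := (norm_mul_le (c ^ n) (c - d)).trans (mul_le_of_le_one_left (norm_nonneg _) ih.2.1)
    have h2 := (norm_mul_le (c ^ n - d ^ n) d).trans (mul_le_of_le_one_right (norm_nonneg _) hd)
    push_cast
    linarith [ih.1]

lemma pair_le {T : (H →L[ℂ] H) →ₗ[ℂ] (H →L[ℂ] H)} (hT : RB M T) {x p p' q q' : H →L[ℂ] H}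
    (hx : x ∈ M) (hp : p ∈ M) (hp' : p' ∈ M) (x1 : ‖x‖ ≤ 1) (p1 : ‖p'‖ ≤ 1) (q1 : ‖q‖ ≤ 1) {d : ℝ}
    (h1 : ‖p - p'‖ ≤ d) (h2 : ‖q - q'‖ ≤ d) : ‖T (x * p) * q - T (x * p') * q'‖ ≤ 2 * d := by
  have e : T (x * p) * q - T (x * p') * q' = T (x * (p - p')) * q + T (x * p') * (q - q') := by
    rw [mul_sub, map_sub]; noncomm_ring
  rw [e]
  have a1 : ‖T (x * (p - p'))‖ ≤ d := (RB.norm_le' hT (mul_mem hx (sub_mem hp hp'))).trans
    ((norm_mul_le _ _).trans ((mul_le_of_le_one_left (norm_nonneg _) x1).trans h1))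
  have a2 : ‖T (x * p')‖ ≤ 1 := (RB.norm_le' hT (mul_mem hx hp')).trans (mul_le_one' x1 p1)
  refine (norm_add_le _ _).trans ?_
  have b1 := (norm_mul_le (T (x * (p - p'))) q).trans (mul_le_of_le_one_right (norm_nonneg _) q1)
  have b2 := (norm_mul_le (T (x * p')) (q - q')).trans (mul_le_of_le_one_left (norm_nonneg _) a2)
  linarith

theorem arcStmt : Lead.Hc.ArcStmt.{u} := by
  intro ε hε
  obtain ⟨K, w, w0, w1, hw⟩ := exists_weights (η := ε / 4) (by positivity)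
  refine ⟨K, w, w0, w1, ?_⟩
  intro H _ _ _ M z k ζ c hz hζ hc T hT x hx a ha v hv x1 a1 v1
  obtain ⟨ι, _, σ, μ, hσ, hμ, hcd⟩ := exists_diag_approx hz hc
    (δ := ε / (16 * (K + 1))) (by positivity)
  set d := ∑ i, μ i • σ i with hd
  have dM : d ∈ M := sum_mem fun i _ => vsmul_mem _ (hσ.mem i)
  have d1 : ‖d‖ ≤ 1 := norm_diag hσ μ zero_le_one fun i _ => (hμ i).le
  have c1 : ‖c‖ ≤ 1 := hc.norm_le hz.proj
  set Sd := ∑ n ∈ range K, w n • (T (x * d ^ (n + 1)) * star d ^ (n + 1) -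
    T (x * star d ^ (n + 1)) * d ^ (n + 1)) with hSd
  set Sc := ∑ n ∈ range K, w n • (T (x * c ^ (n + 1)) * star c ^ (n + 1) -
    T (x * star c ^ (n + 1)) * c ^ (n + 1)) with hSc
  have h1 : ‖Sc - Sd‖ ≤ ε / 2 := by
    rw [hSc, hSd, ← sum_sub_distrib]
    refine (norm_sum_le _ _).trans ?_
    calc _ ≤ ∑ n ∈ range K, w n * (ε / 2) := sum_le_sum fun n hn => ?_
      _ = ε / 2 := by rw [← sum_mul, w1, one_mul]
    rw [← smul_sub, norm_smul, Real.norm_of_nonneg (w0 n)]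
    refine mul_le_mul_of_nonneg_left ?_ (w0 n)
    obtain ⟨b1, b2, b3⟩ := norm_pow_sub_le c1 d1 (n + 1)
    obtain ⟨b4, b5, b6⟩ := norm_pow_sub_le (c := star c) (d := star d) (by rwa [nstar])
      (by rwa [nstar]) (n + 1)
    rw [← star_sub, nstar] at b4
    have hn' : ((n + 1 : ℕ) : ℝ) ≤ K + 1 := by exact_mod_cast (by have := mem_range.1 hn; omega)
    have b7 : ((n + 1 : ℕ) : ℝ) * ‖c - d‖ ≤ ε / 8 :=
      calc _ ≤ (K + 1 : ℝ) * (2 * (ε / (16 * (K + 1)))) := by gcongr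
        _ = ε / 8 := by field_simp; ring
    have e1 := pair_le hT hx (pow_mem hc.1 _) (pow_mem dM _) x1 b3 b5 (b1.trans b7) (b4.trans b7)
    have e2 := pair_le hT hx (pow_mem (star_mem hc.1) _) (pow_mem (star_mem dM) _) x1 b6 b2
      (b4.trans b7) (b1.trans b7)
    rw [sub_sub_sub_comm]
    exact (norm_sub_le _ _).trans (by linarith)
  let f : ι → H →L[ℂ] H := fun j => ∑ i, (∑ n ∈ range K, (w n : ℂ) *
    ((μ i * conj (μ j)) ^ (n + 1) - conj (μ i * conj (μ j)) ^ (n + 1))) • σ i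
  have fM : ∀ j, f j ∈ M := fun j => sum_mem fun i _ => vsmul_mem _ (hσ.mem i)
  have fn : ∀ j, ‖f j‖ ≤ ε / 4 := fun j => norm_diag hσ _ (by positivity) fun i _ =>
    hw _ (by rw [norm_mul, Complex.norm_conj, hμ, hμ, mul_one])
  have h2 : Sd = ∑ j, T (x * f j) * σ j := by
    simp only [hSd, hd, diag_star hσ, diag_pow hσ, f, mul_sum, sum_mul, map_sum, mul_smul_comm,
      map_smul, smul_mul_assoc, smul_sum, smul_smul, sum_smul, ← sum_sub_distrib, ← sub_smul,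
      ← Complex.coe_smul]
    rw [sum_comm]
    refine sum_congr rfl fun j _ => ?_
    rw [sum_comm]
    refine sum_congr rfl fun i _ => sum_congr rfl fun n _ => ?_
    congr 1
    simp only [map_mul, Complex.conj_conj]
    ring
  have h3 : ‖tr ζ (a * Sd * v)‖ ≤ ε / 2 := by
    have e : tr ζ (a * Sd * v) = ∑ j, tr ζ (a * (T (x * f j) * σ j) * v) := by
      simp only [h2, mul_sum, sum_mul, tr, ContinuousLinearMap.sum_apply, inner_sum]
      rw [sum_comm]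
    rw [e]
    refine (norm_sum_le _ _).trans ?_
    have e2 : ∑ j, ∑ b, ‖σ j (ζ b)‖ ^ 2 ≤ 1 := by
      rw [sum_comm]
      exact le_trans (sum_le_sum fun b _ => H9.VN.bessel_proj σ hσ.proj hσ.orth univ _) hζ.norm
    calc _ ≤ ∑ j, ε / 2 * ∑ b, ‖σ j (ζ b)‖ ^ 2 := sum_le_sum fun j _ => ?_
      _ ≤ ε / 2 := by
        rw [← mul_sum]; exact mul_le_of_le_one_right (by positivity) e2
    refine (phi1 hζ.ct ha (hT.mem _ (mul_mem hx (fM j))) (hσ.mem j) hv (hσ.proj j) a1 v1).trans ?_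
    refine mul_le_mul_of_nonneg_right ?_ (sum_nonneg fun _ _ => sq_nonneg _)
    have := (RB.norm_le' hT (mul_mem hx (fM j))).trans ((norm_mul_le _ _).trans
      ((mul_le_of_le_one_left (norm_nonneg _) x1).trans (fn j)))
    linarith
  have e : tr ζ (a * Sc * v) = tr ζ (a * (Sc - Sd) * v) + tr ζ (a * Sd * v) := by
    simp only [tr, mul_sub, sub_mul, ContinuousLinearMap.sub_apply, inner_sub_right,
      sum_sub_distrib, sub_add_cancel]
  change ‖tr ζ (a * Sc * v)‖ ≤ ε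
  rw [e]
  refine (norm_add_le _ _).trans ?_
  have := (norm_tr_le hζ.norm (a * (Sc - Sd) * v)).trans ((norm_conj_le a1 v1).trans h1)
  linarith

end Crest.Agent.H4.Hc
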