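import Crest.Agent.Lead.HcI

/-! Row 121: the approximate diagonal for a sequence of isometries. -/

set_option autoImplicit false

universe u

namespace Crest.Agent.H4.Hc

open scoped InnerProductSpace TensorProduct ComplexConjugate
open Finset Filter Topology Crest.Agent.H5.KS Crest.OpAlg Crest.Agent.Lead.Hc

section alg
variable {A : Type*} [NormedRing A] [NormedAlgebra ℂ A]

/-- the bimodule action on the tensor square -/
noncomputable def act (a b : A) : A ⊗[ℂ] A →ₗ[ℂ] A ⊗[ℂ] A :=
  TensorProduct.map (LinearMap.mulLeft ℂ a) (LinearMap.mulRight ℂ b)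

@[simp] lemma act_tmul (a b x y : A) : act a b (x ⊗ₜ[ℂ] y) = (a * x) ⊗ₜ[ℂ] (y * b) := rfl

lemma act_left (a : A) (t : A ⊗[ℂ] A) :
    TensorProduct.map (LinearMap.mulLeft ℂ a) LinearMap.id t = act a 1 t := by
  simp [act]

lemma act_right (b : A) (t : A ⊗[ℂ] A) :
    TensorProduct.map LinearMap.id (LinearMap.mulRight ℂ b) t = act 1 b t := by
  simp [act]

lemma act_act (a b a' b' : A) (t : A ⊗[ℂ] A) : act a b (act a' b' t) = act (a * a') (b' * b) t := by
  induction t using TensorProduct.induction_on with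
  | zero => simp
  | tmul x y => simp [mul_assoc]
  | add x y hx hy => simp only [map_add, hx, hy]

lemma act_zero_left (b : A) (t : A ⊗[ℂ] A) : act 0 b t = 0 := by
  induction t using TensorProduct.induction_on with
  | zero => simp
  | tmul x y => simp
  | add x y hx hy => simp only [map_add, hx, hy, add_zero]

lemma act_zero_right (a : A) (t : A ⊗[ℂ] A) : act a 0 t = 0 := by
  induction t using TensorProduct.induction_on with
  | zero => simp
  | tmul x y => simp
  | add x y hx hy => simp only [map_add, hx, hy, add_zero]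

lemma Small.mono' {c c' : ℝ} {t : A ⊗[ℂ] A} (h : Small c t) (hc : c ≤ c') : Small c' t := by
  obtain ⟨ι, _, a, b, h1, h2⟩ := h
  exact ⟨ι, inferInstance, a, b, h1, h2.trans hc⟩

lemma small_zero : Small 0 (0 : A ⊗[ℂ] A) := ⟨Empty, inferInstance, 0, 0, by simp, by simp⟩

lemma Small.add' {c c' : ℝ} {t t' : A ⊗[ℂ] A} (h : Small c t) (h' : Small c' t') :
    Small (c + c') (t + t') := by
  obtain ⟨ι, _, a, b, h1, h2⟩ := h
  obtain ⟨κ, _, a', b', h1', h2'⟩ := h'
  refine ⟨ι ⊕ κ, inferInstance, Sum.elim a a', Sum.elim b b', by simp [h1, h1'], ?_⟩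
  simp only [Fintype.sum_sum_type, Sum.elim_inl, Sum.elim_inr]
  linarith

lemma Small.smul' {c : ℝ} {t : A ⊗[ℂ] A} (h : Small c t) (s : ℂ) : Small (‖s‖ * c) (s • t) := by
  obtain ⟨ι, _, a, b, h1, h2⟩ := h
  refine ⟨ι, inferInstance, fun i => s • a i, b, by simp [h1, smul_sum, TensorProduct.smul_tmul'], ?_⟩
  simp only [norm_smul, mul_assoc, ← mul_sum]
  exact mul_le_mul_of_nonneg_left h2 (norm_nonneg _)

lemma Small.sub' {c c' : ℝ} {t t' : A ⊗[ℂ] A} (h : Small c t) (h' : Small c' t') :
    Small (c + c') (t - t') := by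
  have := Small.add' h (Small.smul' h' (-1))
  simpa [sub_eq_add_neg] using this

lemma Small.act' {c : ℝ} {t : A ⊗[ℂ] A} (h : Small c t) {a b : A} (ha : ‖a‖ ≤ 1) (hb : ‖b‖ ≤ 1) :
    Small c (act a b t) := by
  obtain ⟨ι, _, x, y, h1, h2⟩ := h
  refine ⟨ι, inferInstance, fun i => a * x i, fun i => y i * b, by simp [h1, map_sum],
    le_trans (sum_le_sum fun i _ => ?_) h2⟩
  have e1 : ‖a * x i‖ ≤ ‖x i‖ := (norm_mul_le _ _).trans (by nlinarith [norm_nonneg (x i)])
  have e2 : ‖y i * b‖ ≤ ‖y i‖ := (norm_mul_le _ _).trans (by nlinarith [norm_nonneg (y i)])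
  exact mul_le_mul e1 e2 (norm_nonneg _) (norm_nonneg _)

lemma small_av {ι : Type*} (s : Finset ι) (hs : s.Nonempty) (t : ι → A ⊗[ℂ] A)
    (h : ∀ i ∈ s, Small 1 (t i)) : Small 1 (((s.card : ℂ))⁻¹ • ∑ i ∈ s, t i) := by
  have h1 : ∀ s' : Finset ι, s' ⊆ s → Small (s'.card) (∑ i ∈ s', t i) := by
    classical
    intro s' hs'
    induction s' using Finset.induction_on with
    | empty => simpa using small_zero
    | insert a s' ha ih =>
      rw [sum_insert ha, card_insert_of_notMem ha]
      push_cast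
      rw [add_comm (s'.card : ℝ)]
      exact Small.add' (h a (hs' (mem_insert_self _ _))) (ih ((subset_insert _ _).trans hs'))
  have := Small.smul' (h1 s le_rfl) ((s.card : ℂ))⁻¹
  have hc : (s.card : ℝ) ≠ 0 := by exact_mod_cast hs.card_pos.ne'
  rwa [norm_inv, Complex.norm_natCast, inv_mul_cancel₀ hc] at this

end alg

section cstar
variable {A : Type*} [CStarAlgebra A]

lemma small_orth {ι : Type} [Fintype ι] [Nonempty ι] (α : ι → A)
    (h1 : ∀ i j, i ≠ j → α i * star (α j) = 0) (h2 : ∑ i, α i * star (α i) = 1) :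
    Small 1 (∑ i, α i ⊗ₜ[ℂ] star (α i)) := by
  classical
  obtain ⟨c, c1, -, c3⟩ := exists_fourier (Fintype.card ι) Fintype.card_pos
  let e := Fintype.equivFin ι
  let a : Fin (Fintype.card ι) → A := fun l => ∑ i, c (e i) l • α i
  have hJ : (0 : ℝ) < Fintype.card ι := by exact_mod_cast Fintype.card_pos
  have ha : ∀ l, a l * star (a l) = ((Fintype.card ι : ℂ))⁻¹ • (1 : A) := fun l => by
    rw [← h2, smul_sum]
    simp only [a, star_sum, sum_mul, mul_sum]
    rw [sum_comm]
    refine sum_congr rfl fun i _ => ?_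
    rw [sum_eq_single i]
    · rw [star_smul, smul_mul_smul_comm, Complex.star_def, c1]
    · intro j _ hj
      rw [star_smul, smul_mul_smul_comm, h1 i j hj.symm, smul_zero]
    · simp
  refine ⟨Fin (Fintype.card ι), inferInstance, a, fun l => star (a l), ?_, ?_⟩
  · have e1 : ∀ l, a l ⊗ₜ[ℂ] star (a l) =
        ∑ i, ∑ j, (conj (c (e j) l) * c (e i) l) • (α i ⊗ₜ[ℂ] star (α j)) := fun l => by
      simp only [a, star_sum, star_smul]
      rw [TensorProduct.sum_tmul]
      refine sum_congr rfl fun i _ => ?_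
      rw [TensorProduct.tmul_sum]
      refine sum_congr rfl fun j _ => ?_
      rw [TensorProduct.smul_tmul_smul, mul_comm, Complex.star_def]
    simp only [e1]
    rw [sum_comm]
    refine sum_congr rfl fun i _ => ?_
    rw [sum_comm]
    simp only [← sum_smul, c3, EmbeddingLike.apply_eq_iff_eq, ite_smul, one_smul, zero_smul,
      sum_ite_eq', mem_univ, if_true]
  · have : ∀ l, ‖a l‖ * ‖star (a l)‖ ≤ (Fintype.card ι : ℝ)⁻¹ := fun l => by
      rw [norm_star, ← CStarRing.norm_self_mul_star, ha, norm_smul, norm_inv, Complex.norm_natCast]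
      exact mul_le_of_le_one_right (by positivity) (IsStarProjection.one A).norm_le
    refine (sum_le_sum fun l _ => this l).trans ?_
    rw [sum_const, card_univ, Fintype.card_fin, nsmul_eq_mul, mul_inv_cancel₀ hJ.ne']

variable (z : A) (t : ℕ → A)

/-- the recursive diagonal -/
noncomputable def MM (N : ℕ) (B : A ⊗[ℂ] A) : ℕ → A ⊗[ℂ] A
  | 0 => act z z B
  | j + 1 => act (z - ∑ i ∈ range N, t i * star (t i)) (z - ∑ i ∈ range N, t i * star (t i)) B +
      ∑ i ∈ range N, act (t i) (star (t i)) (MM N B j)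

variable {z t}

section
variable (hz : IsStarProjection z) (hc : ∀ a, z * a = a * z)
  (ht : ∀ n m, star (t n) * t m = if n = m then z else 0)
include hz hc ht

omit hc in
lemma t_z (n : ℕ) : t n * z = t n := by
  have h1 : star (t n * z - t n) * (t n * z - t n) = 0 := by
    have h := ht n n
    rw [if_pos rfl] at h
    have hzz := hz.isIdempotentElem.eq
    rw [star_sub, star_mul, hz.isSelfAdjoint.star_eq]
    calc (z * star (t n) - star (t n)) * (t n * z - t n)
        = z * (star (t n) * t n) * z - z * (star (t n) * t n) - (star (t n) * t n) * z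
          + star (t n) * t n := by noncomm_ring
      _ = 0 := by rw [h, hzz, hzz]; abel
  exact sub_eq_zero.1 ((CStarRing.star_mul_self_eq_zero_iff _).1 h1)

lemma z_t (n : ℕ) : z * t n = t n := by rw [hc, t_z hz ht]

lemma st_z (n : ℕ) : star (t n) * z = star (t n) := by
  simpa [hz.isSelfAdjoint.star_eq] using congrArg star (z_t hz hc ht n)

lemma st_e {N i : ℕ} (hi : i < N) : star (t i) * (z - ∑ i ∈ range N, t i * star (t i)) = 0 := by
  rw [mul_sub, st_z hz hc ht, mul_sum, sum_eq_single i]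
  · rw [← mul_assoc, ht, if_pos rfl, hc, st_z hz hc ht, sub_self]
  · intro j _ hj
    rw [← mul_assoc, ht, if_neg hj.symm, zero_mul]
  · simp [hi]

omit hc ht in
lemma e_star (N : ℕ) : star (z - ∑ i ∈ range N, t i * star (t i)) =
    z - ∑ i ∈ range N, t i * star (t i) := by
  simp [star_sum, hz.isSelfAdjoint.star_eq]

lemma e_t {N i : ℕ} (hi : i < N) : (z - ∑ i ∈ range N, t i * star (t i)) * t i = 0 := by
  have := congrArg star (st_e hz hc ht hi)
  rwa [star_mul, e_star hz, star_star, star_zero] at this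

lemma z_e (N : ℕ) : z * (z - ∑ i ∈ range N, t i * star (t i)) =
    z - ∑ i ∈ range N, t i * star (t i) := by
  rw [mul_sub, hz.isIdempotentElem.eq, mul_sum]
  simp only [← mul_assoc, z_t hz hc ht]

lemma e_e (N : ℕ) : (z - ∑ i ∈ range N, t i * star (t i)) * (z - ∑ i ∈ range N, t i * star (t i)) =
    z - ∑ i ∈ range N, t i * star (t i) := by
  have : (∑ i ∈ range N, t i * star (t i)) * (z - ∑ i ∈ range N, t i * star (t i)) = 0 := by
    rw [sum_mul]
    exact sum_eq_zero fun i hi => by rw [mul_assoc, st_e hz hc ht (mem_range.1 hi), mul_zero]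
  rw [sub_mul, z_e hz hc ht, this, sub_zero]

lemma frames (N j : ℕ) : ∃ (ι : Type) (_ : Fintype ι) (a : ι → A), (∀ v, z * a v = a v) ∧
    ∑ v, a v * star (a v) = z ∧ ∀ B, MM z t N B j = ∑ v, act (a v) (star (a v)) B := by
  induction j with
  | zero =>
    exact ⟨Unit, inferInstance, fun _ => z, fun _ => hz.isIdempotentElem.eq,
      by simp [hz.isSelfAdjoint.star_eq, hz.isIdempotentElem.eq],
      fun B => by simp [MM, hz.isSelfAdjoint.star_eq]⟩
  | succ j ih =>
    obtain ⟨ι, _, a, a1, a2, a3⟩ := ih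
    refine ⟨Unit ⊕ (Fin N × ι), inferInstance,
      Sum.elim (fun _ => z - ∑ i ∈ range N, t i * star (t i)) fun p => t p.1 * a p.2, ?_, ?_, ?_⟩
    · rintro (v | v)
      · exact z_e hz hc ht N
      · change z * (t v.1 * a v.2) = t v.1 * a v.2
        rw [← mul_assoc, z_t hz hc ht]
    · simp only [Fintype.sum_sum_type, Sum.elim_inl, Sum.elim_inr, Fintype.sum_unique,
        Fintype.sum_prod_type, e_star hz, e_e hz hc ht]
      have : ∀ i, ∑ v, t i * a v * star (t i * a v) = t i * star (t i) := fun i => by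
        simp only [star_mul, mul_assoc, ← mul_sum]
        simp only [← mul_assoc, ← sum_mul, a2, t_z hz ht]
      simp only [this]
      rw [Fin.sum_univ_eq_sum_range (fun i => t i * star (t i)), sub_add_cancel]
    · intro B
      simp only [MM, Fintype.sum_sum_type, Sum.elim_inl, Sum.elim_inr, Fintype.sum_unique,
        Fintype.sum_prod_type, e_star hz, a3, map_sum, act_act, star_mul]
      rw [Fin.sum_univ_eq_sum_range (fun i => ∑ v, act (t i * a v) (star (a v) * star (t i)) B)]

lemma MM_zl (N j : ℕ) (B : A ⊗[ℂ] A) (b : A) : act z b (MM z t N B j) = act 1 b (MM z t N B j) := by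
  obtain ⟨ι, _, a, a1, -, a3⟩ := frames hz hc ht N j
  simp only [a3, map_sum, act_act, a1, one_mul]

lemma MM_zr (N j : ℕ) (B : A ⊗[ℂ] A) (b : A) : act b z (MM z t N B j) = act b 1 (MM z t N B j) := by
  obtain ⟨ι, _, a, a1, -, a3⟩ := frames hz hc ht N j
  have : ∀ v, star (a v) * z = star (a v) := fun v => by
    simpa [hz.isSelfAdjoint.star_eq] using congrArg star (a1 v)
  simp only [a3, map_sum, act_act, this, mul_one]

lemma MM_st {N i : ℕ} (hi : i < N) (j : ℕ) (B : A ⊗[ℂ] A) :
    act (star (t i)) 1 (MM z t N B (j + 1)) = act 1 (star (t i)) (MM z t N B j) := by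
  rw [MM, map_add, act_act, st_e hz hc ht hi, act_zero_left, zero_add, map_sum, sum_eq_single i]
  · rw [act_act, ht, if_pos rfl, mul_one, MM_zl hz hc ht]
  · intro l _ hl
    rw [act_act, ht, if_neg hl.symm, act_zero_left]
  · simp [hi]

lemma MM_t {N i : ℕ} (hi : i < N) (j : ℕ) (B : A ⊗[ℂ] A) :
    act 1 (t i) (MM z t N B (j + 1)) = act (t i) 1 (MM z t N B j) := by
  rw [MM, map_add, act_act, e_t hz hc ht hi, act_zero_right, zero_add, map_sum, sum_eq_single i]
  · rw [act_act, ht, if_pos rfl, one_mul, MM_zr hz hc ht]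
  · intro l _ hl
    rw [act_act, ht, if_neg hl, act_zero_right]
  · simp [hi]

/-- the basic tensor -/
noncomputable def BB (t : ℕ → A) (K : ℕ) : A ⊗[ℂ] A :=
  ((K + 1 : ℕ) : ℂ)⁻¹ • ∑ w : ZMod (K + 1), star (t w.val) ⊗ₜ[ℂ] t w.val

lemma MM_mul (N j K : ℕ) : LinearMap.mul' ℂ A (MM z t N (BB t K) j) = z := by
  obtain ⟨ι, _, a, a1, a2, a3⟩ := frames hz hc ht N j
  have hK : ((K + 1 : ℕ) : ℂ) ≠ 0 := by exact_mod_cast Nat.succ_ne_zero K
  rw [a3, map_sum, ← a2]
  refine sum_congr rfl fun v _ => ?_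
  have : ∀ w : ℕ, a v * star (t w) * (t w * star (a v)) = a v * star (a v) := fun w => by
    rw [mul_assoc, ← mul_assoc (star (t w)), ht, if_pos rfl, ← mul_assoc, ← hc, a1]
  simp only [BB, map_smul, map_sum, act_tmul, LinearMap.mul'_apply, this, sum_const, card_univ,
    ZMod.card]
  rw [← Nat.cast_smul_eq_nsmul ℂ, smul_smul, inv_mul_cancel₀ hK, one_smul]

lemma MM_small (N j : ℕ) : ∃ K₀, ∀ K, K₀ ≤ K →
    Small 1 (MM z t N (BB t K) j + (1 - z) ⊗ₜ[ℂ] (1 - z)) := by
  classical
  obtain ⟨ι, _, a, a1, a2, a3⟩ := frames hz hc ht N j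
  refine ⟨Fintype.card ι, fun K hK => ?_⟩
  obtain ⟨e⟩ : Nonempty (ι ↪ ZMod (K + 1)) :=
    Function.Embedding.nonempty_of_card_le (by rw [ZMod.card]; omega)
  have hK' : ((K + 1 : ℕ) : ℂ) ≠ 0 := by exact_mod_cast Nat.succ_ne_zero K
  have hz1 : star (1 - z) = 1 - z := hz.one_sub.isSelfAdjoint.star_eq
  let α : ZMod (K + 1) → Unit ⊕ ι → A := fun c =>
    Sum.elim (fun _ => 1 - z) fun v => a v * star (t (e v + c).val)
  have e1 : MM z t N (BB t K) j + (1 - z) ⊗ₜ[ℂ] (1 - z) =
      (((univ : Finset (ZMod (K + 1))).card : ℂ))⁻¹ • ∑ c, ∑ v, α c v ⊗ₜ[ℂ] star (α c v) := by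
    simp only [α, Fintype.sum_sum_type, Sum.elim_inl, Sum.elim_inr, Fintype.sum_unique, hz1,
      sum_add_distrib, sum_const, card_univ, ZMod.card, smul_add, star_mul, star_star,
      Fintype.card_unique, one_smul]
    rw [← Nat.cast_smul_eq_nsmul ℂ, smul_smul, inv_mul_cancel₀ hK', one_smul, add_comm, a3]
    congr 1
    rw [sum_comm, smul_sum]
    refine sum_congr rfl fun v _ => ?_
    simp only [BB, map_smul, map_sum, act_tmul]
    congr 1
    exact (Equiv.sum_comp (Equiv.addLeft (e v))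
      (fun w : ZMod (K + 1) => (a v * star (t w.val)) ⊗ₜ[ℂ] (t w.val * star (a v)))).symm
  rw [e1]
  refine small_av _ univ_nonempty _ fun c _ => small_orth _ ?_ ?_
  · have h0 : ∀ v, (1 - z) * star (a v * star (t (e v + c).val)) = 0 := fun v => by
      rw [star_mul, star_star, ← mul_assoc, sub_mul, one_mul, z_t hz hc ht, sub_self, zero_mul]
    rintro (v | v) (w | w) h
    · exact absurd rfl h
    · exact h0 w
    · have := congrArg star (h0 v)
      rwa [star_mul, star_star, star_zero] at this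
    · change a v * star (t _) * star (a w * star (t _)) = 0
      rw [star_mul, star_star, mul_assoc, ← mul_assoc (star _), ht, if_neg, zero_mul, mul_zero]
      intro h'
      exact h (by rw [e.injective (add_right_cancel (ZMod.val_injective _ h'))])
  · have : ∀ (v : ι) (w : ℕ), a v * star (t w) * star (a v * star (t w)) = a v * star (a v) :=
      fun v w => by
        rw [star_mul, star_star, mul_assoc, ← mul_assoc (star (t w)), ht, if_pos rfl, ← mul_assoc,
          ← hc, a1]
    simp only [α, Fintype.sum_sum_type, Sum.elim_inl, Sum.elim_inr, Fintype.sum_unique, hz1, this,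
      a2, hz.one_sub.isIdempotentElem.eq, sub_add_cancel]

theorem exists_diag : ∃ m : ℕ → A ⊗[ℂ] A,
    Diag ({z} ∪ Set.range t ∪ Set.range fun n => star (t n)) m := by
  choose K₀ hK₀ using MM_small hz hc ht
  let K : ℕ → ℕ := fun N => (range (N + 1)).sup (K₀ N)
  let μ : ℕ → ℕ → A ⊗[ℂ] A := fun N j => MM z t N (BB t (K N)) j + (1 - z) ⊗ₜ[ℂ] (1 - z)
  have hμ : ∀ N j, j ≤ N → Small 1 (μ N j) := fun N j hj =>
    hK₀ N j _ (le_sup (f := K₀ N) (mem_range.2 (by omega)))
  let m : ℕ → A ⊗[ℂ] A := fun n => (((range (n + 1)).card : ℂ))⁻¹ • ∑ j ∈ range (n + 1), μ (n + 1) j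
  have hm : ∀ n, Small 1 (m n) := fun n =>
    small_av _ nonempty_range_add_one _ fun j hj => hμ _ _ (mem_range.1 hj).le
  have hzz := hz.isIdempotentElem.eq
  have h1 : ‖(1 : A)‖ ≤ 1 := (IsStarProjection.one A).norm_le
  have tn : ∀ i, ‖t i‖ ≤ 1 := fun i => by
    have := hz.norm_le
    have h := ht i i
    rw [if_pos rfl] at h
    rw [← h, CStarRing.norm_star_mul_self] at this
    nlinarith [norm_nonneg (t i)]
  have lim : ∀ i : ℕ, Tendsto (fun n : ℕ => 2 * ((i : ℝ) + 1) * (1 / ((n : ℝ) + 1))) atTop (𝓝 0) :=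
    fun i => by simpa using tendsto_one_div_add_atTop_nhds_zero_nat.const_mul (2 * ((i : ℝ) + 1))
  have gen : ∀ (i : ℕ) (x : A), ‖x‖ ≤ 1 → (∀ n, i ≤ n → Small 2
      (∑ j ∈ range (n + 1), (act x 1 (μ (n + 1) j) - act 1 x (μ (n + 1) j)))) →
      ∀ n : ℕ, Small (2 * ((i : ℝ) + 1) * (1 / ((n : ℝ) + 1))) (act x 1 (m n) - act 1 x (m n)) := by
    intro i x hx h n
    by_cases hn : i ≤ n
    · have := Small.smul' (h n hn) (((range (n + 1)).card : ℂ))⁻¹
      simp only [m, map_smul, map_sum, ← smul_sub, ← sum_sub_distrib]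
      refine Small.mono' this ?_
      rw [norm_inv, Complex.norm_natCast, card_range]
      push_cast
      rw [one_div, mul_comm]
      exact mul_le_mul_of_nonneg_right (by nlinarith [Nat.cast_nonneg (α := ℝ) i]) (by positivity)
    · refine Small.mono' (Small.sub' (Small.act' (hm n) hx h1) (Small.act' (hm n) h1 hx)) ?_
      have : (n : ℝ) + 1 ≤ i + 1 := by exact_mod_cast (by omega : n + 1 ≤ i + 1)
      rw [mul_one_div, le_div_iff₀ (by positivity)]
      linarith
  refine ⟨m, hm, fun n => ?_, ?_⟩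
  · have hn : (((range (n + 1)).card : ℕ) : ℂ) ≠ 0 := by
      rw [card_range]; exact_mod_cast Nat.succ_ne_zero n
    simp only [m, μ, map_smul, map_sum, map_add, MM_mul hz hc ht, LinearMap.mul'_apply,
      hz.one_sub.isIdempotentElem.eq, add_sub_cancel, sum_const]
    rw [← Nat.cast_smul_eq_nsmul ℂ, smul_smul, inv_mul_cancel₀ hn, one_smul]
  · simp only [act_left, act_right]
    rintro x ((rfl | ⟨i, rfl⟩) | ⟨i, rfl⟩)
    · refine ⟨_, lim 0, gen 0 _ hz.norm_le fun n _ => ?_⟩
      rw [sum_eq_zero]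
      · exact Small.mono' small_zero (by norm_num)
      · intro j _
        simp only [μ, map_add, act_tmul, MM_zl hz hc ht, MM_zr hz hc ht, mul_sub, sub_mul, mul_one,
          one_mul, hzz, sub_self, TensorProduct.zero_tmul, TensorProduct.tmul_zero]
    · refine ⟨_, lim i, gen i _ (tn i) fun n hn => ?_⟩
      have e : ∀ j, act (t i) 1 (μ (n + 1) j) = act 1 (t i) (μ (n + 1) (j + 1)) := fun j => by
        simp only [μ, map_add, act_tmul, MM_t hz hc ht (Nat.lt_succ_of_le hn), mul_sub, sub_mul,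
          mul_one, one_mul, t_z hz ht, z_t hz hc ht, sub_self, TensorProduct.zero_tmul,
          TensorProduct.tmul_zero]
      simp only [e]
      rw [sum_range_sub (fun j => act 1 (t i) (μ (n + 1) j))]
      exact Small.mono' (Small.sub' (Small.act' (hμ _ _ le_rfl) h1 (tn i))
        (Small.act' (hμ _ _ (Nat.zero_le _)) h1 (tn i))) (by norm_num)
    · have sn : ‖star (t i)‖ ≤ 1 := by rw [norm_star]; exact tn i
      refine ⟨_, lim i, gen i _ sn fun n hn => ?_⟩
      have e : ∀ j, act 1 (star (t i)) (μ (n + 1) j) = act (star (t i)) 1 (μ (n + 1) (j + 1)) :=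
        fun j => by
          simp only [μ, map_add, act_tmul, MM_st hz hc ht (Nat.lt_succ_of_le hn), mul_sub, sub_mul,
            mul_one, one_mul, st_z hz hc ht, hc (star (t i)), sub_self, TensorProduct.zero_tmul,
            TensorProduct.tmul_zero]
      simp only [e]
      rw [sum_range_sub' (fun j => act (star (t i)) 1 (μ (n + 1) j))]
      exact Small.mono' (Small.sub' (Small.act' (hμ _ _ (Nat.zero_le _)) sn h1)
        (Small.act' (hμ _ _ le_rfl) sn h1)) (by norm_num)

end

end cstar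

theorem diagStmt : DiagStmt.{u} := by
  intro H _ _ _ M z t hz ht
  haveI : IsClosed ((M.toStarSubalgebra : StarSubalgebra ℂ (H →L[ℂ] H)) : Set (H →L[ℂ] H)) := by
    rw [VonNeumannAlgebra.coe_toStarSubalgebra, ← M.centralizer_centralizer]
    exact Set.isClosed_centralizer _
  exact exists_diag ⟨Subtype.ext hz.sq, Subtype.ext hz.star_eq⟩
    (fun a => Subtype.ext (hz.comm _ a.2)) ht

end Crest.Agent.H4.Hc
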