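import Crest.Agent.H4.HcFlatA

/-! Row 121: flat partitions. -/

set_option autoImplicit false

universe u

namespace Crest.Agent.H4.Hc

open scoped InnerProductSpace ComplexConjugate
open Finset Function Crest.Agent.H5.KS Crest.OpAlg Crest.Agent.Lead.Hc Crest.Agent.H7.Batch

variable {H : Type*} [NormedAddCommGroup H] [InnerProductSpace ℂ H] [CompleteSpace H]
  {M : VonNeumannAlgebra H} {k : ℕ} {ζ : Fin k → H}

lemma sys_row {κ : Type} [Fintype κ] [DecidableEq κ] {v : κ → H →L[ℂ] H} {g p : H →L[ℂ] H}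
    (h : Sys M v g p) (y : H →L[ℂ] H) : ∑ a, NN ζ (star (v a) * y) ≤ NN ζ y := by
  unfold NN
  rw [sum_comm]
  exact sum_le_sum fun j _ => fam_row h.proj h.orth (y (ζ j))

lemma av_NN {Ω : Type*} [Fintype Ω] (f : Ω → H →L[ℂ] H) :
    av (fun t => NN ζ (f t)) = ∑ b, av fun t => ‖f t (ζ b)‖ ^ 2 := av_sum _ _

lemma exists_diag_part {σ : Type} [Fintype σ] {q : σ → H →L[ℂ] H} (qM : ∀ s, q s ∈ M)
    (qp : ∀ s, IsStarProjection (q s)) {m : ℝ} (hq : ∀ y, ∑ s, NN ζ (q s * y) ≤ m * NN ζ y)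
    {J : ℕ} (hJ : 0 < J) {v : Fin J → H →L[ℂ] H} {g z : H →L[ℂ] H} (hv : Sys M v g z)
    (hζ : CT M ζ) (thin : ∀ s, ∀ ζ' : Fin k → H, CT M ζ' → J * NN ζ' (q s) ≤ 4 * NN ζ' z)
    (hc : (Fintype.card σ : ℝ) ≤ 2 * m * J) :
    ∃ x : Fin J → H →L[ℂ] H, Sys M x g z ∧
      ∑ s, NN ζ (∑ a, star (x a) * q s * x a) ≤ 7169 * m * (J * NN ζ g) := by
  classical
  have hJ' : (0 : ℝ) < J := by exact_mod_cast hJ
  let Y : σ → H →L[ℂ] H := fun s => ∑ a, star (v a) * q s * v a
  obtain ⟨Ω, _, _, w, hw, hY⟩ := H5.Hc.dix hv.qmem hv.proj (univ.image Y) (fun a ha => by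
    obtain ⟨s, -, rfl⟩ := mem_image.1 ha
    refine ⟨sum_mem fun a _ => mul_mem (mul_mem (star_mem (hv.mem a)) (qM s)) (hv.mem a), ?_⟩
    simp only [IsSelfAdjoint, Y, sstar, star_mul, star_star, pstar (qp s), mul_assoc])
    (ε := 16) (by norm_num)
  let f : σ → Fin J → Ω → H →L[ℂ] H := fun s a t =>
    star (q s * (v a * w t)) * (q s * (v a * w t))
  have hf : ∀ s a t, f s a t = star (v a * w t) * q s * (v a * w t) := fun s a t => by
    simp only [f, star_mul, pstar (qp s), mul_assoc, pmul' (qp s)]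
  have hTT : ∀ s, TT w (Y s) = av fun t => ∑ a, f s a t := fun s => by
    change av _ = _
    simp only [hf, Y, mul_sum, sum_mul, star_mul, mul_assoc]
  have hP : ∀ s, NN ζ (TT w (Y s)) ≤ 3584 * NN ζ g := fun s => by
    obtain ⟨c, hc, hn⟩ := hY _ (mem_image_of_mem Y (mem_univ s))
    refine NN_le_of_cen hζ hv.qmem hv.proj hc ?_ (TT_g_mul hw hv.proj _) hn fun ζ' hζ' => ?_
    · rw [hTT]
      exact av_op_nonneg fun t => sum_nonneg fun a _ => star_mul_self_nonneg _
    · simp only [hTT, av_re_inner]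
      rw [← av_sum]
      refine av_le fun t => ?_
      have e : ∑ b, (⟪ζ' b, (∑ a, f s a t) (ζ' b)⟫_ℂ).re = ∑ a, NN ζ' (q s * (v a * w t)) := by
        simp only [NN, norm_sq_eq_re, ContinuousLinearMap.sum_apply, inner_sum, Complex.re_sum]
        rw [sum_comm]
      have h1 : ∀ a, NN ζ' (q s * (v a * w t)) ≤ 2 * NN ζ' (star (v a) * q s) := fun a => by
        refine (NN_star' hζ' (mul_mem (qM s) (mul_mem (hv.mem a) (hw t).1))).trans ?_
        rw [star_mul, star_mul, pstar (qp s), mul_assoc]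
        exact mul_le_mul_of_nonneg_left (NN_mul_le ((hw t).star.norm_le hv.proj) _) zero_le_two
      have h2 := sys_row (ζ := ζ') hv (q s)
      have h3 := thin s ζ' hζ'
      have h4 := sys_up hv hζ'
      rw [Fintype.card_fin] at h4
      have h5 : NN ζ' (q s) ≤ 8 * NN ζ' g := le_of_mul_le_mul_left (by linarith) hJ'
      rw [e]
      refine (sum_le_sum fun a _ => h1 a).trans ?_
      rw [← mul_sum]
      linarith
  have h1 : ∀ s, av (fun ω : Fin J → Ω => NN ζ (∑ a, f s a (ω a))) ≤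
      NN ζ (TT w (Y s)) + ∑ a, av fun t => NN ζ (f s a t) := fun s => by
    simp only [av_NN]
    rw [sum_comm, NN, ← sum_add_distrib]
    refine sum_le_sum fun b _ => ?_
    have := av_indep_sum (fun a t => f s a t (ζ b)) univ 0
    simp only [zero_add] at this
    have e : TT w (Y s) (ζ b) = ∑ a, av fun t => f s a t (ζ b) := by
      rw [hTT, av_sum, ContinuousLinearMap.sum_apply]
      exact sum_congr rfl fun a _ =>
        av_map ((ContinuousLinearMap.apply ℂ H (ζ b)).toLinearMap.restrictScalars ℝ) _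
    simp only [ContinuousLinearMap.sum_apply, e]
    exact this
  have h2 : ∀ a, ∑ s, av (fun t => NN ζ (f s a t)) ≤ m * NN ζ g := fun a => by
    rw [← av_sum]
    refine av_le fun t => ?_
    have h3 := sys_cu hv fun _ => hw t
    rw [← sys_dom h3 a]
    refine le_trans (sum_le_sum fun s _ => ?_) (hq _)
    rw [hf, mul_assoc]
    exact NN_mul_le (h3.pi a).star.norm_le _
  obtain ⟨ω, hω⟩ := H7.Kad.exists_le_av fun ω : Fin J → Ω => ∑ s, NN ζ (∑ a, f s a (ω a))
  refine ⟨fun a => v a * w (ω a), sys_cu hv fun a => hw _, ?_⟩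
  simp only [← hf]
  refine hω.trans ?_
  change av _ ≤ _
  rw [av_sum]
  refine (sum_le_sum fun s _ => h1 s).trans ?_
  rw [sum_add_distrib, sum_comm]
  have h4 : ∑ s, NN ζ (TT w (Y s)) ≤ Fintype.card σ * (3584 * NN ζ g) := by
    rw [← card_univ, ← nsmul_eq_mul]
    exact sum_le_card_nsmul _ _ _ fun s _ => hP s
  have h5 : ∑ a : Fin J, ∑ s, av (fun t => NN ζ (f s a t)) ≤ J * (m * NN ζ g) := by
    have := sum_le_card_nsmul univ _ _ fun a (_ : a ∈ (univ : Finset (Fin J))) => h2 a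
    rwa [card_univ, Fintype.card_fin, nsmul_eq_mul] at this
  have h6 := mul_le_mul_of_nonneg_right hc (mul_nonneg (by norm_num : (0 : ℝ) ≤ 3584)
    (NN_nonneg (ζ := ζ) g))
  linarith

lemma exists_flat_sys {σ : Type} [Fintype σ] {q : σ → H →L[ℂ] H} (qM : ∀ s, q s ∈ M)
    (qp : ∀ s, IsStarProjection (q s)) {m : ℝ} (hm : 0 ≤ m)
    (hq : ∀ y, ∑ s, NN ζ (q s * y) ≤ m * NN ζ y)
    {J : ℕ} (hJ : 0 < J) {v : Fin J → H →L[ℂ] H} {g z : H →L[ℂ] H} (hv : Sys M v g z)
    (hζ : CT M ζ) (hz : NN ζ z ≤ 1)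
    (thin : ∀ s, ∀ ζ' : Fin k → H, CT M ζ' → J * NN ζ' (q s) ≤ 4 * NN ζ' z)
    (hc : (Fintype.card σ : ℝ) ≤ 2 * m * J) :
    ∃ V : Fin J → H →L[ℂ] H, Sys M V g z ∧
      J * ∑ j, ∑ s, NN ζ (star (V j) * q s * V j) ≤ 28680 * m := by
  classical
  have hJ' : (0 : ℝ) < J := by exact_mod_cast hJ
  obtain ⟨x, hx, hD⟩ := exists_diag_part qM qp hq hJ hv hζ thin hc
  have hg := sys_low hv hζ
  rw [Fintype.card_fin] at hg
  obtain ⟨c, c1, c2, c3⟩ := exists_fourier J hJ
  have cn : ∀ j a, ‖c j a‖ ^ 2 = (J : ℝ)⁻¹ := fun j a => by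
    have := c1 j a
    rw [Complex.mul_conj, Complex.normSq_eq_norm_sq] at this
    exact Complex.ofReal_injective (by rw [this]; simp)
  let O : (Fin J → Fin 4) → Fin J → σ → H →L[ℂ] H := fun θ j s =>
    ∑ p ∈ (univ : Finset (Fin J)).offDiag, (conj (H7.Kad.ph θ p.1) * H7.Kad.ph θ p.2) •
      ((conj (c j p.1) * c j p.2) • (star (x p.1) * q s * x p.2))
  have hO : ∀ j s, av (fun θ => NN ζ (O θ j s)) ≤ (J : ℝ)⁻¹ ^ 2 * ∑ b, NN ζ (q s * x b) := by
    intro j s
    have e : av (fun θ => NN ζ (O θ j s)) = ∑ p ∈ (univ : Finset (Fin J)).offDiag,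
        NN ζ ((conj (c j p.1) * c j p.2) • (star (x p.1) * q s * x p.2)) := by
      rw [av_NN]
      unfold NN
      rw [sum_comm]
      refine sum_congr rfl fun b _ => ?_
      have := H7.Kad.av_normSq_orth (univ : Finset (Fin J)).offDiag
        (fun p (θ : Fin J → Fin 4) => conj (H7.Kad.ph θ p.1) * H7.Kad.ph θ p.2)
        (fun p hp p' _ => H7.Kad.orth_pair (by norm_num) (mem_offDiag.1 hp).2.2)
        (fun p => ((conj (c j p.1) * c j p.2) • (star (x p.1) * q s * x p.2)) (ζ b))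
      rw [← this]
      simp only [O, ContinuousLinearMap.sum_apply]
      rfl
    rw [e]
    refine (sum_le_sum_of_subset_of_nonneg (subset_univ _) fun _ _ _ => NN_nonneg _).trans ?_
    rw [Fintype.sum_prod_type, sum_comm, mul_sum]
    refine sum_le_sum fun b _ => ?_
    simp only [NN_smul, norm_mul, mul_pow, Complex.norm_conj, cn, ← mul_sum, mul_assoc]
    rw [sq, mul_assoc]
    gcongr
    exact sys_row hx _
  obtain ⟨θ, hθ⟩ := H7.Kad.exists_le_av fun θ => ∑ j, ∑ s, NN ζ (O θ j s)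
  have hθ' : J * ∑ j, ∑ s, NN ζ (O θ j s) ≤ 2 * m := by
    have h1 : ∑ j, ∑ s, NN ζ (O θ j s) ≤ ∑ _j : Fin J, (J : ℝ)⁻¹ ^ 2 * (J * (m * NN ζ g)) := by
      refine hθ.trans ?_
      change av _ ≤ _
      rw [av_sum]
      refine sum_le_sum fun j _ => ?_
      rw [av_sum]
      refine (sum_le_sum fun s _ => hO j s).trans ?_
      rw [← mul_sum, sum_comm]
      refine mul_le_mul_of_nonneg_left ?_ (by positivity)
      have := sum_le_card_nsmul univ _ _ fun b (_ : b ∈ (univ : Finset (Fin J))) =>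
        (hq (x b)).trans_eq (by rw [sys_dom hx b])
      rwa [card_univ, Fintype.card_fin, nsmul_eq_mul] at this
    rw [sum_const, card_univ, Fintype.card_fin, nsmul_eq_mul] at h1
    calc _ ≤ J * (J * ((J : ℝ)⁻¹ ^ 2 * (J * (m * NN ζ g)))) := by gcongr
      _ = m * (J * NN ζ g) := by field_simp
      _ ≤ m * 2 := by gcongr; linarith
      _ = _ := by ring
  have hph := H7.Kad.conj_ph_mul θ
  refine ⟨fun j => ∑ a, (c j a * H7.Kad.ph θ a) • x a, sys_unit hx (fun a a' => ?_) fun i j => ?_, ?_⟩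
  · rw [← c3]
    exact sum_congr rfl fun i _ => by rw [map_mul]; linear_combination conj (c a i) * c a' i * hph i
  · have : ∑ a, c a i * H7.Kad.ph θ i * conj (c a j * H7.Kad.ph θ j) =
        (conj (H7.Kad.ph θ j) * H7.Kad.ph θ i) * ∑ a, conj (c j a) * c i a := by
      rw [mul_sum]
      exact sum_congr rfl fun a _ => by rw [map_mul, c2 a i, c2 a j]; ring
    rw [this, c3]
    split_ifs with h
    · rw [h, hph, one_mul]
    · rw [mul_zero]
  · have e : ∀ j s, star (∑ a, (c j a * H7.Kad.ph θ a) • x a) * q s *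
        ∑ a, (c j a * H7.Kad.ph θ a) • x a =
        (J : ℂ)⁻¹ • ∑ a, star (x a) * q s * x a + O θ j s := fun j s => by
      have e1 : star (∑ a, (c j a * H7.Kad.ph θ a) • x a) * q s *
          ∑ a, (c j a * H7.Kad.ph θ a) • x a = ∑ p ∈ (univ ×ˢ univ : Finset (Fin J × Fin J)),
          (conj (H7.Kad.ph θ p.1) * H7.Kad.ph θ p.2) •
            ((conj (c j p.1) * c j p.2) • (star (x p.1) * q s * x p.2)) := by
        rw [sstar, sum_mul, sum_mul, sum_product]
        refine sum_congr rfl fun a _ => ?_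
        rw [mul_sum]
        refine sum_congr rfl fun b _ => ?_
        rw [star_smul, smul_mul_assoc, smul_mul_smul_comm, smul_smul, Complex.star_def, map_mul]
        congr 1; ring
      rw [e1, ← diag_union_offDiag, sum_union (disjoint_diag_offDiag _), sum_diag, smul_sum]
      congr 1
      exact sum_congr rfl fun a _ => by rw [hph, one_smul, mul_comm, c1]
    simp only [e]
    have h1 : ∀ j s, NN ζ ((J : ℂ)⁻¹ • ∑ a, star (x a) * q s * x a + O θ j s) ≤
        2 * ((J : ℝ)⁻¹ ^ 2 * NN ζ (∑ a, star (x a) * q s * x a)) + 2 * NN ζ (O θ j s) :=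
      fun j s => by
        have := NN_add_le (ζ := ζ) ((J : ℂ)⁻¹ • ∑ a, star (x a) * q s * x a) (O θ j s)
        rwa [NN_smul, norm_inv, Complex.norm_natCast] at this
    have h2 := sum_le_sum fun j (_ : j ∈ (univ : Finset (Fin J))) =>
      sum_le_sum fun s (_ : s ∈ (univ : Finset σ)) => h1 j s
    simp only [sum_add_distrib, ← mul_sum, sum_const, card_univ, Fintype.card_fin,
      nsmul_eq_mul] at h2
    have h3 : ∑ s, NN ζ (∑ a, star (x a) * q s * x a) ≤ 14338 * m := by nlinarith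
    calc _ ≤ J * (2 * ((J : ℝ)⁻¹ ^ 2 * (J * ∑ s, NN ζ (∑ a, star (x a) * q s * x a))) +
          2 * ∑ j, ∑ s, NN ζ (O θ j s)) := mul_le_mul_of_nonneg_left h2 hJ'.le
      _ = 2 * ∑ s, NN ζ (∑ a, star (x a) * q s * x a) + 2 * (J * ∑ j, ∑ s, NN ζ (O θ j s)) := by
          field_simp
      _ ≤ _ := by linarith

lemma exists_cut {σ : Type} [Fintype σ] {q : σ → H →L[ℂ] H} (qM : ∀ s, q s ∈ M)
    (qp : ∀ s, IsStarProjection (q s)) {e : H →L[ℂ] H} (eM : e ∈ M) (pe : IsStarProjection e)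
    {η : ℝ} (hη : 0 < η) : ∃ b ∈ M, IsStarProjection b ∧ e * b = b ∧
      (∀ s, ‖(e - b) * q s‖ ≤ η) ∧ η ^ 4 * NN ζ b ≤ ∑ s, NN ζ (e * q s * e) := by
  set y := ∑ s, star (e * q s * e) * (e * q s * e) with hy
  have y0 : 0 ≤ y := sum_nonneg fun s _ => star_mul_self_nonneg _
  have yM : y ∈ M := sum_mem fun s _ => mul_mem (star_mem (mul_mem (mul_mem eM (qM s)) eM))
    (mul_mem (mul_mem eM (qM s)) eM)
  have hyξ : ∀ ξ, (⟪ξ, y ξ⟫_ℂ).re = ∑ s, ‖(e * q s * e) ξ‖ ^ 2 := fun ξ => by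
    simp only [hy, norm_sq_eq_re, ContinuousLinearMap.sum_apply, inner_sum, Complex.re_sum]
  have ey : e * y = y := by
    simp only [hy, mul_sum, star_mul, pstar pe, mul_assoc, pmul' pe]
  have aM : y - η ^ 4 • e ∈ M := sub_mem yM (rsmul_mem _ eM)
  have as : IsSelfAdjoint (y - η ^ 4 • e) :=
    y0.isSelfAdjoint.sub ((IsSelfAdjoint.all _).smul pe.isSelfAdjoint)
  obtain ⟨b, pb, b1, b2, b3, b4, b5⟩ := exists_split _ as
  have bM : b ∈ M := mem_of_comm fun t ht => b4 t (comm_of_mem aM ht) (comm_of_mem aM (star_mem ht))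
  have eb : e * b = b := by
    have := b5 (1 - e) (by
      rw [sub_mul, one_mul, mul_sub, ey, mul_smul_comm, pmul pe, sub_self])
    rw [sub_mul, one_mul, sub_eq_zero] at this
    exact this.symm
  have be : b * e = b := flip_mul (pstar pe) (pstar pb) (pstar pb) eb
  have pe' : IsStarProjection (e - b) := mkproj
    (by rw [sub_mul, mul_sub, mul_sub, pmul pe, eb, be, pmul pb]; simp)
    (by rw [star_sub, pstar pe, pstar pb])
  have yb : y * b = b * y := by
    rw [sub_mul, mul_sub, smul_mul_assoc, mul_smul_comm, eb, be] at b3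
    exact sub_left_injective b3
  refine ⟨b, bM, pb, eb, fun s => ?_, ?_⟩
  · have h1 : ‖(e - b) * q s * (e - b)‖ ≤ η ^ 2 := by
      refine norm_le_of_sq (by positivity) fun ξ => ?_
      set ξ' := (e - b) ξ with hξ'
      have a1 : e ξ' = ξ' := by
        rw [hξ', ← ContinuousLinearMap.mul_apply, mul_sub, pmul pe, eb]
      have a2 : (1 - b) ξ' = ξ' := by
        rw [hξ', ← ContinuousLinearMap.mul_apply, sub_mul, one_mul, mul_sub, be, pmul pb]; simp
      have a3 := re_inner_mono b2 ξ'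
      rw [ContinuousLinearMap.mul_apply, a2, re_inner_sub, re_inner_rsmul, re_inner_proj pe, a1,
        hyξ] at a3
      simp only [ContinuousLinearMap.zero_apply, inner_zero_right, Complex.zero_re] at a3
      have a4 : ‖(e * q s * e) ξ'‖ ^ 2 ≤ ∑ s, ‖(e * q s * e) ξ'‖ ^ 2 :=
        single_le_sum (f := fun s => ‖(e * q s * e) ξ'‖ ^ 2) (fun _ _ => sq_nonneg _) (mem_univ s)
      have a5 : ((e - b) * q s * (e - b)) ξ = (e - b) ((e * q s * e) ξ') := by
        rw [hξ', ← ContinuousLinearMap.mul_apply, ← ContinuousLinearMap.mul_apply]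
        congr 1
        have c1 : (e - b) * e = e - b := by rw [sub_mul, pmul pe, be]
        have c2 : e * (e - b) = e - b := by rw [mul_sub, pmul pe, eb]
        rw [← mul_assoc, ← mul_assoc, c1, mul_assoc _ e, c2]
      have a6 := pow_le_pow_left₀ (norm_nonneg _) (proj_apply_le pe' ((e * q s * e) ξ')) 2
      have a7 := pow_le_pow_left₀ (norm_nonneg _) (proj_apply_le pe' ξ) 2
      rw [a5]
      have a8 : η ^ 4 * ‖ξ'‖ ^ 2 ≤ η ^ 4 * ‖ξ‖ ^ 2 := mul_le_mul_of_nonneg_left a7 (by positivity)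
      nlinarith
    have h2 := CStarRing.norm_self_mul_star (x := (e - b) * q s)
    rw [star_mul, pstar (qp s), pstar pe', mul_assoc, pmul' (qp s), ← mul_assoc] at h2
    exact (sq_le_sq₀ (norm_nonneg _) hη.le).1 (by rw [sq, ← h2]; exact h1)
  · unfold NN
    rw [sum_comm, mul_sum]
    refine sum_le_sum fun j _ => ?_
    rw [← hyξ]
    have a1 := re_inner_nonneg b1 (ζ j)
    have a2 := re_inner_nonneg (conj_nonneg' y0 pb.one_sub
      (by rw [mul_sub, sub_mul, yb, mul_one, one_mul])) (ζ j)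
    rw [sub_mul, smul_mul_assoc, eb, re_inner_sub, re_inner_rsmul, re_inner_proj pb] at a1
    rw [mul_sub, mul_one, re_inner_sub] at a2
    linarith

lemma part_two {z : H →L[ℂ] H} {ι : Type} [Fintype ι] {p : ι → H →L[ℂ] H} (hp : Part M z p)
    {κ : Type} [Fintype κ] {r : ι → κ → H →L[ℂ] H} (hr : ∀ i, Part M (p i) (r i)) :
    Part M z fun x : ι × κ => r x.1 x.2 := by
  refine ⟨fun x => (hr _).mem _, fun x => (hr _).proj _, fun x y h => ?_, ?_⟩
  · by_cases h1 : x.1 = y.1
    · rw [← h1]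
      exact (hr _).orth _ _ fun h2 => h (Prod.ext h1 h2)
    · rw [← H7.Hc.part_cut (hr x.1) x.2, ← H7.Hc.part_cut' (hr y.1) y.2, mul_assoc,
        ← mul_assoc (p _), hp.orth _ _ h1]; simp
  · rw [Fintype.sum_prod_type, ← hp.sum]
    exact sum_congr rfl fun i _ => (hr i).sum

lemma part_bool {z b : H →L[ℂ] H} (zM : z ∈ M) (pz : IsStarProjection z) (bM : b ∈ M)
    (pb : IsStarProjection b) (h : z * b = b) : Part M z fun t : Bool => if t then b else z - b := by
  have h' : b * z = b := flip_mul (pstar pz) (pstar pb) (pstar pb) h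
  refine ⟨?_, ?_, ?_, by simp⟩
  · rintro (_ | _)
    exacts [sub_mem zM bM, bM]
  · rintro (_ | _)
    · exact mkproj (e := z - b) (by rw [sub_mul, mul_sub, mul_sub, pmul pz, h, h', pmul pb]; simp)
        (by rw [star_sub, pstar pz, pstar pb])
    · exact pb
  · rintro (_ | _) (_ | _) hne
    · exact absurd rfl hne
    · change (z - b) * b = 0
      rw [sub_mul, h, pmul pb, sub_self]
    · change b * (z - b) = 0
      rw [mul_sub, h', pmul pb, sub_self]
    · exact absurd rfl hne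

theorem flatStmt : FlatStmt.{u} := by
  classical
  intro H _ _ _ M z k ζ m π η hz hA hT hπ hη
  obtain ⟨n, hn⟩ := pow_unbounded_of_one_lt (57360 * m / η ^ 5) (one_lt_two (α := ℝ))
  have hJ : 0 < 2 ^ n := by positivity
  have hJ' : (0 : ℝ) < (2 ^ n : ℕ) := by positivity
  have hp : ∀ i, Part M z fun t : Bool => if t then π i else z - π i := fun i =>
    part_bool hz.mem hz.proj (hπ i).1 (hπ i).2.1 (hπ i).2.2
  choose g y hy using fun i t => exists_sys ((hp i).mem t) ((hp i).proj t)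
    (hA.mono (H7.Hc.part_cut' (hp i) t)) n
  let q : Fin m → Bool × Fin (2 ^ n) → H →L[ℂ] H := fun i x => y i x.1 x.2 * star (y i x.1 x.2)
  have hq : ∀ i, Part M z (q i) := fun i => part_two (hp i) fun t => sys_part (hy i t)
  obtain ⟨g₀, v, hv⟩ := exists_sys hz.mem hz.proj hA n
  obtain ⟨V, hV, hΘ⟩ := exists_flat_sys (ζ := ζ) (q := fun s : Fin m × (Bool × Fin (2 ^ n)) => q s.1 s.2)
    (fun s => (hq _).mem _) (fun s => (hq _).proj _) (m := m) (Nat.cast_nonneg _)
    (fun x => by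
      rw [Fintype.sum_prod_type]
      have : ∀ i, ∑ l, NN ζ (q i l * x) ≤ NN ζ x := fun i => by
        unfold NN
        rw [sum_comm]
        exact sum_le_sum fun j _ => H7.Hc.part_sum_le (hq i) univ (x (ζ j))
      have := sum_le_card_nsmul univ _ _ fun i (_ : i ∈ (univ : Finset (Fin m))) => this i
      rwa [card_univ, Fintype.card_fin, nsmul_eq_mul] at this)
    hJ hv hT.ct (by simpa only [NN, hT.cut] using hT.norm)
    (fun s ζ' hζ' => by
      have h1 := sys_low (hy s.1 s.2.1) hζ'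
      have h2 := NN_star hζ' ((hy s.1 s.2.1).mem s.2.2)
      rw [← sys_ran (hy s.1 s.2.1), sys_dom (hy s.1 s.2.1)] at h2
      have h3 := NN_mul_le (ζ := ζ') ((hp s.1).proj s.2.1).norm_le z
      rw [H7.Hc.part_cut (hp s.1)] at h3
      rw [Fintype.card_fin] at h1
      have h4 := mul_le_mul_of_nonneg_left h2 hJ'.le
      simp only [q]
      linarith)
    (by simp; ring_nf; rfl)
  have he := sys_part hV
  choose b bM pb eb b1 b2 using fun j => exists_cut (ζ := ζ)
    (q := fun s : Fin m × (Bool × Fin (2 ^ n)) => q s.1 s.2) (fun s => (hq _).mem _)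
    (fun s => (hq _).proj _) (he.mem j) (he.proj j) hη
  have he' := part_two he fun j => part_bool (he.mem j) (he.proj j) (bM j) (pb j) (eb j)
  have he'' : Part M z fun x : Bool × Fin (2 ^ n) =>
      if x.1 then b x.2 else V x.2 * star (V x.2) - b x.2 :=
    ⟨fun x => he'.mem x.swap, fun x => he'.proj x.swap,
      fun x y h => he'.orth x.swap y.swap fun h' => h (Prod.swap_injective h'), by
        rw [← he'.sum]; exact (Equiv.prodComm _ _).sum_comp _ |>.symm⟩
  refine ⟨Bool × Fin (2 ^ n), inferInstance, inferInstance, q, _, univ.filter (·.1 = true), hq,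
    ?_, he'', ?_, ?_⟩
  · rintro i ⟨t, l⟩
    have h1 := H7.Hc.part_cut' (sys_part (hy i t)) l
    cases t
    · right
      change π i * (y i false l * star (y i false l)) = 0
      rw [← h1, ← mul_assoc]
      exact ((hp i).orth true false (by simp)).symm ▸ zero_mul _
    · left; exact h1
  · rintro ⟨t, j⟩ hj i l
    cases t
    · exact b1 j (i, l)
    · simp at hj
  · simp only [H7.Hc.part_normsq he'']
    rw [sum_comm, sum_filter, Fintype.sum_prod_type]
    simp only [Fintype.sum_bool, if_true, Bool.false_eq_true, if_false, sum_const_zero, add_zero]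
    change ∑ j, NN ζ (b j) ≤ η
    have h1 : ∀ j (s : Fin m × (Bool × Fin (2 ^ n))),
        NN ζ (V j * star (V j) * q s.1 s.2 * (V j * star (V j))) ≤
        2 * NN ζ (star (V j) * q s.1 s.2 * V j) := fun j s => by
      have BM : star (V j) * q s.1 s.2 * V j ∈ M :=
        mul_mem (mul_mem (star_mem (hV.mem j)) ((hq _).mem _)) (hV.mem j)
      have a1 := NN_mul_le (ζ := ζ) (hV.pi j).norm_le (star (V j) * q s.1 s.2 * V j * star (V j))
      have a2 := NN_mul_le (ζ := ζ) (hV.pi j).norm_le (star (V j) * q s.1 s.2 * V j)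
      have a3 := NN_star hT.ct (mul_mem (hV.mem j) BM)
      simp only [star_mul, star_star, pstar ((hq _).proj _), mul_assoc] at a1 a2 a3 ⊢
      linarith
    have h2 : η ^ 4 * ∑ j, NN ζ (b j) ≤ 2 * ∑ j, ∑ s : Fin m × (Bool × Fin (2 ^ n)),
        NN ζ (star (V j) * q s.1 s.2 * V j) := by
      rw [mul_sum, mul_sum]
      refine sum_le_sum fun j _ => (b2 j).trans ?_
      rw [mul_sum]
      exact sum_le_sum fun s _ => h1 j s
    rw [div_lt_iff₀ (by positivity)] at hn
    have h3 := mul_le_mul_of_nonneg_left h2 hJ'.le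
    have h4 : ((2 ^ n : ℕ) : ℝ) * η ^ 4 * ∑ j, NN ζ (b j) ≤ ((2 ^ n : ℕ) : ℝ) * η ^ 4 * η := by
      push_cast at h3 hΘ ⊢
      nlinarith
    exact le_of_mul_le_mul_left h4 (by positivity)

end Crest.Agent.H4.Hc
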