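import Crest.Agent.H5.HcDix
import Crest.Agent.H7.HcA
import Crest.Agent.H7.KadPh
import Crest.Agent.H4.HcLoc

/-! Row 121: flat partitions, part A (the random system). -/

set_option autoImplicit false

namespace Crest.Agent.H4.Hc

open scoped InnerProductSpace ComplexConjugate
open Finset Function Crest.Agent.H5.KS Crest.OpAlg Crest.Agent.Lead.Hc Crest.Agent.H7.Batch

variable {H : Type*} [NormedAddCommGroup H] [InnerProductSpace ℂ H] [CompleteSpace H]
  {M : VonNeumannAlgebra H}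

/-- squared approximate 2-norm -/
noncomputable def NN {k : ℕ} (ζ : Fin k → H) (x : H →L[ℂ] H) : ℝ := ∑ a, ‖x (ζ a)‖ ^ 2

section NN
variable {k : ℕ} {ζ : Fin k → H}

omit [CompleteSpace H] in
lemma NN_nonneg (x : H →L[ℂ] H) : 0 ≤ NN ζ x := sum_nonneg fun _ _ => sq_nonneg _

lemma NN_star (h : CT M ζ) {x : H →L[ℂ] H} (hx : x ∈ M) : NN ζ (star x) ≤ 2 * NN ζ x := h x hx

lemma NN_star' (h : CT M ζ) {x : H →L[ℂ] H} (hx : x ∈ M) : NN ζ x ≤ 2 * NN ζ (star x) := by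
  simpa using NN_star h (star_mem hx)

lemma NN_congr {x y : H →L[ℂ] H} (h : star x * x = star y * y) : NN ζ x = NN ζ y :=
  sum_congr rfl fun _ _ => normsq_congr h _

lemma NN_mul_le {a : H →L[ℂ] H} (ha : ‖a‖ ≤ 1) (x : H →L[ℂ] H) : NN ζ (a * x) ≤ NN ζ x :=
  sum_le_sum fun _ _ => pow_le_pow_left₀ (norm_nonneg _) (apply_le_of_le_one ha _) 2

lemma NN_add_le (x y : H →L[ℂ] H) : NN ζ (x + y) ≤ 2 * NN ζ x + 2 * NN ζ y := by
  simp only [NN, mul_sum, ← sum_add_distrib]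
  exact sum_le_sum fun _ _ => normsq_add_le _ _

omit [CompleteSpace H] in
lemma NN_smul (c : ℂ) (x : H →L[ℂ] H) : NN ζ (c • x) = ‖c‖ ^ 2 * NN ζ x := by
  simp only [NN, mul_sum, ContinuousLinearMap.smul_apply, norm_smul, mul_pow]

section sys
variable {κ : Type} [Fintype κ] [DecidableEq κ] {v : κ → H →L[ℂ] H} {g p : H →L[ℂ] H}

lemma sys_dom (h : Sys M v g p) (a : κ) : NN ζ (v a) = NN ζ g :=
  NN_congr (by rw [h.dom, pstar h.proj, pmul h.proj])

lemma sys_ran (h : Sys M v g p) (a : κ) : NN ζ (v a * star (v a)) = NN ζ (star (v a)) :=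
  NN_congr (by rw [pstar (h.pi a).ran, pmul (h.pi a).ran, star_star])

lemma sys_sum (h : Sys M v g p) : ∑ a, NN ζ (star (v a)) = NN ζ p := by
  unfold NN
  rw [sum_comm]
  exact sum_congr rfl fun j _ => by rw [sum_normsq_star, h.sum, re_inner_proj h.fproj]

lemma sys_low (h : Sys M v g p) (hζ : CT M ζ) : Fintype.card κ * NN ζ g ≤ 2 * NN ζ p := by
  rw [← sys_sum h, mul_sum, ← card_univ, ← nsmul_eq_mul, ← sum_const]
  exact sum_le_sum fun a _ => by rw [← sys_dom h a]; exact NN_star' hζ (h.mem a)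

lemma sys_up (h : Sys M v g p) (hζ : CT M ζ) : NN ζ p ≤ Fintype.card κ * (2 * NN ζ g) := by
  rw [← sys_sum h, ← card_univ, ← nsmul_eq_mul, ← sum_const]
  exact sum_le_sum fun a _ => by rw [← sys_dom h a]; exact NN_star hζ (h.mem a)

lemma sys_part (h : Sys M v g p) : Part M p fun a => v a * star (v a) :=
  ⟨fun a => mul_mem (h.mem a) (star_mem (h.mem a)), fun a => (h.pi a).ran, fun a b hab => by
    rw [mul_assoc, ← mul_assoc (star (v a)), h.orth, if_neg hab]; simp, h.sum⟩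

lemma sys_cu (h : Sys M v g p) {u : κ → H →L[ℂ] H} (hu : ∀ a, CU M g (u a)) :
    Sys M (fun a => v a * u a) g p := by
  refine ⟨fun a => mul_mem (h.mem a) (hu a).1, h.qmem, h.proj, fun a b => ?_, ?_⟩
  · rw [star_mul, mul_assoc, ← mul_assoc (star (v a)), h.orth]
    split_ifs with hab
    · rw [hab, (hu b).g_mul h.proj, (hu b).2.1]
    · simp
  · rw [← h.sum]
    exact sum_congr rfl fun a _ => by
      rw [star_mul, mul_assoc, ← mul_assoc (u a), (hu a).2.2, ← mul_assoc, h.wq]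

lemma sys_unit (h : Sys M v g p) {c : κ → κ → ℂ}
    (c3 : ∀ a a', ∑ i, conj (c a i) * c a' i = if a = a' then 1 else 0)
    (c4 : ∀ i j, ∑ a, c a i * conj (c a j) = if j = i then 1 else 0) :
    Sys M (fun a => ∑ i, c a i • v i) g p := by
  have e1 : ∀ i a, star (v i) * ∑ i, c a i • v i = c a i • g := fun i a => by
    simp only [mul_sum, mul_smul_comm, h.orth, smul_ite, smul_zero, sum_ite_eq, mem_univ, if_true]
  have e1' : ∀ i a, star (∑ i, c a i • v i) * v i = conj (c a i) • g := fun i a => by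
    have := congrArg star (e1 i a)
    rwa [star_mul, star_star, star_smul, pstar h.proj] at this
  have e2 : ∀ a a', (∑ i, c a i • v i) * star (∑ i, c a' i • v i) =
      ∑ i, ∑ j, (c a i * conj (c a' j)) • (v i * star (v j)) := fun a a' => by
    rw [sstar, sum_mul]
    refine sum_congr rfl fun i _ => ?_
    rw [mul_sum]
    exact sum_congr rfl fun j _ => by simp [smul_smul, mul_comm]
  refine ⟨fun a => sum_mem fun i _ => vsmul_mem _ (h.mem i), h.qmem, h.proj, fun a a' => ?_, ?_⟩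
  · simp only [mul_sum, mul_smul_comm, e1', smul_smul]
    rw [← sum_smul, sum_congr rfl fun i _ => mul_comm (c a' i) _, c3]
    split_ifs <;> simp
  · simp only [e2]
    rw [sum_comm, ← h.sum]
    refine sum_congr rfl fun i _ => ?_
    rw [sum_comm]
    simp only [← sum_smul]
    simp [c4]

end sys

end NN

lemma exists_sys {p : H →L[ℂ] H} (pM : p ∈ M) (pp : IsStarProjection p) (hA : H9.VN.NoAb M p)
    (n : ℕ) : ∃ (g : H →L[ℂ] H) (v : Fin (2 ^ n) → H →L[ℂ] H), Sys M v g p := by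
  obtain ⟨ι, _, _, e, w, h1, h2, h3, -, h5, -, h7, h8⟩ := H9.VN.units_aux M pM pp hA n
  have h : Sys M w e p := ⟨h5, h2, h3, h7, h8⟩
  exact ⟨e, _, h.reindex (Fintype.equivFinOfCardEq h1).symm⟩

/-- sums of independent random vectors -/
lemma av_indep_sum {E I Ω : Type*} [NormedAddCommGroup E] [InnerProductSpace ℂ E] [Fintype I]
    [DecidableEq I] [Fintype Ω] [Nonempty Ω] (f : I → Ω → E) (s : Finset I) (x : E) :
    av (fun ω : I → Ω => ‖x + ∑ a ∈ s, f a (ω a)‖ ^ 2) ≤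
      ‖x + ∑ a ∈ s, av (f a)‖ ^ 2 + ∑ a ∈ s, av fun t => ‖f a t‖ ^ 2 := by
  induction s using Finset.induction_on generalizing x with
  | empty => simp [av_const]
  | insert b s hb ih =>
    have key : ∀ y : E, av (fun t => ‖y + f b t‖ ^ 2) ≤
        ‖y + av (f b)‖ ^ 2 + av fun t => ‖f b t‖ ^ 2 := fun y => by
      have e : ∀ w : E, ‖y + w‖ ^ 2 = ‖y‖ ^ 2 + 2 * (⟪y, w⟫_ℂ).re + ‖w‖ ^ 2 := fun w =>
        norm_add_sq (𝕜 := ℂ) y w
      have e2 : (⟪y, av (f b)⟫_ℂ).re = av fun t => (⟪y, f b t⟫_ℂ).re :=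
        av_map (Complex.reLm ∘ₗ (innerₛₗ ℂ y).restrictScalars ℝ) (f b)
      simp only [e, av_add, av_const, av_mul_left, e2]
      linarith [sq_nonneg ‖av (f b)‖]
    rw [av_update b]
    have e3 : ∀ (ω : I → Ω) (t : Ω), x + ∑ a ∈ insert b s, f a (update ω b t a) =
        (x + ∑ a ∈ s, f a (ω a)) + f b t := fun ω t => by
      rw [sum_insert hb, update_self, add_assoc, add_comm (f b t)]
      congr 2
      exact sum_congr rfl fun a ha => by rw [update_of_ne (ne_of_mem_of_not_mem ha hb)]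
    simp only [e3]
    refine (av_mono fun ω => key _).trans ?_
    rw [av_add, av_const, sum_insert hb, sum_insert hb]
    have := ih (x + av (f b))
    simp only [add_right_comm x _ (av (f b))]
    rw [← add_assoc x]
    linarith

lemma ZS.ct {k : ℕ} {ζ : Fin k → H} (h : CT M ζ) {c : H →L[ℂ] H} (hc : H5.Hc.ZS M c) :
    CT M fun a => c (ζ a) := fun x hx => by
  have := h (x * c) (mul_mem hx hc.mem)
  rwa [star_mul, hc.sa.star_eq, hc.comm _ (star_mem hx)] at this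

/-- from trace bounds to a 2-norm bound for an almost central positive element -/
lemma NN_le_of_cen {k : ℕ} {ζ : Fin k → H} (h : CT M ζ) {P c g : H →L[ℂ] H} (gM : g ∈ M)
    (pg : IsStarProjection g) (hc : H5.Hc.ZS M c) (hP : 0 ≤ P) (gP : g * P = P)
    (hn : ‖P - c * g‖ ≤ 16)
    (hb : ∀ ζ' : Fin k → H, CT M ζ' → ∑ a, (⟪ζ' a, P (ζ' a)⟫_ℂ).re ≤ 16 * NN ζ' g) :
    NN ζ P ≤ 3584 * NN ζ g := by
  have Ps : star P = P := hP.isSelfAdjoint.star_eq
  have Pg : P * g = P := flip_mul (pstar pg) Ps Ps gP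
  have h1 := hb ζ h
  have h2 := hb _ (ZS.ct h hc)
  have e1 : NN (fun a => c (ζ a)) g = NN ζ (c * g) := by
    unfold NN; rw [hc.comm g gM]; rfl
  rw [e1] at h2
  have hD : ∀ ξ, ‖(P - c * g) ξ‖ ≤ 16 * ‖g ξ‖ := fun ξ => by
    have : (P - c * g) = (P - c * g) * g := by rw [sub_mul, Pg, mul_assoc, pmul pg]
    rw [this]
    exact ((P - c * g).le_opNorm _).trans (mul_le_mul_of_nonneg_right hn (norm_nonneg _))
  have h3 : ∀ ξ, ‖(c * g) ξ‖ ^ 2 * (3 / 4) ≤ (⟪c ξ, P (c ξ)⟫_ℂ).re / 32 + 8 * (⟪ξ, P ξ⟫_ℂ).re +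
      256 * ‖g ξ‖ ^ 2 := fun ξ => by
    have a1 := re_inner_nonneg hP (c ξ - (16 : ℂ) • ξ)
    have a2 : ⟪ξ, P (c ξ)⟫_ℂ = conj ⟪c ξ, P ξ⟫_ℂ := by
      rw [inner_conj_symm, ← inner_star_left, Ps]
    simp only [map_sub, map_smul, inner_sub_left, inner_sub_right, inner_smul_left,
      inner_smul_right, a2, Complex.sub_re, Complex.mul_re, Complex.conj_re, Complex.conj_im,
      Complex.re_ofNat, Complex.im_ofNat, map_ofNat, Complex.sub_im, Complex.mul_im] at a1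
    have a3 : ⟪c ξ, P ξ⟫_ℂ = ⟪(c * g) ξ, P ξ⟫_ℂ := by
      rw [hc.comm g gM, ContinuousLinearMap.mul_apply, ← pstar pg, inner_star_left,
        ← ContinuousLinearMap.mul_apply g, gP]
    have a4 : (⟪(c * g) ξ, P ξ⟫_ℂ).re = ‖(c * g) ξ‖ ^ 2 + (⟪(c * g) ξ, (P - c * g) ξ⟫_ℂ).re := by
      rw [ContinuousLinearMap.sub_apply, inner_sub_right, Complex.sub_re,
        ← inner_self_eq_norm_sq (𝕜 := ℂ)]
      simp
    have a5 : |(⟪(c * g) ξ, (P - c * g) ξ⟫_ℂ).re| ≤ ‖(c * g) ξ‖ * (16 * ‖g ξ‖) :=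
      (Complex.abs_re_le_norm _).trans ((norm_inner_le_norm _ _).trans
        (mul_le_mul_of_nonneg_left (hD ξ) (norm_nonneg _)))
    rw [a3, a4] at a1
    nlinarith [neg_abs_le (⟪(c * g) ξ, (P - c * g) ξ⟫_ℂ).re, sq_nonneg (‖(c * g) ξ‖ - 32 * ‖g ξ‖)]
  have h4 := sum_le_sum fun a (_ : a ∈ (univ : Finset (Fin k))) => h3 (ζ a)
  simp only [sum_add_distrib, ← sum_mul, ← mul_sum, ← sum_div] at h4
  change NN ζ (c * g) * (3 / 4) ≤ _ + _ + 256 * NN ζ g at h4
  have h5 : NN ζ (P - c * g) ≤ 256 * NN ζ g := by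
    unfold NN
    rw [mul_sum]
    exact sum_le_sum fun a _ => by nlinarith [hD (ζ a), norm_nonneg ((P - c * g) (ζ a))]
  have h6 := NN_add_le (ζ := ζ) (P - c * g) (c * g)
  rw [sub_add_cancel] at h6
  linarith

end Crest.Agent.H4.Hc
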