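import Crest.Agent.Lead.HcI

/-! Row 121: properly infinite central parts. -/

set_option autoImplicit false

universe u

namespace Crest.Agent.H4.Hc

open scoped InnerProductSpace
open Finset Crest.Agent.H5.KS Crest.OpAlg Crest.Agent.Lead.Hc

lemma exists_emb (I : Type u) [Infinite I] : Nonempty ((I ⊕ Unit) × ℕ ↪ I) := by
  rw [← Cardinal.le_def]
  have h := Cardinal.aleph0_le_mk I
  simp only [Cardinal.mk_prod, Cardinal.mk_sum, Cardinal.lift_uzero, Cardinal.mk_fintype,
    Fintype.card_unique, Nat.cast_one, Cardinal.lift_one, Cardinal.mk_eq_aleph0,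
    Cardinal.lift_aleph0]
  rw [Cardinal.add_one_eq h, Cardinal.mul_aleph0_eq h]

theorem infStmt : InfStmt.{u} := by
  classical
  intro H _ _ _ M z hz hN
  obtain ⟨q, t, pq, q0, tM, zt, ht⟩ := not_not.1 hN
  have tq : star (t 0) * t 0 = q := by rw [ht, if_pos rfl]
  have qM : q ∈ M := tq ▸ mul_mem (star_mem (tM 0)) (tM 0)
  have zq : z * q = q := by
    rw [← tq, ← mul_assoc, hz.comm _ (star_mem (tM 0)), mul_assoc, zt]
  obtain ⟨S, hQ, hR, hmax⟩ := H9.VN.exists_maximal_pairwise
    (fun w : H →L[ℂ] H => w ∈ M ∧ star w * w = q ∧ z * w = w ∧ ∀ n, star (t n) * w = 0)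
    (fun w w' => star w * w' = 0)
  let w : S ⊕ ℕ → H →L[ℂ] H := Sum.elim Subtype.val t
  have wM : ∀ i, w i ∈ M := by
    rintro (i | i)
    exacts [(hQ _ i.2).1, tM i]
  have zw : ∀ i, z * w i = w i := by
    rintro (i | i)
    exacts [(hQ _ i.2).2.2.1, zt i]
  have wq : ∀ i, star (w i) * w i = q := by
    rintro (i | i)
    exacts [(hQ _ i.2).2.1, (ht i i).trans (if_pos rfl)]
  have wo : ∀ i j, i ≠ j → star (w i) * w j = 0 := by
    rintro (i | i) (j | j) h
    · exact hR i.2 j.2 fun h' => h (by rw [Subtype.ext h'])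
    · simpa [w] using congrArg star ((hQ _ i.2).2.2.2 j)
    · exact (hQ _ j.2).2.2.2 i
    · have := ht i j
      rwa [if_neg (fun h' => h (by rw [h']))] at this
  have wP : ∀ i, PI (w i) := fun i => PI.of_dom (by rw [wq]; exact pq)
  have wq' : ∀ i, w i * q = w i := fun i => by rw [← wq i]; exact (wP i).eq'
  have ro : ∀ i j, i ≠ j → w i * star (w i) * (w j * star (w j)) = 0 := fun i j h => by
    rw [mul_assoc, ← mul_assoc (star (w i)), wo i j h]; simp
  obtain ⟨R, RM, -, hs, hs'⟩ := H9.VN.exists_orth_sum M (fun i => w i * star (w i))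
    (fun i => mul_mem (wM i) (star_mem (wM i))) (fun i => (wP i).ran.norm_le)
    (fun i j h => by rw [pstar (wP i).ran]; exact ro i j h)
    (fun i j h => by rw [pstar (wP j).ran]; exact ro i j h)
  have Rs : star R = R := by
    ext1 v
    refine (hs' v).unique ?_
    simpa only [pstar (wP _).ran] using hs v
  have Rw : ∀ j, R * w j = w j := fun j => by
    rw [H9.VN.sum_mul_single hs j (fun i h => by rw [mul_assoc, wo i j h, mul_zero])]
    exact (wP j).eq
  have RR : R * R = R := by
    have := H9.VN.mul_sum_eq_zero hs (T := 1 - R) fun i => by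
      rw [← mul_assoc, sub_mul, one_mul, Rw, sub_self, zero_mul]
    rw [sub_mul, one_mul, sub_eq_zero] at this
    exact this.symm
  have zR : z * R = R := by
    have := H9.VN.mul_sum_eq_zero hs (T := 1 - z) fun i => by
      rw [← mul_assoc, sub_mul, one_mul, zw, sub_self, zero_mul]
    rw [sub_mul, one_mul, sub_eq_zero] at this
    exact this.symm
  have pr : IsStarProjection (z - R) := mkproj
    (by rw [sub_mul, mul_sub, mul_sub, hz.sq, zR, ← hz.comm _ RM, zR, RR]; simp)
    (by rw [star_sub, Rs, hz.star_eq])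
  obtain ⟨s, sM, sP, s1, s2, s3⟩ := exists_compare qM (sub_mem hz.mem RM) pq pr
  have ws : ∀ i, star (w i) * s = 0 := fun i => by
    have h1 : star (w i) * (z - R) = 0 := by
      have : (z - R) * w i = 0 := by rw [sub_mul, zw, Rw, sub_self]
      simpa [pstar pr] using congrArg star this
    rw [← s2, ← mul_assoc, h1, zero_mul]
  have sw : ∀ i, star s * w i = 0 := fun i => by simpa using congrArg star (ws i)
  have zs : z * s = s := by
    rw [← s2, ← mul_assoc, mul_sub, hz.sq, zR]
  have hne : q - star s * s ≠ 0 := by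
    intro h
    have h1 : star s * s = q := (sub_eq_zero.1 h).symm
    have h2 := hmax s ⟨sM, h1, zs, fun n => ws (Sum.inr n)⟩ fun x hx =>
      ⟨ws (Sum.inl ⟨x, hx⟩), sw (Sum.inl ⟨x, hx⟩)⟩
    exact q0 (by rw [← h1]; exact ws (Sum.inl ⟨s, h2⟩))
  obtain ⟨c, hc, c1, c2⟩ := exists_cs (M := M) (f := q - star s * s)
    (sub_mem qM (mul_mem (star_mem sM) sM))
  have c3 := c2 _ s3
  have cz : c * z = c := by
    have := c2 (1 - z) fun x hx => by
      have e : z * (q - star s * s) = q - star s * s := by
        rw [mul_sub, zq, ← mul_assoc, hz.comm _ (star_mem sM), mul_assoc, zs]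
      rw [hz.one_sub.comm x hx, mul_assoc, sub_mul, one_mul, e, sub_self, mul_zero]
    rw [sub_mul, one_mul, sub_eq_zero] at this
    rw [hc.comm _ hz.mem, ← this]
  refine ⟨c, hc, fun h => hne (by rw [← c1, h, zero_mul]), cz, ?_⟩
  let v : (S ⊕ ℕ) ⊕ Unit → H →L[ℂ] H := Sum.elim (fun i => w i * c) fun _ => s * c
  have vM : ∀ i, v i ∈ M := by
    rintro (i | i)
    exacts [mul_mem (wM i) hc.mem, mul_mem sM hc.mem]
  have vP : ∀ i, PI (v i) := by
    rintro (i | i)
    exacts [hc.pi_mul (wM i) (wP i), hc.pi_mul sM sP]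
  have vq : ∀ i, v i * q = v i := by
    rintro (i | i)
    · change w i * c * q = w i * c
      rw [mul_assoc, hc.comm _ qM, ← mul_assoc, wq']
    · change s * c * q = s * c
      rw [mul_assoc, hc.comm _ qM, ← mul_assoc, s1]
  have vo : ∀ i j, i ≠ j → star (v i) * v j = 0 := by
    rintro (i | i) (j | j) h
    · change star (w i * c) * (w j * c) = 0
      rw [hc.dom_mul (wM i) (wM j), wo i j fun h' => h (by rw [h']), zero_mul]
    · change star (w i * c) * (s * c) = 0
      rw [hc.dom_mul (wM i) sM, ws, zero_mul]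
    · change star (s * c) * (w j * c) = 0
      rw [hc.dom_mul sM (wM j), sw, zero_mul]
    · exact absurd rfl h
  have vs : ∀ ξ, HasSum (fun i => (v i * star (v i)) ξ) (c ξ) := fun ξ => by
    have e : c = R * c + s * star s * c := by
      rw [sub_mul, sub_mul, sub_sub, sub_eq_zero, ← hc.comm _ hz.mem, cz] at c3
      exact c3
    have h1 : HasSum (fun i => (v i * star (v i)) ξ) ((R * c) ξ + (s * star s * c) ξ) := by
      refine HasSum.sum ?_ ?_
      · have : ((fun i => (v i * star (v i)) ξ) ∘ Sum.inl) =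
            fun i => (w i * star (w i)) (c ξ) := by
          ext1 i
          change ((w i * c) * star (w i * c)) ξ = _
          rw [hc.ran_mul (wM i)]; rfl
        rw [this]
        exact hs (c ξ)
      · have : ((fun i => (v i * star (v i)) ξ) ∘ Sum.inr) = fun _ : Unit => (s * star s * c) ξ := by
          ext1 i
          change ((s * c) * star (s * c)) ξ = _
          rw [hc.ran_mul sM]
        rw [this]
        simpa using hasSum_fintype (fun _ : Unit => (s * star s * c) ξ)
    rwa [← ContinuousLinearMap.add_apply, ← e] at h1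
  obtain ⟨b⟩ := exists_emb (S ⊕ ℕ)
  have key : ∀ n m i j, star (w (b (i, n)) * star (v i)) * (w (b (j, m)) * star (v j)) =
      if (i, n) = (j, m) then v i * star (v i) else 0 := fun n m i j => by
    rw [star_mul, star_star, mul_assoc, ← mul_assoc (star (w _))]
    split_ifs with h
    · obtain rfl : i = j := (Prod.ext_iff.1 h).1
      rw [← h, wq, ← mul_assoc, vq]
    · rw [wo _ _ fun h' => h (b.injective h')]; simp
  have hex : ∀ n, ∃ A ∈ M, ‖A‖ ≤ 1 ∧ (∀ ξ, HasSum (fun i => (w (b (i, n)) * star (v i)) ξ) (A ξ)) ∧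
      ∀ ξ, HasSum (fun i => star (w (b (i, n)) * star (v i)) ξ) (star A ξ) := fun n =>
    H9.VN.exists_orth_sum M (fun i => w (b (i, n)) * star (v i))
      (fun i => mul_mem (wM _) (star_mem (vM i)))
      (fun i => mul_le_one' (wP _).norm_le (vP i).star.norm_le)
      (fun i j h => by rw [key, if_neg fun h' => h (Prod.ext_iff.1 h').1])
      (fun i j h => by
        rw [star_mul, star_star, mul_assoc, ← mul_assoc (star (v i)), vo i j h]; simp)
  choose T TM _ T1 T2 using hex
  refine ⟨T, TM, fun n m => ?_⟩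
  ext1 ξ
  have h1 := T2 n (T m ξ)
  have h2 : ∀ i, star (w (b (i, n)) * star (v i)) (T m ξ) =
      (if n = m then v i * star (v i) else 0) ξ := fun i => by
    rw [← ContinuousLinearMap.mul_apply, H9.VN.mul_sum_single (T1 m) i fun j hj => by
      rw [key, if_neg fun h' => hj (Prod.ext_iff.1 h').1.symm], key]
    simp
  simp only [h2] at h1
  refine h1.unique ?_
  split_ifs
  · exact vs ξ
  · simpa using hasSum_zero

end Crest.Agent.H4.Hc
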