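import Mathlib
import Crest.Prelude.Def_Tilting
import Crest.Agent.H5.MuI

/-! Row 186: a Wakamatsu tilting projective-injective module that is not tilting. -/

set_option autoImplicit false

universe u

namespace Crest.Agent.H4.MuW
open CategoryTheory Crest.AlgebraR Crest.Agent.H5.Mu

variable {R : Type u} [Ring R]

theorem inj_of_split {X Q : Type u} [AddCommGroup X] [Module R X] [AddCommGroup Q] [Module R Q]
    (hQ : Module.Injective R Q) (i : X →ₗ[R] Q) (s : Q →ₗ[R] X) (h : ∀ x, s (i x) = x) :
    Module.Injective R X where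
  out A B _ _ _ _ f hf g := by
    obtain ⟨k, hk⟩ := hQ.out f hf (i ∘ₗ g)
    exact ⟨s ∘ₗ k, fun a => by simp [hk a, h]⟩

theorem add_split {W X : Type u} [AddCommGroup W] [Module R W] [AddCommGroup X] [Module R X]
    (h : InAdd R W X) :
    ∃ (n : ℕ) (i : X →ₗ[R] (Fin n → W)) (s : (Fin n → W) →ₗ[R] X), ∀ x, s (i x) = x := by
  obtain ⟨n, Y, _, _, ⟨e⟩⟩ := h
  exact ⟨n, e.toLinearMap ∘ₗ LinearMap.inl R X Y, LinearMap.fst R X Y ∘ₗ e.symm.toLinearMap,
    fun x => by simp⟩

theorem add_proj {W X : Type u} [AddCommGroup W] [Module R W] [AddCommGroup X] [Module R X]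
    (hW : Module.Projective R W) (h : InAdd R W X) : Module.Projective R X := by
  obtain ⟨n, i, s, hs⟩ := add_split h
  haveI : Module.Projective R (Fin n → W) :=
    Module.Projective.of_equiv (DFinsupp.linearEquivFunOnFintype (R := R) (M := fun _ : Fin n => W))
  exact Module.Projective.of_split i s (LinearMap.ext hs)

theorem add_inj {W X : Type u} [AddCommGroup W] [Module R W] [AddCommGroup X] [Module R X]
    (hW : Module.Injective R W) (h : InAdd R W X) : Module.Injective R X := by
  obtain ⟨n, i, s, hs⟩ := add_split h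
  exact inj_of_split (Module.Injective.pi R (fun _ : Fin n => W)) i s hs

/-- if the range of `g` is projective then the kernel of `g` is a retract -/
theorem retract_of_range {A B C : Type u} [AddCommGroup A] [Module R A] [AddCommGroup B]
    [Module R B] [AddCommGroup C] [Module R C] (f : A →ₗ[R] B) (g : B →ₗ[R] C)
    (hf : Function.Injective f) (hex : Function.Exact f g)
    (hp : Module.Projective R (LinearMap.range g)) : ∃ s : B →ₗ[R] A, ∀ a, s (f a) = a := by
  obtain ⟨t, ht⟩ := Module.projective_lifting_property g.rangeRestrict LinearMap.id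
    g.surjective_rangeRestrict
  let p : B →ₗ[R] B := LinearMap.id - t ∘ₗ g.rangeRestrict
  have hp : ∀ b, p b ∈ LinearMap.range f := by
    intro b
    have h1 : g (t (g.rangeRestrict b)) = g b := by
      have := congrArg Subtype.val (LinearMap.congr_fun ht (g.rangeRestrict b))
      simpa using this
    have : g (p b) = 0 := by simp [p, h1]
    exact (hex _).1 this
  refine ⟨(LinearEquiv.ofInjective f hf).symm.toLinearMap ∘ₗ p.codRestrict _ hp, fun a => ?_⟩
  have h0 : g.rangeRestrict (f a) = 0 := Subtype.ext (by simpa using hex.apply_apply_eq_zero a)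
  apply hf
  have : p.codRestrict _ hp (f a) = LinearEquiv.ofInjective f hf a :=
    Subtype.ext (by simp [p, h0])
  simp [this]

/-- a map killing the range of `f` factors through `g` when the target is injective -/
theorem hom_exact {A B C W : Type u} [AddCommGroup A] [Module R A] [AddCommGroup B]
    [Module R B] [AddCommGroup C] [Module R C] [AddCommGroup W] [Module R W]
    (hW : Module.Injective R W) (f : A →ₗ[R] B) (g : B →ₗ[R] C) (hex : Function.Exact f g) :
    Function.Exact (fun φ : C →ₗ[R] W => φ ∘ₗ g) (fun φ : B →ₗ[R] W => φ ∘ₗ f) := by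
  intro φ
  constructor
  · intro h
    have hk : LinearMap.ker g ≤ LinearMap.ker φ := by
      intro b hb
      obtain ⟨a, rfl⟩ := (hex b).1 hb
      exact LinearMap.congr_fun h a
    obtain ⟨ψ, hψ⟩ := hW.out (LinearMap.range g).subtype (LinearMap.range g).injective_subtype
      ((LinearMap.ker g).liftQ φ hk ∘ₗ g.quotKerEquivRange.symm.toLinearMap)
    refine ⟨ψ, LinearMap.ext fun b => ?_⟩
    have := hψ (g.quotKerEquivRange (Submodule.Quotient.mk b))
    simpa using this
  · rintro ⟨ψ, rfl⟩
    exact LinearMap.ext fun a => by simp [hex.apply_apply_eq_zero a]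

theorem wak {Γ : Type u} [Ring Γ] {W : Type u} [AddCommGroup W] [Module Γ W] (D : Dom Γ W) :
    IsWakamatsuTilting Γ W := by
  haveI := D.proj
  refine ⟨fun i hi => ?_, fun j => Fin (D.n j) → W, inferInstance, inferInstance, D.ε, D.d,
    ⟨fun j => ⟨D.n j, PUnit, inferInstance, inferInstance, ⟨LinearEquiv.prodUnique⟩⟩,
      D.ε_inj, D.ex0, D.ex⟩, ?_, hom_exact D.inj _ _ D.ex0, fun j => hom_exact D.inj _ _ (D.ex j)⟩
  · obtain ⟨k, rfl⟩ : ∃ k, i = k + 1 := ⟨i - 1, by omega⟩
    exact Abelian.Ext.subsingleton_of_projective _ _ _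
  · intro g
    obtain ⟨h, hh⟩ := D.inj.out D.ε D.ε_inj g
    exact ⟨h, LinearMap.ext hh⟩

theorem not_tilt {Γ : Type u} [Ring Γ] {W : Type u} [AddCommGroup W] [Module Γ W] (D : Dom Γ W) :
    ¬ IsTilting Γ W := by
  rintro ⟨-, -, C, _, _, ε, d, r, ⟨hadd, hε, ex0, ex⟩, hr⟩
  have key : ∀ m j, r ≤ j + m → Module.Projective Γ (LinearMap.range (d j)) := by
    intro m
    induction m with
    | zero =>
      intro j hj
      haveI := hr (j + 1) (by omega)
      haveI : Module.Free Γ (LinearMap.range (d j)) := Module.Free.of_subsingleton _ _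
      infer_instance
    | succ m ih =>
      intro j hj
      have h1 := ih (j + 1) (by omega)
      have hex : Function.Exact (LinearMap.range (d j)).subtype (d (j + 1)) := by
        intro b
        rw [ex j b]
        constructor
        · rintro ⟨a, rfl⟩
          exact ⟨⟨d j a, a, rfl⟩, rfl⟩
        · rintro ⟨⟨_, a, rfl⟩, rfl⟩
          exact ⟨a, rfl⟩
      obtain ⟨s, hs⟩ := retract_of_range _ _ (LinearMap.range (d j)).injective_subtype hex h1
      haveI := add_proj D.proj (hadd (j + 1))
      exact Module.Projective.of_split _ s (LinearMap.ext hs)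
  obtain ⟨s, hs⟩ := retract_of_range ε (d 0) hε ex0 (key r 0 (by omega))
  have hΓ : Module.Injective Γ Γ := inj_of_split (add_inj D.inj (hadd 0)) ε s hs
  obtain ⟨t, ht⟩ := hΓ.out D.ε D.ε_inj LinearMap.id
  exact D.nsplit t (ht 1)

theorem s0285_of {K : Type u} [Field K] (h : DomStmt K) :
    ∃ (Γ : Type u) (_ : Ring Γ) (_ : Algebra K Γ), FiniteDimensional K Γ ∧
      ∃ (W : Type u) (_ : AddCommGroup W) (_ : Module Γ W), Module.Finite Γ W ∧
        Module.Projective Γ W ∧ Module.Injective Γ W ∧
        IsWakamatsuTilting Γ W ∧ ¬ IsTilting Γ W := by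
  obtain ⟨Γ, _, _, W, _, _, hfd, ⟨D⟩⟩ := h
  exact ⟨Γ, inferInstance, inferInstance, hfd, W, inferInstance, inferInstance, D.fin, D.proj,
    D.inj, wak D, not_tilt D⟩

end Crest.Agent.H4.MuW
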