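import Mathlib

set_option autoImplicit false

namespace Crest.Agent.H4.Transport

open MeasureTheory ProbabilityTheory Set Filter
open scoped Topology ENNReal

/-- probability integral transform -/
lemma map_cdf (ν : Measure ℝ) [IsProbabilityMeasure ν] (hν : ∀ t, ν {t} = 0) :
    ν.map (cdf ν) = volume.restrict (Icc (0 : ℝ) 1) := by
  have hm : Measurable (cdf ν) := (monotone_cdf ν).measurable
  have : IsProbabilityMeasure (ν.map (cdf ν)) := Measure.isProbabilityMeasure_map hm.aemeasurable
  refine Measure.ext_of_Iic _ _ fun t => ?_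
  rw [Measure.map_apply hm measurableSet_Iic, Measure.restrict_apply measurableSet_Iic]
  rcases lt_or_ge t 0 with ht | ht
  · have h1 : cdf ν ⁻¹' Iic t = ∅ := by
      ext x; simp only [mem_preimage, mem_Iic, mem_empty_iff_false, iff_false, not_le]
      exact ht.trans_le (cdf_nonneg ν x)
    have h2 : Iic t ∩ Icc (0 : ℝ) 1 = ∅ := by
      ext x; simp only [mem_inter_iff, mem_Iic, mem_Icc, mem_empty_iff_false, iff_false]
      rintro ⟨h1, h2, _⟩; linarith
    rw [h1, h2]; simp
  rcases le_or_gt 1 t with ht1 | ht1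
  · have h1 : cdf ν ⁻¹' Iic t = univ := by
      ext x; simp only [mem_preimage, mem_Iic, mem_univ, iff_true]
      exact (cdf_le_one ν x).trans ht1
    have h2 : Iic t ∩ Icc (0 : ℝ) 1 = Icc 0 1 := by
      refine inter_eq_right.2 fun x hx => hx.2.trans ht1
    rw [h1, h2]; simp
  have h2 : Iic t ∩ Icc (0 : ℝ) 1 = Icc 0 t := by
    ext x; simp only [mem_inter_iff, mem_Iic, mem_Icc]
    constructor
    · rintro ⟨h1, h2, _⟩; exact ⟨h2, h1⟩
    · rintro ⟨h1, h2⟩; exact ⟨h2, h1, h2.trans ht1.le⟩
  rw [h2, Real.volume_Icc, sub_zero]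
  by_cases hne : (cdf ν ⁻¹' Iic t).Nonempty
  · have hbdd : BddAbove (cdf ν ⁻¹' Iic t) := by
      obtain ⟨y, hy⟩ := ((tendsto_cdf_atTop ν).eventually (lt_mem_nhds ht1)).exists_forall_of_atTop
      refine ⟨y, fun x hx => ?_⟩
      by_contra h
      exact absurd (hy x (not_le.1 h).le) (not_lt.2 hx)
    set a := sSup (cdf ν ⁻¹' Iic t) with ha
    have hIio : Iio a ⊆ cdf ν ⁻¹' Iic t := by
      intro x hx
      obtain ⟨y, hy, hxy⟩ := exists_lt_of_lt_csSup hne hx
      exact (monotone_cdf ν hxy.le).trans hy
    have hIic : cdf ν ⁻¹' Iic t ⊆ Iic a := fun x hx => le_csSup hbdd hx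
    have hge : t ≤ cdf ν a := by
      have hc : Tendsto (cdf ν) (𝓝[>] a) (𝓝 (cdf ν a)) :=
        ((cdf ν).right_continuous a).mono Ioi_subset_Ici_self
      refine ge_of_tendsto hc ?_
      filter_upwards [self_mem_nhdsWithin] with x hx
      by_contra h
      exact absurd (show x ≤ a from hIic (not_le.1 h).le) (not_le.2 hx)
    have hle : Function.leftLim (cdf ν) a ≤ t := by
      refine le_of_tendsto ((monotone_cdf ν).tendsto_leftLim a) ?_
      filter_upwards [self_mem_nhdsWithin] with x hx
      exact hIio hx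
    have hsing := (cdf ν).measure_singleton a
    rw [measure_cdf, hν] at hsing
    have hjump : cdf ν a ≤ Function.leftLim (cdf ν) a := by
      have := ENNReal.ofReal_eq_zero.1 hsing.symm
      linarith
    have hEq : cdf ν a = t := le_antisymm (hjump.trans hle) hge
    apply le_antisymm
    · rw [← hEq, ofReal_cdf]; rw [hEq]; exact measure_mono hIic
    · rw [← hEq, ofReal_cdf, hEq]
      refine measure_mono fun x hx => ?_
      exact (monotone_cdf ν hx).trans hEq.le
  · rw [not_nonempty_iff_eq_empty] at hne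
    rw [hne, measure_empty, eq_comm, ENNReal.ofReal_eq_zero]
    refine ge_of_tendsto (tendsto_cdf_atBot ν) (Eventually.of_forall fun x => ?_)
    by_contra h
    have : x ∈ cdf ν ⁻¹' Iic t := (not_le.1 h).le
    rw [hne] at this; exact this

/-- transport of a non-atomic finite measure to any finite measure of the same mass -/
lemma exists_transport {X Y : Type*} [MeasurableSpace X] [MeasurableSpace Y] [StandardBorelSpace Y]
    [Nonempty Y] (α : Measure X) [IsFiniteMeasure α] (β : Measure Y) (hαβ : β univ = α univ)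
    (f : X → ℝ) (hf : Measurable f) (hα : ∀ t, α (f ⁻¹' {t}) = 0) :
    ∃ T : X → Y, Measurable T ∧ α.map T = β := by
  by_cases h0 : α = 0
  · refine ⟨fun _ => Classical.arbitrary Y, measurable_const, ?_⟩
    subst h0
    rw [Measure.map_zero, eq_comm, ← Measure.measure_univ_eq_zero, hαβ]; simp
  have hc0 : α univ ≠ 0 := by rwa [Ne, Measure.measure_univ_eq_zero]
  have hct : α univ ≠ ⊤ := measure_ne_top _ _
  set c := α univ with hc
  have : IsProbabilityMeasure (c⁻¹ • α) := ⟨by
    rw [Measure.smul_apply, smul_eq_mul, ENNReal.inv_mul_cancel hc0 hct]⟩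
  have : IsProbabilityMeasure (c⁻¹ • β) := ⟨by
    rw [Measure.smul_apply, smul_eq_mul, hαβ, ENNReal.inv_mul_cancel hc0 hct]⟩
  set ν := (c⁻¹ • α).map f with hν
  have : IsProbabilityMeasure ν := Measure.isProbabilityMeasure_map hf.aemeasurable
  have hν0 : ∀ t, ν {t} = 0 := fun t => by
    rw [hν, Measure.map_apply hf (measurableSet_singleton t), Measure.smul_apply, hα]; simp
  have h1 := map_cdf ν hν0
  obtain ⟨g, hg, hgβ⟩ := (c⁻¹ • β).exists_measurable_map_eq
  have hm : Measurable (cdf ν) := (monotone_cdf ν).measurable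
  have hp : Measurable (projIcc (0 : ℝ) 1 zero_le_one) := continuous_projIcc.measurable
  have h2 : (volume.restrict (Icc (0 : ℝ) 1)).map (projIcc (0 : ℝ) 1 zero_le_one) =
      (volume : Measure unitInterval) := by
    rw [← unitInterval.measurePreserving_coe.map_eq, Measure.map_map hp measurable_subtype_coe]
    have : projIcc (0 : ℝ) 1 zero_le_one ∘ Subtype.val = id := by
      ext x; simp
    rw [this, Measure.map_id]
  refine ⟨g ∘ projIcc (0 : ℝ) 1 zero_le_one ∘ cdf ν ∘ f, hg.comp (hp.comp (hm.comp hf)), ?_⟩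
  have h3 : (c⁻¹ • α).map (g ∘ projIcc (0 : ℝ) 1 zero_le_one ∘ cdf ν ∘ f) = c⁻¹ • β := by
    rw [← Measure.map_map hg (hp.comp (hm.comp hf)), ← Measure.map_map hp (hm.comp hf),
      ← Measure.map_map hm hf, ← hν, h1, h2, hgβ]
  rw [Measure.map_smul] at h3
  have h4 := congrArg (fun μ => c • μ) h3
  simpa [smul_smul, ENNReal.mul_inv_cancel hc0 hct] using h4

/-- doubling lemma -/
lemma exists_doubling {X : Type*} [PseudoMetricSpace X] [SecondCountableTopology X]
    [MeasurableSpace X] [BorelSpace X] [StandardBorelSpace X] [Nonempty X]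
    (m : Measure X) [IsFiniteMeasure m]
    (f : X → ℝ) (hf : Measurable f) (hm : ∀ t, m (f ⁻¹' {t}) = 0) (δ : ℝ) (hδ : 0 < δ) :
    ∃ R : X → X × Bool, Measurable R ∧
      (m + m).map R = m.map (fun x => (x, true)) + m.map (fun x => (x, false)) ∧
      ∀ᵐ x ∂(m + m), dist x (R x).1 < δ := by
  classical
  obtain ⟨p, hp⟩ := TopologicalSpace.exists_dense_seq X
  have hex : ∀ x, ∃ n, x ∈ Metric.ball (p n) (δ / 2) := fun x => by
    obtain ⟨n, hn⟩ := hp.exists_dist_lt x (half_pos hδ)
    exact ⟨n, hn⟩
  set N : X → ℕ := fun x => Nat.find (hex x) with hN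
  have hNm : Measurable N := measurable_find hex fun k => measurableSet_ball
  set Q : ℕ → Set X := fun n => N ⁻¹' {n} with hQ
  have hQm : ∀ n, MeasurableSet (Q n) := fun n => hNm (measurableSet_singleton n)
  have hQb : ∀ n, Q n ⊆ Metric.ball (p n) (δ / 2) := fun n x hx => by
    have h1 : N x = n := hx
    rw [← h1]; exact Nat.find_spec (hex x)
  have ht : Measurable (fun x : X => (x, true)) := measurable_id.prodMk measurable_const
  have hfa : Measurable (fun x : X => (x, false)) := measurable_id.prodMk measurable_const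
  have hT : ∀ n, ∃ T : X → X × Bool, Measurable T ∧ ((m + m).restrict (Q n)).map T =
      (m.restrict (Q n)).map (fun x => (x, true)) + (m.restrict (Q n)).map (fun x => (x, false)) := by
    intro n
    refine exists_transport _ _ ?_ f hf fun t => ?_
    · simp [Measure.map_apply ht, Measure.map_apply hfa]
    · refine le_antisymm ((Measure.restrict_apply_le _ _).trans ?_) zero_le
      simp [hm]
  choose T hTm hT using hT
  have hRm : Measurable fun x => T (N x) x :=
    Measurable.find hTm (fun n => measurableSet_ball) hex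
  have hsum : ∀ μ : Measure X, μ = Measure.sum fun n => μ.restrict (Q n) := by
    intro μ
    rw [← Measure.restrict_iUnion _ hQm]
    · have : ⋃ n, Q n = univ := by
        ext x; simp [hQ]
      rw [this, Measure.restrict_univ]
    · intro i j hij
      refine Set.disjoint_left.2 fun x h1 h2 => hij ?_
      exact (show N x = i from h1).symm.trans h2
  have hmapQ : ∀ n, ((m + m).restrict (Q n)).map (fun x => T (N x) x) =
      ((m + m).restrict (Q n)).map (T n) := by
    intro n
    refine Measure.map_congr ?_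
    filter_upwards [ae_restrict_mem (hQm n)] with x hx
    rw [show N x = n from hx]
  refine ⟨fun x => T (N x) x, hRm, ?_, ?_⟩
  · conv_lhs => rw [hsum (m + m)]
    conv_rhs => rw [hsum m]
    rw [Measure.map_sum hRm.aemeasurable, Measure.map_sum ht.aemeasurable,
      Measure.map_sum hfa.aemeasurable, Measure.sum_add_sum]
    congr 1; ext1 n
    rw [hmapQ, hT]
  · rw [hsum (m + m), Measure.ae_sum_iff]
    intro n
    have h1 : ∀ᵐ y ∂(((m + m).restrict (Q n)).map (T n)), y.1 ∈ Q n := by
      rw [hT, ae_add_measure_iff]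
      have hs : MeasurableSet {y : X × Bool | y.1 ∈ Q n} := measurable_fst (hQm n)
      exact ⟨(ae_map_iff ht.aemeasurable hs).2 (ae_restrict_mem (hQm n)),
        (ae_map_iff hfa.aemeasurable hs).2 (ae_restrict_mem (hQm n))⟩
    have h2 := ae_of_ae_map (hTm n).aemeasurable h1
    filter_upwards [h2, ae_restrict_mem (hQm n)] with x hx1 hx2
    rw [show N x = n from hx2]
    have h3 := hQb n hx1
    have h4 := hQb n hx2
    rw [Metric.mem_ball] at h3 h4
    calc dist x (T n x).1 ≤ dist x (p n) + dist (T n x).1 (p n) := dist_triangle_right _ _ _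
      _ < δ := by linarith

end Crest.Agent.H4.Transport
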