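import Mathlib
import Crest.Prelude.Def_MultiMarginal
import Crest.Agent.H4.Transport

set_option autoImplicit false
set_option linter.unusedSectionVars false

namespace Crest.Agent.H4.OT

open MeasureTheory Set Filter Crest.AnalysisR.OT
open scoped Topology ENNReal

lemma continuous_pairCost {X : Type*} [NormedAddCommGroup X] (s : ℝ) :
    Continuous fun p : X × X => pairCost s p.1 p.2 := by
  unfold pairCost
  exact ENNReal.continuous_rpow_const.comp
    (ENNReal.continuous_ofReal.comp (continuous_fst.sub continuous_snd).norm)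

lemma continuous_tripleCost {X : Type*} [NormedAddCommGroup X] (s : ℝ) :
    Continuous (tripleCost s : X × X × X → ℝ≥0∞) := by
  unfold tripleCost
  have h := continuous_pairCost (X := X) s
  exact ((h.comp (continuous_fst.prodMk continuous_snd.fst)).add
    (h.comp (continuous_fst.prodMk continuous_snd.snd))).add
    (h.comp (continuous_snd.fst.prodMk continuous_snd.snd))

/-- the admissible index triples -/
def special (i j k : Fin 5) : Prop :=
  ({i, j, k} : Finset (Fin 5)) = {0, 1, 2} ∨ ({i, j, k} : Finset (Fin 5)) = {0, 3, 4}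

instance (i j k : Fin 5) : Decidable (special i j k) := by unfold special; infer_instance

variable {X : Type*} [NormedAddCommGroup X] [SecondCountableTopology X]
  [MeasurableSpace X] [BorelSpace X] [StandardBorelSpace X]

lemma coupling_lintegral {μ : Measure X} {π : Measure (X × X × X)} (h : IsCoupling₃ μ π)
    {g : X → ℝ≥0∞} (hg : Measurable g) :
    ∫⁻ p, (g p.1 + g p.2.1 + g p.2.2) ∂π = 3 * ∫⁻ x, g x ∂μ := by
  obtain ⟨h1, h2, h3⟩ := h
  have e1 : ∫⁻ p, g p.1 ∂π = ∫⁻ x, g x ∂μ := by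
    rw [← h1, lintegral_map hg measurable_fst]
  have e2 : ∫⁻ p, g p.2.1 ∂π = ∫⁻ x, g x ∂μ := by
    rw [← h2, lintegral_map hg measurable_snd.fst]
  have e3 : ∫⁻ p, g p.2.2 ∂π = ∫⁻ x, g x ∂μ := by
    rw [← h3, lintegral_map hg measurable_snd.snd]
  rw [lintegral_add_right _ (g := fun p : X × X × X => g p.2.2) (hg.comp measurable_snd.snd),
    lintegral_add_right _ (g := fun p : X × X × X => g p.2.1) (hg.comp measurable_snd.fst),
    e1, e2, e3]
  ring

lemma coupling_ae {μ : Measure X} {π : Measure (X × X × X)} (h : IsCoupling₃ μ π)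
    {P : X → Prop} (hP : ∀ᵐ x ∂μ, P x) : ∀ᵐ p ∂π, P p.1 ∧ P p.2.1 ∧ P p.2.2 := by
  obtain ⟨h1, h2, h3⟩ := h
  have e1 : ∀ᵐ p ∂π, P p.1 := ae_of_ae_map measurable_fst.aemeasurable (h1.symm ▸ hP)
  have e2 : ∀ᵐ p ∂π, P p.2.1 := ae_of_ae_map measurable_snd.fst.aemeasurable (h2.symm ▸ hP)
  have e3 : ∀ᵐ p ∂π, P p.2.2 := ae_of_ae_map measurable_snd.snd.aemeasurable (h3.symm ▸ hP)
  filter_upwards [e1, e2, e3] with p a b c using ⟨a, b, c⟩

/-- abstract data of the construction -/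
structure Data (s : ℝ) (A : Set X) (φ ψ : Fin 5 → X → X) (m : Measure X) (u : X → ℝ≥0∞) : Prop where
  hA : MeasurableSet A
  hφ : ∀ i, Measurable (φ i)
  hψ : ∀ i, Measurable (ψ i)
  hφ0 : ∀ x, φ 0 x = x
  hinv : ∀ i, ∀ a ∈ A, ψ i (φ i a) = a
  hdisj : ∀ i j, ∀ a ∈ A, ∀ a' ∈ A, φ i a = φ j a' → i = j
  hm0 : m ≠ 0
  hmA : ∀ᵐ a ∂m, a ∈ A
  hu : Measurable u
  H1 : ∀ i j k, ∀ a ∈ A, ∀ a' ∈ A, ∀ a'' ∈ A,
    u (φ i a) + u (φ j a') + u (φ k a'') ≤ tripleCost s (φ i a, φ j a', φ k a'')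
  H2 : ∀ i j k, ∀ a ∈ A, ∀ a' ∈ A, ∀ a'' ∈ A,
    u (φ i a) + u (φ j a') + u (φ k a'') = tripleCost s (φ i a, φ j a', φ k a'') →
      special i j k ∧ a = a' ∧ a' = a''
  H3 : ∀ i j k, special i j k → ∀ a ∈ A,
    u (φ i a) + u (φ j a) + u (φ k a) = tripleCost s (φ i a, φ j a, φ k a)
  Hfin : ∃ M : ℝ≥0∞, M ≠ ⊤ ∧ ∀ i, ∀ a ∈ A, u (φ i a) ≤ M
  Hcont : ∀ ε : ℝ≥0∞, 0 < ε → ∃ δ : ℝ, 0 < δ ∧ ∀ a ∈ A, ∀ a' ∈ A, dist a a' < δ →
    ∀ j k, special 0 j k →
      tripleCost s (a, φ j a', φ k a') ≤ tripleCost s (a', φ j a', φ k a') + ε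
  Hatom : ∃ f : X → ℝ, Measurable f ∧ ∀ t, m (f ⁻¹' {t}) = 0

/-- the marginal -/
noncomputable def mu (φ : Fin 5 → X → X) (m : Measure X) : Measure X :=
  m + m + m.map (φ 1) + m.map (φ 2) + m.map (φ 3) + m.map (φ 4)

/-- sheet parametrisation -/
def tri (φ : Fin 5 → X → X) (i j k : Fin 5) (a : X) : X × X × X := (φ i a, φ j a, φ k a)

/-- the optimal plan -/
noncomputable def pi0 (φ : Fin 5 → X → X) (m : Measure X) : Measure (X × X × X) :=
  m.map (tri φ 0 1 2) + m.map (tri φ 0 3 4) + m.map (tri φ 1 2 0) + m.map (tri φ 2 0 1) +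
    m.map (tri φ 3 4 0) + m.map (tri φ 4 0 3)

variable {s : ℝ} {A : Set X} {φ ψ : Fin 5 → X → X} {m : Measure X} {u : X → ℝ≥0∞}

namespace Data

variable (D : Data s A φ ψ m u)
include D

lemma tri_meas (i j k : Fin 5) : Measurable (tri φ i j k) :=
  (D.hφ i).prodMk ((D.hφ j).prodMk (D.hφ k))

lemma map0 : m.map (φ 0) = m := by
  have : φ 0 = id := funext D.hφ0
  rw [this, Measure.map_id]

lemma injOn (i : Fin 5) : InjOn (φ i) A := fun a ha a' ha' h => by
  rw [← D.hinv i a ha, h, D.hinv i a' ha']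

lemma meas_image (i : Fin 5) {S : Set X} (hS : MeasurableSet S) (hSA : S ⊆ A) :
    MeasurableSet (φ i '' S) :=
  hS.image_of_measurable_injOn (D.hφ i) ((D.injOn i).mono hSA)

lemma mem_image (i j : Fin 5) {S : Set X} (hSA : S ⊆ A) {a : X} (ha : a ∈ A) :
    φ i a ∈ φ j '' S ↔ i = j ∧ a ∈ S := by
  constructor
  · rintro ⟨a', ha', h⟩
    have hij := D.hdisj j i a' (hSA ha') a ha h
    subst hij
    exact ⟨rfl, D.injOn j (hSA ha') ha h ▸ ha'⟩
  · rintro ⟨rfl, h⟩; exact ⟨a, h, rfl⟩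

lemma coupling_pi0 : IsCoupling₃ (mu φ m) (pi0 φ m) := by
  have e1 : ∀ i j k, (m.map (tri φ i j k)).map (fun p => p.1) = m.map (φ i) := fun i j k => by
    rw [Measure.map_map measurable_fst (D.tri_meas i j k)]; rfl
  have e2 : ∀ i j k, (m.map (tri φ i j k)).map (fun p => p.2.1) = m.map (φ j) := fun i j k => by
    rw [Measure.map_map measurable_snd.fst (D.tri_meas i j k)]; rfl
  have e3 : ∀ i j k, (m.map (tri φ i j k)).map (fun p => p.2.2) = m.map (φ k) := fun i j k => by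
    rw [Measure.map_map measurable_snd.snd (D.tri_meas i j k)]; rfl
  refine ⟨?_, ?_, ?_⟩
  · simp only [pi0, mu, Measure.map_add _ _ measurable_fst, e1, D.map0]
  · simp only [pi0, mu, Measure.map_add _ _ measurable_snd.fst, e2, D.map0]; abel
  · simp only [pi0, mu, Measure.map_add _ _ measurable_snd.snd, e3, D.map0]; abel

lemma ae_mu : ∀ᵐ x ∂(mu φ m), ∃ i, ∃ a ∈ A, x = φ i a := by
  have h : ∀ i, ∀ᵐ x ∂(m.map (φ i)), ∃ i, ∃ a ∈ A, x = φ i a := fun i => by
    have h1 : ∀ᵐ x ∂(m.map (φ i)), x ∈ φ i '' A := by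
      refine (ae_map_iff (D.hφ i).aemeasurable (D.meas_image i D.hA subset_rfl)).2 ?_
      filter_upwards [D.hmA] with a ha using ⟨a, ha, rfl⟩
    filter_upwards [h1] with x ⟨a, ha, hx⟩ using ⟨i, a, ha, hx.symm⟩
  have h0 := h 0
  rw [D.map0] at h0
  simp only [mu, ae_add_measure_iff]
  exact ⟨⟨⟨⟨⟨h0, h0⟩, h 1⟩, h 2⟩, h 3⟩, h 4⟩

lemma lower {π : Measure (X × X × X)} (h : IsCoupling₃ (mu φ m) π) :
    ∀ᵐ p ∂π, u p.1 + u p.2.1 + u p.2.2 ≤ tripleCost s p := by
  filter_upwards [coupling_ae h D.ae_mu] with p ⟨⟨i, a, ha, h1⟩, ⟨j, a', ha', h2⟩, ⟨k, a'', ha'', h3⟩⟩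
  obtain ⟨x, y, z⟩ := p
  simp only at h1 h2 h3
  subst h1 h2 h3
  exact D.H1 i j k a ha a' ha' a'' ha''

lemma cost_pi0 : ∫⁻ p, tripleCost s p ∂(pi0 φ m) = 3 * ∫⁻ x, u x ∂(mu φ m) := by
  rw [← coupling_lintegral D.coupling_pi0 D.hu]
  refine lintegral_congr_ae ?_
  have hs : MeasurableSet {p : X × X × X | tripleCost s p = u p.1 + u p.2.1 + u p.2.2} :=
    measurableSet_eq_fun (continuous_tripleCost s).measurable
      (((D.hu.comp measurable_fst).add (D.hu.comp measurable_snd.fst)).add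
        (D.hu.comp measurable_snd.snd))
  have h : ∀ i j k, special i j k → ∀ᵐ p ∂(m.map (tri φ i j k)),
      tripleCost s p = u p.1 + u p.2.1 + u p.2.2 := fun i j k hijk => by
    rw [ae_map_iff (D.tri_meas i j k).aemeasurable hs]
    filter_upwards [D.hmA] with a ha using (D.H3 i j k hijk a ha).symm
  simp only [EventuallyEq, pi0, ae_add_measure_iff]
  exact ⟨⟨⟨⟨⟨h _ _ _ (by decide), h _ _ _ (by decide)⟩, h _ _ _ (by decide)⟩, h _ _ _ (by decide)⟩,
    h _ _ _ (by decide)⟩, h _ _ _ (by decide)⟩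

lemma mu_finite [IsFiniteMeasure m] : IsFiniteMeasure (mu φ m) := by
  unfold mu; infer_instance

lemma int_u_lt [IsFiniteMeasure m] : ∫⁻ x, u x ∂(mu φ m) < ⊤ := by
  obtain ⟨M, hM, hu⟩ := D.Hfin
  have := D.mu_finite
  calc ∫⁻ x, u x ∂(mu φ m) ≤ ∫⁻ _, M ∂(mu φ m) := by
        refine lintegral_mono_ae ?_
        filter_upwards [D.ae_mu] with x ⟨i, a, ha, hx⟩ using hx ▸ hu i a ha
    _ < ⊤ := by
        rw [lintegral_const]; exact ENNReal.mul_lt_top hM.lt_top (measure_lt_top _ _)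

lemma cost_lt [IsFiniteMeasure m] : ∫⁻ p, tripleCost s p ∂(pi0 φ m) < ⊤ := by
  rw [D.cost_pi0]; exact ENNReal.mul_lt_top (by simp) D.int_u_lt

lemma optimal {π : Measure (X × X × X)} (h : IsCoupling₃ (mu φ m) π) :
    ∫⁻ p, tripleCost s p ∂(pi0 φ m) ≤ ∫⁻ p, tripleCost s p ∂π := by
  rw [D.cost_pi0, ← coupling_lintegral h D.hu]
  exact lintegral_mono_ae (D.lower h)

lemma map_image (i j : Fin 5) {S : Set X} (hS : MeasurableSet S) (hSA : S ⊆ A) :
    m.map (φ i) (φ j '' S) = if i = j then m S else 0 := by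
  rw [Measure.map_apply (D.hφ i) (D.meas_image j hS hSA)]
  split_ifs with hij
  · refine measure_congr ?_
    filter_upwards [D.hmA] with a ha
    have := D.mem_image i j hSA ha
    simp only [hij, true_and] at this
    subst hij
    exact propext this
  · rw [measure_eq_zero_iff_ae_notMem]
    filter_upwards [D.hmA] with a ha h
    exact hij ((D.mem_image i j hSA ha).1 h).1

lemma mu_image (j : Fin 5) {S : Set X} (hS : MeasurableSet S) (hSA : S ⊆ A) :
    mu φ m (φ j '' S) = if j = 0 then 2 * m S else m S := by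
  have h0 := D.map_image 0 j hS hSA
  rw [D.map0] at h0
  simp only [mu, Measure.add_apply, h0, D.map_image _ j hS hSA]
  fin_cases j <;> simp [two_mul]

lemma not_monge [IsFiniteMeasure m] {T₂ T₃ : X → X} (h2 : Measurable T₂) (h3 : Measurable T₃)
    (hT2 : (mu φ m).map T₂ = mu φ m) (hT3 : (mu φ m).map T₃ = mu φ m) :
    ∫⁻ p, tripleCost s p ∂(pi0 φ m) < ∫⁻ x, tripleCost s (x, T₂ x, T₃ x) ∂(mu φ m) := by
  classical
  have hT : Measurable fun x => (x, T₂ x, T₃ x) := measurable_id.prodMk (h2.prodMk h3)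
  set π := (mu φ m).map fun x => (x, T₂ x, T₃ x) with hπ
  have hc : IsCoupling₃ (mu φ m) π := by
    refine ⟨?_, ?_, ?_⟩
    · rw [hπ, Measure.map_map measurable_fst hT]; exact Measure.map_id
    · rw [hπ, Measure.map_map measurable_snd.fst hT]; exact hT2
    · rw [hπ, Measure.map_map measurable_snd.snd hT]; exact hT3
  rw [← lintegral_map (continuous_tripleCost s).measurable hT, ← hπ]
  by_contra hlt
  rw [not_lt, D.cost_pi0, ← coupling_lintegral hc D.hu] at hlt
  have hfin : ∫⁻ p, (u p.1 + u p.2.1 + u p.2.2) ∂π ≠ ⊤ := by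
    rw [coupling_lintegral hc D.hu]; exact (ENNReal.mul_lt_top (by simp) D.int_u_lt).ne
  have heq := ae_eq_of_ae_le_of_lintegral_le (D.lower hc) hfin
    (continuous_tripleCost s).measurable.aemeasurable hlt
  have hsheet : ∀ᵐ p ∂π, ∃ i j k, special i j k ∧ ∃ a ∈ A, p = tri φ i j k a := by
    filter_upwards [coupling_ae hc D.ae_mu, heq] with p
      ⟨⟨i, a, ha, h1⟩, ⟨j, a', ha', h2⟩, ⟨k, a'', ha'', h3⟩⟩ hp
    obtain ⟨x, y, z⟩ := p
    simp only at h1 h2 h3
    subst h1 h2 h3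
    obtain ⟨hs, rfl, rfl⟩ := D.H2 i j k a ha a' ha' a'' ha'' hp
    exact ⟨i, j, k, hs, a, ha, rfl⟩
  have hsheet' := ae_of_ae_map hT.aemeasurable hsheet
  set A1 : Set X := {x | T₂ x ∈ φ 1 '' A ∨ T₃ x ∈ φ 1 '' A} with hA1
  have hA1m : MeasurableSet A1 :=
    (h2 (D.meas_image 1 D.hA subset_rfl)).union (h3 (D.meas_image 1 D.hA subset_rfl))
  have key : ∀ S : Set X, MeasurableSet S → S ⊆ A → m S = 2 * m (S ∩ A1) := by
    intro S hS hSA
    have hB := D.meas_image 1 hS hSA
    have hC := D.meas_image 2 hS hSA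
    have hS1 : MeasurableSet (S ∩ A1) := hS.inter hA1m
    have hS1A : S ∩ A1 ⊆ A := inter_subset_left.trans hSA
    have hA' := D.meas_image 0 hS1 hS1A
    have e1 := coupling_lintegral hc (g := (φ 1 '' S).indicator 1) (measurable_one.indicator hB)
    rw [hπ, lintegral_map _ hT, lintegral_indicator_one hB] at e1
    swap
    · have := measurable_one.indicator (β := ℝ≥0∞) hB
      exact ((this.comp measurable_fst).add (this.comp measurable_snd.fst)).add
        (this.comp measurable_snd.snd)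
    have e2 : ∫⁻ x, ((φ 1 '' S).indicator (1 : X → ℝ≥0∞) x + (φ 1 '' S).indicator 1 (T₂ x) +
        (φ 1 '' S).indicator 1 (T₃ x)) ∂(mu φ m) =
        ∫⁻ x, ((φ 0 '' (S ∩ A1)).indicator (1 : X → ℝ≥0∞) x + (φ 1 '' S).indicator 1 x +
        (φ 2 '' S).indicator 1 x) ∂(mu φ m) := by
      refine lintegral_congr_ae ?_
      filter_upwards [hsheet'] with x ⟨i, j, k, hs, a, ha, hx⟩
      simp only [tri, Prod.mk.injEq] at hx
      obtain ⟨hx1, hx2, hx3⟩ := hx
      have hmem : i = 0 → (a ∈ A1 ↔ j = 1 ∨ k = 1) := by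
        rintro rfl
        rw [D.hφ0] at hx1
        subst hx1
        simp only [hA1, mem_ofPred_eq, hx2, hx3, D.mem_image _ _ subset_rfl ha, ha, and_true]
      rw [hx2, hx3, hx1]
      simp only [indicator, D.mem_image _ _ hSA ha, D.mem_image _ _ hS1A ha, mem_inter_iff,
        Pi.one_apply]
      by_cases haS : a ∈ S
      · simp only [haS, and_true, true_and]
        revert hs hmem
        fin_cases i <;> fin_cases j <;> fin_cases k <;> simp +decide
      · simp [haS]
    rw [e2, lintegral_add_right _ (measurable_one.indicator hC),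
      lintegral_add_right _ (measurable_one.indicator hB), lintegral_indicator_one hA',
      lintegral_indicator_one hB, lintegral_indicator_one hC, D.mu_image _ hS hSA,
      D.mu_image _ hS hSA, D.mu_image _ hS1 hS1A] at e1
    simp only [if_true, Fin.isValue, one_ne_zero, if_false, Fin.reduceEq] at e1
    have h3 : (3 : ℝ≥0∞) * m S = m S + m S + m S := by ring
    rw [h3] at e1
    have hne : m S ≠ ⊤ := measure_ne_top _ _
    exact ((ENNReal.add_left_inj hne).1 ((ENNReal.add_left_inj hne).1 e1)).symm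
  have k1 := key (A ∩ A1) (D.hA.inter hA1m) inter_subset_left
  rw [inter_assoc, inter_self, two_mul] at k1
  have k2 : m (A ∩ A1) = 0 := by
    have hne : m (A ∩ A1) ≠ ⊤ := measure_ne_top _ _
    have : m (A ∩ A1) + 0 = m (A ∩ A1) + m (A ∩ A1) := by rw [add_zero]; exact k1
    exact ((ENNReal.add_right_inj hne).1 this).symm
  have k3 := key A D.hA subset_rfl
  rw [k2, mul_zero] at k3
  apply D.hm0
  rw [← Measure.measure_univ_eq_zero, ← measure_add_measure_compl D.hA, k3, zero_add]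
  exact D.hmA

lemma exists_glue {Y : Type*} [MeasurableSpace Y] (G : Fin 5 → X → Y)
    (hG : ∀ i, Measurable (G i)) :
    ∃ T : X → Y, Measurable T ∧ ∀ i, ∀ a ∈ A, T (φ i a) = G i (φ i a) := by
  classical
  have hR : ∀ i, MeasurableSet (φ i '' A) := fun i => D.meas_image i D.hA subset_rfl
  refine ⟨fun x => if x ∈ φ 1 '' A then G 1 x else if x ∈ φ 2 '' A then G 2 x else
    if x ∈ φ 3 '' A then G 3 x else if x ∈ φ 4 '' A then G 4 x else G 0 x, ?_, ?_⟩
  · exact Measurable.ite (hR 1) (hG 1) (Measurable.ite (hR 2) (hG 2) (Measurable.ite (hR 3) (hG 3)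
      (Measurable.ite (hR 4) (hG 4) (hG 0))))
  · intro i a ha
    simp only [D.mem_image _ _ subset_rfl ha, ha, and_true]
    fin_cases i <;> simp

lemma approx [IsFiniteMeasure m] [Nonempty X] (ε : ℝ≥0∞) (hε : 0 < ε) :
    ∃ T₂ T₃ : X → X, Measurable T₂ ∧ Measurable T₃ ∧
      (mu φ m).map T₂ = mu φ m ∧ (mu φ m).map T₃ = mu φ m ∧
      ∫⁻ x, tripleCost s (x, T₂ x, T₃ x) ∂(mu φ m) < ∫⁻ p, tripleCost s p ∂(pi0 φ m) + ε := by
  classical
  obtain ⟨ε', hε'0, hε'⟩ : ∃ ε' : ℝ≥0∞, 0 < ε' ∧ ε' * (m + m) univ < ε := by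
    obtain ⟨n, hn0, hn⟩ := ENNReal.exists_nnreal_pos_mul_lt (measure_ne_top (m + m) univ) hε.ne'
    exact ⟨n, by exact_mod_cast hn0, hn⟩
  obtain ⟨δ, hδ, hδ'⟩ := D.Hcont ε' hε'0
  obtain ⟨f, hf, hfm⟩ := D.Hatom
  obtain ⟨R, hRm, hR, hRd⟩ := Transport.exists_doubling m f hf hfm δ hδ
  have ht : Measurable (fun x : X => (x, true)) := measurable_id.prodMk measurable_const
  have hfa : Measurable (fun x : X => (x, false)) := measurable_id.prodMk measurable_const
  -- the maps on `X × Bool`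
  let H : Fin 5 → Fin 5 → X × Bool → X := fun j k p => if p.2 = true then φ j p.1 else φ k p.1
  have hH : ∀ j k, Measurable (H j k) := fun j k =>
    Measurable.ite (measurable_snd (measurableSet_singleton true)) ((D.hφ j).comp measurable_fst)
      ((D.hφ k).comp measurable_fst)
  have hHR : ∀ j k, (m + m).map (H j k ∘ R) = m.map (φ j) + m.map (φ k) := fun j k => by
    rw [← Measure.map_map (hH j k) hRm, hR, Measure.map_add _ _ (hH j k),
      Measure.map_map (hH j k) ht, Measure.map_map (hH j k) hfa]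
    rfl
  let t2 : Fin 5 → Fin 5 := ![0, 2, 0, 4, 0]
  let t3 : Fin 5 → Fin 5 := ![0, 0, 1, 0, 3]
  obtain ⟨T₂, hT2m, hT2⟩ := D.exists_glue
    (fun i => if i = 0 then H 1 3 ∘ R else φ (t2 i) ∘ ψ i) (fun i => by
      split_ifs
      · exact (hH _ _).comp hRm
      · exact (D.hφ _).comp (D.hψ _))
  obtain ⟨T₃, hT3m, hT3⟩ := D.exists_glue
    (fun i => if i = 0 then H 2 4 ∘ R else φ (t3 i) ∘ ψ i) (fun i => by
      split_ifs
      · exact (hH _ _).comp hRm
      · exact (D.hφ _).comp (D.hψ _))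
  have hmmA : ∀ᵐ a ∂(m + m), a ∈ A := by
    rw [ae_add_measure_iff]; exact ⟨D.hmA, D.hmA⟩
  have a2 : ∀ a ∈ A, T₂ a = H 1 3 (R a) := fun a ha => by
    have := hT2 0 a ha
    simpa [D.hφ0] using this
  have a3 : ∀ a ∈ A, T₃ a = H 2 4 (R a) := fun a ha => by
    have := hT3 0 a ha
    simpa [D.hφ0] using this
  have b2 : ∀ i ≠ 0, ∀ a ∈ A, T₂ (φ i a) = φ (t2 i) a := fun i hi a ha => by
    have := hT2 i a ha
    simpa [hi, D.hinv i a ha] using this
  have b3 : ∀ i ≠ 0, ∀ a ∈ A, T₃ (φ i a) = φ (t3 i) a := fun i hi a ha => by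
    have := hT3 i a ha
    simpa [hi, D.hinv i a ha] using this
  have c2 : (m + m).map T₂ = m.map (φ 1) + m.map (φ 3) := by
    rw [← hHR]; refine Measure.map_congr ?_
    filter_upwards [hmmA] with a ha using a2 a ha
  have c3 : (m + m).map T₃ = m.map (φ 2) + m.map (φ 4) := by
    rw [← hHR]; refine Measure.map_congr ?_
    filter_upwards [hmmA] with a ha using a3 a ha
  have d2 : ∀ i ≠ 0, (m.map (φ i)).map T₂ = m.map (φ (t2 i)) := fun i hi => by
    rw [Measure.map_map hT2m (D.hφ i)]; refine Measure.map_congr ?_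
    filter_upwards [D.hmA] with a ha using b2 i hi a ha
  have d3 : ∀ i ≠ 0, (m.map (φ i)).map T₃ = m.map (φ (t3 i)) := fun i hi => by
    rw [Measure.map_map hT3m (D.hφ i)]; refine Measure.map_congr ?_
    filter_upwards [D.hmA] with a ha using b3 i hi a ha
  have hT : Measurable fun x => (x, T₂ x, T₃ x) := measurable_id.prodMk (hT2m.prodMk hT3m)
  have hc := (continuous_tripleCost (X := X) s).measurable
  refine ⟨T₂, T₃, hT2m, hT3m, ?_, ?_, ?_⟩
  · unfold mu
    rw [Measure.map_add _ _ hT2m, Measure.map_add _ _ hT2m, Measure.map_add _ _ hT2m,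
      Measure.map_add _ _ hT2m, c2, d2 1 (by decide), d2 2 (by decide), d2 3 (by decide),
      d2 4 (by decide)]
    simp only [t2, Matrix.cons_val, D.map0]
    abel
  · unfold mu
    rw [Measure.map_add _ _ hT3m, Measure.map_add _ _ hT3m, Measure.map_add _ _ hT3m,
      Measure.map_add _ _ hT3m, c3, d3 1 (by decide), d3 2 (by decide), d3 3 (by decide),
      d3 4 (by decide)]
    simp only [t3, Matrix.cons_val, D.map0]
    abel
  · have e1 : ∀ i ≠ 0, ∫⁻ x, tripleCost s (x, T₂ x, T₃ x) ∂(m.map (φ i)) =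
        ∫⁻ p, tripleCost s p ∂(m.map (tri φ i (t2 i) (t3 i))) := fun i hi => by
      rw [lintegral_map (f := fun x => tripleCost s (x, T₂ x, T₃ x)) (hc.comp hT) (D.hφ i),
        lintegral_map hc (D.tri_meas _ _ _)]
      refine lintegral_congr_ae ?_
      filter_upwards [D.hmA] with a ha
      simp only [Function.comp, tri, b2 i hi a ha, b3 i hi a ha]
    have hJ : Measurable fun p : X × Bool => tripleCost s (p.1, H 1 3 p, H 2 4 p) :=
      hc.comp (measurable_fst.prodMk ((hH _ _).prodMk (hH _ _)))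
    have hRA : ∀ᵐ a ∂(m + m), (R a).1 ∈ A := by
      refine ae_of_ae_map (p := fun y : X × Bool => y.1 ∈ A) hRm.aemeasurable ?_
      rw [hR, ae_add_measure_iff]
      have hs : MeasurableSet {y : X × Bool | y.1 ∈ A} := measurable_fst D.hA
      exact ⟨(ae_map_iff ht.aemeasurable hs).2 D.hmA, (ae_map_iff hfa.aemeasurable hs).2 D.hmA⟩
    have e0 : ∫⁻ x, tripleCost s (x, T₂ x, T₃ x) ∂(m + m) ≤
        ∫⁻ p, tripleCost s p ∂(m.map (tri φ 0 1 2)) + ∫⁻ p, tripleCost s p ∂(m.map (tri φ 0 3 4)) +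
          ε' * (m + m) univ := by
      calc ∫⁻ x, tripleCost s (x, T₂ x, T₃ x) ∂(m + m)
          ≤ ∫⁻ x, (tripleCost s ((R x).1, H 1 3 (R x), H 2 4 (R x)) + ε') ∂(m + m) := by
            refine lintegral_mono_ae ?_
            filter_upwards [hmmA, hRA, hRd] with a ha hRa hd
            rw [a2 a ha, a3 a ha]
            simp only [H]
            split_ifs
            · exact hδ' a ha _ hRa hd 1 2 (by decide)
            · exact hδ' a ha _ hRa hd 3 4 (by decide)
        _ = _ := by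
            rw [lintegral_add_right _ measurable_const, lintegral_const,
              ← lintegral_map hJ hRm, hR, lintegral_add_measure, lintegral_map hJ ht,
              lintegral_map hJ hfa, lintegral_map hc (D.tri_meas _ _ _),
              lintegral_map hc (D.tri_meas _ _ _)]
            simp [H, tri, D.hφ0]
    have hlt := D.cost_lt
    calc ∫⁻ x, tripleCost s (x, T₂ x, T₃ x) ∂(mu φ m)
        ≤ ∫⁻ p, tripleCost s p ∂(pi0 φ m) + ε' * (m + m) univ := by
          unfold mu pi0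
          rw [lintegral_add_measure, lintegral_add_measure, lintegral_add_measure,
            lintegral_add_measure, e1 1 (by decide), e1 2 (by decide), e1 3 (by decide),
            e1 4 (by decide)]
          simp only [lintegral_add_measure (tripleCost s), t2, t3, Matrix.cons_val]
          refine (add_le_add_left (add_le_add_left (add_le_add_left (add_le_add_left e0 _) _) _)
            _).trans (le_of_eq ?_)
          ring
      _ < _ := ENNReal.add_lt_add_left hlt.ne hε'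

end Data

end Crest.Agent.H4.OT
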