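import Mathlib

set_option autoImplicit false
set_option linter.unusedSectionVars false

namespace Crest.Agent.H4.OT

open MeasureTheory Set Filter
open scoped Topology ENNReal ContDiff

variable {E : Type*} [NormedAddCommGroup E] [NormedSpace ℝ E] [FiniteDimensional ℝ E]

lemma contDiff_det : ContDiff ℝ ∞ (fun A : E →L[ℝ] E => A.det) := by
  classical
  let b := Module.finBasis ℝ E
  have h : (fun A : E →L[ℝ] E => A.det) = fun A : E →L[ℝ] E =>
      ∑ σ : Equiv.Perm (Fin (Module.finrank ℝ E)), (Equiv.Perm.sign σ : ℤ) •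
        ∏ i, b.repr (A (b i)) (σ i) := by
    ext A
    rw [ContinuousLinearMap.det, ← LinearMap.det_toMatrix b, Matrix.det_apply]
    refine Finset.sum_congr rfl fun σ _ => ?_
    simp [LinearMap.toMatrix_apply, Units.smul_def]
  rw [h]
  refine ContDiff.sum fun σ _ => ContDiff.const_smul _ (contDiff_prod fun i _ => ?_)
  exact (LinearMap.toContinuousLinearMap (b.coord (σ i))).contDiff.comp
    (ContinuousLinearMap.apply ℝ E (b i)).contDiff

/-- analytic local diffeomorphism germ from `0` to `p` -/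
structure LocDiffeo (φ ψ : E → E) (p : E) : Prop where
  hφ : ContDiffAt ℝ ω φ 0
  hψ : ContDiffAt ℝ ω ψ p
  φ0 : φ 0 = p
  ψp : ψ p = 0
  left : ∀ᶠ x in 𝓝 0, ψ (φ x) = x
  right : ∀ᶠ y in 𝓝 p, φ (ψ y) = y

lemma LocDiffeo.id : LocDiffeo (fun x : E => x) (fun x => x) 0 :=
  ⟨contDiffAt_id, contDiffAt_id, rfl, rfl, Eventually.of_forall fun _ => rfl,
    Eventually.of_forall fun _ => rfl⟩

lemma LocDiffeo.tendsto {φ ψ : E → E} {p : E} (h : LocDiffeo φ ψ p) : Tendsto φ (𝓝 0) (𝓝 p) := by
  have := h.hφ.continuousAt.tendsto; rwa [h.φ0] at this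

lemma LocDiffeo.tendsto' {φ ψ : E → E} {p : E} (h : LocDiffeo φ ψ p) : Tendsto ψ (𝓝 p) (𝓝 0) := by
  have := h.hψ.continuousAt.tendsto; rwa [h.ψp] at this

lemma LocDiffeo.exists_nhds {φ ψ : E → E} {p : E} (h : LocDiffeo φ ψ p) :
    ∃ V : Set E, IsOpen V ∧ p ∈ V ∧ ∀ y ∈ V, ContDiffAt ℝ ω ψ y ∧ φ (ψ y) = y ∧
      (fderiv ℝ ψ y).det ≠ 0 := by
  have h1 := h.hψ.eventually (by simp)
  have h2 := h.tendsto'.eventually (h.hφ.eventually (by simp))
  have h3 := h.right.eventually_nhds
  have h4 : ∀ᶠ y in 𝓝 p, ContDiffAt ℝ ω ψ y ∧ φ (ψ y) = y ∧ (fderiv ℝ ψ y).det ≠ 0 := by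
    filter_upwards [h1, h2, h3] with y a b c
    refine ⟨a, c.self_of_nhds, ?_⟩
    have d1 := (b.differentiableAt (by simp)).hasFDerivAt.comp y
      (a.differentiableAt (by simp)).hasFDerivAt
    have d2 : HasFDerivAt (φ ∘ ψ) (ContinuousLinearMap.id ℝ E) y :=
      (hasFDerivAt_id y).congr_of_eventuallyEq c
    have d3 := d1.unique d2
    have d4 : (fderiv ℝ φ (ψ y)).det * (fderiv ℝ ψ y).det = 1 := by
      have := congrArg ContinuousLinearMap.det d3
      simpa [ContinuousLinearMap.det] using this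
    exact right_ne_zero_of_mul_eq_one d4
  obtain ⟨V, hV, hVo, hp⟩ := eventually_nhds_iff.1 h4
  exact ⟨V, hVo, hp, hV⟩

variable [MeasurableSpace E] [BorelSpace E]

lemma LocDiffeo.density {φ ψ : E → E} {p : E} (h : LocDiffeo φ ψ p) (vol : Measure E)
    [vol.IsAddHaarMeasure] :
    ∃ r₀ : ℝ, 0 < r₀ ∧ ∀ r : ℝ, r ≤ r₀ → ∀ η : E → ℝ, ContDiff ℝ ∞ η → (∀ x, 0 ≤ η x) →
      HasCompactSupport η → tsupport η ⊆ Metric.ball 0 r →
      ∃ f : E → ℝ, ContDiff ℝ ∞ f ∧ HasCompactSupport f ∧ (∀ x, 0 ≤ f x) ∧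
        Function.support f ⊆ φ '' Metric.ball 0 r ∧
        ∀ φ' : E → E, Measurable φ' → EqOn φ' φ (Metric.ball 0 r) →
          (vol.withDensity fun x => ENNReal.ofReal (η x ^ 2)).map φ' =
            vol.withDensity fun x => ENNReal.ofReal (f x ^ 2) := by
  classical
  obtain ⟨V, hVo, hpV, hV⟩ := h.exists_nhds
  have h1 : ∀ᶠ x in 𝓝 (0 : E), ContDiffAt ℝ ω φ x ∧ ψ (φ x) = x ∧ φ x ∈ V := by
    filter_upwards [h.hφ.eventually (by simp), h.left, h.tendsto.eventually (hVo.mem_nhds hpV)]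
      with x a b c using ⟨a, b, c⟩
  obtain ⟨r₀, hr₀, hU⟩ := Metric.eventually_nhds_iff_ball.1 h1
  refine ⟨r₀, hr₀, fun r hr η hη hη0 hηc hηs => ?_⟩
  have hU' : ∀ x ∈ Metric.ball (0 : E) r, ContDiffAt ℝ ω φ x ∧ ψ (φ x) = x ∧ φ x ∈ V :=
    fun x hx => hU x (Metric.ball_subset_ball hr hx)
  set B := φ '' Metric.ball 0 r with hB
  have hBV : B = V ∩ ψ ⁻¹' Metric.ball 0 r := by
    ext y; constructor
    · rintro ⟨x, hx, rfl⟩
      exact ⟨(hU' x hx).2.2, by rw [mem_preimage, (hU' x hx).2.1]; exact hx⟩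
    · rintro ⟨hy, hy'⟩
      exact ⟨ψ y, hy', (hV y hy).2.1⟩
  have hBo : IsOpen B := by
    rw [hBV]
    exact ContinuousOn.isOpen_inter_preimage
      (fun y hy => (hV y hy).1.continuousAt.continuousWithinAt) hVo Metric.isOpen_ball
  have hBV' : B ⊆ V := by rw [hBV]; exact inter_subset_left
  have hK : IsCompact (φ '' tsupport η) :=
    hηc.isCompact.image_of_continuousOn
      fun x hx => (hU' x (hηs hx)).1.continuousAt.continuousWithinAt
  set f : E → ℝ := B.indicator fun y => η (ψ y) * √|(fderiv ℝ ψ y).det| with hf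
  have hfK : ∀ y, y ∉ φ '' tsupport η → f y = 0 := by
    intro y hy
    by_cases hyB : y ∈ B
    · rw [hf, indicator_of_mem hyB]
      have : η (ψ y) = 0 := by
        by_contra hne
        exact hy ⟨ψ y, subset_tsupport _ hne, (hV y (hBV' hyB)).2.1⟩
      simp [this]
    · rw [hf, indicator_of_notMem hyB]
  refine ⟨f, ?_, ?_, ?_, ?_, ?_⟩
  · rw [contDiff_iff_contDiffAt]
    intro y
    by_cases hyB : y ∈ B
    · have e : f =ᶠ[𝓝 y] fun y => η (ψ y) * √|(fderiv ℝ ψ y).det| := by
        filter_upwards [hBo.mem_nhds hyB] with z hz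
        rw [hf, indicator_of_mem hz]
      refine ContDiffAt.congr_of_eventuallyEq ?_ e
      obtain ⟨a, -, c⟩ := hV y (hBV' hyB)
      have a' : ContDiffAt ℝ ∞ ψ y := a.of_le le_top
      refine (hη.contDiffAt.comp y a').mul (ContDiffAt.sqrt (ContDiffAt.abs ?_ c) (by simpa using c))
      exact contDiff_det.contDiffAt.comp y (a.fderiv_right le_top)
    · have hy : y ∉ φ '' tsupport η := fun hy => hyB (image_mono hηs hy)
      have e : f =ᶠ[𝓝 y] fun _ => 0 := by
        filter_upwards [hK.isClosed.isOpen_compl.mem_nhds hy] with z hz using hfK z hz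
      exact contDiffAt_const.congr_of_eventuallyEq e
  · exact HasCompactSupport.intro hK hfK
  · intro y
    exact indicator_nonneg (fun y _ => mul_nonneg (hη0 _) (Real.sqrt_nonneg _)) y
  · exact support_indicator_subset
  · intro φ' hφ'm hφ'
    ext S hS
    rw [Measure.map_apply hφ'm hS, withDensity_apply _ (hφ'm hS), withDensity_apply _ hS,
      ← lintegral_indicator (hφ'm hS), ← lintegral_indicator hS]
    have himg : ψ '' B = Metric.ball 0 r := by
      ext x; constructor
      · rintro ⟨y, hy, rfl⟩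
        rw [hBV] at hy; exact hy.2
      · intro hx; exact ⟨φ x, ⟨x, hx, rfl⟩, (hU' x hx).2.1⟩
    have hinj : InjOn ψ B := fun y hy y' hy' e => by
      rw [← (hV y (hBV' hy)).2.1, e, (hV y' (hBV' hy')).2.1]
    have key := lintegral_image_eq_lintegral_abs_det_fderiv_mul vol hBo.measurableSet
      (f' := fun y => fderiv ℝ ψ y)
      (fun y hy => ((hV y (hBV' hy)).1.differentiableAt (by simp)).hasFDerivAt.hasFDerivWithinAt)
      hinj ((φ' ⁻¹' S).indicator fun x => ENNReal.ofReal (η x ^ 2))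
    rw [himg, ← lintegral_indicator measurableSet_ball, ← lintegral_indicator hBo.measurableSet] at key
    refine Eq.trans ?_ (key.trans ?_)
    · refine lintegral_congr fun x => ?_
      by_cases hx : x ∈ Metric.ball (0 : E) r
      · rw [indicator_of_mem hx]
      · rw [indicator_of_notMem hx]
        have : η x = 0 := by
          by_contra hne; exact hx (hηs (subset_tsupport _ hne))
        simp [indicator, this]
    · refine lintegral_congr fun y => ?_
      by_cases hy : y ∈ B
      · have e1 : ψ y ∈ Metric.ball (0 : E) r := by rw [hBV] at hy; exact hy.2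
        have e2 : φ' (ψ y) = y := by rw [hφ' e1, (hV y (hBV' hy)).2.1]
        rw [indicator_of_mem hy]
        by_cases hyS : y ∈ S
        · rw [indicator_of_mem hyS, indicator_of_mem (by rw [mem_preimage, e2]; exact hyS), hf,
            indicator_of_mem hy, ← ENNReal.ofReal_mul (abs_nonneg _), mul_pow,
            Real.sq_sqrt (abs_nonneg _), mul_comm]
        · rw [indicator_of_notMem hyS, indicator_of_notMem (by rw [mem_preimage, e2]; exact hyS),
            mul_zero]
      · rw [indicator_of_notMem hy]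
        have : f y = 0 := by rw [hf, indicator_of_notMem hy]
        simp [indicator, this]

end Crest.Agent.H4.OT
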