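import Mathlib
import Crest.Agent.H4.OTDensity

set_option autoImplicit false
set_option linter.unusedSectionVars false

namespace Crest.Agent.H4.OT

open Set Filter
open scoped Topology ContDiff InnerProductSpace

lemma implicit {E₁ E₂ : Type*} [NormedAddCommGroup E₁] [NormedSpace ℝ E₁] [CompleteSpace E₁]
    [NormedAddCommGroup E₂] [NormedSpace ℝ E₂] [FiniteDimensional ℝ E₂]
    (f : E₁ × E₂ → E₂) (u : E₁ × E₂) (hf : ContDiffAt ℝ ω f u)
    (hinj : ∀ w, fderiv ℝ f u (0, w) = 0 → w = 0) :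
    ∃ ψ : E₁ → E₂, ContDiffAt ℝ ω ψ u.1 ∧ ψ u.1 = u.2 ∧
      ∀ᶠ v in 𝓝 u, f v = f u ↔ ψ v.1 = v.2 := by
  have := FiniteDimensional.complete ℝ E₂
  have hi : (fderiv ℝ f u ∘L .inr ℝ E₁ E₂).IsInvertible := by
    have h1 : Function.Injective (fderiv ℝ f u ∘L ContinuousLinearMap.inr ℝ E₁ E₂) := by
      rw [injective_iff_map_eq_zero]
      intro w hw; exact hinj w (by simpa using hw)
    refine ⟨(LinearEquiv.ofInjectiveEndo
      (fderiv ℝ f u ∘L ContinuousLinearMap.inr ℝ E₁ E₂).toLinearMap h1).toContinuousLinearEquiv, ?_⟩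
    ext w; rfl
  exact ⟨hf.implicitFunction (by simp) hi, hf.contDiffAt_implicitFunction _ _,
    hf.implicitFunction_apply_self _ _, hf.eventually_apply_eq_iff_implicitFunction _ _⟩

variable {E : Type*} [NormedAddCommGroup E] [InnerProductSpace ℝ E] [FiniteDimensional ℝ E]

/-- the real kernel -/
noncomputable def kk (s : ℝ) (v : E) : ℝ := ‖v‖ ^ (-s)

/-- its gradient -/
noncomputable def gg (s : ℝ) (v : E) : E := (-s * ‖v‖ ^ (-s - 2)) • v

lemma hasFDerivAt_rpow (p : ℝ) {v : E} (hv : v ≠ 0) :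
    HasFDerivAt (fun v : E => ‖v‖ ^ p) ((p * ‖v‖ ^ (p - 2)) • innerSL ℝ v) v := by
  have hn : 0 < ‖v‖ := norm_pos_iff.2 hv
  have h1 := (hasStrictFDerivAt_norm_sq v).hasFDerivAt
  have h2 := h1.rpow_const (p := p / 2) (Or.inl (by positivity))
  have e : (fun v : E => ‖v‖ ^ p) = fun v : E => (‖v‖ ^ 2) ^ (p / 2) := by
    ext w
    rw [← Real.rpow_natCast, ← Real.rpow_mul (norm_nonneg _)]
    congr 1; push_cast; ring
  rw [e]
  convert h2 using 1
  rw [← Real.rpow_natCast, ← Real.rpow_mul (norm_nonneg _)]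
  ext w
  simp only [smul_apply, smul_eq_mul, nsmul_eq_mul]
  have : ((2 : ℕ) : ℝ) * (p / 2 - 1) = p - 2 := by push_cast; ring
  rw [this]; push_cast; ring

lemma hasFDerivAt_kk (s : ℝ) {v : E} (hv : v ≠ 0) :
    HasFDerivAt (kk s) (innerSL ℝ (gg s v)) v := by
  have := hasFDerivAt_rpow (-s) hv
  have e : innerSL ℝ (gg s v) = (-s * ‖v‖ ^ (-s - 2)) • innerSL ℝ v := by
    rw [gg, map_smul]
  rw [e]; exact this

lemma contDiffAt_kk (s : ℝ) {v : E} (hv : v ≠ 0) : ContDiffAt ℝ ω (kk s : E → ℝ) v :=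
  (contDiffAt_norm ℝ hv).rpow_const_of_ne (norm_ne_zero_iff.2 hv)

lemma contDiffAt_gg (s : ℝ) {v : E} (hv : v ≠ 0) : ContDiffAt ℝ ω (gg s : E → E) v :=
  (contDiffAt_const.mul ((contDiffAt_norm ℝ hv).rpow_const_of_ne (norm_ne_zero_iff.2 hv))).smul
    contDiffAt_id

lemma gg_neg (s : ℝ) (v : E) : gg s (-v) = -gg s v := by simp [gg]

lemma fderiv_gg_inj {s : ℝ} (hs : 0 < s) {v : E} (hv : v ≠ 0) (w : E)
    (hw : fderiv ℝ (gg s) v w = 0) : w = 0 := by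
  have hn : 0 < ‖v‖ := norm_pos_iff.2 hv
  have h1 := ((hasFDerivAt_rpow (-s - 2) hv).const_mul (-s)).smul (hasFDerivAt_id v)
  have h2 : fderiv ℝ (gg s) v = _ := h1.fderiv
  rw [h2] at hw
  simp only [add_apply, smul_apply,
    ContinuousLinearMap.id_apply, ContinuousLinearMap.smulRight_apply, innerSL_apply_apply,
    smul_eq_mul, id] at hw
  have e : ‖v‖ ^ (-s - 2) = ‖v‖ ^ (-s - 2 - 2) * ‖v‖ ^ 2 := by
    rw [← Real.rpow_natCast, ← Real.rpow_add hn]; congr 1; push_cast; ring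
  have hp : 0 < ‖v‖ ^ (-s - 2 - 2) := Real.rpow_pos_of_pos hn _
  have h3 := congrArg (fun z => ⟪v, z⟫_ℝ) hw
  simp only [inner_add_right, inner_smul_right, inner_zero_right, real_inner_self_eq_norm_sq] at h3
  rw [e] at h3 hw
  have h4 : ⟪v, w⟫_ℝ = 0 := by
    have : (s * (s + 1) * (‖v‖ ^ (-s - 2 - 2) * ‖v‖ ^ 2)) * ⟪v, w⟫_ℝ = 0 := by linarith
    rcases mul_eq_zero.1 this with h | h
    · exact absurd h (by positivity)
    · exact h
  rw [h4] at hw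
  simp only [mul_zero, zero_smul, add_zero, smul_eq_zero] at hw
  rcases hw with h | h
  · have : s * (‖v‖ ^ (-s - 2 - 2) * ‖v‖ ^ 2) = 0 := by linarith
    exact absurd this (by positivity)
  · exact h

lemma fderiv_gg_lower {s : ℝ} (hs : 0 < s) {v : E} (hv : v ≠ 0) :
    ∃ c : ℝ, 0 < c ∧ ∀ w, c * ‖w‖ ≤ ‖fderiv ℝ (gg s) v w‖ := by
  obtain ⟨K, hK, h⟩ := (fderiv ℝ (gg s) v).toLinearMap.exists_antilipschitzWith
    (LinearMap.ker_eq_bot'.2 (fderiv_gg_inj hs hv))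
  refine ⟨(K : ℝ)⁻¹, by positivity, fun w => ?_⟩
  have := ZeroHomClass.bound_of_antilipschitz _ h w
  rw [inv_mul_le_iff₀ (by positivity)]
  exact this

/-- reduced cost -/
noncomputable def GG (s l : ℝ) (b x y z : E) : ℝ :=
  kk s (x - y) + kk s (x - z) + kk s (y - z) + l / 2 * ‖x‖ ^ 2 + l / 2 * ‖y - b‖ ^ 2
    - ⟪gg s b + gg s (b + b), y - b⟫_ℝ

/-- its gradient in the first two variables -/
noncomputable def FF (s l : ℝ) (b : E) (p : E × E × E) : E × E :=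
  (gg s (p.1 - p.2.1) + gg s (p.1 - p.2.2) + l • p.1,
    -gg s (p.1 - p.2.1) + gg s (p.2.1 - p.2.2) + l • (p.2.1 - b) - (gg s b + gg s (b + b)))

lemma FF_base (s l : ℝ) (b : E) : FF s l b (0, b, -b) = 0 := by
  simp [FF, gg_neg]

lemma hasDerivAt_GG (s l : ℝ) (b x y z ξ η : E) (t : ℝ)
    (h1 : (x + t • ξ) - (y + t • η) ≠ 0) (h2 : (x + t • ξ) - z ≠ 0) (h3 : (y + t • η) - z ≠ 0) :
    HasDerivAt (fun t : ℝ => GG s l b (x + t • ξ) (y + t • η) z)
      (⟪(FF s l b (x + t • ξ, y + t • η, z)).1, ξ⟫_ℝ +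
        ⟪(FF s l b (x + t • ξ, y + t • η, z)).2, η⟫_ℝ) t := by
  have dx : HasDerivAt (fun t : ℝ => x + t • ξ) ξ t := by
    simpa using ((hasDerivAt_id t).smul_const ξ).const_add x
  have dy : HasDerivAt (fun t : ℝ => y + t • η) η t := by
    simpa using ((hasDerivAt_id t).smul_const η).const_add y
  have a1 := (hasFDerivAt_kk s h1).comp_hasDerivAt t (dx.sub dy)
  have a2 := (hasFDerivAt_kk s h2).comp_hasDerivAt t (dx.sub_const z)
  have a3 := (hasFDerivAt_kk s h3).comp_hasDerivAt t (dy.sub_const z)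
  have a4 := dx.norm_sq.const_mul (l / 2)
  have a5 := (dy.sub_const b).norm_sq.const_mul (l / 2)
  have a6 := (innerSL ℝ (gg s b + gg s (b + b))).hasFDerivAt.comp_hasDerivAt t (dy.sub_const b)
  have a := ((((a1.add a2).add a3).add a4).add a5).sub a6
  refine HasDerivAt.congr_deriv a ?_
  simp only [FF, innerSL_apply_apply, inner_add_left, inner_sub_left, inner_sub_right,
    inner_neg_left, inner_smul_left, conj_trivial]
  ring

lemma strict_min (s : ℝ) {b : E} (hb : ‖b‖ = 1) :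
    ∃ L ρ : ℝ, 0 < ρ ∧ ρ ≤ 1 / 4 ∧ ∀ l, 3 * L < l → ∀ x ∈ Metric.ball (0 : E) ρ,
      ∀ x' ∈ Metric.ball (0 : E) ρ, ∀ y ∈ Metric.ball b ρ, ∀ y' ∈ Metric.ball b ρ,
      ∀ z ∈ Metric.ball (-b) ρ, FF s l b (x, y, z) = 0 → (x', y') ≠ (x, y) →
        GG s l b x y z < GG s l b x' y' z := by
  have hb0 : b ≠ 0 := by rintro rfl; simp at hb
  have hbb : b + b ≠ 0 := by rw [← two_smul ℝ b]; simp [hb0]
  obtain ⟨K1, t1, ht1, hK1⟩ :=
    ((contDiffAt_gg s (neg_ne_zero.2 hb0)).of_le (m := 1) le_top).exists_lipschitzOnWith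
  obtain ⟨K2, t2, ht2, hK2⟩ := ((contDiffAt_gg s hb0).of_le (m := 1) le_top).exists_lipschitzOnWith
  obtain ⟨K3, t3, ht3, hK3⟩ := ((contDiffAt_gg s hbb).of_le (m := 1) le_top).exists_lipschitzOnWith
  obtain ⟨e1, he1, hb1⟩ := Metric.mem_nhds_iff.1 ht1
  obtain ⟨e2, he2, hb2⟩ := Metric.mem_nhds_iff.1 ht2
  obtain ⟨e3, he3, hb3⟩ := Metric.mem_nhds_iff.1 ht3
  set ρ := min (1 / 4) (min e1 (min e2 e3) / 2) with hρ
  have hρ0 : 0 < ρ := by positivity
  have hρ1 : ρ ≤ 1 / 4 := min_le_left _ _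
  have hρe : 2 * ρ ≤ min e1 (min e2 e3) := by
    have := min_le_right (1 / 4) (min e1 (min e2 e3) / 2); linarith
  have hρe1 : 2 * ρ ≤ e1 := hρe.trans (min_le_left _ _)
  have hρe2 : 2 * ρ ≤ e2 := hρe.trans ((min_le_right _ _).trans (min_le_left _ _))
  have hρe3 : 2 * ρ ≤ e3 := hρe.trans ((min_le_right _ _).trans (min_le_right _ _))
  set L : ℝ := K1 + K2 + K3 with hL
  have hL1 : (K1 : ℝ) ≤ L := by have := K2.2; have := K3.2; simp only [hL, NNReal.val_eq_coe] at *; linarith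
  have hL2 : (K2 : ℝ) ≤ L := by have := K1.2; have := K3.2; simp only [hL, NNReal.val_eq_coe] at *; linarith
  have hL3 : (K3 : ℝ) ≤ L := by have := K1.2; have := K2.2; simp only [hL, NNReal.val_eq_coe] at *; linarith
  have hL0 : 0 ≤ L := K1.2.trans hL1
  refine ⟨L, ρ, hρ0, hρ1, fun l hl x hx x' hx' y hy y' hy' z hz hF hne => ?_⟩
  have sub_mem : ∀ (c d p q : E), p ∈ Metric.ball c ρ → q ∈ Metric.ball d ρ →
      p - q ∈ Metric.ball (c - d) (2 * ρ) := fun c d p q hp hq => by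
    rw [Metric.mem_ball] at *
    exact (dist_sub_sub_le _ _ _ _).trans_lt (by linarith)
  have ne0 : ∀ (c p : E), 1 ≤ ‖c‖ → p ∈ Metric.ball c (2 * ρ) → p ≠ 0 := fun c p hc hp h0 => by
    rw [h0, Metric.mem_ball, dist_zero_left] at hp; linarith
  have hbbn : 1 ≤ ‖b + b‖ := by rw [← two_smul ℝ b, norm_smul, hb]; norm_num
  set ξ := x' - x with hξ
  set η := y' - y with hη
  have hxt : ∀ t ∈ Icc (0 : ℝ) 1, x + t • ξ ∈ Metric.ball (0 : E) ρ := fun t ht =>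
    (convex_ball _ _).add_smul_sub_mem hx hx' ht
  have hyt : ∀ t ∈ Icc (0 : ℝ) 1, y + t • η ∈ Metric.ball b ρ := fun t ht =>
    (convex_ball _ _).add_smul_sub_mem hy hy' ht
  have m1 : ∀ t ∈ Icc (0 : ℝ) 1, (x + t • ξ) - (y + t • η) ∈ Metric.ball (-b) (2 * ρ) :=
    fun t ht => by simpa using sub_mem _ _ _ _ (hxt t ht) (hyt t ht)
  have m2 : ∀ t ∈ Icc (0 : ℝ) 1, (x + t • ξ) - z ∈ Metric.ball b (2 * ρ) :=
    fun t ht => by simpa using sub_mem _ _ _ _ (hxt t ht) hz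
  have m3 : ∀ t ∈ Icc (0 : ℝ) 1, (y + t • η) - z ∈ Metric.ball (b + b) (2 * ρ) :=
    fun t ht => by simpa using sub_mem _ _ _ _ (hyt t ht) hz
  have hder : ∀ t ∈ Icc (0 : ℝ) 1, HasDerivAt (fun t : ℝ => GG s l b (x + t • ξ) (y + t • η) z)
      (⟪(FF s l b (x + t • ξ, y + t • η, z)).1, ξ⟫_ℝ +
        ⟪(FF s l b (x + t • ξ, y + t • η, z)).2, η⟫_ℝ) t := fun t ht =>
    hasDerivAt_GG s l b x y z ξ η t (ne0 _ _ (by simp [hb]) (m1 t ht)) (ne0 _ _ hb.ge (m2 t ht))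
      (ne0 _ _ hbbn (m3 t ht))
  have hpos : 0 < ‖ξ‖ ^ 2 + ‖η‖ ^ 2 := by
    by_contra h
    have h1 : ‖ξ‖ ^ 2 = 0 := by nlinarith [sq_nonneg ‖ξ‖, sq_nonneg ‖η‖]
    have h2 : ‖η‖ ^ 2 = 0 := by nlinarith [sq_nonneg ‖ξ‖, sq_nonneg ‖η‖]
    apply hne
    rw [pow_eq_zero_iff two_ne_zero, norm_eq_zero, sub_eq_zero] at h1 h2
    rw [h1, h2]
  have hmono : StrictMonoOn (fun t : ℝ => GG s l b (x + t • ξ) (y + t • η) z) (Icc 0 1) := by
    refine strictMonoOn_of_deriv_pos (convex_Icc 0 1)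
      (fun t ht => (hder t ht).continuousAt.continuousWithinAt) fun t ht => ?_
    rw [interior_Icc] at ht
    have ht' : t ∈ Icc (0 : ℝ) 1 := Ioo_subset_Icc_self ht
    have h0 : (0 : ℝ) ∈ Icc (0 : ℝ) 1 := ⟨le_rfl, zero_le_one⟩
    rw [(hder t ht').deriv]
    have l1 := hK1.norm_sub_le (hb1 (Metric.ball_subset_ball hρe1 (m1 t ht')))
      (hb1 (Metric.ball_subset_ball hρe1 (m1 0 h0)))
    have l2 := hK2.norm_sub_le (hb2 (Metric.ball_subset_ball hρe2 (m2 t ht')))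
      (hb2 (Metric.ball_subset_ball hρe2 (m2 0 h0)))
    have l3 := hK3.norm_sub_le (hb3 (Metric.ball_subset_ball hρe3 (m3 t ht')))
      (hb3 (Metric.ball_subset_ball hρe3 (m3 0 h0)))
    simp only [zero_smul, add_zero] at l1 l2 l3
    have r1 : x + t • ξ - (y + t • η) - (x - y) = t • (ξ - η) := by rw [smul_sub t ξ η]; abel
    have r2 : x + t • ξ - z - (x - z) = t • ξ := by abel
    have r3 : y + t • η - z - (y - z) = t • η := by abel
    rw [r1, norm_smul, Real.norm_of_nonneg ht.1.le] at l1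
    rw [r2, norm_smul, Real.norm_of_nonneg ht.1.le] at l2
    rw [r3, norm_smul, Real.norm_of_nonneg ht.1.le] at l3
    set Δ1 := gg s (x + t • ξ - (y + t • η)) - gg s (x - y) with hΔ1
    set Δ2 := gg s (x + t • ξ - z) - gg s (x - z) with hΔ2
    set Δ3 := gg s (y + t • η - z) - gg s (y - z) with hΔ3
    have hF1 : gg s (x - y) + gg s (x - z) + l • x = 0 := congrArg Prod.fst hF
    have hF2 : -gg s (x - y) + gg s (y - z) + l • (y - b) - (gg s b + gg s (b + b)) = 0 :=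
      congrArg Prod.snd hF
    have q1 : (FF s l b (x + t • ξ, y + t • η, z)).1 = Δ1 + Δ2 + (l * t) • ξ := by
      rw [← sub_zero (FF s l b (x + t • ξ, y + t • η, z)).1, ← hF1]
      simp only [FF, hΔ1, hΔ2, smul_add, mul_smul]; abel
    have q2 : (FF s l b (x + t • ξ, y + t • η, z)).2 = -Δ1 + Δ3 + (l * t) • η := by
      rw [← sub_zero (FF s l b (x + t • ξ, y + t • η, z)).2, ← hF2]
      simp only [FF, hΔ1, hΔ3, smul_add, smul_sub, mul_smul]; abel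
    rw [q1, q2]
    have i1 := abs_real_inner_le_norm Δ1 (ξ - η)
    have i2 := abs_real_inner_le_norm Δ2 ξ
    have i3 := abs_real_inner_le_norm Δ3 η
    rw [abs_le] at i1 i2 i3
    have n1 : ‖ξ - η‖ ^ 2 ≤ 2 * ‖ξ‖ ^ 2 + 2 * ‖η‖ ^ 2 := by
      have := norm_sub_le ξ η
      nlinarith [norm_nonneg (ξ - η), norm_nonneg ξ, norm_nonneg η, sq_nonneg (‖ξ‖ - ‖η‖)]
    have j1 : ‖Δ1‖ * ‖ξ - η‖ ≤ L * t * (2 * ‖ξ‖ ^ 2 + 2 * ‖η‖ ^ 2) := by
      calc ‖Δ1‖ * ‖ξ - η‖ ≤ L * (t * ‖ξ - η‖) * ‖ξ - η‖ := by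
            gcongr
            exact l1.trans (mul_le_mul_of_nonneg_right hL1 (mul_nonneg ht.1.le (norm_nonneg _)))
        _ = L * t * ‖ξ - η‖ ^ 2 := by ring
        _ ≤ _ := mul_le_mul_of_nonneg_left n1 (mul_nonneg hL0 ht.1.le)
    have j2 : ‖Δ2‖ * ‖ξ‖ ≤ L * t * ‖ξ‖ ^ 2 := by
      calc ‖Δ2‖ * ‖ξ‖ ≤ L * (t * ‖ξ‖) * ‖ξ‖ := by
            gcongr
            exact l2.trans (mul_le_mul_of_nonneg_right hL2 (mul_nonneg ht.1.le (norm_nonneg _)))
        _ = _ := by ring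
    have j3 : ‖Δ3‖ * ‖η‖ ≤ L * t * ‖η‖ ^ 2 := by
      calc ‖Δ3‖ * ‖η‖ ≤ L * (t * ‖η‖) * ‖η‖ := by
            gcongr
            exact l3.trans (mul_le_mul_of_nonneg_right hL3 (mul_nonneg ht.1.le (norm_nonneg _)))
        _ = _ := by ring
    simp only [inner_add_left, inner_neg_left, inner_smul_left, conj_trivial,
      real_inner_self_eq_norm_sq, inner_sub_right] at i1 ⊢
    have : 0 < (l - 3 * L) * t * (‖ξ‖ ^ 2 + ‖η‖ ^ 2) :=
      mul_pos (mul_pos (by linarith) ht.1) hpos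
    nlinarith
  have := hmono ⟨le_rfl, zero_le_one⟩ ⟨zero_le_one, le_rfl⟩ zero_lt_one
  simpa [hξ, hη] using this

lemma FF_analytic (s l : ℝ) {b : E} (hb : ‖b‖ = 1) : ContDiffAt ℝ ω (FF s l b) (0, b, -b) := by
  have hb0 : b ≠ 0 := by rintro rfl; simp at hb
  have hbb : b + b ≠ 0 := by rw [← two_smul ℝ b]; simp [hb0]
  have a1 : ContDiffAt ℝ ω (fun p : E × E × E => gg s (p.1 - p.2.1)) (0, b, -b) :=
    ContDiffAt.comp (g := gg s) _ (contDiffAt_gg s (by simpa using hb0)) (by fun_prop)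
  have a2 : ContDiffAt ℝ ω (fun p : E × E × E => gg s (p.1 - p.2.2)) (0, b, -b) :=
    ContDiffAt.comp (g := gg s) _ (contDiffAt_gg s (by simpa using hb0)) (by fun_prop)
  have a3 : ContDiffAt ℝ ω (fun p : E × E × E => gg s (p.2.1 - p.2.2)) (0, b, -b) :=
    ContDiffAt.comp (g := gg s) _ (contDiffAt_gg s (by simpa using hbb)) (by fun_prop)
  unfold FF
  exact ((a1.add a2).add (by fun_prop)).prodMk
    (((a1.neg.add a3).add (by fun_prop)).sub contDiffAt_const)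

lemma FF_fderiv (s l : ℝ) {b : E} (hb : ‖b‖ = 1) (ξ η ζ : E) :
    fderiv ℝ (FF s l b) (0, b, -b) (ξ, η, ζ) =
      (fderiv ℝ (gg s) (-b) (ξ - η) + fderiv ℝ (gg s) b (ξ - ζ) + l • ξ,
        -fderiv ℝ (gg s) (-b) (ξ - η) + fderiv ℝ (gg s) (b + b) (η - ζ) + l • η) := by
  have hb0 : b ≠ 0 := by rintro rfl; simp at hb
  have hbb : b + b ≠ 0 := by rw [← two_smul ℝ b]; simp [hb0]
  have d1 : HasFDerivAt (fun p : E × E × E => p.1) (ContinuousLinearMap.fst ℝ E (E × E))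
      (0, b, -b) := hasFDerivAt_fst
  have d2 : HasFDerivAt (fun p : E × E × E => p.2.1)
      ((ContinuousLinearMap.fst ℝ E E).comp (ContinuousLinearMap.snd ℝ E (E × E))) (0, b, -b) :=
    hasFDerivAt_snd.fst
  have d3 : HasFDerivAt (fun p : E × E × E => p.2.2)
      ((ContinuousLinearMap.snd ℝ E E).comp (ContinuousLinearMap.snd ℝ E (E × E))) (0, b, -b) :=
    hasFDerivAt_snd.snd
  have g1 : HasFDerivAt (gg s) (fderiv ℝ (gg s) (-b)) ((0 : E) - b) := by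
    rw [zero_sub]
    exact ((contDiffAt_gg s (neg_ne_zero.2 hb0)).differentiableAt (by simp)).hasFDerivAt
  have g2 : HasFDerivAt (gg s) (fderiv ℝ (gg s) b) ((0 : E) - -b) := by
    rw [zero_sub, neg_neg]
    exact ((contDiffAt_gg s hb0).differentiableAt (by simp)).hasFDerivAt
  have g3 : HasFDerivAt (gg s) (fderiv ℝ (gg s) (b + b)) (b - -b) := by
    rw [sub_neg_eq_add]
    exact ((contDiffAt_gg s hbb).differentiableAt (by simp)).hasFDerivAt
  have a1 := HasFDerivAt.comp (f := fun p : E × E × E => p.1 - p.2.1) (0, b, -b) g1 (d1.sub d2)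
  have a2 := HasFDerivAt.comp (f := fun p : E × E × E => p.1 - p.2.2) (0, b, -b) g2 (d1.sub d3)
  have a3 := HasFDerivAt.comp (f := fun p : E × E × E => p.2.1 - p.2.2) (0, b, -b) g3 (d2.sub d3)
  have a := ((a1.add a2).add (d1.const_smul l)).prodMk
    (((a1.neg.add a3).add ((d2.sub_const b).const_smul l)).sub_const (gg s b + gg s (b + b)))
  have e : fderiv ℝ (FF s l b) (0, b, -b) = _ := a.fderiv
  rw [e]
  simp

lemma FF_inj {s : ℝ} (hs : 0 < s) {b : E} (hb : ‖b‖ = 1) :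
    ∃ l₀ : ℝ, ∀ l, l₀ < l → ∀ ξ η ζ : E, fderiv ℝ (FF s l b) (0, b, -b) (ξ, η, ζ) = 0 →
      (ξ = 0 ∨ η = 0 ∨ ζ = 0) → ξ = 0 ∧ η = 0 ∧ ζ = 0 := by
  have hb0 : b ≠ 0 := by rintro rfl; simp at hb
  have hbb : b + b ≠ 0 := by rw [← two_smul ℝ b]; simp [hb0]
  obtain ⟨c2, hc2, h2⟩ := fderiv_gg_lower hs hb0
  obtain ⟨c3, hc3, h3⟩ := fderiv_gg_lower hs hbb
  set K1 := fderiv ℝ (gg s) (-b) with hK1
  set K2 := fderiv ℝ (gg s) b with hK2
  set K3 := fderiv ℝ (gg s) (b + b) with hK3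
  set M := ‖K1‖ + ‖K2‖ + ‖K3‖ with hM
  have hM0 : 0 ≤ M := by positivity
  have m1 : ∀ w, ‖K1 w‖ ≤ M * ‖w‖ := fun w => (K1.le_opNorm w).trans
    (mul_le_mul_of_nonneg_right (by linarith [norm_nonneg K2, norm_nonneg K3]) (norm_nonneg _))
  have m2 : ∀ w, ‖K2 w‖ ≤ M * ‖w‖ := fun w => (K2.le_opNorm w).trans
    (mul_le_mul_of_nonneg_right (by linarith [norm_nonneg K1, norm_nonneg K3]) (norm_nonneg _))
  have m3 : ∀ w, ‖K3 w‖ ≤ M * ‖w‖ := fun w => (K3.le_opNorm w).trans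
    (mul_le_mul_of_nonneg_right (by linarith [norm_nonneg K1, norm_nonneg K2]) (norm_nonneg _))
  refine ⟨3 * M + M ^ 2 / c2 + M ^ 2 / c3, fun l hl ξ η ζ h hz => ?_⟩
  have p2 : 0 ≤ M ^ 2 / c2 := by positivity
  have p3 : 0 ≤ M ^ 2 / c3 := by positivity
  have hl0 : 0 < l := by linarith
  have q2 : M ^ 2 < c2 * (l - 2 * M) := by
    rw [← div_lt_iff₀' hc2]; linarith
  have q3 : M ^ 2 < c3 * (l - 2 * M) := by
    rw [← div_lt_iff₀' hc3]; linarith
  rw [FF_fderiv s l hb, ← hK1, ← hK2, ← hK3, Prod.mk_eq_zero] at h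
  obtain ⟨e1, e2⟩ := h
  have n1 : l * ‖ξ‖ ≤ M * ‖ξ - η‖ + M * ‖ξ - ζ‖ := by
    have : l • ξ = -(K1 (ξ - η) + K2 (ξ - ζ)) := by rw [eq_neg_iff_add_eq_zero, add_comm]; exact e1
    have h' := congrArg norm this
    rw [norm_smul, Real.norm_of_nonneg hl0.le, norm_neg] at h'
    rw [h']
    exact (norm_add_le _ _).trans (add_le_add (m1 _) (m2 _))
  have n2 : l * ‖η‖ ≤ M * ‖ξ - η‖ + M * ‖η - ζ‖ := by
    have : l • η = -(-K1 (ξ - η) + K3 (η - ζ)) := by rw [eq_neg_iff_add_eq_zero, add_comm]; exact e2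
    have h' := congrArg norm this
    rw [norm_smul, Real.norm_of_nonneg hl0.le, norm_neg] at h'
    rw [h']
    exact (norm_add_le _ _).trans (add_le_add (by rw [norm_neg]; exact m1 _) (m3 _))
  rcases hz with rfl | rfl | rfl
  · simp only [zero_sub, map_neg, smul_zero, add_zero, norm_neg] at e1 n2
    have f1 : c2 * ‖ζ‖ ≤ M * ‖η‖ := by
      have : K2 ζ = -K1 η := by rw [← neg_add, neg_eq_zero, add_comm] at e1; exact eq_neg_of_add_eq_zero_left e1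
      have h' := h2 ζ
      rw [this, norm_neg] at h'
      exact h'.trans (m1 _)
    have f2 := mul_le_mul_of_nonneg_left (norm_sub_le η ζ) hM0
    have f3 : ‖η‖ = 0 := by
      by_contra hne
      have hp : 0 < ‖η‖ := lt_of_le_of_ne (norm_nonneg _) (Ne.symm hne)
      have g1 : (l - 2 * M) * ‖η‖ ≤ M * ‖ζ‖ := by linarith
      have g2 := mul_le_mul_of_nonneg_left g1 hc2.le
      have g3 := mul_le_mul_of_nonneg_left f1 hM0
      have g4 := mul_lt_mul_of_pos_right q2 hp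
      nlinarith
    rw [f3, mul_zero] at f1
    have f4 : ‖ζ‖ = 0 := le_antisymm (by
      by_contra hc; exact absurd f1 (not_le.2 (mul_pos hc2 (not_le.1 hc)))) (norm_nonneg _)
    exact ⟨rfl, norm_eq_zero.1 f3, norm_eq_zero.1 f4⟩
  · simp only [zero_sub, sub_zero, map_neg, smul_zero, add_zero, norm_neg] at e2 n1
    have f1 : c3 * ‖ζ‖ ≤ M * ‖ξ‖ := by
      have : K3 ζ = -K1 ξ := by rw [← neg_add, neg_eq_zero, add_comm] at e2; exact eq_neg_of_add_eq_zero_left e2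
      have h' := h3 ζ
      rw [this, norm_neg] at h'
      exact h'.trans (m1 _)
    have f2 := mul_le_mul_of_nonneg_left (norm_sub_le ξ ζ) hM0
    have f3 : ‖ξ‖ = 0 := by
      by_contra hne
      have hp : 0 < ‖ξ‖ := lt_of_le_of_ne (norm_nonneg _) (Ne.symm hne)
      have g1 : (l - 2 * M) * ‖ξ‖ ≤ M * ‖ζ‖ := by linarith
      have g2 := mul_le_mul_of_nonneg_left g1 hc3.le
      have g3 := mul_le_mul_of_nonneg_left f1 hM0
      have g4 := mul_lt_mul_of_pos_right q3 hp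
      nlinarith
    rw [f3, mul_zero] at f1
    have f4 : ‖ζ‖ = 0 := le_antisymm (by
      by_contra hc; exact absurd f1 (not_le.2 (mul_pos hc3 (not_le.1 hc)))) (norm_nonneg _)
    exact ⟨norm_eq_zero.1 f3, rfl, norm_eq_zero.1 f4⟩
  · simp only [sub_zero] at n1 n2
    have f2 := mul_le_mul_of_nonneg_left (norm_sub_le ξ η) hM0
    have g1 : (l - 3 * M) * (‖ξ‖ + ‖η‖) ≤ 0 := by linarith
    have g2 : ‖ξ‖ + ‖η‖ ≤ 0 := by
      by_contra hc; exact absurd g1 (not_le.2 (mul_pos (by linarith) (not_le.1 hc)))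
    exact ⟨norm_eq_zero.1 (by linarith [norm_nonneg ξ, norm_nonneg η]),
      norm_eq_zero.1 (by linarith [norm_nonneg ξ, norm_nonneg η]), rfl⟩

theorem sheet {s : ℝ} (hs : 0 < s) {b : E} (hb : ‖b‖ = 1) (β : ℝ) :
    ∃ l₀ : ℝ, ∀ l, l₀ < l → ∃ (φB ψB φC ψC : E → E) (uB uC : E → ℝ),
      LocDiffeo φB ψB b ∧ LocDiffeo φC ψC (-b) ∧ ContDiffAt ℝ ω uB b ∧ ContDiffAt ℝ ω uC (-b) ∧
      uB b = β ∧ uC (-b) = 2 ^ (-s) - β ∧
      ∃ ρ : ℝ, 0 < ρ ∧ ∀ x ∈ Metric.ball (0 : E) ρ, ∀ x' ∈ Metric.ball (0 : E) ρ,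
        ∀ x'' ∈ Metric.ball (0 : E) ρ,
          ((x = x' ∧ x' = x'') → (2 - l / 2 * ‖x‖ ^ 2) + uB (φB x') + uC (φC x'') =
            kk s (x - φB x') + kk s (x - φC x'') + kk s (φB x' - φC x'')) ∧
          (¬ (x = x' ∧ x' = x'') → (2 - l / 2 * ‖x‖ ^ 2) + uB (φB x') + uC (φC x'') <
            kk s (x - φB x') + kk s (x - φC x'') + kk s (φB x' - φC x'')) := by
  have := FiniteDimensional.complete ℝ E
  have hb0 : b ≠ 0 := by rintro rfl; simp at hb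
  have hbb : b + b ≠ 0 := by rw [← two_smul ℝ b]; simp [hb0]
  obtain ⟨L, ρ, hρ0, hρ1, hmin⟩ := strict_min s hb
  obtain ⟨l₁, hinj⟩ := FF_inj hs hb
  refine ⟨max (3 * L) l₁, fun l hl => ?_⟩
  have hl1 : 3 * L < l := (le_max_left _ _).trans_lt hl
  have hl2 : l₁ < l := (le_max_right _ _).trans_lt hl
  have hF := FF_analytic s l hb
  have hFd := (hF.differentiableAt (by simp)).hasFDerivAt
  let P2 : E × E × E →L[ℝ] E × E × E :=
    ((ContinuousLinearMap.fst ℝ E E).comp (ContinuousLinearMap.snd ℝ E (E × E))).prod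
      ((ContinuousLinearMap.fst ℝ E (E × E)).prod
        ((ContinuousLinearMap.snd ℝ E E).comp (ContinuousLinearMap.snd ℝ E (E × E))))
  let P3 : E × E × E →L[ℝ] E × E × E :=
    ((ContinuousLinearMap.fst ℝ E E).comp (ContinuousLinearMap.snd ℝ E (E × E))).prod
      (((ContinuousLinearMap.snd ℝ E E).comp (ContinuousLinearMap.snd ℝ E (E × E))).prod
        (ContinuousLinearMap.fst ℝ E (E × E)))
  have hP2 : ∀ x y z, P2 (y, x, z) = (x, y, z) := fun _ _ _ => rfl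
  have hP3 : ∀ x y z, P3 (z, x, y) = (x, y, z) := fun _ _ _ => rfl
  obtain ⟨Φ, hΦ, hΦ0, hΦe⟩ := implicit (FF s l b) (0, b, -b) hF (fun w hw => by
    obtain ⟨-, h1, h2⟩ := hinj l hl2 0 w.1 w.2 hw (Or.inl rfl)
    exact Prod.ext h1 h2)
  obtain ⟨B, hB, hB0, hBe⟩ := implicit (FF s l b ∘ P2) (b, 0, -b)
    (ContDiffAt.comp _ (by rw [hP2]; exact hF) P2.contDiff.contDiffAt) (fun w hw => by
      have e := (HasFDerivAt.comp (b, 0, -b) (by rw [hP2]; exact hFd) P2.hasFDerivAt).fderiv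
      rw [e] at hw
      obtain ⟨h1, -, h2⟩ := hinj l hl2 w.1 0 w.2 hw (Or.inr (Or.inl rfl))
      exact Prod.ext h1 h2)
  obtain ⟨C, hC, hC0, hCe⟩ := implicit (FF s l b ∘ P3) (-b, 0, b)
    (ContDiffAt.comp _ (by rw [hP3]; exact hF) P3.contDiff.contDiffAt) (fun w hw => by
      have e := (HasFDerivAt.comp (-b, 0, b) (by rw [hP3]; exact hFd) P3.hasFDerivAt).fderiv
      rw [e] at hw
      obtain ⟨h1, h2, -⟩ := hinj l hl2 w.1 w.2 0 hw (Or.inr (Or.inr rfl))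
      exact Prod.ext h1 h2)
  simp only [Function.comp, hP2, hP3, FF_base] at hΦ hΦ0 hΦe hB hB0 hBe hC hC0 hCe
  have tΦ : Tendsto Φ (𝓝 0) (𝓝 (b, -b)) := hΦ0 ▸ hΦ.continuousAt.tendsto
  have tB : Tendsto B (𝓝 b) (𝓝 (0, -b)) := hB0 ▸ hB.continuousAt.tendsto
  have tC : Tendsto C (𝓝 (-b)) (𝓝 (0, b)) := hC0 ▸ hC.continuousAt.tendsto
  have tΦ1 : Tendsto (fun x => (Φ x).1) (𝓝 0) (𝓝 b) := (continuous_fst.tendsto _).comp tΦ
  have tΦ2 : Tendsto (fun x => (Φ x).2) (𝓝 0) (𝓝 (-b)) := (continuous_snd.tendsto _).comp tΦ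
  have tB1 : Tendsto (fun x => (B x).1) (𝓝 b) (𝓝 0) := (continuous_fst.tendsto _).comp tB
  have tB2 : Tendsto (fun x => (B x).2) (𝓝 b) (𝓝 (-b)) := (continuous_snd.tendsto _).comp tB
  have tC1 : Tendsto (fun x => (C x).1) (𝓝 (-b)) (𝓝 0) := (continuous_fst.tendsto _).comp tC
  have tC2 : Tendsto (fun x => (C x).2) (𝓝 (-b)) (𝓝 b) := (continuous_snd.tendsto _).comp tC
  have zΦ : ∀ᶠ x in 𝓝 (0 : E), FF s l b (x, (Φ x).1, (Φ x).2) = 0 := by
    filter_upwards [(tendsto_id.prodMk_nhds tΦ).eventually hΦe] with x hx using hx.2 rfl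
  have zB : ∀ᶠ y in 𝓝 b, FF s l b ((B y).1, y, (B y).2) = 0 := by
    filter_upwards [(tendsto_id.prodMk_nhds tB).eventually hBe] with x hx using hx.2 rfl
  have zC : ∀ᶠ z in 𝓝 (-b), FF s l b ((C z).1, (C z).2, z) = 0 := by
    filter_upwards [(tendsto_id.prodMk_nhds tC).eventually hCe] with x hx using hx.2 rfl
  have lB : ∀ᶠ x in 𝓝 (0 : E), B (Φ x).1 = (x, (Φ x).2) := by
    filter_upwards [zΦ, (tΦ1.prodMk_nhds (tendsto_id.prodMk_nhds tΦ2)).eventually hBe] with x h1 h2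
      using h2.1 h1
  have lC : ∀ᶠ x in 𝓝 (0 : E), C (Φ x).2 = (x, (Φ x).1) := by
    filter_upwards [zΦ, (tΦ2.prodMk_nhds (tendsto_id.prodMk_nhds tΦ1)).eventually hCe] with x h1 h2
      using h2.1 h1
  have rB : ∀ᶠ y in 𝓝 b, Φ (B y).1 = (y, (B y).2) := by
    filter_upwards [zB, (tB1.prodMk_nhds (tendsto_id.prodMk_nhds tB2)).eventually hΦe] with x h1 h2
      using h2.1 h1
  have rC : ∀ᶠ z in 𝓝 (-b), Φ (C z).1 = ((C z).2, z) := by
    filter_upwards [zC, (tC1.prodMk_nhds (tC2.prodMk_nhds tendsto_id)).eventually hΦe] with x h1 h2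
      using h2.1 h1
  have hC1 : (C (-b)).1 = 0 := by rw [hC0]
  have hC2 : (C (-b)).2 = b := by rw [hC0]
  refine ⟨fun x => (Φ x).1, fun y => (B y).1, fun x => (Φ x).2, fun z => (C z).1,
    fun y => β - l / 2 * ‖y - b‖ ^ 2 + ⟪gg s b + gg s (b + b), y - b⟫_ℝ,
    fun z => GG s l b (C z).1 (C z).2 z - 2 - β,
    ⟨hΦ.fst, hB.fst, by rw [hΦ0], by rw [hB0], ?_, ?_⟩,
    ⟨hΦ.snd, hC.fst, by rw [hΦ0], by rw [hC0], ?_, ?_⟩, ?_, ?_, by simp, ?_, ?_⟩
  · filter_upwards [lB] with x hx using by rw [hx]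
  · filter_upwards [rB] with x hx using by rw [hx]
  · filter_upwards [lC] with x hx using by rw [hx]
  · filter_upwards [rC] with x hx using by rw [hx]
  · exact (contDiffAt_const.sub (contDiffAt_const.mul
      ((contDiffAt_id.sub contDiffAt_const).norm_sq ℝ))).add
      (contDiffAt_const.inner ℝ (contDiffAt_id.sub contDiffAt_const))
  · refine (ContDiffAt.sub ?_ contDiffAt_const).sub contDiffAt_const
    unfold GG
    refine (((((ContDiffAt.comp (g := kk s) _ (contDiffAt_kk s ?_) (hC.fst.sub hC.snd)).add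
      (ContDiffAt.comp (g := kk s) _ (contDiffAt_kk s ?_) (hC.fst.sub contDiffAt_id))).add
      (ContDiffAt.comp (g := kk s) _ (contDiffAt_kk s ?_) (hC.snd.sub contDiffAt_id))).add
      (contDiffAt_const.mul (hC.fst.norm_sq ℝ))).add
      (contDiffAt_const.mul ((hC.snd.sub contDiffAt_const).norm_sq ℝ))).sub
      (contDiffAt_const.inner ℝ (hC.snd.sub contDiffAt_const))
    · simpa [hC1, hC2] using hb0
    · simpa [hC1, hC2] using hb0
    · simpa [hC1, hC2] using hbb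
  · have : ‖b + b‖ = 2 := by rw [← two_smul ℝ b, norm_smul, hb]; norm_num
    simp [GG, kk, hC1, hC2, hb, this]
    ring
  · have ev : ∀ᶠ x in 𝓝 (0 : E), x ∈ Metric.ball (0 : E) ρ ∧ (Φ x).1 ∈ Metric.ball b ρ ∧
        (Φ x).2 ∈ Metric.ball (-b) ρ ∧ FF s l b (x, (Φ x).1, (Φ x).2) = 0 ∧
        B (Φ x).1 = (x, (Φ x).2) ∧ C (Φ x).2 = (x, (Φ x).1) := by
      filter_upwards [Metric.ball_mem_nhds _ hρ0, tΦ1.eventually (Metric.ball_mem_nhds _ hρ0),
        tΦ2.eventually (Metric.ball_mem_nhds _ hρ0), zΦ, lB, lC] with x h1 h2 h3 h4 h5 h6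
        using ⟨h1, h2, h3, h4, h5, h6⟩
    obtain ⟨ρ', hρ', hev⟩ := Metric.eventually_nhds_iff_ball.1 ev
    refine ⟨ρ', hρ', fun x hx x' hx' x'' hx'' => ?_⟩
    obtain ⟨a1, -, -, -, -, -⟩ := hev x hx
    obtain ⟨-, b2, -, -, b5, -⟩ := hev x' hx'
    obtain ⟨c1, c2, c3, c4, c5, c6⟩ := hev x'' hx''
    simp only [c6]
    constructor
    · rintro ⟨rfl, rfl⟩
      simp only [GG]; ring
    · intro hne
      have := hmin l hl1 x'' c1 x a1 _ c2 _ b2 _ c3 c4 (fun h => hne (by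
        rw [Prod.mk.injEq] at h
        have e : x' = x'' := by
          have := b5.symm.trans (h.2 ▸ c5)
          exact (Prod.mk.inj this).1
        exact ⟨h.1.trans e.symm, e⟩))
      simp only [GG] at this ⊢
      linarith

end Crest.Agent.H4.OT
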