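import Mathlib
import Crest.Agent.H4.OTSheet
import Crest.Agent.H4.OTAbstract

set_option autoImplicit false
set_option linter.unusedSectionVars false

namespace Crest.Agent.H4.OT

open MeasureTheory Set Filter Crest.AnalysisR.OT
open scoped Topology ContDiff InnerProductSpace ENNReal NNReal

variable {E : Type*} [NormedAddCommGroup E] [InnerProductSpace ℝ E] [FiniteDimensional ℝ E]

lemma kk_comm (s : ℝ) (x y : E) : kk s (x - y) = kk s (y - x) := by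
  simp [kk, norm_sub_rev]

lemma kk_nonneg (s : ℝ) (x : E) : 0 ≤ kk s x := Real.rpow_nonneg (norm_nonneg _) _

lemma pairCost_eq (s : ℝ) {x y : E} (h : x ≠ y) : pairCost s x y = ENNReal.ofReal (kk s (x - y)) := by
  unfold pairCost kk
  rw [ENNReal.ofReal_rpow_of_pos (norm_pos_iff.2 (sub_ne_zero.2 h))]

lemma pairCost_self {s : ℝ} (hs : 0 < s) (x : E) : pairCost s x x = ⊤ := by
  simp [pairCost, ENNReal.zero_rpow_of_neg (neg_lt_zero.2 hs)]

lemma tripleCost_eq (s : ℝ) {x y z : E} (h1 : x ≠ y) (h2 : x ≠ z) (h3 : y ≠ z) :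
    tripleCost s (x, y, z) = ENNReal.ofReal (kk s (x - y) + kk s (x - z) + kk s (y - z)) := by
  simp only [tripleCost]
  rw [pairCost_eq s h1, pairCost_eq s h2, pairCost_eq s h3,
    ENNReal.ofReal_add (add_nonneg (kk_nonneg _ _) (kk_nonneg _ _)) (kk_nonneg _ _),
    ENNReal.ofReal_add (kk_nonneg _ _) (kk_nonneg _ _)]

/-- centres -/
def ctr (e₀ e₁ : E) : Fin 5 → E := ![0, e₀, -e₀, e₁, -e₁]

/-- distances of centres -/
noncomputable def NN : Fin 5 → Fin 5 → ℝ :=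
  ![![0, 1, 1, 1, 1], ![1, 0, 2, √2, √2], ![1, 2, 0, √2, √2], ![1, √2, √2, 0, 2],
    ![1, √2, √2, 2, 0]]

lemma norm_ctr {e₀ e₁ : E} (h0 : ‖e₀‖ = 1) (h1 : ‖e₁‖ = 1) (h01 : ⟪e₀, e₁⟫_ℝ = 0) (i j : Fin 5) :
    ‖ctr e₀ e₁ i - ctr e₀ e₁ j‖ = NN i j := by
  have key : ∀ a b : ℝ, ‖a • e₀ + b • e₁‖ = √(a ^ 2 + b ^ 2) := fun a b => by
    rw [← Real.sqrt_sq (norm_nonneg (a • e₀ + b • e₁)), norm_add_sq_real]
    simp [norm_smul, h0, h1, inner_smul_left, inner_smul_right, h01]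
  let a : Fin 5 → ℝ := ![0, 1, -1, 0, 0]
  let b : Fin 5 → ℝ := ![0, 0, 0, 1, -1]
  have hc : ∀ i, ctr e₀ e₁ i = a i • e₀ + b i • e₁ := fun i => by
    fin_cases i <;> simp [ctr, a, b]
  have : ctr e₀ e₁ i - ctr e₀ e₁ j = (a i - a j) • e₀ + (b i - b j) • e₁ := by
    rw [hc, hc, sub_smul, sub_smul]; abel
  rw [this, key]
  have h4 : √4 = 2 := by
    rw [show (4 : ℝ) = 2 ^ 2 by norm_num, Real.sqrt_sq (by norm_num)]
  fin_cases i <;> fin_cases j <;> simp [a, b, NN] <;> norm_num [h4]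

lemma NN_ge {i j : Fin 5} (h : i ≠ j) : 1 ≤ NN i j := by
  have : (1 : ℝ) ≤ √2 := Real.one_le_sqrt.2 (by norm_num)
  fin_cases i <;> fin_cases j <;> simp [NN] at h ⊢

lemma centre_lt {s : ℝ} (hs : 0 < s) {e₀ e₁ : E} (h0 : ‖e₀‖ = 1) (h1 : ‖e₁‖ = 1)
    (h01 : ⟪e₀, e₁⟫_ℝ = 0) (w : Fin 5 → ℝ)
    (hw : w = ![2, 2 ^ (-s) / 2, 2 ^ (-s) / 2, 2 ^ (-s) / 2, 2 ^ (-s) / 2])
    (i j k : Fin 5) (h : ¬ special i j k) :
    ENNReal.ofReal (w i) + ENNReal.ofReal (w j) + ENNReal.ofReal (w k) <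
      tripleCost s (ctr e₀ e₁ i, ctr e₀ e₁ j, ctr e₀ e₁ k) := by
  by_cases hij : i = j
  · subst hij; simp [tripleCost, pairCost_self hs]
  by_cases hik : i = k
  · subst hik; simp [tripleCost, pairCost_self hs]
  by_cases hjk : j = k
  · subst hjk; simp [tripleCost, pairCost_self hs]
  have hne : ∀ i j, i ≠ j → ctr e₀ e₁ i ≠ ctr e₀ e₁ j := fun i j hij h => by
    have h2 := norm_ctr h0 h1 h01 i j
    rw [h, sub_self, norm_zero] at h2
    have := NN_ge hij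
    linarith
  have hτ : (0 : ℝ) < 2 ^ (-s) := by positivity
  have hσ : (2 : ℝ) ^ (-s) < √2 ^ (-s) := by
    refine Real.rpow_lt_rpow_of_neg (by positivity) ?_ (by linarith)
    rw [Real.sqrt_lt' (by norm_num)]; norm_num
  have hw0 : ∀ i, 0 ≤ w i := fun i => by
    subst hw; fin_cases i <;> simp <;> positivity
  rw [tripleCost_eq s (hne _ _ hij) (hne _ _ hik) (hne _ _ hjk), ← ENNReal.ofReal_add (hw0 _) (hw0 _),
    ← ENNReal.ofReal_add (add_nonneg (hw0 _) (hw0 _)) (hw0 _), ENNReal.ofReal_lt_ofReal_iff_of_nonneg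
      (add_nonneg (add_nonneg (hw0 _) (hw0 _)) (hw0 _))]
  simp only [kk, norm_ctr h0 h1 h01]
  subst hw
  revert h hij hik hjk
  fin_cases i <;> fin_cases j <;> fin_cases k <;> simp +decide [NN] <;> linarith

lemma special_ind (P : Fin 5 → Fin 5 → Fin 5 → Prop) (s1 : ∀ i j k, P i j k → P j i k)
    (s2 : ∀ i j k, P i j k → P i k j) (h1 : P 0 1 2) (h2 : P 0 3 4) (i j k : Fin 5)
    (h : special i j k) : P i j k := by
  have : ∀ i j k, special i j k → (i, j, k) ∈ ({(0, 1, 2), (0, 2, 1), (1, 0, 2), (1, 2, 0), (2, 0, 1),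
      (2, 1, 0), (0, 3, 4), (0, 4, 3), (3, 0, 4), (3, 4, 0), (4, 0, 3), (4, 3, 0)} :
        Finset (Fin 5 × Fin 5 × Fin 5)) := by decide
  have h' := this i j k h
  simp only [Finset.mem_insert, Finset.mem_singleton, Prod.mk.injEq] at h'
  rcases h' with ⟨rfl, rfl, rfl⟩ | ⟨rfl, rfl, rfl⟩ | ⟨rfl, rfl, rfl⟩ | ⟨rfl, rfl, rfl⟩ |
    ⟨rfl, rfl, rfl⟩ | ⟨rfl, rfl, rfl⟩ | ⟨rfl, rfl, rfl⟩ | ⟨rfl, rfl, rfl⟩ | ⟨rfl, rfl, rfl⟩ |
    ⟨rfl, rfl, rfl⟩ | ⟨rfl, rfl, rfl⟩ | ⟨rfl, rfl, rfl⟩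
  · exact h1
  · exact s2 _ _ _ h1
  · exact s1 _ _ _ h1
  · exact s2 _ _ _ (s1 _ _ _ h1)
  · exact s1 _ _ _ (s2 _ _ _ h1)
  · exact s2 _ _ _ (s1 _ _ _ (s2 _ _ _ h1))
  · exact h2
  · exact s2 _ _ _ h2
  · exact s1 _ _ _ h2
  · exact s2 _ _ _ (s1 _ _ _ h2)
  · exact s1 _ _ _ (s2 _ _ _ h2)
  · exact s2 _ _ _ (s1 _ _ _ (s2 _ _ _ h2))

lemma special_ne {i j k : Fin 5} (h : special i j k) : i ≠ j ∧ i ≠ k ∧ j ≠ k := by
  revert i j k; decide

/-- the five germs with their potentials -/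
lemma exists_germs {s : ℝ} (hs : 0 < s) {e₀ e₁ : E} (h0 : ‖e₀‖ = 1) (h1 : ‖e₁‖ = 1) :
    ∃ (φ ψ : Fin 5 → E → E) (v : Fin 5 → E → ℝ), (∀ x, φ 0 x = x) ∧
      (∀ i, LocDiffeo (φ i) (ψ i) (ctr e₀ e₁ i)) ∧ (∀ i, ContDiffAt ℝ ω (v i) (ctr e₀ e₁ i)) ∧
      ((fun i => v i (ctr e₀ e₁ i)) =
        ![2, 2 ^ (-s) / 2, 2 ^ (-s) / 2, 2 ^ (-s) / 2, 2 ^ (-s) / 2]) ∧
      ∃ ρ : ℝ, 0 < ρ ∧ ∀ i j k, special i j k → ∀ x ∈ Metric.ball (0 : E) ρ,
        ∀ x' ∈ Metric.ball (0 : E) ρ, ∀ x'' ∈ Metric.ball (0 : E) ρ,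
          ((x = x' ∧ x' = x'') → v i (φ i x) + v j (φ j x') + v k (φ k x'') =
            kk s (φ i x - φ j x') + kk s (φ i x - φ k x'') + kk s (φ j x' - φ k x'')) ∧
          (¬ (x = x' ∧ x' = x'') → v i (φ i x) + v j (φ j x') + v k (φ k x'') <
            kk s (φ i x - φ j x') + kk s (φ i x - φ k x'') + kk s (φ j x' - φ k x'')) := by
  obtain ⟨l1, hl1⟩ := sheet hs h0 (2 ^ (-s) / 2)
  obtain ⟨l2, hl2⟩ := sheet hs h1 (2 ^ (-s) / 2)
  obtain ⟨φB, ψB, φC, ψC, uB, uC, dB, dC, cB, cC, vB, vC, ρ1, hρ1, H1⟩ :=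
    hl1 (max l1 l2 + 1) (by linarith [le_max_left l1 l2])
  obtain ⟨φD, ψD, φE, ψE, uD, uE, dD, dE, cD, cE, vD, vE, ρ2, hρ2, H2⟩ :=
    hl2 (max l1 l2 + 1) (by linarith [le_max_right l1 l2])
  refine ⟨![fun x => x, φB, φC, φD, φE], ![fun x => x, ψB, ψC, ψD, ψE],
    ![fun x => 2 - (max l1 l2 + 1) / 2 * ‖x‖ ^ 2, uB, uC, uD, uE], fun x => rfl, ?_, ?_, ?_,
    min ρ1 ρ2, lt_min hρ1 hρ2, ?_⟩
  · intro i
    fin_cases i
    exacts [LocDiffeo.id, dB, dC, dD, dE]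
  · intro i
    fin_cases i
    exacts [contDiffAt_const.sub (contDiffAt_const.mul (contDiffAt_id.norm_sq ℝ)), cB, cC, cD, cE]
  · ext i
    fin_cases i <;> simp [ctr, vB, vC, vD, vE] <;> ring
  · set Φ : Fin 5 → E → E := ![fun x => x, φB, φC, φD, φE] with hΦ
    refine special_ind _ ?_ ?_ ?_ ?_
    · intro i j k h x hx x' hx' x'' hx''
      obtain ⟨a, b⟩ := h x' hx' x hx x'' hx''
      rw [kk_comm s (Φ i x') (Φ j x)] at a b
      exact ⟨fun h => by linarith [a ⟨h.1.symm, h.1.trans h.2⟩],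
        fun h => by linarith [b fun h' => h ⟨h'.1.symm, h'.1.trans h'.2⟩]⟩
    · intro i j k h x hx x' hx' x'' hx''
      obtain ⟨a, b⟩ := h x hx x'' hx'' x' hx'
      rw [kk_comm s (Φ j x'') (Φ k x')] at a b
      exact ⟨fun h => by linarith [a ⟨h.1.trans h.2, h.2.symm⟩],
        fun h => by linarith [b fun h' => h ⟨h'.1.trans h'.2, h'.2.symm⟩]⟩
    · intro x hx x' hx' x'' hx''
      exact H1 x (Metric.ball_subset_ball (min_le_left _ _) hx)
        x' (Metric.ball_subset_ball (min_le_left _ _) hx')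
        x'' (Metric.ball_subset_ball (min_le_left _ _) hx'')
    · intro x hx x' hx' x'' hx''
      exact H2 x (Metric.ball_subset_ball (min_le_right _ _) hx)
        x' (Metric.ball_subset_ball (min_le_right _ _) hx')
        x'' (Metric.ball_subset_ball (min_le_right _ _) hx'')

variable [MeasurableSpace E] [BorelSpace E]

lemma exists_data {s : ℝ} (hs : 0 < s) {e₀ e₁ : E} (h0 : ‖e₀‖ = 1) (h1 : ‖e₁‖ = 1)
    (h01 : ⟪e₀, e₁⟫_ℝ = 0) :
    ∃ (φ ψ : Fin 5 → E → E), (∀ i, LocDiffeo (φ i) (ψ i) (ctr e₀ e₁ i)) ∧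
      ∃ r₀ : ℝ, 0 < r₀ ∧ ∀ r, 0 < r → r ≤ r₀ → ∃ (φ' ψ' : Fin 5 → E → E) (u : E → ℝ≥0∞),
        (∀ i, EqOn (φ' i) (φ i) (Metric.ball 0 r)) ∧
        ∀ m : Measure E, m ≠ 0 → (∀ᵐ a ∂m, a ∈ Metric.ball (0 : E) r) →
          (∀ t, m (Metric.sphere 0 t) = 0) → Data s (Metric.ball 0 r) φ' ψ' m u := by
  classical
  obtain ⟨φ, ψ, v, hφ0, hD, hv, hw, ρ, hρ, hsp⟩ := exists_germs hs h0 h1
  set p := ctr e₀ e₁ with hp
  have hτ : (0 : ℝ) < 2 ^ (-s) := by positivity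
  have hτ1 : (2 : ℝ) ^ (-s) ≤ 1 := Real.rpow_le_one_of_one_le_of_nonpos (by norm_num) (by linarith)
  have hwb : ∀ i, 0 < v i (p i) ∧ v i (p i) < 3 := fun i => by
    rw [congrFun hw i]
    constructor <;> fin_cases i <;> simp <;> linarith
  -- open neighbourhoods of the centres
  have hV : ∀ i, ∃ V : Set E, IsOpen V ∧ p i ∈ V ∧ ∀ y ∈ V, ContinuousAt (ψ i) y ∧
      ContinuousAt (v i) y ∧ dist y (p i) < 1 / 4 ∧ 0 < v i y ∧ v i y < 3 := fun i => by
    have : ∀ᶠ y in 𝓝 (p i), ContinuousAt (ψ i) y ∧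
      ContinuousAt (v i) y ∧ dist y (p i) < 1 / 4 ∧ 0 < v i y ∧ v i y < 3 := by
      filter_upwards [(hD i).hψ.eventually (by simp), (hv i).eventually (by simp),
        Metric.ball_mem_nhds (p i) (show (0 : ℝ) < 1 / 4 by norm_num),
        (hv i).continuousAt.eventually (lt_mem_nhds (hwb i).1),
        (hv i).continuousAt.eventually (gt_mem_nhds (hwb i).2)] with y a b c d e
        using ⟨a.continuousAt, b.continuousAt, c, d, e⟩
    obtain ⟨V, h1, h2, h3⟩ := eventually_nhds_iff.1 this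
    exact ⟨V, h2, h3, h1⟩
  choose V hVo hpV hV using hV
  have hfar : ∀ i j, i ≠ j → ∀ y ∈ V i, ∀ z ∈ V j, 1 / 2 < ‖y - z‖ := fun i j hij y hy z hz => by
    have a1 := (hV i y hy).2.2.1
    have a2 := (hV j z hz).2.2.1
    have a3 := NN_ge hij
    rw [← norm_ctr h0 h1 h01, ← dist_eq_norm] at a3
    have := dist_triangle4 (p i) y z (p j)
    rw [dist_comm] at a1
    rw [← dist_eq_norm]
    linarith
  have hVd : ∀ i j, ∀ y ∈ V i, y ∈ V j → i = j := fun i j y hy hy' => by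
    by_contra hij
    have := hfar i j hij y hy y hy'
    norm_num at this
  have ev1 : ∀ᶠ x in 𝓝 (0 : E), ∀ i, ContinuousAt (φ i) x ∧ ψ i (φ i x) = x ∧ φ i x ∈ V i := by
    rw [eventually_all]
    intro i
    filter_upwards [(hD i).hφ.eventually (by simp), (hD i).left,
      (hD i).tendsto.eventually ((hVo i).mem_nhds (hpV i))] with x a b c using ⟨a.continuousAt, b, c⟩
  have ev2 : ∀ᶠ q in 𝓝 ((0, 0, 0) : E × E × E), ∀ i j k, ¬ special i j k →
      ENNReal.ofReal (v i (φ i q.1)) + ENNReal.ofReal (v j (φ j q.2.1)) +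
        ENNReal.ofReal (v k (φ k q.2.2)) < tripleCost s (φ i q.1, φ j q.2.1, φ k q.2.2) := by
    simp only [eventually_all]
    intro i j k hn
    have t1 : Tendsto (fun q : E × E × E => φ i q.1) (𝓝 (0, 0, 0)) (𝓝 (p i)) :=
      (hD i).tendsto.comp (continuous_fst.tendsto _)
    have t2 : Tendsto (fun q : E × E × E => φ j q.2.1) (𝓝 (0, 0, 0)) (𝓝 (p j)) :=
      (hD j).tendsto.comp (continuous_snd.fst.tendsto _)
    have t3 : Tendsto (fun q : E × E × E => φ k q.2.2) (𝓝 (0, 0, 0)) (𝓝 (p k)) :=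
      (hD k).tendsto.comp (continuous_snd.snd.tendsto _)
    have u1 := (ENNReal.tendsto_ofReal ((hv i).continuousAt.tendsto.comp t1))
    have u2 := (ENNReal.tendsto_ofReal ((hv j).continuousAt.tendsto.comp t2))
    have u3 := (ENNReal.tendsto_ofReal ((hv k).continuousAt.tendsto.comp t3))
    have c := ((continuous_tripleCost s).tendsto _).comp (t1.prodMk_nhds (t2.prodMk_nhds t3))
    exact ((u1.add u2).add u3).eventually_lt c (centre_lt hs h0 h1 h01 _ hw i j k hn)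
  obtain ⟨r1, hr1, hev1⟩ := Metric.eventually_nhds_iff_ball.1 ev1
  obtain ⟨r2, hr2, hev2⟩ := Metric.eventually_nhds_iff_ball.1 ev2
  refine ⟨φ, ψ, hD, min ρ (min r1 r2), by positivity, fun r hr hrr => ?_⟩
  have hrρ : r ≤ ρ := hrr.trans (min_le_left _ _)
  have hrr1 : r ≤ r1 := hrr.trans ((min_le_right _ _).trans (min_le_left _ _))
  have hrr2 : r ≤ r2 := hrr.trans ((min_le_right _ _).trans (min_le_right _ _))
  set A := Metric.ball (0 : E) r with hA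
  have hA1 : ∀ a ∈ A, ∀ i, ContinuousAt (φ i) a ∧ ψ i (φ i a) = a ∧ φ i a ∈ V i :=
    fun a ha => hev1 a (Metric.ball_subset_ball hrr1 ha)
  have hA2 : ∀ i j k, ¬ special i j k → ∀ a ∈ A, ∀ a' ∈ A, ∀ a'' ∈ A,
      ENNReal.ofReal (v i (φ i a)) + ENNReal.ofReal (v j (φ j a')) +
        ENNReal.ofReal (v k (φ k a'')) < tripleCost s (φ i a, φ j a', φ k a'') := by
    intro i j k hn a ha a' ha' a'' ha''
    refine hev2 (a, a', a'') ?_ i j k hn
    rw [← ball_prod_same, ← ball_prod_same]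
    exact ⟨Metric.ball_subset_ball hrr2 ha, Metric.ball_subset_ball hrr2 ha',
      Metric.ball_subset_ball hrr2 ha''⟩
  set φ' : Fin 5 → E → E := fun i => A.piecewise (φ i) (fun x => x) with hφ'
  set ψ' : Fin 5 → E → E := fun i => (V i).piecewise (ψ i) (fun x => x) with hψ'
  set u : E → ℝ≥0∞ := fun x => ENNReal.ofReal (∑ i, (V i).piecewise (v i) (fun _ => 0) x) with hu
  have e1 : ∀ i, ∀ a ∈ A, φ' i a = φ i a := fun i a ha => piecewise_eq_of_mem _ _ _ ha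
  have e2 : ∀ i, ∀ a ∈ A, u (φ i a) = ENNReal.ofReal (v i (φ i a)) := fun i a ha => by
    simp only [hu]
    rw [Finset.sum_eq_single i, piecewise_eq_of_mem _ _ _ (hA1 a ha i).2.2]
    · intro j _ hji
      exact piecewise_eq_of_notMem _ _ _ fun h => hji (hVd j i _ h (hA1 a ha i).2.2)
    · simp
  have hne : ∀ i j, i ≠ j → ∀ a ∈ A, ∀ a' ∈ A, φ i a ≠ φ j a' := fun i j hij a ha a' ha' h =>
    hij (hVd i j _ (hA1 a ha i).2.2 (h ▸ (hA1 a' ha' j).2.2))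
  have e3 : ∀ i j k, ∀ a ∈ A, ∀ a' ∈ A, ∀ a'' ∈ A, ENNReal.ofReal (v i (φ i a)) +
      ENNReal.ofReal (v j (φ j a')) + ENNReal.ofReal (v k (φ k a'')) =
      ENNReal.ofReal (v i (φ i a) + v j (φ j a') + v k (φ k a'')) := by
    intro i j k a ha a' ha' a'' ha''
    have b1 := (hV i _ (hA1 a ha i).2.2).2.2.2.1.le
    have b2 := (hV j _ (hA1 a' ha' j).2.2).2.2.2.1.le
    have b3 := (hV k _ (hA1 a'' ha'' k).2.2).2.2.2.1.le
    rw [ENNReal.ofReal_add (add_nonneg b1 b2) b3, ENNReal.ofReal_add b1 b2]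
  have e4 : ∀ i j k, special i j k → ∀ a ∈ A, ∀ a' ∈ A, ∀ a'' ∈ A,
      tripleCost s (φ i a, φ j a', φ k a'') = ENNReal.ofReal
        (kk s (φ i a - φ j a') + kk s (φ i a - φ k a'') + kk s (φ j a' - φ k a'')) := by
    intro i j k h a ha a' ha' a'' ha''
    obtain ⟨n1, n2, n3⟩ := special_ne h
    exact tripleCost_eq s (hne _ _ n1 _ ha _ ha') (hne _ _ n2 _ ha _ ha'') (hne _ _ n3 _ ha' _ ha'')
  have e5 : ∀ i j k, ∀ a ∈ A, ∀ a' ∈ A, ∀ a'' ∈ A, ¬ (special i j k ∧ a = a' ∧ a' = a'') →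
      u (φ i a) + u (φ j a') + u (φ k a'') < tripleCost s (φ i a, φ j a', φ k a'') := by
    intro i j k a ha a' ha' a'' ha'' hn
    rw [e2 i a ha, e2 j a' ha', e2 k a'' ha'']
    by_cases h : special i j k
    · rw [e3 i j k a ha a' ha' a'' ha'', e4 i j k h a ha a' ha' a'' ha'']
      have := (hsp i j k h a (Metric.ball_subset_ball hrρ ha) a' (Metric.ball_subset_ball hrρ ha')
        a'' (Metric.ball_subset_ball hrρ ha'')).2 (fun h' => hn ⟨h, h'⟩)
      have b1 := (hV i _ (hA1 a ha i).2.2).2.2.2.1.le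
      have b2 := (hV j _ (hA1 a' ha' j).2.2).2.2.2.1.le
      have b3 := (hV k _ (hA1 a'' ha'' k).2.2).2.2.2.1.le
      exact (ENNReal.ofReal_lt_ofReal_iff_of_nonneg (by positivity)).2 this
    · exact hA2 i j k h a ha a' ha' a'' ha''
  have e6 : ∀ i j k, special i j k → ∀ a ∈ A,
      u (φ i a) + u (φ j a) + u (φ k a) = tripleCost s (φ i a, φ j a, φ k a) := by
    intro i j k h a ha
    rw [e2 i a ha, e2 j a ha, e2 k a ha, e3 i j k a ha a ha a ha, e4 i j k h a ha a ha a ha,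
      (hsp i j k h a (Metric.ball_subset_ball hrρ ha) a (Metric.ball_subset_ball hrρ ha)
        a (Metric.ball_subset_ball hrρ ha)).1 ⟨rfl, rfl⟩]
  refine ⟨φ', ψ', u, fun i a ha => e1 i a ha, fun m hm0 hmA hmS => ?_⟩
  refine ⟨measurableSet_ball, fun i => ?_, fun i => ?_, fun x => ?_, fun i a ha => ?_,
    fun i j a ha a' ha' h => ?_, hm0, hmA, ?_, ?_, ?_, ?_, ⟨ENNReal.ofReal 3, by simp, ?_⟩, ?_,
    ⟨fun x => ‖x‖, measurable_norm, fun t => ?_⟩⟩
  · exact ContinuousOn.measurable_piecewise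
      (fun a ha => (hA1 a ha i).1.continuousWithinAt) continuousOn_id measurableSet_ball
  · exact ContinuousOn.measurable_piecewise
      (fun a ha => (hV i a ha).1.continuousWithinAt) continuousOn_id (hVo i).measurableSet
  · simp only [hφ', piecewise, hφ0, ite_self]
  · rw [e1 i a ha]
    simp only [hψ']
    rw [piecewise_eq_of_mem _ _ _ (hA1 a ha i).2.2, (hA1 a ha i).2.1]
  · rw [e1 i a ha, e1 j a' ha'] at h
    by_contra hij; exact hne i j hij a ha a' ha' h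
  · refine ENNReal.measurable_ofReal.comp (Finset.measurable_sum _ fun i _ => ?_)
    exact ContinuousOn.measurable_piecewise
      (fun a ha => (hV i a ha).2.1.continuousWithinAt) continuousOn_const (hVo i).measurableSet
  · intro i j k a ha a' ha' a'' ha''
    rw [e1 i a ha, e1 j a' ha', e1 k a'' ha'']
    by_cases h : special i j k ∧ a = a' ∧ a' = a''
    · obtain ⟨h, rfl, rfl⟩ := h
      exact (e6 i j k h a ha).le
    · exact (e5 i j k a ha a' ha' a'' ha'' h).le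
  · intro i j k a ha a' ha' a'' ha''
    rw [e1 i a ha, e1 j a' ha', e1 k a'' ha'']
    intro heq
    by_contra h
    exact (e5 i j k a ha a' ha' a'' ha'' h).ne heq
  · intro i j k h a ha
    rw [e1 i a ha, e1 j a ha, e1 k a ha]
    exact e6 i j k h a ha
  · intro i a ha
    rw [e1 i a ha, e2 i a ha]
    exact ENNReal.ofReal_le_ofReal (hV i _ (hA1 a ha i).2.2).2.2.2.2.le
  · intro ε hε
    obtain ⟨ε₁, hε₁, hε₂⟩ := ENNReal.lt_iff_exists_nnreal_btwn.1 hε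
    have hε₁' : (0 : ℝ) < ε₁ := by exact_mod_cast hε₁
    have hc : UniformContinuousOn (fun t : ℝ => t ^ (-s)) (Icc (1 / 2) 3) :=
      isCompact_Icc.uniformContinuousOn_of_continuous
        (continuousOn_id.rpow_const fun t ht => Or.inl (by have := ht.1; simp only [id]; linarith))
    obtain ⟨δ, hδ, hδ'⟩ := Metric.uniformContinuousOn_iff.1 hc (ε₁ / 2) (by positivity)
    refine ⟨δ, hδ, fun a ha a' ha' hd j k h => ?_⟩
    rw [e1 j a' ha', e1 k a' ha']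
    have f1 := e4 0 j k h a ha a' ha' a' ha'
    have f2 := e4 0 j k h a' ha' a' ha' a' ha'
    rw [hφ0] at f1 f2
    obtain ⟨n1, n2, -⟩ := special_ne h
    have hmem : ∀ i, 0 ≠ i → ∀ b ∈ A, ‖b - φ i a'‖ ∈ Icc (1 / 2 : ℝ) 3 := fun i hi b hb => by
      have g1 := (hA1 b hb 0).2.2
      rw [hφ0] at g1
      have g2 := (hA1 a' ha' i).2.2
      refine ⟨(hfar 0 i hi b g1 _ g2).le, ?_⟩
      have a1 := (hV 0 _ g1).2.2.1
      have a2 := (hV i _ g2).2.2.1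
      have a3 : dist (p 0) (p i) ≤ 2 := by
        rw [dist_eq_norm, norm_ctr h0 h1 h01]
        fin_cases i <;> simp [NN]
      have := dist_triangle4 b (p 0) (p i) (φ i a')
      rw [dist_comm] at a2
      rw [← dist_eq_norm]
      linarith
    have hk : ∀ i, 0 ≠ i → kk s (a - φ i a') ≤ kk s (a' - φ i a') + ε₁ / 2 := fun i hi => by
      have := hδ' _ (hmem i hi a ha) _ (hmem i hi a' ha') (by
        refine lt_of_le_of_lt ?_ hd
        rw [Real.dist_eq, dist_eq_norm]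
        simpa using abs_norm_sub_norm_le (a - φ i a') (a' - φ i a'))
      rw [Real.dist_eq, abs_lt] at this
      simp only [kk]; linarith [this.2]
    rw [f1, f2]
    calc ENNReal.ofReal _ ≤ ENNReal.ofReal ((kk s (a' - φ j a') + kk s (a' - φ k a') +
          kk s (φ j a' - φ k a')) + ε₁) :=
          ENNReal.ofReal_le_ofReal (by linarith [hk j n1, hk k n2])
      _ ≤ _ := ENNReal.ofReal_add_le.trans (by
          rw [ENNReal.ofReal_coe_nnreal]; exact add_le_add le_rfl hε₂.le)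
  · convert hmS t using 2
    ext x; simp

end Crest.Agent.H4.OT
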