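import Crest.Agent.H4.P3LabA

/-! Row 40, P3: `labStmt`. -/

set_option autoImplicit false

namespace Crest.Agent.H4.P3
open MeasureTheory Metric Set Filter Topology
open Crest.Agent.H2.Gm Crest.Agent.Lead.P3

lemma norm_e (t : ℝ) : ‖e t‖ = 1 := by simp [e, Complex.norm_exp_ofReal_mul_I]

lemma e_add (a b : ℝ) : e (a + b) = e a * e b := by
  simp [e, add_mul, Complex.exp_add]

lemma e_pi (t : ℝ) : e (t + Real.pi) = - e t := by
  rw [e_add]; simp [e, Complex.exp_pi_mul_I]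

lemma e_two_pi (t : ℝ) : e (t + 2 * Real.pi) = e t := by
  rw [two_mul, ← add_assoc, e_pi, e_pi, neg_neg]

lemma e_lip (a b : ℝ) : ‖e a - e b‖ ≤ |a - b| := by
  have : e a - e b = e b * (Complex.exp (Complex.I * ((a - b : ℝ) : ℂ)) - 1) := by
    have h : e a = e b * e (a - b) := by rw [← e_add]; congr 1; ring
    rw [h, mul_sub, mul_one, e, e, mul_comm Complex.I]
  rw [this, norm_mul, norm_e, one_mul]
  exact Real.norm_exp_I_mul_ofReal_sub_one_le

lemma e_eq (t : ℝ) : e t = (Real.cos t : ℂ) + (Real.sin t : ℂ) * Complex.I := by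
  simp [e, Complex.exp_mul_I]

lemma e_hex (s : ℝ) : e s + e (s + 2 * Real.pi / 3) = e (s + Real.pi / 3) := by
  have h1 : e s = e (s + Real.pi / 3) * e (-(Real.pi / 3)) := by rw [← e_add]; congr 1; ring
  have h2 : e (s + 2 * Real.pi / 3) = e (s + Real.pi / 3) * e (Real.pi / 3) := by
    rw [← e_add]; congr 1; ring
  rw [h1, h2, ← mul_add, e_eq (-(Real.pi / 3)), e_eq (Real.pi / 3), Real.cos_neg, Real.sin_neg,
    Real.cos_pi_div_three]
  push_cast
  ring

lemma cont_e : Continuous e := by unfold e; fun_prop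

lemma meas_T (C : Col) (u : ℂ) (j : Fin 5) : MeasurableSet {t : ℝ | u + e t ∈ C.A j} :=
  (C.meas j).preimage (continuous_const.add cont_e).measurable

/-- colour `j` is seen near angle `s` on unit circles centred near `x` -/
def K (C : Col) (x : ℂ) (j : Fin 5) (s : ℝ) : Prop :=
  ∃ g > 0, ∀ᶠ δ : ℝ in 𝓝[>] 0, ∀ η > 0, ∃ u, dist u x < η ∧
    ENNReal.ofReal (g * δ) ≤ volume (Icc (s - δ) (s + δ) ∩ {t : ℝ | u + e t ∈ C.A j})

lemma ev_lt {a : ℝ} (ha : 0 < a) : ∀ᶠ δ : ℝ in 𝓝[>] 0, 0 < δ ∧ δ < a :=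
  Filter.Eventually.and self_mem_nhdsWithin (nhdsWithin_le_nhds (gt_mem_nhds ha))

lemma ev_scale {P : ℝ → Prop} (h : ∀ᶠ r : ℝ in 𝓝[>] 0, P r) {c : ℝ} (hc : 0 < c) :
    ∀ᶠ δ : ℝ in 𝓝[>] 0, P (c * δ) := by
  have : Tendsto (fun δ : ℝ => c * δ) (𝓝[>] 0) (𝓝[>] 0) := by
    refine tendsto_nhdsWithin_iff.2 ⟨?_, ?_⟩
    · have : Tendsto (fun δ : ℝ => c * δ) (𝓝 0) (𝓝 (c * 0)) :=
        (continuous_const.mul continuous_id).tendsto 0
      rw [mul_zero] at this
      exact this.mono_left nhdsWithin_le_nhds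
    · filter_upwards [self_mem_nhdsWithin] with δ h using mul_pos hc h
  exact this.eventually h

lemma K.L0 {C : Col} {x : ℂ} {j : Fin 5} {s : ℝ} (h : K C x j s) : x + e s ∈ closure (C.A j) := by
  obtain ⟨g, hg, h⟩ := h
  refine Metric.mem_closure_iff.2 fun ε hε => ?_
  obtain ⟨δ, h1, h2, h3⟩ := (h.and (ev_lt (half_pos hε))).exists
  obtain ⟨u, hu, h4⟩ := h1 _ (half_pos hε)
  obtain ⟨t, ⟨t1, t2⟩, t3⟩ := nonempty_of_measure_ne_zero
    (lt_of_lt_of_le (ENNReal.ofReal_pos.2 (mul_pos hg h2)) h4).ne'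
  refine ⟨_, t3, ?_⟩
  rw [dist_comm, dist_eq_norm]
  rw [dist_eq_norm] at hu
  have h5 : u + e t - (x + e s) = (u - x) + (e t - e s) := by ring
  have h6 : |t - s| ≤ δ := abs_le.2 ⟨by linarith, by linarith⟩
  rw [h5]
  linarith [norm_add_le (u - x) (e t - e s), e_lip t s]

lemma K.L3 (hG : GeoStmt) {C : Col} {x : ℂ} {j : Fin 5} {s : ℝ} (h : K C x j s) {y : ℂ}
    (hy : y ∈ C.A j) (hd : dist y (x + e s) = 1) : y = x ∨ y = x + 2 * e s := by
  by_contra hcon
  push Not at hcon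
  obtain ⟨g, hg, h⟩ := h
  rw [dist_eq_norm] at hd
  obtain ⟨t, ht⟩ : ∃ t, e t = y - (x + e s) := by
    refine ⟨Complex.arg (y - (x + e s)), ?_⟩
    have := Complex.norm_mul_exp_arg_mul_I (y - (x + e s))
    rw [hd] at this
    simpa [e] using this
  have hsin : Real.sin (s - t) ≠ 0 := by
    intro h0
    have h1 : e s = e t * e (s - t) := by rw [← e_add]; congr 1; ring
    have h2 : Real.cos (s - t) = 1 ∨ Real.cos (s - t) = -1 := by
      have := Real.sin_sq_add_cos_sq (s - t)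
      rw [h0] at this
      exact mul_self_eq_one_iff.1 (by nlinarith)
    rw [e_eq (s - t), h0] at h1
    rcases h2 with h2 | h2 <;> rw [h2] at h1 <;> push_cast at h1
    · exact hcon.2 (by linear_combination -ht - h1)
    · exact hcon.1 (by linear_combination -ht + h1)
  have hσ : 0 < |Real.sin (s - t)| := abs_pos.2 hsin
  obtain ⟨L, -, r₀, hr₀, H⟩ := hG.2 _ hσ
  obtain ⟨-, -, hlow⟩ := H s t le_rfl
  set σ := |Real.sin (s - t)|
  have h3 := ev_scale (C.d0_compl hy (σ * g / 10) (by positivity)) (c := 3) (by norm_num)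
  obtain ⟨δ, ⟨h1, h4⟩, h2, h5⟩ := ((h.and h3).and (ev_lt hr₀)).exists
  obtain ⟨u, hu, h6⟩ := h1 δ h2
  set Θ := Icc (s - δ) (s + δ) ∩ {t : ℝ | u + e t ∈ C.A j}
  have hΘ : MeasurableSet Θ := measurableSet_Icc.inter (meas_T C u j)
  have h7 := hlow (Θ ×ˢ Icc (t - δ) (t + δ)) (hΘ.prod measurableSet_Icc) (by
    rintro ⟨p, q⟩ ⟨⟨⟨p1, p2⟩, -⟩, q1, q2⟩
    exact ⟨⟨by linarith, by linarith⟩, by linarith, by linarith⟩)
  have h8 : Xi '' (Θ ×ˢ Icc (t - δ) (t + δ)) ⊆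
      (fun z => u + z) ⁻¹' ((C.A j)ᶜ ∩ ball y (3 * δ)) := by
    rintro _ ⟨⟨p, q⟩, ⟨⟨⟨p1, p2⟩, p3⟩, q1, q2⟩, rfl⟩
    refine ⟨fun hm => C.proper j _ hm _ p3 ?_, ?_⟩
    · rw [dist_eq_norm]
      simp only [Xi]
      rw [show u + (e p + e q) - (u + e p) = e q by ring, norm_e]
    · rw [mem_ball, dist_eq_norm]
      rw [dist_eq_norm] at hu
      simp only [Xi]
      have h9 : u + (e p + e q) - y = (u - x) + (e p - e s) + (e q - e t) := by
        rw [ht]; ring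
      have hp : |p - s| ≤ δ := abs_le.2 ⟨by linarith, by linarith⟩
      have hq : |q - t| ≤ δ := abs_le.2 ⟨by linarith, by linarith⟩
      rw [h9]
      linarith [norm_add₃_le (a := u - x) (b := e p - e s) (c := e q - e t), e_lip p s, e_lip q t]
  have h10 := (measure_mono (μ := volume) h8).trans_eq (measure_preimage_add _ _ _)
  rw [Measure.volume_eq_prod, Measure.prod_prod, Real.volume_Icc] at h7
  have h11 : ENNReal.ofReal (σ / 2) * (ENNReal.ofReal (g * δ) *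
      ENNReal.ofReal (t + δ - (t - δ))) ≤ ENNReal.ofReal (σ * g / 10 * (3 * δ) ^ 2) :=
    le_trans (by gcongr) (h7.trans (h10.trans h4))
  rw [← ENNReal.ofReal_mul (by positivity), ← ENNReal.ofReal_mul (by positivity),
    ENNReal.ofReal_le_ofReal_iff (by positivity)] at h11
  have : 0 < σ * g * δ ^ 2 := by positivity
  nlinarith

lemma K.L2 (hB : BasicStmt) (hG : GeoStmt) {C : Col} {x : ℂ} {j : Fin 5} {S : Set ℝ}
    (hS : ∀ s ∈ S, K C x j s) {s : ℝ} (hs : Dens S s) (h : K C x j (s + Real.pi / 3)) : False := by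
  obtain ⟨g, hg, h⟩ := h
  obtain ⟨L, hL, r₀, hr₀, H⟩ := hG.2 (1 / 2) (by norm_num)
  have h3 : (1:ℝ) ≤ √3 := Real.one_le_sqrt.2 (by norm_num)
  obtain ⟨hinv, -, -⟩ := H (s + Real.pi / 3) (s + 2 * Real.pi / 3 + Real.pi) (by
    rw [show s + Real.pi / 3 - (s + 2 * Real.pi / 3 + Real.pi) = -(Real.pi / 3 + Real.pi) by ring,
      Real.sin_neg, Real.sin_add_pi, neg_neg, Real.sin_pi_div_three, abs_of_nonneg (by positivity)]
    linarith)
  obtain ⟨-, hsplit, -⟩ := H s (s + 2 * Real.pi / 3) (by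
    rw [show s - (s + 2 * Real.pi / 3) = -(Real.pi - Real.pi / 3) by ring,
      Real.sin_neg, Real.sin_pi_sub, Real.sin_pi_div_three, abs_neg, abs_of_nonneg (by positivity)]
    linarith)
  have hL0 : 0 < L := by linarith
  have h4 := ev_scale (hs (g / (4 * L ^ 2)) (by positivity)) (c := 2 * L) (by positivity)
  obtain ⟨δ, ⟨⟨h1, h4⟩, h2, h5⟩, -, h6⟩ := (((h.and h4).and
    (ev_lt (a := r₀ / (2 * L)) (by positivity))).and (ev_lt one_pos)).exists
  obtain ⟨u, hu, h7⟩ := h1 δ h2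
  rw [dist_eq_norm] at hu
  rw [lt_div_iff₀ (by positivity)] at h5
  have h8 := hB.2.1 (fun p s' => |p - (s + Real.pi / 3)| ≤ r₀ ∧ ∃ t',
    |t' - (s + 2 * Real.pi / 3 + Real.pi)| ≤ r₀ ∧ e p + e t' = e s' - (u - x)) L
    (Icc (s - 2 * L * δ) (s + 2 * L * δ) \ S) hL0.le (by
      rintro p₁ s₁ p₂ s₂ ⟨a1, t₁, a2, a3⟩ ⟨b1, t₂, b2, b3⟩
      have := (hinv p₁ t₁ p₂ t₂ a1 a2 b1 b2).1
      rw [a3, b3, show e s₁ - (u - x) - (e s₂ - (u - x)) = e s₁ - e s₂ by ring] at this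
      exact this.trans (mul_le_mul_of_nonneg_left (e_lip _ _) hL0.le))
  have h9 : ENNReal.ofReal (g * δ) ≤ ENNReal.ofReal L *
      ENNReal.ofReal (g / (4 * L ^ 2) * (2 * L * δ)) := by
    refine h7.trans (le_trans (measure_mono ?_) (h8.trans (by gcongr)))
    rintro p ⟨⟨p1, p2⟩, p3⟩
    have hp : |p - (s + Real.pi / 3)| ≤ δ := abs_le.2 ⟨by linarith, by linarith⟩
    have hq : ‖u - x + e p - (e s + e (s + 2 * Real.pi / 3))‖ ≤ 2 * δ := by
      rw [e_hex, add_sub_assoc]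
      linarith [norm_add_le (u - x) (e p - e (s + Real.pi / 3)), e_lip p (s + Real.pi / 3)]
    obtain ⟨s', t', q1, q2, q3⟩ := hsplit (u - x + e p) (by nlinarith)
    have q4 : |s' - s| ≤ 2 * L * δ := by nlinarith
    have q5 : |t' - (s + 2 * Real.pi / 3)| ≤ r₀ := by nlinarith
    refine ⟨s', ⟨⟨by linarith [(abs_le.1 q4).1], by linarith [(abs_le.1 q4).2]⟩, fun hm => ?_⟩,
      by nlinarith, t' + Real.pi, by rwa [add_sub_add_right_eq_sub], by
        rw [e_pi]; linear_combination q1⟩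
    have q6 := (hS s' hm).L3 hG p3 (by
      rw [dist_eq_norm, show u + e p - (x + e s') = e t' by linear_combination q1, norm_e])
    have n1 := norm_e p
    rcases q6 with q6 | q6
    · have : e p = -(u - x) := by linear_combination q6
      rw [this, norm_neg] at n1
      linarith
    · have : 2 * e s' = (u - x) + e p := by linear_combination -q6
      have n2 := norm_add_le (u - x) (e p)
      rw [← this, norm_mul, norm_e] at n2
      simp at n2
      linarith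
  rw [← ENNReal.ofReal_mul hL0.le, ENNReal.ofReal_le_ofReal_iff (by positivity)] at h9
  have : L * (g / (4 * L ^ 2) * (2 * L * δ)) = g * δ / 2 := by field_simp; ring
  have : 0 < g * δ := by positivity
  linarith

lemma exists_S (hB : BasicStmt) (C : Col) (x : ℂ) (J : Finset (Fin 5)) :
    ∃ S : Fin 5 → Set ℝ, (∀ j, MeasurableSet (S j)) ∧
      (∀ j s, s + 2 * Real.pi ∈ S j ↔ s ∈ S j) ∧ (Av C x J → ∀ᵐ s : ℝ, ∃ j, j ∉ J ∧ s ∈ S j) ∧
      ∀ j, ∀ s ∈ S j, K C x j s := by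
  by_cases hA : Av C x J
  swap
  · exact ⟨fun _ => ∅, fun _ => MeasurableSet.empty, by simp, fun h => absurd h hA, by simp⟩
  choose u h1 h2 h3 using fun n : ℕ => hA (1 / ((n:ℝ) + 1)) Nat.one_div_pos_of_nat
  obtain ⟨S, s1, s2, s3, s4⟩ := exists_lab (fun n j => {t : ℝ | u n + e t ∈ C.A j})
    (fun n j => meas_T C _ j) (fun n j s => by simp only [mem_setOf_eq, e_two_pi]) h2 J
    (fun n j hj a => by
      have := hB.2.2.2.2.1 (C.A j) (u n) a (C.meas j)
      exact (le_of_eq this).trans (h3 n j hj).le)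
  refine ⟨S, s1, s2, fun _ => s3, fun j s hs => ?_⟩
  obtain ⟨g, hg, h⟩ := s4 j s hs
  refine ⟨g, hg, h.mono fun δ hδ η hη => ?_⟩
  obtain ⟨n, n1, n2⟩ := (hδ.and_eventually
    (tendsto_one_div_add_atTop_nhds_zero_nat.eventually (gt_mem_nhds hη))).exists
  exact ⟨u n, (h1 n).trans n2, n1⟩

theorem labStmt (hB : BasicStmt) (hG : GeoStmt) : LabStmt := by
  intro C x
  choose S s1 s2 s3 s4 using exists_S hB C x
  have hK : ∀ j, ∀ s ∈ ⋃ J, S J j, K C x j s := fun j s hs => by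
    obtain ⟨J, hJ⟩ := mem_iUnion.1 hs
    exact s4 J j s hJ
  have hm : ∀ j, MeasurableSet (⋃ J, S J j) := fun j => MeasurableSet.iUnion fun J => s1 J j
  refine ⟨⟨fun j => ⋃ J, S J j, hm, fun j s => by simp only [mem_iUnion, s2],
    fun j s hs => (hK j s hs).L0, fun J hJ => ?_, fun j => ?_,
    fun j s hs y hy hd => (hK j s hs).L3 hG hy hd⟩⟩
  · filter_upwards [s3 J hJ] with s hs
    obtain ⟨j, h1, h2⟩ := hs
    exact ⟨j, h1, mem_iUnion.2 ⟨J, h2⟩⟩
  · filter_upwards [hB.1 _ (hm j)] with s hs h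
    exact K.L2 hB hG (hK j) (hs h.1) (hK j _ h.2)

end Crest.Agent.H4.P3
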