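import Crest.Agent.Lead.P3I

/-! Row 40, P3: weak limits of periodic sets (the analytic half of `labStmt`). -/

set_option autoImplicit false

namespace Crest.Agent.H4.P3
open MeasureTheory Metric Set Filter Topology

lemma vol_Ioc_inter_ne (a b : ℝ) (T : Set ℝ) : volume (Ioc a b ∩ T) ≠ ⊤ :=
  ne_top_of_le_ne_top (by simp) (measure_mono inter_subset_left)

lemma vol_Ioc_inter_le {a b : ℝ} (h : a ≤ b) (T : Set ℝ) :
    (volume (Ioc a b ∩ T)).toReal ≤ b - a := by
  have : volume (Ioc a b ∩ T) ≤ ENNReal.ofReal (b - a) := by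
    rw [← Real.volume_Ioc]; exact measure_mono inter_subset_left
  exact ENNReal.toReal_le_of_le_ofReal (sub_nonneg.2 h) this

/-- primitive of an indicator function -/
noncomputable def prim (T : Set ℝ) (t : ℝ) : ℝ := ∫ τ in (0:ℝ)..t, T.indicator (fun _ => (1:ℝ)) τ

lemma ii_ind {T : Set ℝ} (hT : MeasurableSet T) (a b : ℝ) :
    IntervalIntegrable (T.indicator (fun _ => (1:ℝ))) volume a b :=
  ⟨(integrableOn_const (by simp)).indicator hT, (integrableOn_const (by simp)).indicator hT⟩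

lemma prim_sub {T : Set ℝ} (hT : MeasurableSet T) {a b : ℝ} (h : a ≤ b) :
    prim T b - prim T a = (volume (Ioc a b ∩ T)).toReal := by
  unfold prim
  rw [intervalIntegral.integral_interval_sub_left (ii_ind hT _ _) (ii_ind hT _ _),
    intervalIntegral.integral_of_le h, integral_indicator hT, Measure.restrict_restrict hT]
  simp [Measure.real, inter_comm]

lemma prim_mem {T : Set ℝ} (hT : MeasurableSet T) (t : ℝ) : prim T t ∈ Icc (-|t|) |t| := by
  have h0 : prim T 0 = 0 := by simp [prim]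
  rcases le_total 0 t with h | h
  · have := prim_sub hT h
    have h2 := vol_Ioc_inter_le h T
    have h3 : 0 ≤ (volume (Ioc 0 t ∩ T)).toReal := ENNReal.toReal_nonneg
    rw [abs_of_nonneg h]; constructor <;> linarith
  · have := prim_sub hT h
    have h2 := vol_Ioc_inter_le h T
    have h3 : 0 ≤ (volume (Ioc t 0 ∩ T)).toReal := ENNReal.toReal_nonneg
    rw [abs_of_nonpos h]; constructor <;> linarith

lemma exists_H (U : Ultrafilter ℕ) (T : ℕ → Set ℝ) (hT : ∀ n, MeasurableSet (T n)) :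
    ∃ H : ℝ → ℝ, ∀ a b, a ≤ b →
      Tendsto (fun n => (volume (Ioc a b ∩ T n)).toReal) U (𝓝 (H b - H a)) := by
  have : ∀ t, ∃ l, Tendsto (fun n => prim (T n) t) U (𝓝 l) := by
    intro t
    obtain ⟨l, -, hl⟩ := (isCompact_Icc (a := -|t|) (b := |t|)).ultrafilter_le_nhds
      (U.map fun n => prim (T n) t) (by
        rw [le_principal_iff, Ultrafilter.mem_coe, Ultrafilter.mem_map]
        exact Filter.univ_mem' fun n => prim_mem (hT n) t)
    exact ⟨l, hl⟩
  choose H hH using this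
  refine ⟨H, fun a b h => ?_⟩
  have := (hH b).sub (hH a)
  simpa only [prim_sub (hT _) h] using this

lemma vol_shift {T : Set ℝ} {c : ℝ} (hp : ∀ s, s + c ∈ T ↔ s ∈ T) (a b : ℝ) :
    volume (Ioc (a + c) (b + c) ∩ T) = volume (Ioc a b ∩ T) := by
  rw [← measure_preimage_add_right volume c (Ioc (a + c) (b + c) ∩ T)]
  congr 1
  ext s
  simp [hp]

lemma slope_lower {H : ℝ → ℝ} {s d : ℝ} (h : HasDerivAt H d s) {g : ℝ} (hg : g < 2 * d) :
    ∀ᶠ δ : ℝ in 𝓝[>] 0, g * δ < H (s + δ) - H (s - δ) := by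
  have h1 : HasDerivAt (fun δ : ℝ => H (s + δ)) d 0 := by
    have := (by simpa using h : HasDerivAt H d (s + 0)).comp_const_add s 0
    exact this
  have h2 : HasDerivAt (fun δ : ℝ => H (s - δ)) (-d) 0 := by
    have := (by simpa using h : HasDerivAt H d (s - 0)).comp_const_sub s 0
    exact this
  have h3 : HasDerivAt (fun δ : ℝ => H (s + δ) - H (s - δ)) (d - -d) 0 := h1.sub h2
  have h4 := h3.tendsto_slope_zero_right
  have h5 := h4.eventually (lt_mem_nhds (show g < d - -d by linarith))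
  filter_upwards [h5, self_mem_nhdsWithin] with δ h6 h7
  have h8 : (0:ℝ) < δ := h7
  simp only [zero_add, add_zero, sub_zero, sub_self, smul_eq_mul] at h6
  rw [← div_eq_inv_mul, lt_div_iff₀ h8] at h6
  exact h6

/-- weak limit labels -/
lemma exists_lab (T : ℕ → Fin 5 → Set ℝ) (hT : ∀ n j, MeasurableSet (T n j))
    (hp : ∀ n j s, s + 2 * Real.pi ∈ T n j ↔ s ∈ T n j) (hc : ∀ n, ∀ᵐ t : ℝ, ∃ j, t ∈ T n j)
    (J : Finset (Fin 5)) (hJ : ∀ n, ∀ j ∈ J, ∀ a : ℝ,
      volume (Icc a (a + 2 * Real.pi) ∩ T n j) ≤ ENNReal.ofReal (1 / ((n:ℝ) + 1))) :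
    ∃ S : Fin 5 → Set ℝ, (∀ j, MeasurableSet (S j)) ∧
      (∀ j s, s + 2 * Real.pi ∈ S j ↔ s ∈ S j) ∧ (∀ᵐ s : ℝ, ∃ j, j ∉ J ∧ s ∈ S j) ∧
      ∀ j, ∀ s ∈ S j, ∃ g > 0, ∀ᶠ δ : ℝ in 𝓝[>] 0, ∃ᶠ n in atTop,
        ENNReal.ofReal (g * δ) ≤ volume (Icc (s - δ) (s + δ) ∩ T n j) := by
  have hU : ((hyperfilter ℕ : Ultrafilter ℕ) : Filter ℕ) ≤ atTop := by
    rw [← Nat.cofinite_eq_atTop]; exact hyperfilter_le_cofinite
  choose H hH using fun j => exists_H (hyperfilter ℕ) (fun n => T n j) (fun n => hT n j)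
  have hmono : ∀ j, Monotone (H j) := fun j a b h =>
    sub_nonneg.1 (ge_of_tendsto' (hH j a b h) fun n => ENNReal.toReal_nonneg)
  have hper : ∀ j t, H j (t + 2 * Real.pi) = H j t + (H j (2 * Real.pi) - H j 0) := by
    intro j t
    have key : ∀ a b, a ≤ b → H j (b + 2 * Real.pi) - H j (a + 2 * Real.pi) = H j b - H j a := by
      intro a b h
      have h1 := hH j (a + 2 * Real.pi) (b + 2 * Real.pi) (by linarith)
      simp only [vol_shift (hp _ j)] at h1
      exact tendsto_nhds_unique h1 (hH j a b h)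
    rcases le_total 0 t with h | h
    · have := key 0 t h
      rw [zero_add] at this; linarith
    · have := key t 0 h
      rw [zero_add] at this; linarith
  refine ⟨fun j => {s | 0 < deriv (H j) s}, fun j => measurableSet_lt measurable_const
    (measurable_deriv _), fun j s => ?_, ?_, fun j s hs => ?_⟩
  · simp only [mem_setOf_eq]
    rw [← deriv_comp_add_const, funext (hper j), deriv_add_const]
  · have : ∀ᵐ s : ℝ, ∀ j, DifferentiableAt ℝ (H j) s :=
      ae_all_iff.2 fun j => (hmono j).ae_differentiableAt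
    filter_upwards [this] with s hs
    by_contra hcon
    push Not at hcon
    have hle : ∀ j, j ∉ J → deriv (H j) s ≤ 0 := hcon
    have hd : HasDerivAt (fun t => t - ∑ j ∈ Jᶜ, H j t) (1 - ∑ j ∈ Jᶜ, deriv (H j) s) s :=
      (hasDerivAt_id s).sub (HasDerivAt.fun_sum fun j _ => (hs j).hasDerivAt)
    have hs0 : ∑ j ∈ Jᶜ, deriv (H j) s ≤ 0 :=
      Finset.sum_nonpos fun j hj => hle j (Finset.mem_compl.1 hj)
    have h1 := slope_lower hd (g := 1) (by linarith)
    have h2 : ∀ᶠ δ : ℝ in 𝓝[>] 0, δ < 1 := nhdsWithin_le_nhds (gt_mem_nhds one_pos)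
    obtain ⟨δ, ⟨h3, h4⟩, h5⟩ := ((h1.and h2).and self_mem_nhdsWithin).exists
    have hδ : (0:ℝ) < δ := h5
    have hab : s - δ ≤ s + δ := by linarith
    have h6 : ∀ n, 2 * δ ≤ ∑ j, (volume (Ioc (s - δ) (s + δ) ∩ T n j)).toReal := by
      intro n
      rw [← ENNReal.toReal_sum fun j _ => vol_Ioc_inter_ne _ _ _]
      have h7 : volume (Ioc (s - δ) (s + δ)) ≤ ∑ j, volume (Ioc (s - δ) (s + δ) ∩ T n j) := by
        refine le_trans (measure_mono_ae (t := ⋃ j, Ioc (s - δ) (s + δ) ∩ T n j) ?_)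
          (measure_iUnion_fintype_le _ _)
        filter_upwards [hc n] with t ht h
        obtain ⟨j, hj⟩ := ht
        exact mem_iUnion.2 ⟨j, h, hj⟩
      rw [Real.volume_Ioc] at h7
      have := (ENNReal.ofReal_le_iff_le_toReal
        (ENNReal.sum_ne_top.2 fun j _ => vol_Ioc_inter_ne _ _ _)).1 h7
      linarith
    have h8 : 2 * δ ≤ ∑ j, (H j (s + δ) - H j (s - δ)) :=
      ge_of_tendsto' (tendsto_finset_sum _ fun j _ => hH j _ _ hab) h6
    have h9 : ∀ j ∈ J, H j (s + δ) - H j (s - δ) ≤ 0 := by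
      intro j hj
      refine le_of_tendsto_of_tendsto' (hH j _ _ hab)
        (tendsto_one_div_add_atTop_nhds_zero_nat.mono_left hU) fun n => ?_
      refine ENNReal.toReal_le_of_le_ofReal (by positivity) (le_trans (measure_mono ?_)
        (hJ n j hj (s - δ)))
      rintro t ⟨⟨t1, t2⟩, t3⟩
      exact ⟨⟨t1.le, by linarith [Real.pi_gt_three]⟩, t3⟩
    rw [← Finset.sum_add_sum_compl J] at h8
    have h10 := Finset.sum_nonpos h9
    rw [Finset.sum_sub_distrib (s := Jᶜ)] at h8
    linarith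
  · have hs' : 0 < deriv (H j) s := hs
    have hd := (differentiableAt_of_deriv_ne_zero hs'.ne').hasDerivAt
    refine ⟨deriv (H j) s, hs', ?_⟩
    filter_upwards [slope_lower hd (g := deriv (H j) s) (by linarith), self_mem_nhdsWithin]
      with δ h1 h2
    have hδ : (0:ℝ) < δ := h2
    have h3 := (hH j (s - δ) (s + δ) (by linarith)).eventually (lt_mem_nhds h1)
    refine (h3.frequently.filter_mono hU).mono fun n hn => ?_
    exact le_trans (ENNReal.ofReal_le_of_le_toReal hn.le)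
      (measure_mono (inter_subset_inter_left _ Ioc_subset_Icc_self))

end Crest.Agent.H4.P3
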