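import Mathlib
import Crest.Agent.H6.TkI

/-! Row 186: rows and columns elementwise; the cone of `φ` is exact. -/

set_option autoImplicit false

noncomputable section
namespace Crest.Agent.H4.TkP
open MulOpposite Finsupp Crest.Agent.H6.Tk

section
variable {R : Type} [Ring R] {I J : Type}

theorem ext1 {M : Type} [AddCommGroup M] [Module R M] {f g : (I →₀ R) →ₗ[R] M}
    (h : ∀ j, f (single j 1) = g (single j 1)) : f = g := by
  refine Finsupp.lhom_ext fun i v => ?_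
  have : (single i v : I →₀ R) = v • single i 1 := by simp
  rw [this, map_smul, map_smul, h]

/-- homogeneous row -/
def H (deg : I → ℤ) (ε : I → R) (n : ℤ) (x : I →₀ R) : Prop :=
  ∀ j, (deg j ≠ n → x j = 0) ∧ x j * ε j = x j

/-- homogeneous column -/
def HC (deg : I → ℤ) (ε : I → R) (n : ℤ) (α : (I →₀ R) →ₗ[R] R) : Prop :=
  ∀ i, (0 ≠ deg i + n → α (single i 1) = 0) ∧ ε i * α (single i 1) = α (single i 1)

theorem H.zero (deg : I → ℤ) (ε : I → R) (n : ℤ) : H deg ε n 0 := fun j => by simp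

theorem H.add {deg : I → ℤ} {ε : I → R} {n : ℤ} {x y : I →₀ R} (hx : H deg ε n x)
    (hy : H deg ε n y) : H deg ε n (x + y) := fun j =>
  ⟨fun h => by simp [(hx j).1 h, (hy j).1 h], by simp [add_mul, (hx j).2, (hy j).2]⟩

theorem H.smul {deg : I → ℤ} {ε : I → R} {n : ℤ} {x : I →₀ R} (r : R) (hx : H deg ε n x) :
    H deg ε n (r • x) := fun j =>
  ⟨fun h => by simp [(hx j).1 h], by simp [mul_assoc, (hx j).2]⟩

theorem H.single {deg : I → ℤ} {ε : I → R} {n : ℤ} (i : I) (b : R) (h : deg i = n)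
    (hb : b * ε i = b) : H deg ε n (single i b) := by
  classical
  intro j
  by_cases hj : i = j
  · subst hj; simp [h, hb]
  · simp [single_apply, hj]

theorem H.map {deg : I → ℤ} {ε : I → R} {n : ℤ} {deg' : J → ℤ} {ε' : J → R} {n' : ℤ}
    (g : (I →₀ R) →ₗ[R] (J →₀ R))
    (hg : ∀ j b, deg j = n → b * ε j = b → H deg' ε' n' (g (Finsupp.single j b))) {x : I →₀ R}
    (hx : H deg ε n x) : H deg' ε' n' (g x) := by
  classical
  rw [← Finsupp.sum_single x, Finsupp.sum, map_sum]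
  refine Finset.sum_induction _ _ (fun a b => H.add) (H.zero _ _ _) fun j hj => ?_
  refine hg j _ ?_ (hx j).2
  by_contra h
  exact (mem_support_iff.1 hj) ((hx j).1 h)

theorem HC.add {deg : I → ℤ} {ε : I → R} {n : ℤ} {x y : (I →₀ R) →ₗ[R] R} (hx : HC deg ε n x)
    (hy : HC deg ε n y) : HC deg ε n (x + y) := fun j =>
  ⟨fun h => by simp [(hx j).1 h, (hy j).1 h], by simp [mul_add, (hx j).2, (hy j).2]⟩

theorem isM_iff {dI : I → ℤ} {eI : I → R} {dJ : J → ℤ} {eJ : J → R} {n : ℤ}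
    {g : (I →₀ R) →ₗ[R] (J →₀ R)} : IsM R dI eI dJ eJ n g ↔
      ∀ i, H dJ eJ (dI i + n) (g (single i 1)) ∧ g (single i (eI i)) = g (single i 1) := by
  have e : ∀ i, g (single i (eI i)) = eI i • g (single i 1) := fun i => by
    rw [← map_smul]; simp
  constructor
  · intro h i
    refine ⟨fun j => ⟨(h i j).1, by simpa using (h i j).2.2⟩, ?_⟩
    rw [e]; ext j; exact (h i j).2.1
  · intro h i j
    refine ⟨((h i).1 j).1, ?_, by simpa using ((h i).1 j).2⟩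
    have := (h i).2
    rw [e] at this
    exact DFunLike.congr_fun this j

theorem IsM.H {dI : I → ℤ} {eI : I → R} {dJ : J → ℤ} {eJ : J → R} {n : ℤ}
    {g : (I →₀ R) →ₗ[R] (J →₀ R)} (h : IsM R dI eI dJ eJ n g) {a : ℤ} {x : I →₀ R}
    (hx : H dI eI a x) : H dJ eJ (a + n) (g x) := by
  refine H.map g (fun j b hj _ => ?_) hx
  have : (single j b : I →₀ R) = b • single j 1 := by simp
  rw [this, map_smul, ← hj]
  exact H.smul _ ((isM_iff.1 h) j).1

theorem IsM.HC {dI : I → ℤ} {eI : I → R} {dJ : J → ℤ} {eJ : J → R} {n : ℤ}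
    {g : (I →₀ R) →ₗ[R] (J →₀ R)} (h : IsM R dI eI dJ eJ n g) {a : ℤ} {α : (J →₀ R) →ₗ[R] R}
    (hα : HC dJ eJ a α) : HC dI eI (a + n) (α ∘ₗ g) := by
  classical
  intro i
  constructor
  · intro hi
    rw [LinearMap.comp_apply, ← Finsupp.sum_single (g (single i 1)), Finsupp.sum, map_sum]
    refine Finset.sum_eq_zero fun j hj => ?_
    have hd : dJ j = dI i + n := by
      by_contra h'
      exact (mem_support_iff.1 hj) ((h i j).1 h')
    have : (single j (g (single i 1) j) : J →₀ R) = g (single i 1) j • single j 1 := by simp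
    rw [this, map_smul, (hα j).1 (by omega), smul_zero]
  · rw [LinearMap.comp_apply, ← smul_eq_mul, ← map_smul, ← map_smul, ← ((isM_iff.1 h) i).2]
    simp

def rowv (x : J →₀ R) : ((pt R).I →₀ R) →ₗ[R] (J →₀ R) := linearCombination R fun _ => x

theorem rowv_one' (x : J →₀ R) (u : (pt R).I) : rowv x (single u 1) = x := by simp [rowv]

theorem rowv_one (x : J →₀ R) : rowv x (single () 1) = x := rowv_one' x ()

theorem rowv_self (v : ((pt R).I →₀ R) →ₗ[R] (J →₀ R)) : rowv (v (single () 1)) = v :=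
  ext1 fun u => rowv_one' _ u

def colv (α : (J →₀ R) →ₗ[R] R) : (J →₀ R) →ₗ[R] ((pt R).I →₀ R) := lsingle () ∘ₗ α

theorem colv_apply (α : (J →₀ R) →ₗ[R] R) (x : J →₀ R) : colv α x () = α x :=
  Finsupp.single_eq_same

def evv (w : (J →₀ R) →ₗ[R] ((pt R).I →₀ R)) : (J →₀ R) →ₗ[R] R := lapply () ∘ₗ w

theorem evv_colv (α : (J →₀ R) →ₗ[R] R) : evv (colv α) = α := LinearMap.ext fun x => colv_apply α x

theorem colv_self (w : (J →₀ R) →ₗ[R] ((pt R).I →₀ R)) : colv (evv w) = w :=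
  LinearMap.ext fun x => Finsupp.ext fun _ => colv_apply _ x

variable (Q : Cx R)

theorem isC_row (n : ℤ) (v : Ch (pt R) Q R) :
    IsC (pt R) Q R n v ↔ H Q.deg Q.ε n (v (single () 1)) := by
  unfold IsC
  rw [isM_iff]
  have e : ∀ i, (pt R).deg i + n = n := fun i => zero_add n
  constructor
  · intro h
    have := (h ()).1
    rwa [e] at this
  · intro h i
    rw [e]
    exact ⟨h, rfl⟩

theorem δ_row (v : Ch (pt R) Q R) : δ (pt R) Q R v = rowv (Q.d (v (single () 1))) := by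
  refine ext1 fun i => ?_
  have e : (pt R).d = 0 := rfl
  rw [rowv_one', δ, tens_self, e, LinearMap.comp_zero, zero_add]
  rfl

theorem cy_row (n : ℤ) (v : Ch (pt R) Q R) :
    Cy (pt R) Q R n v ↔ H Q.deg Q.ε n (v (single () 1)) ∧ Q.d (v (single () 1)) = 0 := by
  rw [Cy, isC_row, δ_row]
  refine and_congr Iff.rfl ⟨fun h => ?_, fun h => ?_⟩
  · exact (rowv_one _).symm.trans (LinearMap.congr_fun h (single () 1))
  · rw [h]; exact ext1 fun u => rowv_one' _ u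

theorem bd_row (n : ℤ) (v : Ch (pt R) Q R) :
    Bd (pt R) Q R n v ↔ ∃ y, H Q.deg Q.ε (n - 1) y ∧ Q.d y = v (single () 1) := by
  constructor
  · rintro ⟨u, hu, rfl⟩
    exact ⟨_, (isC_row Q _ _).1 hu, by rw [δ_row]; exact (rowv_one _).symm⟩
  · rintro ⟨y, hy, h⟩
    refine ⟨rowv y, (isC_row Q _ _).2 (by rw [rowv_one]; exact hy), ?_⟩
    rw [δ_row, rowv_one, h]; exact rowv_self v

theorem isC_col (n : ℤ) (w : Ch Q (pt R) R) :
    IsC Q (pt R) R n w ↔ HC Q.deg Q.ε n (evv w) := by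
  constructor
  · intro h i
    exact ⟨(h i ()).1, (h i ()).2.1⟩
  · intro h i j
    exact ⟨(h i).1, (h i).2, mul_one _⟩

theorem δ_col (w : Ch Q (pt R) R) : δ Q (pt R) R w = w ∘ₗ Q.d := by
  have e : (pt R).d = 0 := rfl
  rw [δ, tens_self, e, LinearMap.zero_comp, add_zero]

theorem cy_col (n : ℤ) (α : (Q.I →₀ R) →ₗ[R] R) :
    Cy Q (pt R) R n (colv α) ↔ HC Q.deg Q.ε n α ∧ α ∘ₗ Q.d = 0 := by
  rw [Cy, isC_col, δ_col, evv_colv]
  refine and_congr Iff.rfl ⟨fun h => LinearMap.ext fun x => ?_, fun h => ?_⟩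
  · exact (colv_apply _ _).symm.trans (DFunLike.congr_fun (LinearMap.congr_fun h x) ())
  · rw [colv, LinearMap.comp_assoc, h, LinearMap.comp_zero]

theorem bd_col (n : ℤ) (α : (Q.I →₀ R) →ₗ[R] R) :
    Bd Q (pt R) R n (colv α) ↔ ∃ β, HC Q.deg Q.ε (n - 1) β ∧ β ∘ₗ Q.d = α := by
  constructor
  · rintro ⟨u, hu, h⟩
    refine ⟨_, (isC_col Q _ _).1 hu, LinearMap.ext fun x => ?_⟩
    rw [δ_col] at h
    exact (DFunLike.congr_fun (LinearMap.congr_fun h x) ()).trans (colv_apply _ _)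
  · rintro ⟨β, hβ, h⟩
    refine ⟨colv β, (isC_col Q _ _).2 (by rw [evv_colv]; exact hβ), ?_⟩
    rw [δ_col, ← h]; rfl

@[simp] theorem one_single (i : Q.I) (b : R) : Q.one (single i b) = single i (b * Q.ε i) := by
  simp [Cx.one]

theorem H.one {n : ℤ} {x : Q.I →₀ R} (hx : H Q.deg Q.ε n x) : Q.one x = x := by
  have : ∀ x : Q.I →₀ R, ∀ j, Q.one x j = x j * Q.ε j := by
    classical
    intro x j
    induction x using Finsupp.induction_linear with
    | zero => simp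
    | add x y hx hy => simp [hx, hy, add_mul]
    | single i b =>
      rw [one_single]
      by_cases h : i = j
      · subst h; simp
      · simp [single_apply, h]
  ext j; rw [this, (hx j).2]

end

section
variable {k : Type} [Field k] [CharP k 2] {B : Type} [Ring B] [Algebra k B] {m : ℕ} (X : BD k B m)

theorem two_mod {M : Type} [AddCommGroup M] [Module k M] (x : M) : x + x = 0 := by
  rw [← two_smul k, show (2 : k) = 0 from CharP.ofNat_eq_zero k 2, zero_smul]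

omit [CharP k 2] in
theorem H.ksmul {I : Type} {deg : I → ℤ} {ε : I → B} {n : ℤ} {x : I →₀ B} (c : k)
    (hx : H deg ε n x) : H deg ε n (c • x) := fun j =>
  ⟨fun h => by simp [(hx j).1 h], by simp [(hx j).2]⟩

omit [CharP k 2] in
theorem HC.ksmul {I : Type} {deg : I → ℤ} {ε : I → B} {n : ℤ} {x : (I →₀ B) →ₗ[B] B} (c : k)
    (hx : HC deg ε n x) : HC deg ε n (c • x) := fun j =>
  ⟨fun h => by simp [(hx j).1 h], by simp [(hx j).2]⟩

theorem φ_comm : X.φ ∘ₗ X.Qp.d = X.Qm.d ∘ₗ X.φ := by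
  have h := X.φ_cy.2
  rw [δ, tens_self] at h
  have h2 := two_mod (k := k) (X.Qm.d ∘ₗ X.φ)
  exact add_right_cancel (h.trans h2.symm)

theorem row_cone (n : ℤ) (a : X.Qp.I →₀ B) (b : X.Qm.I →₀ B) (ha : H X.Qp.deg X.Qp.ε n a)
    (hb : H X.Qm.deg X.Qm.ε (n - 1) b) (h1 : X.Qp.d a = 0) (h2 : X.Qm.d b = X.φ a) :
    ∃ a' b', H X.Qp.deg X.Qp.ε (n - 1) a' ∧ H X.Qm.deg X.Qm.ε (n - 1 - 1) b' ∧ X.Qp.d a' = a ∧
      X.Qm.d b' + X.φ a' = b := by
  set r : X.Qp.I →₀ B := single X.ip (X.Qp.ε X.ip) with hr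
  have hrH : H X.Qp.deg X.Qp.ε 0 r := H.single _ _ X.deg_ip (X.Qp.idem _)
  have hrd : X.Qp.d r = 0 := by
    have := IsM.H X.Qp.d_isM hrH
    ext j
    exact (this j).1 (by have := X.degp j; omega)
  have hrow : (X.φ ∘ₗ X.Qp.row X.ip) (single () 1) = X.φ r := by simp [Cx.row, hr]
  have hφ : ∀ {a : ℤ} {x}, H X.Qp.deg X.Qp.ε a x → H X.Qm.deg X.Qm.ε a (X.φ x) := fun hx => by
    simpa using IsM.H X.φ_cy.1 hx
  have hc : ∀ x, X.φ (X.Qp.d x) = X.Qm.d (X.φ x) := fun x => LinearMap.congr_fun (φ_comm X) x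
  have lk : ∀ {I J : Type} (g : (I →₀ B) →ₗ[B] (J →₀ B)) (c : k) (x : I →₀ B),
      g (c • x) = c • g x := fun g c x => g.map_smul_of_tower c x
  have hc0 : X.χ (a X.ip) = 0 := by
    by_contra hne
    have hn : n = 0 := by
      by_contra hn
      exact hne (by rw [(ha _).1 (by rw [X.deg_ip]; exact Ne.symm hn), map_zero])
    subst hn
    set c := X.χ (a X.ip) with hcd
    obtain ⟨y, hy, hyd⟩ := (bd_row _ _ _).1 (X.rowp 0 (rowv (a + c • r))
      ((cy_row _ _ _).2 (by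
        rw [rowv_one]
        exact ⟨ha.add (hrH.ksmul c), by rw [map_add, lk, h1, hrd]; simp⟩))
      (by rw [rowv_one]; simp [hr, X.χ_ip, ← hcd, two_mod (k := k)]))
    rw [rowv_one] at hyd
    refine X.rowm' ((bd_row _ _ _).2 ⟨c⁻¹ • (b + X.φ y), (hb.add (hφ hy)).ksmul _, ?_⟩)
    rw [hrow, lk, map_add, ← hc, hyd, h2, map_add, ← add_assoc, two_mod (k := k), zero_add, lk,
      inv_smul_smul₀ hne]
  obtain ⟨y, hy, hyd⟩ := (bd_row _ _ _).1 (X.rowp n (rowv a)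
    ((cy_row _ _ _).2 (by rw [rowv_one]; exact ⟨ha, h1⟩)) (by rw [rowv_one]; exact hc0))
  rw [rowv_one] at hyd
  obtain ⟨h3, c, h4⟩ := X.rowm (n - 1) (rowv (b + X.φ y)) ((cy_row _ _ _).2 (by
    rw [rowv_one]
    exact ⟨hb.add (hφ hy), by rw [map_add, ← hc, hyd, h2, two_mod (k := k)]⟩))
  by_cases hn : n - 1 = 0
  · obtain ⟨z, hz, hzd⟩ := (bd_row _ _ _).1 h4
    rw [LinearMap.add_apply, LinearMap.smul_apply, hrow, rowv_one] at hzd
    refine ⟨y + c • r, z, hy.add (by rw [hn]; exact hrH.ksmul c), hz, ?_, ?_⟩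
    · rw [map_add, lk, hrd, hyd]; simp
    · rw [hzd, map_add, lk, add_assoc b, add_assoc b, two_mod (k := k), add_zero]
  · obtain ⟨z, hz, hzd⟩ := (bd_row _ _ _).1 (h3 hn)
    rw [rowv_one] at hzd
    exact ⟨y, z, hy, hz, hyd, by rw [hzd, add_assoc, two_mod (k := k), add_zero]⟩

theorem col_cone (n : ℤ) (a : (X.Qm.I →₀ B) →ₗ[B] B) (b : (X.Qp.I →₀ B) →ₗ[B] B)
    (ha : HC X.Qm.deg X.Qm.ε n a) (hb : HC X.Qp.deg X.Qp.ε (n - 1) b) (h1 : a ∘ₗ X.Qm.d = 0)
    (h2 : b ∘ₗ X.Qp.d = a ∘ₗ X.φ) :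
    ∃ a' b', HC X.Qm.deg X.Qm.ε (n - 1) a' ∧ HC X.Qp.deg X.Qp.ε (n - 1 - 1) b' ∧
      a' ∘ₗ X.Qm.d = a ∧ b' ∘ₗ X.Qp.d + a' ∘ₗ X.φ = b := by
  classical
  set r : (X.Qm.I →₀ B) →ₗ[B] B := lapply X.im ∘ₗ X.Qm.one with hr
  have hrH : HC X.Qm.deg X.Qm.ε m r := by
    intro i
    by_cases h : i = X.im
    · subst h; simp [hr, X.deg_im, X.Qm.idem]
    · simp [hr, single_apply, h]
  have hrd : r ∘ₗ X.Qm.d = 0 := by
    have := IsM.HC X.Qm.d_isM hrH
    exact ext1 fun j => (this j).1 (by have := X.degm j; omega)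
  have hrow : X.Qm.col X.im ∘ₗ X.φ = colv (r ∘ₗ X.φ) := rfl
  have hφ : ∀ {a : ℤ} {x}, HC X.Qm.deg X.Qm.ε a x → HC X.Qp.deg X.Qp.ε a (x ∘ₗ X.φ) := fun hx => by
    simpa using IsM.HC X.φ_cy.1 hx
  have hc : ∀ x : (X.Qm.I →₀ B) →ₗ[B] B, (x ∘ₗ X.φ) ∘ₗ X.Qp.d = (x ∘ₗ X.Qm.d) ∘ₗ X.φ := fun x => by
    rw [LinearMap.comp_assoc, φ_comm, LinearMap.comp_assoc]
  have hc0 : X.χ (a (single X.im 1)) = 0 := by
    by_contra hne
    have hn : n = m := by
      by_contra hn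
      exact hne (by rw [(ha _).1 (by rw [X.deg_im]; omega), map_zero])
    subst hn
    set c := X.χ (a (single X.im 1)) with hcd
    obtain ⟨y, hy, hyd⟩ := (bd_col _ _ _).1 (X.colm m (colv (a + c • r))
      ((cy_col _ _ _).2 ⟨ha.add (hrH.ksmul c), by
        rw [LinearMap.add_comp, LinearMap.smul_comp, h1, hrd]; simp⟩)
      (by erw [colv_apply]; simp [hr, X.χ_im, ← hcd, two_mod (k := k)]))
    refine X.colp' ?_
    rw [hrow]
    refine (bd_col _ _ _).2 ⟨c⁻¹ • (b + y ∘ₗ X.φ), (hb.add (hφ hy)).ksmul _, ?_⟩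
    rw [LinearMap.smul_comp, LinearMap.add_comp, hc, hyd, h2, LinearMap.add_comp, ← add_assoc,
      two_mod (k := k), zero_add, LinearMap.smul_comp, inv_smul_smul₀ hne]
  obtain ⟨y, hy, hyd⟩ := (bd_col _ _ _).1 (X.colm n (colv a)
    ((cy_col _ _ _).2 ⟨ha, h1⟩) (by erw [colv_apply]; exact hc0))
  obtain ⟨h3, c, h4⟩ := X.colp (n - 1) (colv (b + y ∘ₗ X.φ)) ((cy_col _ _ _).2
    ⟨hb.add (hφ hy), by rw [LinearMap.add_comp, hc, hyd, h2, two_mod (k := k)]⟩)
  by_cases hn : n - 1 = m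
  · have e : colv (b + y ∘ₗ X.φ) + c • (X.Qm.col X.im ∘ₗ X.φ) =
        colv (b + y ∘ₗ X.φ + c • (r ∘ₗ X.φ)) := by
      rw [hrow, colv, colv, colv, LinearMap.comp_add _ (c • _), LinearMap.comp_smul]
    obtain ⟨z, hz, hzd⟩ := (bd_col _ _ _).1 (e ▸ h4)
    refine ⟨y + c • r, z, hy.add (by rw [hn]; exact hrH.ksmul c), hz, ?_, ?_⟩
    · rw [LinearMap.add_comp, LinearMap.smul_comp, hrd, hyd]; simp
    · rw [hzd, LinearMap.add_comp, LinearMap.smul_comp, add_assoc b, add_assoc b,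
        two_mod (k := k), add_zero]
  · obtain ⟨z, hz, hzd⟩ := (bd_col _ _ _).1 (h3 hn)
    exact ⟨y, z, hy, hz, hyd, by rw [hzd, add_assoc, two_mod (k := k), add_zero]⟩

end
end Crest.Agent.H4.TkP
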