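import Mathlib
import Crest.Agent.H4.TkP1

/-! Row 186: the complete resolution over the dual numbers. -/

set_option autoImplicit false

noncomputable section
namespace Crest.Agent.H4.TkP
open MulOpposite Finsupp Crest.Agent.H6.Tk TrivSqZeroExt

section dual
variable {B : Type} [Ring B] {I : Type}

def fs (x : I →₀ DualNumber B) : I →₀ B := x.mapRange fst rfl
def sn (x : I →₀ DualNumber B) : I →₀ B := x.mapRange snd rfl
def mk2 (a b : I →₀ B) : I →₀ DualNumber B :=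
  a.mapRange inl (inl_zero B) + b.mapRange inr (inr_zero B)

@[simp] theorem fs_apply (x : I →₀ DualNumber B) (j : I) : fs x j = (x j).fst := rfl
@[simp] theorem sn_apply (x : I →₀ DualNumber B) (j : I) : sn x j = (x j).snd := rfl
@[simp] theorem fs_mk2 (a b : I →₀ B) : fs (mk2 a b) = a := by ext j; simp [mk2]
@[simp] theorem sn_mk2 (a b : I →₀ B) : sn (mk2 a b) = b := by ext j; simp [mk2]
theorem ext2 {x y : I →₀ DualNumber B} (h1 : fs x = fs y) (h2 : sn x = sn y) : x = y :=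
  Finsupp.ext fun j => TrivSqZeroExt.ext (DFunLike.congr_fun h1 j) (DFunLike.congr_fun h2 j)
@[simp] theorem fs_add (x y : I →₀ DualNumber B) : fs (x + y) = fs x + fs y := by ext j; simp
@[simp] theorem sn_add (x y : I →₀ DualNumber B) : sn (x + y) = sn x + sn y := by ext j; simp
@[simp] theorem fs_zero : fs (0 : I →₀ DualNumber B) = 0 := by ext j; simp
@[simp] theorem sn_zero : sn (0 : I →₀ DualNumber B) = 0 := by ext j; simp
@[simp] theorem fs_single (i : I) (r : DualNumber B) : fs (single i r) = single i r.fst :=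
  mapRange_single
@[simp] theorem sn_single (i : I) (r : DualNumber B) : sn (single i r) = single i r.snd :=
  mapRange_single
theorem fs_smul (r : DualNumber B) (x : I →₀ DualNumber B) : fs (r • x) = r.fst • fs x := by
  ext j; simp
theorem sn_smul (r : DualNumber B) (x : I →₀ DualNumber B) :
    sn (r • x) = r.fst • sn x + r.snd • fs x := by
  ext j; simp

def dE (D0 D1 : (I →₀ B) →ₗ[B] (I →₀ B)) : (I →₀ DualNumber B) →ₗ[DualNumber B] (I →₀ DualNumber B) :=
  linearCombination (DualNumber B) fun j => mk2 (D0 (single j 1)) (D1 (single j 1))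

theorem sm1 {M : Type} [AddCommGroup M] [Module B M] (g : (I →₀ B) →ₗ[B] M) (i : I) (b : B) :
    b • g (single i 1) = g (single i b) := by rw [← map_smul]; simp

theorem fs_dE (D0 D1 : (I →₀ B) →ₗ[B] (I →₀ B)) (x : I →₀ DualNumber B) :
    fs (dE D0 D1 x) = D0 (fs x) := by
  induction x using Finsupp.induction_linear with
  | zero => simp
  | add x y hx hy => simp [hx, hy]
  | single i r => simp [dE, fs_smul, sm1]

theorem sn_dE (D0 D1 : (I →₀ B) →ₗ[B] (I →₀ B)) (x : I →₀ DualNumber B) :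
    sn (dE D0 D1 x) = D0 (sn x) + D1 (fs x) := by
  induction x using Finsupp.induction_linear with
  | zero => simp
  | add x y hx hy => simp only [map_add, sn_add, fs_add, hx, hy]; abel
  | single i r => simp [dE, sn_smul, sm1, add_comm]

theorem H_iff {deg : I → ℤ} {ε : I → B} {n : ℤ} {x : I →₀ DualNumber B} :
    H deg (fun i => (inl (ε i) : DualNumber B)) n x ↔ H deg ε n (fs x) ∧ H deg ε n (sn x) := by
  constructor
  · intro h
    refine ⟨fun j => ⟨fun hj => by simp [(h j).1 hj], ?_⟩, fun j => ⟨fun hj => by simp [(h j).1 hj], ?_⟩⟩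
    · simpa using congrArg fst (h j).2
    · simpa using congrArg snd (h j).2
  · rintro ⟨h1, h2⟩ j
    refine ⟨fun hj => TrivSqZeroExt.ext ((h1 j).1 hj) ((h2 j).1 hj), TrivSqZeroExt.ext ?_ ?_⟩
    · simpa using (h1 j).2
    · simpa using (h2 j).2

def fc (w : (I →₀ DualNumber B) →ₗ[DualNumber B] DualNumber B) : (I →₀ B) →ₗ[B] B :=
  linearCombination B fun i => (w (single i 1)).fst
def sc (w : (I →₀ DualNumber B) →ₗ[DualNumber B] DualNumber B) : (I →₀ B) →ₗ[B] B :=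
  linearCombination B fun i => (w (single i 1)).snd
def mkc (α β : (I →₀ B) →ₗ[B] B) : (I →₀ DualNumber B) →ₗ[DualNumber B] DualNumber B :=
  linearCombination (DualNumber B) fun i => inl (α (single i 1)) + inr (β (single i 1))

theorem fc_mkc (α β : (I →₀ B) →ₗ[B] B) : fc (mkc α β) = α := ext1 fun i => by simp [fc, mkc]
theorem sc_mkc (α β : (I →₀ B) →ₗ[B] B) : sc (mkc α β) = β := ext1 fun i => by simp [sc, mkc]

theorem fst_ap (w : (I →₀ DualNumber B) →ₗ[DualNumber B] DualNumber B) (x : I →₀ DualNumber B) :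
    (w x).fst = fc w (fs x) := by
  induction x using Finsupp.induction_linear with
  | zero => simp
  | add x y hx hy => simp [hx, hy]
  | single i r => rw [← sm1 w]; simp [fc]

theorem snd_ap (w : (I →₀ DualNumber B) →ₗ[DualNumber B] DualNumber B) (x : I →₀ DualNumber B) :
    (w x).snd = sc w (fs x) + fc w (sn x) := by
  induction x using Finsupp.induction_linear with
  | zero => simp
  | add x y hx hy => simp only [map_add, sn_add, fs_add, snd_add, hx, hy]; abel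
  | single i r => rw [← sm1 w]; simp [fc, sc]

theorem fc_dE (D0 D1 : (I →₀ B) →ₗ[B] (I →₀ B))
    (w : (I →₀ DualNumber B) →ₗ[DualNumber B] DualNumber B) :
    fc (w ∘ₗ dE D0 D1) = fc w ∘ₗ D0 := ext1 fun i => by
  have := fst_ap w (dE D0 D1 (single i 1))
  rw [fs_dE] at this
  simpa [fc] using this

theorem sc_dE (D0 D1 : (I →₀ B) →ₗ[B] (I →₀ B))
    (w : (I →₀ DualNumber B) →ₗ[DualNumber B] DualNumber B) :
    sc (w ∘ₗ dE D0 D1) = sc w ∘ₗ D0 + fc w ∘ₗ D1 := ext1 fun i => by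
  have := snd_ap w (dE D0 D1 (single i 1))
  rw [fs_dE, sn_dE] at this
  simpa [sc] using this

theorem extc {w w' : (I →₀ DualNumber B) →ₗ[DualNumber B] DualNumber B} (h1 : fc w = fc w')
    (h2 : sc w = sc w') : w = w' := LinearMap.ext fun x =>
  TrivSqZeroExt.ext (by rw [fst_ap, fst_ap, h1]) (by rw [snd_ap, snd_ap, h1, h2])

theorem HC_iff {deg : I → ℤ} {ε : I → B} {n : ℤ}
    {w : (I →₀ DualNumber B) →ₗ[DualNumber B] DualNumber B} :
    HC deg (fun i => (inl (ε i) : DualNumber B)) n w ↔ HC deg ε n (fc w) ∧ HC deg ε n (sc w) := by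
  constructor
  · intro h
    refine ⟨fun j => ⟨fun hj => by simp [fc, (h j).1 hj], ?_⟩,
      fun j => ⟨fun hj => by simp [sc, (h j).1 hj], ?_⟩⟩
    · simpa [fc] using congrArg fst (h j).2
    · simpa [sc] using congrArg snd (h j).2
  · rintro ⟨h1, h2⟩ j
    refine ⟨fun hj => TrivSqZeroExt.ext (by simpa [fc] using (h1 j).1 hj)
      (by simpa [sc] using (h2 j).1 hj), TrivSqZeroExt.ext ?_ ?_⟩
    · simpa [fc] using (h1 j).2
    · simpa [sc] using (h2 j).2

end dual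

section
variable {k : Type} [Field k] {B : Type} [Ring B] [Algebra k B] {m : ℕ} (X : BD k B m)

abbrev II := (ℕ × X.Qp.I) ⊕ (ℕ × X.Qm.I)
def dg : II X → ℤ := Sum.elim (fun x => X.Qp.deg x.2 - x.1) (fun x => X.Qm.deg x.2 + x.1 + 1)
def ep : II X → B := Sum.elim (fun x => X.Qp.ε x.2) (fun x => X.Qm.ε x.2)
def ιL (w : ℕ) : (X.Qp.I →₀ B) →ₗ[B] (II X →₀ B) := lmapDomain B B fun i => .inl (w, i)
def ιR (w : ℕ) : (X.Qm.I →₀ B) →ₗ[B] (II X →₀ B) := lmapDomain B B fun i => .inr (w, i)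

theorem ιL_single (w : ℕ) (i : X.Qp.I) (b : B) : ιL X w (single i b) = single (.inl (w, i)) b := by
  simp [ιL]
theorem ιR_single (w : ℕ) (i : X.Qm.I) (b : B) : ιR X w (single i b) = single (.inr (w, i)) b := by
  simp [ιR]

/-- a map given on the layers -/
def lay {M : Type} [AddCommGroup M] [Module B M] (f : ℕ → (X.Qp.I →₀ B) →ₗ[B] M)
    (g : ℕ → (X.Qm.I →₀ B) →ₗ[B] M) : (II X →₀ B) →ₗ[B] M :=
  linearCombination B (Sum.elim (fun x => f x.1 (single x.2 1)) (fun x => g x.1 (single x.2 1)))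

theorem lay_L {M : Type} [AddCommGroup M] [Module B M] (f : ℕ → (X.Qp.I →₀ B) →ₗ[B] M)
    (g : ℕ → (X.Qm.I →₀ B) →ₗ[B] M) (w : ℕ) (x : X.Qp.I →₀ B) : lay X f g (ιL X w x) = f w x :=
  LinearMap.congr_fun (ext1 (f := lay X f g ∘ₗ ιL X w) (g := f w) fun i => by
    simp [lay, ιL_single]) x

theorem lay_R {M : Type} [AddCommGroup M] [Module B M] (f : ℕ → (X.Qp.I →₀ B) →ₗ[B] M)
    (g : ℕ → (X.Qm.I →₀ B) →ₗ[B] M) (w : ℕ) (x : X.Qm.I →₀ B) : lay X f g (ιR X w x) = g w x :=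
  LinearMap.congr_fun (ext1 (f := lay X f g ∘ₗ ιR X w) (g := g w) fun i => by
    simp [lay, ιR_single]) x

theorem extL {M : Type} [AddCommGroup M] [Module B M] {f g : (II X →₀ B) →ₗ[B] M}
    (h0 : ∀ x, f (ιL X 0 x) = g (ιL X 0 x)) (h1 : ∀ w x, f (ιL X (w + 1) x) = g (ιL X (w + 1) x))
    (h2 : ∀ x, f (ιR X 0 x) = g (ιR X 0 x)) (h3 : ∀ w x, f (ιR X (w + 1) x) = g (ιR X (w + 1) x)) :
    f = g := by
  refine ext1 ?_
  rintro (⟨_ | w, i⟩ | ⟨_ | w, i⟩)
  · rw [← ιL_single]; exact h0 _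
  · rw [← ιL_single]; exact h1 _ _
  · rw [← ιR_single]; exact h2 _
  · rw [← ιR_single]; exact h3 _ _

def D0 : (II X →₀ B) →ₗ[B] (II X →₀ B) :=
  lay X (fun w => ιL X w ∘ₗ X.Qp.d) (fun w => ιR X w ∘ₗ X.Qm.d)
def D1 : (II X →₀ B) →ₗ[B] (II X →₀ B) :=
  lay X (fun w => Nat.casesOn w (ιR X 0 ∘ₗ X.φ) (fun w => ιL X w ∘ₗ X.Qp.one))
    (fun w => ιR X (w + 1) ∘ₗ X.Qm.one)
def SS : (II X →₀ B) →ₗ[B] (II X →₀ B) :=
  lay X (fun w => ιL X (w + 1)) (fun w => Nat.casesOn w 0 (fun w => ιR X w))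
def UU : (II X →₀ B) →ₗ[B] (II X →₀ B) :=
  lay X (fun w => ιL X w ∘ₗ X.Qp.one) (fun w => ιR X w ∘ₗ X.Qm.one)
def pL : (II X →₀ B) →ₗ[B] (X.Qp.I →₀ B) :=
  lay X (fun w => Nat.casesOn w LinearMap.id (fun _ => 0)) (fun _ => 0)
def pR : (II X →₀ B) →ₗ[B] (X.Qm.I →₀ B) :=
  lay X (fun _ => 0) (fun w => Nat.casesOn w LinearMap.id (fun _ => 0))

theorem one_of {P Q : Cx B} {n : ℤ} {g : Ch P Q B} (h : IsC P Q B n g) (x : P.I →₀ B) :
    g (P.one x) = g x ∧ Q.one (g x) = g x := by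
  constructor
  · exact LinearMap.congr_fun (ext1 (f := g ∘ₗ P.one) (g := g) fun i => by
      simpa using ((isM_iff.1 h) i).2) x
  · exact LinearMap.congr_fun (ext1 (f := Q.one ∘ₗ g) (g := g) fun i =>
      H.one Q ((isM_iff.1 h) i).1) x

theorem a1 (Q : Cx B) (x) : Q.d (Q.one x) = Q.d x := (one_of (P := Q) (Q := Q) Q.d_isM x).1
theorem a2 (Q : Cx B) (x) : Q.one (Q.d x) = Q.d x := (one_of (P := Q) (Q := Q) Q.d_isM x).2
theorem a3 (Q : Cx B) (x) : Q.d (Q.d x) = 0 := LinearMap.congr_fun Q.dd x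
theorem a4 (x) : X.φ (X.Qp.one x) = X.φ x := (one_of X.φ_cy.1 x).1
theorem a5 (x) : X.Qm.one (X.φ x) = X.φ x := (one_of X.φ_cy.1 x).2

theorem UU_single (j : II X) (b : B) : UU X (single j b) = single j (b * ep X j) := by
  rcases j with ⟨w, i⟩ | ⟨w, i⟩
  · rw [← ιL_single, UU, lay_L, LinearMap.comp_apply, one_single, ιL_single]; rfl
  · rw [← ιR_single, UU, lay_R, LinearMap.comp_apply, one_single, ιR_single]; rfl

theorem UU_of {n : ℤ} {x : II X →₀ B} (hx : H (dg X) (ep X) n x) : UU X x = x := by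
  classical
  conv_rhs => rw [← Finsupp.sum_single x]
  conv_lhs => rw [← Finsupp.sum_single x]
  rw [Finsupp.sum, map_sum]
  exact Finset.sum_congr rfl fun j _ => by rw [UU_single, (hx j).2]

theorem UU_col {n : ℤ} {α : (II X →₀ B) →ₗ[B] B} (h : HC (dg X) (ep X) n α) (x) :
    α (UU X x) = α x :=
  LinearMap.congr_fun (ext1 (f := α ∘ₗ UU X) (g := α) fun j => by
    rw [LinearMap.comp_apply, UU_single, ← sm1 α, one_mul]; exact (h j).2) x

theorem HL {n : ℤ} (w : ℕ) {x} (hx : H X.Qp.deg X.Qp.ε n x) : H (dg X) (ep X) (n - w) (ιL X w x) :=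
  H.map _ (fun j b hj hb => by rw [ιL_single]; exact H.single _ _ (by simp [dg, hj]) hb) hx
theorem HR {n : ℤ} (w : ℕ) {x} (hx : H X.Qm.deg X.Qm.ε n x) :
    H (dg X) (ep X) (n + w + 1) (ιR X w x) :=
  H.map _ (fun j b hj hb => by rw [ιR_single]; exact H.single _ _ (by simp [dg, hj]) hb) hx

theorem H.cast {I : Type} {deg : I → ℤ} {ε : I → B} {n n' : ℤ} {x} (h : H deg ε n x) (e : n = n') :
    H deg ε n' x := e ▸ h

theorem isM_D0 : IsM B (dg X) (ep X) (dg X) (ep X) 1 (D0 X) := by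
  rw [isM_iff]
  rintro (⟨w, i⟩ | ⟨w, i⟩)
  · simp only [← ιL_single, D0, lay_L, LinearMap.comp_apply]
    exact ⟨(HL X w (isM_iff.1 X.Qp.d_isM i).1).cast (by simp [dg]; ring),
      congrArg _ (isM_iff.1 X.Qp.d_isM i).2⟩
  · simp only [← ιR_single, D0, lay_R, LinearMap.comp_apply]
    exact ⟨(HR X w (isM_iff.1 X.Qm.d_isM i).1).cast (by simp [dg]; ring),
      congrArg _ (isM_iff.1 X.Qm.d_isM i).2⟩

theorem isM_D1 : IsM B (dg X) (ep X) (dg X) (ep X) 1 (D1 X) := by
  rw [isM_iff]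
  rintro (⟨_ | w, i⟩ | ⟨w, i⟩)
  · simp only [← ιL_single, D1, lay_L, LinearMap.comp_apply, Nat.rec_zero]
    exact ⟨(HR X 0 (isM_iff.1 X.φ_cy.1 i).1).cast (by simp [dg]),
      congrArg _ (isM_iff.1 X.φ_cy.1 i).2⟩
  · simp only [← ιL_single, D1, lay_L, LinearMap.comp_apply, one_single, one_mul]
    exact ⟨(HL X w (H.single i _ rfl (X.Qp.idem i))).cast (by simp [dg]; ring),
      by simp [ep, X.Qp.idem]⟩
  · simp only [← ιR_single, D1, lay_R, LinearMap.comp_apply, one_single, one_mul]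
    exact ⟨(HR X (w + 1) (H.single i _ rfl (X.Qm.idem i))).cast (by simp [dg]; ring),
      by simp [ep, X.Qm.idem]⟩

variable [CharP k 2]

theorem a6 (x) : X.φ (X.Qp.d x) = X.Qm.d (X.φ x) := LinearMap.congr_fun (φ_comm X) x

macro "lay_tac" : tactic => `(tactic|
  (refine extL _ (fun x => ?_) (fun w x => ?_) (fun x => ?_) (fun w x => ?_) <;>
    simp [D0, D1, SS, UU, pL, pR, lay_L, lay_R, a1, a2, a3, a4, a5, a6]))

theorem r1 : D0 X ∘ₗ D0 X = 0 := by lay_tac
theorem r2 : D0 X ∘ₗ D1 X = D1 X ∘ₗ D0 X := by lay_tac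
theorem r3 : D0 X ∘ₗ SS X = SS X ∘ₗ D0 X := by lay_tac
theorem r4 : SS X ∘ₗ D1 X + ιL X 0 ∘ₗ pL X ∘ₗ UU X = UU X := by lay_tac
theorem r5 : D1 X ∘ₗ SS X + ιR X 0 ∘ₗ pR X ∘ₗ UU X = UU X := by lay_tac
theorem r4' : SS X ∘ₗ D1 X + UU X ∘ₗ ιL X 0 ∘ₗ pL X = UU X := by lay_tac
theorem r5' : D1 X ∘ₗ SS X + UU X ∘ₗ ιR X 0 ∘ₗ pR X = UU X := by lay_tac
theorem r6 : pL X ∘ₗ D0 X = X.Qp.d ∘ₗ pL X := by lay_tac
theorem r7 : pR X ∘ₗ D0 X = X.Qm.d ∘ₗ pR X := by lay_tac
theorem r8 : pR X ∘ₗ D1 X = X.φ ∘ₗ pL X := by lay_tac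

theorem rowB (n : ℤ) (a b : II X →₀ B) (ha : H (dg X) (ep X) n a) (hb : H (dg X) (ep X) n b)
    (h1 : D0 X a = 0) (h2 : D0 X b = D1 X a) :
    ∃ a' b', H (dg X) (ep X) (n - 1) a' ∧ H (dg X) (ep X) (n - 1) b' ∧ D0 X a' = a ∧
      D0 X b' + D1 X a' = b := by
  obtain ⟨a', b', ha', hb', e1, e2⟩ := row_cone X n (pL X a) (pR X b)
    (H.map _ (by
      rintro (⟨_ | w, i⟩ | ⟨w, i⟩) c hj hc
      · rw [← ιL_single, pL, lay_L]; exact H.single _ _ (by simpa [dg] using hj) hc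
      · rw [← ιL_single, pL, lay_L]; exact H.zero _ _ _
      · rw [← ιR_single, pL, lay_R]; exact H.zero _ _ _) ha)
    (H.map _ (by
      rintro (⟨w, i⟩ | ⟨_ | w, i⟩) c hj hc
      · rw [← ιL_single, pR, lay_L]; exact H.zero _ _ _
      · rw [← ιR_single, pR, lay_R]; exact H.single _ _ (by simp [dg] at hj; omega) hc
      · rw [← ιR_single, pR, lay_R]; exact H.zero _ _ _) hb)
    (by have := LinearMap.congr_fun (r6 X) a; simpa [h1] using this.symm)
    (by
      have := LinearMap.congr_fun (r7 X) b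
      have h' := LinearMap.congr_fun (r8 X) a
      simp only [LinearMap.comp_apply] at this h'
      rw [← this, h2, h'])
  refine ⟨SS X b + ιL X 0 a', ιR X 0 b', H.add (H.map _ ?_ hb) ((HL X 0 ha').cast (by simp)),
    (HR X 0 hb').cast (by simp), ?_, ?_⟩
  · rintro (⟨w, i⟩ | ⟨_ | w, i⟩) c hj hc
    · rw [← ιL_single, SS, lay_L, ιL_single]; exact H.single _ _ (by simp [dg] at hj ⊢; omega) hc
    · rw [← ιR_single, SS, lay_R]; exact H.zero _ _ _
    · rw [← ιR_single, SS, lay_R]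
      exact (HR X w (H.single i c rfl hc)).cast (by simp [dg] at hj; omega)
  · have h3 := LinearMap.congr_fun (r3 X) b
    have h4 := LinearMap.congr_fun (r4 X) a
    simp only [LinearMap.comp_apply, LinearMap.add_apply, UU_of X ha] at h3 h4
    rw [map_add, h3, h2, D0, lay_L, LinearMap.comp_apply, e1, h4]
  · have h5 := LinearMap.congr_fun (r5 X) b
    simp only [LinearMap.comp_apply, LinearMap.add_apply, UU_of X hb] at h5
    have e3 : D1 X (ιL X 0 a') = ιR X 0 (X.φ a') := by rw [D1, lay_L]; rfl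
    rw [map_add, e3, D0, lay_R, LinearMap.comp_apply, add_left_comm, ← map_add, e2, h5]

theorem colB (n : ℤ) (a b : (II X →₀ B) →ₗ[B] B) (ha : HC (dg X) (ep X) n a)
    (hb : HC (dg X) (ep X) n b) (h1 : a ∘ₗ D0 X = 0) (h2 : b ∘ₗ D0 X = a ∘ₗ D1 X) :
    ∃ a' b', HC (dg X) (ep X) (n - 1) a' ∧ HC (dg X) (ep X) (n - 1) b' ∧ a' ∘ₗ D0 X = a ∧
      b' ∘ₗ D0 X + a' ∘ₗ D1 X = b := by
  obtain ⟨a', b', ha', hb', e1, e2⟩ := col_cone X (n + 1) (a ∘ₗ ιR X 0) (b ∘ₗ ιL X 0)
    (fun i => by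
      rw [LinearMap.comp_apply, ιR_single]
      exact ⟨fun h => (ha _).1 (by simp [dg]; omega), (ha (.inr (0, i))).2⟩)
    (fun i => by
      rw [LinearMap.comp_apply, ιL_single]
      exact ⟨fun h => (hb _).1 (by simp [dg]; omega), (hb (.inl (0, i))).2⟩)
    (LinearMap.ext fun x => by
      have := LinearMap.congr_fun h1 (ιR X 0 x)
      simpa [D0, lay_R] using this)
    (LinearMap.ext fun x => by
      have := LinearMap.congr_fun h2 (ιL X 0 x)
      simpa [D0, D1, lay_L] using this)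
  refine ⟨b ∘ₗ SS X + a' ∘ₗ pR X, b' ∘ₗ pL X, HC.add ?_ ?_, ?_, ?_, ?_⟩
  · rintro (⟨w, i⟩ | ⟨_ | w, i⟩)
    · rw [LinearMap.comp_apply, ← ιL_single, SS, lay_L, ιL_single]
      exact ⟨fun h => (hb _).1 (by simp [dg] at h ⊢; omega), (hb (.inl (w + 1, i))).2⟩
    · rw [LinearMap.comp_apply, ← ιR_single, SS, lay_R]; simp
    · have : SS X (single (.inr (w + 1, i)) 1) = single (.inr (w, i)) 1 := by
        rw [← ιR_single, SS, lay_R]; exact ιR_single X _ _ _
      rw [LinearMap.comp_apply, this]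
      exact ⟨fun h => (hb _).1 (by simp [dg] at h ⊢; omega), (hb (.inr (w, i))).2⟩
  · rintro (⟨w, i⟩ | ⟨_ | w, i⟩)
    · rw [LinearMap.comp_apply, ← ιL_single, pR, lay_L]; simp
    · rw [LinearMap.comp_apply, ← ιR_single, pR, lay_R]
      exact ⟨fun h => (ha' i).1 (by simp [dg] at h ⊢; omega), (ha' i).2⟩
    · rw [LinearMap.comp_apply, ← ιR_single, pR, lay_R]; simp
  · rintro (⟨_ | w, i⟩ | ⟨w, i⟩)
    · rw [LinearMap.comp_apply, ← ιL_single, pL, lay_L]
      exact ⟨fun h => (hb' i).1 (by simp [dg] at h ⊢; omega), (hb' i).2⟩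
    · rw [LinearMap.comp_apply, ← ιL_single, pL, lay_L]; simp
    · rw [LinearMap.comp_apply, ← ιR_single, pL, lay_R]; simp
  · refine LinearMap.ext fun x => ?_
    have h3 := LinearMap.congr_fun (r3 X) x
    have h5 := LinearMap.congr_fun (r5' X) x
    have h7 := LinearMap.congr_fun (r7 X) x
    have g2 := LinearMap.congr_fun h2 (SS X x)
    have g1 := LinearMap.congr_fun e1 (pR X x)
    simp only [LinearMap.comp_apply, LinearMap.add_apply] at h3 h5 h7 g2 g1 ⊢
    rw [← h3, g2, h7, g1, ← UU_col X ha (ιR X 0 _), ← map_add, h5, UU_col X ha]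
  · refine LinearMap.ext fun x => ?_
    have h4 := LinearMap.congr_fun (r4' X) x
    have h6 := LinearMap.congr_fun (r6 X) x
    have h8 := LinearMap.congr_fun (r8 X) x
    have g2 := LinearMap.congr_fun e2 (pL X x)
    simp only [LinearMap.comp_apply, LinearMap.add_apply] at h4 h6 h8 g2 ⊢
    rw [h6, h8, add_left_comm, g2, ← UU_col X hb (ιL X 0 _), ← map_add, h4, UU_col X hb]

def PP : Cx (DualNumber B) where
  I := II X
  deg := dg X
  fin n := by
    refine Set.Finite.subset (Set.Finite.union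
      ((Set.finite_Iic (-n).toNat).biUnion fun w _ =>
        (X.Qp.fin (n + w)).image fun i => (Sum.inl (w, i) : II X))
      ((Set.finite_Iic (n + m).toNat).biUnion fun w _ =>
        (X.Qm.fin (n - w - 1)).image fun i => (Sum.inr (w, i) : II X))) ?_
    rintro (⟨w, i⟩ | ⟨w, i⟩) h
    · have h' : X.Qp.deg i - w = n := h
      have := X.degp i
      exact Or.inl (Set.mem_biUnion (x := w) (by simp; omega) ⟨i, by simp; omega, rfl⟩)
    · have h' : X.Qm.deg i + w + 1 = n := h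
      have := X.degm i
      exact Or.inr (Set.mem_biUnion (x := w) (by simp; omega) ⟨i, by simp; omega, rfl⟩)
  ε i := inl (ep X i)
  idem i := by
    rw [← inl_mul]
    rcases i with ⟨w, i⟩ | ⟨w, i⟩
    · exact congrArg _ (X.Qp.idem i)
    · exact congrArg _ (X.Qm.idem i)
  d := dE (D0 X) (D1 X)
  d_isM := isM_iff.2 fun i => by
    refine ⟨H_iff.2 ⟨?_, ?_⟩, ext2 ?_ ?_⟩
    · rw [fs_dE]; simpa using (isM_iff.1 (isM_D0 X) i).1
    · rw [sn_dE]; simpa using (isM_iff.1 (isM_D1 X) i).1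
    · rw [fs_dE, fs_dE]; simpa using (isM_iff.1 (isM_D0 X) i).2
    · rw [sn_dE, sn_dE]; simpa using (isM_iff.1 (isM_D1 X) i).2
  dd := LinearMap.ext fun x => by
    have h1 := LinearMap.congr_fun (r1 X)
    have h2 := LinearMap.congr_fun (r2 X)
    simp only [LinearMap.comp_apply, LinearMap.zero_apply] at h1 h2
    refine ext2 ?_ ?_
    · simp [fs_dE, h1]
    · simp [fs_dE, sn_dE, h1, h2, two_mod (k := k)]

omit [CharP k 2] in
theorem sum_fs {I J : Type} (g : J → I) (x : J →₀ B) :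
    (x.sum fun j b => single (g j) (inl b : DualNumber B)) = mk2 (mapDomain g x) 0 := by
  induction x using Finsupp.induction_linear with
  | zero => exact ext2 (by simp) (by simp)
  | add x y hx hy =>
    rw [Finsupp.sum_add_index' (by simp) (by simp), hx, hy]
    exact ext2 (by simp [mapDomain_add]) (by simp)
  | single i b => exact ext2 (by simp) (by simp)

omit [CharP k 2] in
theorem sum_sn {I J : Type} (g : J → I) (x : J →₀ B) :
    (x.sum fun j b => single (g j) (inr b : DualNumber B)) = mk2 0 (mapDomain g x) := by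
  induction x using Finsupp.induction_linear with
  | zero => exact ext2 (by simp) (by simp)
  | add x y hx hy =>
    rw [Finsupp.sum_add_index' (by simp) (by simp [add_smul]), hx, hy]
    exact ext2 (by simp) (by simp [mapDomain_add])
  | single i b => exact ext2 (by simp) (by simp)

def YY : PD X where
  P := PP X
  e := Equiv.refl _
  deg_l _ _ := rfl
  deg_r _ _ := rfl
  ε_l _ _ := rfl
  ε_r _ _ := rfl
  d_l0 i := by
    change dE (D0 X) (D1 X) (single (.inl (0, i)) 1) =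
      (X.Qp.d (single i 1)).sum (fun j b => single (Sum.inl (0, j) : II X) (inl b : DualNumber B)) +
      (X.φ (single i 1)).sum (fun j b => single (Sum.inr (0, j) : II X) (inr b : DualNumber B))
    rw [sum_fs, sum_sn]
    refine ext2 ?_ ?_
    · rw [fs_dE, fs_single, ← ιL_single, D0, lay_L]; simp [ιL]
    · rw [sn_dE, fs_single, ← ιL_single, D1, lay_L]; simp [ιR]
  d_l w i := by
    change dE (D0 X) (D1 X) (single (.inl (w + 1, i)) 1) =
      (X.Qp.d (single i 1)).sum (fun j b => single (Sum.inl (w + 1, j) : II X) (inl b : DualNumber B)) +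
      single (Sum.inl (w, i) : II X) (inr (X.Qp.ε i) : DualNumber B)
    rw [sum_fs]
    refine ext2 ?_ ?_
    · rw [fs_dE, fs_single, ← ιL_single, D0, lay_L]; simp [ιL]
    · rw [sn_dE, fs_single, ← ιL_single, D1, lay_L]; simp [ιL]
  d_r w i := by
    change dE (D0 X) (D1 X) (single (.inr (w, i)) 1) =
      (X.Qm.d (single i 1)).sum (fun j b => single (Sum.inr (w, j) : II X) (inl b : DualNumber B)) +
      single (Sum.inr (w + 1, i) : II X) (inr (X.Qm.ε i) : DualNumber B)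
    rw [sum_fs]
    refine ext2 ?_ ?_
    · rw [fs_dE, fs_single, ← ιR_single, D0, lay_R]; simp [ιR]
    · rw [sn_dE, fs_single, ← ιR_single, D1, lay_R]; simp [ιR]

theorem eq_of_add {M : Type} [AddCommGroup M] [Module k M] {x y : M} (h : x + y = 0) : x = y :=
  add_right_cancel (h.trans (two_mod (k := k) y).symm)

theorem row_PP : Row (PP X) (DualNumber B) := by
  intro n v hv
  obtain ⟨hH, hd⟩ := (cy_row _ _ _).1 hv
  obtain ⟨ha, hb⟩ := H_iff.1 hH
  have h1 := (fs_dE (D0 X) (D1 X) _).symm.trans ((congrArg fs hd).trans fs_zero)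
  have h2 := (sn_dE (D0 X) (D1 X) _).symm.trans ((congrArg sn hd).trans sn_zero)
  obtain ⟨a', b', ha', hb', e1, e2⟩ := rowB X n _ _ ha hb h1 (eq_of_add (k := k) h2)
  refine (bd_row _ _ _).2 ⟨mk2 a' b', H_iff.2 ⟨by rwa [fs_mk2], by rwa [sn_mk2]⟩, ext2 ?_ ?_⟩
  · exact (fs_dE _ _ _).trans (by rw [fs_mk2]; exact e1)
  · exact (sn_dE _ _ _).trans (by rw [fs_mk2, sn_mk2]; exact e2)

theorem col_PP : Col (PP X) (DualNumber B) := by
  intro n w hw
  rw [← colv_self w] at hw ⊢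
  obtain ⟨hH, hd⟩ := (cy_col _ _ _).1 hw
  obtain ⟨ha, hb⟩ := HC_iff.1 hH
  have z1 : fc (0 : (II X →₀ DualNumber B) →ₗ[DualNumber B] DualNumber B) = 0 :=
    ext1 fun i => by simp [fc]
  have z2 : sc (0 : (II X →₀ DualNumber B) →ₗ[DualNumber B] DualNumber B) = 0 :=
    ext1 fun i => by simp [sc]
  have h1 := (fc_dE (D0 X) (D1 X) _).symm.trans ((congrArg fc hd).trans z1)
  have h2 := (sc_dE (D0 X) (D1 X) _).symm.trans ((congrArg sc hd).trans z2)
  obtain ⟨a', b', ha', hb', e1, e2⟩ := colB X n _ _ ha hb h1 (eq_of_add (k := k) h2)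
  refine (bd_col _ _ _).2 ⟨mkc a' b', HC_iff.2 ⟨by rwa [fc_mkc], by rwa [sc_mkc]⟩, extc ?_ ?_⟩
  · exact (fc_dE _ _ _).trans (by rw [fc_mkc]; exact e1)
  · exact (sc_dE _ _ _).trans (by rw [fc_mkc, sc_mkc]; exact e2)

end

theorem pStmt : PStmt := fun _ _ _ _ _ _ _ X => ⟨YY X, row_PP X, col_PP X⟩

end Crest.Agent.H4.TkP
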