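import Mathlib
import Crest.Agent.H4.TkP2
import Crest.Agent.H6.TkD

/-! Row 186: the cone of `φ`. -/

set_option autoImplicit false

noncomputable section
namespace Crest.Agent.H4.TkH
open MulOpposite Finsupp Crest.Agent.H6.Tk Crest.Agent.H4.TkP

section
variable {k : Type} [Field k] {B : Type} [Ring B] [Algebra k B] {m : ℕ} (X : BD k B m)

abbrev JJ := X.Qp.I ⊕ X.Qm.I
def dg : JJ X → ℤ := Sum.elim X.Qp.deg (fun x => X.Qm.deg x + 1)
def ep : JJ X → B := Sum.elim X.Qp.ε X.Qm.ε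
def jL : (X.Qp.I →₀ B) →ₗ[B] (JJ X →₀ B) := lmapDomain B B fun i => .inl i
def jR : (X.Qm.I →₀ B) →ₗ[B] (JJ X →₀ B) := lmapDomain B B fun i => .inr i

theorem jL_single (i : X.Qp.I) (b : B) : jL X (single i b) = single (.inl i) b := by simp [jL]
theorem jR_single (i : X.Qm.I) (b : B) : jR X (single i b) = single (.inr i) b := by simp [jR]

def lay {M : Type} [AddCommGroup M] [Module B M] (f : (X.Qp.I →₀ B) →ₗ[B] M)
    (g : (X.Qm.I →₀ B) →ₗ[B] M) : (JJ X →₀ B) →ₗ[B] M :=
  linearCombination B (Sum.elim (fun x => f (single x 1)) (fun x => g (single x 1)))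

theorem lay_L {M : Type} [AddCommGroup M] [Module B M] (f : (X.Qp.I →₀ B) →ₗ[B] M)
    (g : (X.Qm.I →₀ B) →ₗ[B] M) (x : X.Qp.I →₀ B) : lay X f g (jL X x) = f x :=
  LinearMap.congr_fun (ext1 (f := lay X f g ∘ₗ jL X) (g := f) fun i => by simp [lay, jL_single]) x

theorem lay_R {M : Type} [AddCommGroup M] [Module B M] (f : (X.Qp.I →₀ B) →ₗ[B] M)
    (g : (X.Qm.I →₀ B) →ₗ[B] M) (x : X.Qm.I →₀ B) : lay X f g (jR X x) = g x :=
  LinearMap.congr_fun (ext1 (f := lay X f g ∘ₗ jR X) (g := g) fun i => by simp [lay, jR_single]) x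

theorem extL {M : Type} [AddCommGroup M] [Module B M] {f g : (JJ X →₀ B) →ₗ[B] M}
    (h0 : ∀ x, f (jL X x) = g (jL X x)) (h2 : ∀ x, f (jR X x) = g (jR X x)) : f = g := by
  refine ext1 ?_
  rintro (i | i)
  · rw [← jL_single]; exact h0 _
  · rw [← jR_single]; exact h2 _

def DH : (JJ X →₀ B) →ₗ[B] (JJ X →₀ B) :=
  lay X (jL X ∘ₗ X.Qp.d + jR X ∘ₗ X.φ) (jR X ∘ₗ X.Qm.d)
def pL : (JJ X →₀ B) →ₗ[B] (X.Qp.I →₀ B) := lay X LinearMap.id 0
def pR : (JJ X →₀ B) →ₗ[B] (X.Qm.I →₀ B) := lay X 0 LinearMap.id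

theorem HL {n : ℤ} {x} (hx : H X.Qp.deg X.Qp.ε n x) : H (dg X) (ep X) n (jL X x) :=
  H.map _ (fun j b hj hb => by rw [jL_single]; exact H.single _ _ (by simp [dg, hj]) hb) hx
theorem HR {n : ℤ} {x} (hx : H X.Qm.deg X.Qm.ε n x) : H (dg X) (ep X) (n + 1) (jR X x) :=
  H.map _ (fun j b hj hb => by rw [jR_single]; exact H.single _ _ (by simp [dg, hj]) hb) hx

theorem isM_DH : IsM B (dg X) (ep X) (dg X) (ep X) 1 (DH X) := by
  rw [isM_iff]
  rintro (i | i)
  · simp only [← jL_single, DH, lay_L, LinearMap.comp_apply, LinearMap.add_apply]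
    refine ⟨(HL X (isM_iff.1 X.Qp.d_isM i).1).add
      ((HR X (isM_iff.1 X.φ_cy.1 i).1).cast (by simp [dg])), ?_⟩
    have h1 := (isM_iff.1 X.Qp.d_isM i).2
    have h2 := (isM_iff.1 X.φ_cy.1 i).2
    exact congrArg₂ (· + ·) (congrArg _ h1) (congrArg _ h2)
  · simp only [← jR_single, DH, lay_R, LinearMap.comp_apply]
    exact ⟨(HR X (isM_iff.1 X.Qm.d_isM i).1).cast (by simp [dg]),
      congrArg _ (isM_iff.1 X.Qm.d_isM i).2⟩

variable [CharP k 2]

theorem s0 : jL X ∘ₗ pL X + jR X ∘ₗ pR X = LinearMap.id :=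
  extL X (fun x => by simp [pL, pR, lay_L]) (fun x => by simp [pL, pR, lay_R])
theorem s1 : DH X ∘ₗ DH X = 0 :=
  extL X (fun x => by simp [DH, lay_L, lay_R, a3, a6, two_mod (k := k)])
    (fun x => by simp [DH, lay_R, a3])
theorem s2 : pL X ∘ₗ DH X = X.Qp.d ∘ₗ pL X :=
  extL X (fun x => by simp [DH, pL, lay_L, lay_R]) (fun x => by simp [DH, pL, lay_R])
theorem s3 : pR X ∘ₗ DH X = X.Qm.d ∘ₗ pR X + X.φ ∘ₗ pL X :=
  extL X (fun x => by simp [DH, pL, pR, lay_L, lay_R]) (fun x => by simp [DH, pL, pR, lay_R])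

def HH : Cx B where
  I := JJ X
  deg := dg X
  fin n := by
    refine Set.Finite.subset (Set.Finite.union ((X.Qp.fin n).image fun i => (Sum.inl i : JJ X))
      ((X.Qm.fin (n - 1)).image fun i => (Sum.inr i : JJ X))) ?_
    rintro (i | i) h
    · exact Or.inl ⟨i, h, rfl⟩
    · have h' : X.Qm.deg i + 1 = n := h
      exact Or.inr ⟨i, by simp; omega, rfl⟩
  ε := ep X
  idem := by
    rintro (i | i)
    · exact X.Qp.idem i
    · exact X.Qm.idem i
  d := DH X
  d_isM := isM_DH X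
  dd := s1 X

def HD' : HD X where
  H := HH X
  e := Equiv.refl _
  deg_l _ := rfl
  deg_r _ := rfl
  ε_l _ := rfl
  ε_r _ := rfl
  d_l i := by
    change DH X (single (.inl i) 1) = jL X _ + jR X _
    rw [← jL_single, DH, lay_L]; rfl
  d_r i := by
    change DH X (single (.inr i) 1) = jR X _
    rw [← jR_single, DH, lay_R]; rfl

theorem row_HH : Row (HH X) B := by
  intro n v hv
  obtain ⟨hH, hd⟩ := (cy_row _ _ _).1 hv
  have key : ∀ x : JJ X →₀ B, H (dg X) (ep X) n x → DH X x = 0 →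
      ∃ y, H (dg X) (ep X) (n - 1) y ∧ DH X y = x := by
    intro x hx hd
    have h2 := LinearMap.congr_fun (s2 X) x
    have h3 := LinearMap.congr_fun (s3 X) x
    have h0 := LinearMap.congr_fun (s0 X) x
    simp only [LinearMap.comp_apply, LinearMap.add_apply, hd, map_zero, LinearMap.id_apply] at h0 h2 h3
    obtain ⟨a', b', ha', hb', e1, e2⟩ := row_cone X n (pL X x) (pR X x)
      (H.map _ (by
        rintro (i | i) c hj hc
        · rw [← jL_single, pL, lay_L]; exact H.single _ _ hj hc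
        · rw [← jR_single, pL, lay_R]; exact H.zero _ _ _) hx)
      (H.map _ (by
        rintro (i | i) c hj hc
        · rw [← jL_single, pR, lay_L]; exact H.zero _ _ _
        · rw [← jR_single, pR, lay_R]; exact H.single _ _ (by simp [dg] at hj; omega) hc) hx)
      h2.symm (eq_of_add (k := k) h3.symm)
    refine ⟨jL X a' + jR X b', (HL X ha').add ((HR X hb').cast (by simp)), ?_⟩
    rw [map_add, DH, lay_L, lay_R, ← h0, ← e1, ← e2]
    simp only [LinearMap.comp_apply, LinearMap.add_apply, map_add]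
    abel
  exact (bd_row _ _ _).2 (key _ hH hd)

theorem col_HH : Col (HH X) B := by
  intro n w hw
  rw [← colv_self w] at hw ⊢
  obtain ⟨hH, hd⟩ := (cy_col _ _ _).1 hw
  have key : ∀ α : (JJ X →₀ B) →ₗ[B] B, HC (dg X) (ep X) n α → α ∘ₗ DH X = 0 →
      ∃ β, HC (dg X) (ep X) (n - 1) β ∧ β ∘ₗ DH X = α := by
    intro α hα hd
    obtain ⟨a', b', ha', hb', e1, e2⟩ := col_cone X (n + 1) (α ∘ₗ jR X) (α ∘ₗ jL X)
      (fun i => by
        rw [LinearMap.comp_apply, jR_single]
        exact ⟨fun h => (hα _).1 (by simp [dg]; omega), (hα (.inr i)).2⟩)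
      (fun i => by
        rw [LinearMap.comp_apply, jL_single]
        exact ⟨fun h => (hα _).1 (by simp [dg]; omega), (hα (.inl i)).2⟩)
      (LinearMap.ext fun x => by
        have := LinearMap.congr_fun hd (jR X x)
        simpa [DH, lay_R] using this)
      (LinearMap.ext fun x => by
        have := LinearMap.congr_fun hd (jL X x)
        exact eq_of_add (k := k) (by simpa [DH, lay_L] using this))
    refine ⟨b' ∘ₗ pL X + a' ∘ₗ pR X, HC.add ?_ ?_, ?_⟩
    · rintro (i | i)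
      · rw [LinearMap.comp_apply, ← jL_single, pL, lay_L]
        exact ⟨fun h => (hb' i).1 (by simp [dg] at h ⊢; omega), (hb' i).2⟩
      · rw [LinearMap.comp_apply, ← jR_single, pL, lay_R]; simp
    · rintro (i | i)
      · rw [LinearMap.comp_apply, ← jL_single, pR, lay_L]; simp
      · rw [LinearMap.comp_apply, ← jR_single, pR, lay_R]
        exact ⟨fun h => (ha' i).1 (by simp [dg] at h ⊢; omega), (ha' i).2⟩
    · refine extL X (fun x => ?_) (fun x => ?_)
      · have := LinearMap.congr_fun e2 x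
        simpa [DH, pL, pR, lay_L, lay_R] using this
      · have := LinearMap.congr_fun e1 x
        simpa [DH, pL, pR, lay_L, lay_R] using this
  exact (bd_col _ _ _).2 (key _ hH hd)

end

theorem hStmt : HStmt := fun _ _ _ _ _ _ _ X => ⟨HD' X, row_HH X, col_HH X⟩

end Crest.Agent.H4.TkH
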