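import Mathlib
import Crest.Agent.H4.TkP2
import Crest.Agent.H6.TkD

/-! Row 186: the trace conditions. -/

set_option autoImplicit false

noncomputable section
namespace Crest.Agent.H4.TkTr
open MulOpposite Finsupp Crest.Agent.H6.Tk Crest.Agent.H4.TkP TrivSqZeroExt LinearMap

section lin
variable {k : Type} [Field k]

theorem ginv {U V : Type} [AddCommGroup U] [Module k U] [AddCommGroup V] [Module k V]
    (d : U →ₗ[k] V) : ∃ σ : V →ₗ[k] U, ∀ x, d (σ (d x)) = d x := by
  obtain ⟨ρ, hρ⟩ := d.rangeRestrict.exists_rightInverse_of_surjective d.range_rangeRestrict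
  obtain ⟨π, hπ⟩ := (range d).subtype.exists_leftInverse_of_injective (range d).ker_subtype
  refine ⟨ρ ∘ₗ π, fun x => ?_⟩
  have h1 : π (d x) = d.rangeRestrict x := LinearMap.congr_fun hπ (d.rangeRestrict x)
  rw [comp_apply, h1]
  exact congrArg Subtype.val (LinearMap.congr_fun hρ (d.rangeRestrict x))

theorem proj_tr {V : Type} [AddCommGroup V] [Module k V] [FiniteDimensional k V] (F e e' : V →ₗ[k] V)
    (h1 : ∀ x, e' (F (e x)) = F (e x)) (h2 : ∀ x, e (e' x) = e' x) :
    trace k V (F ∘ₗ e) = trace k V (F ∘ₗ e') := by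
  have a : F ∘ₗ e = e' ∘ₗ (F ∘ₗ e) := LinearMap.ext fun x => (h1 x).symm
  have b : (F ∘ₗ e) ∘ₗ e' = F ∘ₗ e' := LinearMap.ext fun x => by simp [h2]
  rw [a, trace_comp_comm', b]

theorem parity (W : ℕ → Type) [∀ j, AddCommGroup (W j)] [∀ j, Module k (W j)]
    [∀ j, FiniteDimensional k (W j)] (d : ∀ j, W (j + 1) →ₗ[k] W j) (F : ∀ j, W j →ₗ[k] W j)
    (hF : ∀ j x, F j (d j x) = d j (F (j + 1) x)) (hdd : ∀ j x, d j (d (j + 1) x) = 0)
    (hex : ∀ j x, d j x = 0 → ∃ y, d (j + 1) y = x) (l : W 0 →ₗ[k] k) (x0 : W 0) (hx0 : l x0 = 1)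
    (hl : ∀ x, l (d 0 x) = 0) (hl' : ∀ x, l x = 0 → ∃ y, d 0 y = x) (hlF : l (F 0 x0) = 1)
    (htr : ∀ j, trace k _ (F j) = 0) (N : ℕ) (s : W N →ₗ[k] W (N + 1))
    (hs : ∀ x, d N (s (d N x)) = F N (d N x)) (hst : trace k _ (s ∘ₗ d N) = 0) : False := by
  choose σ hσ using fun j => ginv (d j)
  have key : ∀ j, trace k _ (F j ∘ₗ (d j ∘ₗ σ j)) ≠ 0 := by
    intro j
    induction j with
    | zero =>
      rw [proj_tr (F 0) _ (LinearMap.id - l.smulRight x0) (fun x => by simp [hF, hl]) (fun x => by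
        obtain ⟨y, hy⟩ := hl' (x - l x • x0) (by simp [hx0])
        simp only [LinearMap.sub_apply, id_apply, smulRight_apply, comp_apply, ← hy, hσ])]
      have : F 0 ∘ₗ l.smulRight x0 = l.smulRight (F 0 x0) := LinearMap.ext fun x => by simp
      rw [comp_sub, map_sub, comp_id, htr, this, trace_smulRight, hlF]
      simp
    | succ j ih =>
      rw [proj_tr (F (j + 1)) _ (LinearMap.id - σ j ∘ₗ d j) (fun x => by simp [hF, hdd]) (fun x => by
        obtain ⟨y, hy⟩ := hex j (x - σ j (d j x)) (by simp [hσ])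
        simp only [LinearMap.sub_apply, id_apply, comp_apply, ← hy, hσ])]
      have : d j ∘ₗ (F (j + 1) ∘ₗ σ j) = F j ∘ₗ (d j ∘ₗ σ j) := LinearMap.ext fun x => by simp [hF]
      rw [comp_sub, map_sub, comp_id, htr, ← comp_assoc, trace_comp_comm', this, zero_sub]
      exact neg_ne_zero.2 ih
  apply key N
  have a : F N ∘ₗ (d N ∘ₗ σ N) = d N ∘ₗ (s ∘ₗ d N ∘ₗ σ N) := LinearMap.ext fun x => by simp [hs]
  have b : (s ∘ₗ d N ∘ₗ σ N) ∘ₗ d N = s ∘ₗ d N := LinearMap.ext fun x => by simp [hσ]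
  rw [a, trace_comp_comm', b, hst]

end lin

section
variable {k : Type} [Field k] {B : Type} [Ring B] [Algebra k B] {m : ℕ} (X : BD k B m)

def iL : B →ₗ[k] DualNumber B := inlHom' k
  where inlHom' (k : Type) [Field k] [Algebra k B] : B →ₗ[k] DualNumber B :=
    { toFun := inl, map_add' := inl_add B, map_smul' := fun c b => inl_smul B c b }
def iR : B →ₗ[k] DualNumber B :=
  { toFun := inr, map_add' := inr_add B, map_smul' := fun c b => inr_smul B c b }
def pF : DualNumber B →ₗ[k] B := { toFun := fst, map_add' := fst_add, map_smul' := fst_smul }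
def pS : DualNumber B →ₗ[k] B := { toFun := snd, map_add' := snd_add, map_smul' := snd_smul }

theorem iL_apply (b : B) : iL (k := k) b = inl b := rfl
theorem iR_apply (b : B) : iR (k := k) b = inr b := rfl
theorem pF_apply (b : DualNumber B) : pF (k := k) b = b.fst := rfl
theorem pS_apply (b : DualNumber B) : pS (k := k) b = b.snd := rfl

include X in
theorem fdE : FiniteDimensional k (DualNumber B) :=
  haveI := X.fd
  inferInstanceAs (FiniteDimensional k (B × B))

theorem tr_f (θ : DualNumber B →ₗ[k] DualNumber B) (h : BLin k B θ) :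
    trace k _ (mulLeft k (inl X.f : DualNumber B) ∘ₗ θ) = 0 := by
  haveI := X.fd
  haveI := fdE X
  set G := mulLeft k (inl X.f : DualNumber B) ∘ₗ θ with hG
  have e : G = (G ∘ₗ iL) ∘ₗ pF + (G ∘ₗ iR) ∘ₗ pS := LinearMap.ext fun x => by
    simp only [LinearMap.add_apply, comp_apply, ← map_add, iL_apply, iR_apply, pF_apply, pS_apply,
      inl_fst_add_inr_snd_eq]
  have e1 : pF ∘ₗ (G ∘ₗ iL) = mulLeft k X.f ∘ₗ mulRight k (θ 1).fst := LinearMap.ext fun b => by
    have := h b 1
    rw [mul_one] at this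
    simp [hG, iL_apply, pF_apply, this]
  have e2 : pS ∘ₗ (G ∘ₗ iR) = mulLeft k X.f ∘ₗ mulRight k (θ (inr 1)).snd := LinearMap.ext fun b => by
    have := h b (inr 1)
    rw [inl_mul_inr, smul_eq_mul, mul_one] at this
    simp only [hG, iR_apply, pS_apply, comp_apply, this, mulLeft_apply, mulRight_apply]
    simp
  have t1 := trace_comp_comm' (pF (k := k)) (G ∘ₗ iL)
  have t2 := trace_comp_comm' (pS (k := k)) (G ∘ₗ iR)
  rw [e1, X.tr] at t1
  rw [e2, X.tr] at t2
  rw [e, map_add]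
  exact (congrArg₂ (· + ·) t1 t2).trans (add_zero _)

theorem fStmt : FStmt X := fun ψ hψ ψ' hψ' => by
  rw [Om.toL_ofL, comp_assoc]
  exact tr_f X _ fun b x => by rw [comp_apply, hψ', hψ, comp_apply]

/-- homogeneous rows -/
def VV (n : ℤ) : Submodule k (X.Qp.I →₀ B) where
  carrier := {x | H X.Qp.deg X.Qp.ε n x}
  add_mem' := H.add
  zero_mem' := H.zero _ _ _
  smul_mem' c _ hx := hx.ksmul c

def evi (n : ℤ) (i : X.Qp.I) : VV X n →ₗ[k] B := lapply i ∘ₗ (VV X n).subtype

def ini (n : ℤ) (i : {i | X.Qp.deg i = n}) : B →ₗ[k] VV X n :=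
  LinearMap.codRestrict _ (lsingle i.1 ∘ₗ mulRight k (X.Qp.ε i.1)) fun b =>
    H.single _ _ i.2 (by simp [mul_assoc, X.Qp.idem])

instance (n : ℤ) : FiniteDimensional k (VV X n) := by
  haveI := X.fd
  haveI := (X.Qp.fin n).to_subtype
  refine Module.Finite.of_injective (LinearMap.pi fun i : {i | X.Qp.deg i = n} => evi X n i.1) ?_
  rw [injective_iff_map_eq_zero]
  intro x hx
  refine Subtype.ext (Finsupp.ext fun j => ?_)
  by_cases hj : X.Qp.deg j = n
  · exact congrFun hx ⟨j, hj⟩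
  · exact (x.2 j).1 hj

theorem tr_VV (n : ℤ) (G : VV X n →ₗ[k] VV X n)
    (h : ∀ i, trace k B (evi X n i.1 ∘ₗ (G ∘ₗ ini X n i)) = 0) : trace k _ G = 0 := by
  classical
  haveI := X.fd
  haveI := (X.Qp.fin n).fintype
  have e : (∑ i : {i | X.Qp.deg i = n}, ini X n i ∘ₗ evi X n i.1) = LinearMap.id := by
    refine LinearMap.ext fun x => Subtype.ext (Finsupp.ext fun j => ?_)
    rw [LinearMap.sum_apply, Submodule.coe_sum, Finsupp.finset_sum_apply]
    have : ∀ i : {i | X.Qp.deg i = n}, ((ini X n i ∘ₗ evi X n i.1) x : X.Qp.I →₀ B) =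
        single i.1 (x.1 i.1) := fun i => congrArg (single i.1) (x.2 i.1).2
    simp only [this]
    by_cases hj : X.Qp.deg j = n
    · rw [Finset.sum_eq_single ⟨j, hj⟩]
      · simp
      · intro b _ hb
        exact single_eq_of_ne fun h => hb (Subtype.ext h.symm)
      · simp
    · rw [Finset.sum_eq_zero]
      · exact ((x.2 j).1 hj).symm
      · intro b _
        exact single_eq_of_ne fun h => hj (h ▸ b.2)
  have e' : G = ∑ i : {i | X.Qp.deg i = n}, G ∘ₗ (ini X n i ∘ₗ evi X n i.1) := by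
    conv_lhs => rw [← comp_id G, ← e]
    exact LinearMap.ext fun x => by simp only [comp_apply, LinearMap.sum_apply, map_sum]
  rw [e', map_sum]
  refine Finset.sum_eq_zero fun i _ => ?_
  haveI : Module.Free k (VV X n) := Module.Free.of_divisionRing k (VV X n)
  have t := trace_comp_comm' (R := k) (M := VV X n) (N := B) (evi X n i.1) (G ∘ₗ ini X n i)
  rw [h] at t
  rw [← comp_assoc]
  exact t

variable {X} (Y : PD X)

def c0 (j : X.Qp.I) : Y.P.I := Y.e (.inl (0, j))
theorem c0_inj : Function.Injective (c0 Y) := fun a b h => by simpa [c0] using h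

def ι : (X.Qp.I →₀ B) →ₗ[k] (Y.P.I →₀ DualNumber B) :=
  lmapDomain _ k (c0 Y) ∘ₗ mapRange.linearMap iL
def π : (Y.P.I →₀ DualNumber B) →ₗ[k] (X.Qp.I →₀ B) :=
  mapRange.linearMap pF ∘ₗ lcomapDomain (c0 Y) (c0_inj Y)

theorem ι_single (j : X.Qp.I) (b : B) : ι Y (single j b) = single (c0 Y j) (inl b) := by
  simp [ι, iL_apply]
theorem π_apply (y : Y.P.I →₀ DualNumber B) (j : X.Qp.I) : π Y y j = (y (c0 Y j)).fst := rfl

theorem ι_smul (b : B) (x : X.Qp.I →₀ B) : ι Y (b • x) = (inl b : DualNumber B) • ι Y x := by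
  induction x using Finsupp.induction_linear with
  | zero => simp
  | add x y hx hy => simp [hx, hy]
  | single i c => rw [smul_single, ι_single, ι_single, smul_single, smul_eq_mul, smul_eq_mul,
      inl_mul]
theorem π_smul (r : DualNumber B) (y : Y.P.I →₀ DualNumber B) : π Y (r • y) = r.fst • π Y y := by
  ext j; simp [π_apply]
theorem π_c0 (j : X.Qp.I) (r : DualNumber B) : π Y (single (c0 Y j) r) = single j r.fst := by
  classical
  ext l
  by_cases h : j = l
  · subst h; simp [π_apply]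
  · simp [π_apply, single_apply, h, (c0_inj Y).eq_iff]
theorem π_ne (c : (ℕ × X.Qp.I) ⊕ (ℕ × X.Qm.I)) (hc : ∀ j, c ≠ .inl (0, j)) (r : DualNumber B) :
    π Y (single (Y.e c) r) = 0 := by
  ext l
  rw [π_apply, c0, single_eq_of_ne fun h => hc l (Y.e.injective h).symm]
  rfl
theorem π_inr (i : Y.P.I) (b : B) : π Y (single i (inr b)) = 0 := by
  classical
  ext l
  rw [π_apply, Finsupp.single_apply]
  split_ifs <;> rfl
theorem π_ι (x : X.Qp.I →₀ B) : π Y (ι Y x) = x := by
  induction x using Finsupp.induction_linear with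
  | zero => simp
  | add x y hx hy => simp [hx, hy]
  | single i c => simp [ι_single, π_c0]
theorem ι_sum (x : X.Qp.I →₀ B) :
    (x.sum fun j b => single (Y.e (.inl (0, j))) (inl b : DualNumber B)) = ι Y x := by
  conv_rhs => rw [← Finsupp.sum_single x, map_finsuppSum]
  exact Finsupp.sum_congr fun j _ => (ι_single Y _ _).symm

theorem π_d (y : Y.P.I →₀ DualNumber B) : π Y (Y.P.d y) = X.Qp.d (π Y y) := by
  induction y using Finsupp.induction_linear with
  | zero => simp
  | add x y hx hy => simp [hx, hy]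
  | single i r =>
    obtain ⟨c, rfl⟩ := Y.e.surjective i
    rw [← sm1 Y.P.d, π_smul]
    rcases c with ⟨_ | w, i⟩ | ⟨w, i⟩
    · rw [Y.d_l0, ι_sum, map_add, π_ι, map_finsuppSum]
      erw [π_c0]
      simp [π_inr, sm1, -DualNumber.inr_eq_smul_eps]
    · rw [Y.d_l, map_add, π_inr, map_finsuppSum, π_ne _ _ (by simp)]
      simp [π_ne]
    · rw [Y.d_r, map_add, π_inr, map_finsuppSum, π_ne _ _ (by simp)]
      simp [π_ne]

def ι' : (X.Qm.I →₀ B) →ₗ[k] (Y.P.I →₀ DualNumber B) :=
  lmapDomain _ k (fun j => Y.e (.inr (0, j))) ∘ₗ mapRange.linearMap iR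
theorem ι'_single (j : X.Qm.I) (b : B) : ι' Y (single j b) = single (Y.e (.inr (0, j))) (inr b) := by
  simp only [ι', comp_apply, mapRange.linearMap_apply, mapRange_single, lmapDomain_apply,
    mapDomain_single, iR_apply]
theorem ι'_smul (b : B) (x : X.Qm.I →₀ B) : ι' Y (b • x) = (inl b : DualNumber B) • ι' Y x := by
  induction x using Finsupp.induction_linear with
  | zero => simp
  | add x y hx hy => simp [hx, hy]
  | single i c => rw [smul_single, ι'_single, ι'_single, smul_single, smul_eq_mul, smul_eq_mul,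
      inl_mul_inr, smul_eq_mul]
theorem ι'_sum (x : X.Qm.I →₀ B) :
    (x.sum fun j b => single (Y.e (.inr (0, j))) (inr b : DualNumber B)) = ι' Y x := by
  conv_rhs => rw [← Finsupp.sum_single x, map_finsuppSum]
  exact Finsupp.sum_congr fun j _ => (ι'_single Y _ _).symm

theorem d_ι (x : X.Qp.I →₀ B) : Y.P.d (ι Y x) = ι Y (X.Qp.d x) + ι' Y (X.φ x) := by
  induction x using Finsupp.induction_linear with
  | zero => simp
  | add x y hx hy => simp only [map_add, hx, hy]; abel
  | single i b =>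
    rw [ι_single, ← sm1 Y.P.d, c0, Y.d_l0, ι_sum, ι'_sum, smul_add, ← ι_smul, ← ι'_smul, sm1, sm1]

theorem one_ι (x : X.Qp.I →₀ B) : Y.P.one (ι Y x) = ι Y (X.Qp.one x) := by
  induction x using Finsupp.induction_linear with
  | zero => simp
  | add x y hx hy => simp only [map_add, hx, hy]
  | single i b => rw [ι_single, one_single, one_single, ι_single, c0, Y.ε_l, inl_mul]

/-- evaluation at `1` of the first component -/
def ap : DD k B →+ DualNumber B where
  toFun v := Om.toL ((KK k B).val v.1) 1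
  map_zero' := by simp
  map_add' v w := by simp

theorem ap_smul (a : DualNumber B) (v : DD k B) : ap (a • v) = Om.toL ((KK k B).val v.1) a := by
  change Om.toL ((KK k B).val (a • v.1)) 1 = _
  rw [map_smul, Om.smul_apply, one_mul]
theorem ap_op (a : DualNumber B) (v : DD k B) : ap (op a • v) = ap v * a := rfl

def ev (s : Ch Y.P Y.P (DD k B)) : (Y.P.I →₀ DualNumber B) →ₗ[k] (Y.P.I →₀ DualNumber B) where
  toFun y := mapRange.addMonoidHom ap (s y)
  map_add' x y := by simp only [map_add]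
  map_smul' c y := by
    ext1 j
    rw [← algebraMap_smul (DualNumber B) c y, map_smul]
    change ap (algebraMap k (DualNumber B) c • s y j) = c • ap (s y j)
    rw [ap_smul, Algebra.algebraMap_eq_smul_one, map_smul]
    rfl

theorem ev_apply (s : Ch Y.P Y.P (DD k B)) (y) (j) : ev Y s y j = ap (s y j) := rfl

theorem ap_tens (g : Ch Y.P Y.P (DualNumber B)) (w : Y.P.I →₀ DD k B) :
    mapRange.addMonoidHom ap (tens (DD k B) g w) = g (mapRange.addMonoidHom ap w) := by
  induction w using Finsupp.induction_linear with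
  | zero => simp
  | add x y hx hy => simp only [map_add, hx, hy]
  | single i v =>
    ext1 j
    have : mapRange.addMonoidHom ap (single i v) = single i (ap v) := mapRange_single (hf := map_zero ap)
    rw [this, ← sm1 g]
    change ap (tens (DD k B) g (single i v) j) = _
    rw [tens_single, ap_op]
    rfl

theorem ev_g1 (h : FStmt X) (y) : ev Y (g1 Y h) y = (inl X.f : DualNumber B) • Y.P.one y := by
  induction y using Finsupp.induction_linear with
  | zero => simp
  | add x y hx hy => simp only [map_add, hx, hy, smul_add]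
  | single i r =>
    have : g1 Y h (single i r) = single i ((r * Y.P.ε i) • κ1 X h) := by simp [g1, mul_smul]
    change mapRange.addMonoidHom ap (g1 Y h (single i r)) = _
    rw [this, one_single, smul_single]
    refine (mapRange_single (hf := map_zero ap)).trans (congrArg _ ?_)
    change ap _ = _
    rw [ap_smul]
    rfl

theorem ev_δ (s : Ch Y.P Y.P (DD k B)) (y) :
    ev Y (δ Y.P Y.P (DD k B) s) y = ev Y s (Y.P.d y) + Y.P.d (ev Y s y) := by
  change mapRange.addMonoidHom ap (s (Y.P.d y) + tens (DD k B) Y.P.d (s y)) = _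
  rw [map_add, ap_tens]
  rfl

theorem H_ev {s : Ch Y.P Y.P (DD k B)} (hs : IsC Y.P Y.P (DD k B) (0 - 1) s) {n : ℤ}
    {x : X.Qp.I →₀ B} (hx : H X.Qp.deg X.Qp.ε n x) :
    H X.Qp.deg X.Qp.ε (n - 1) (π Y (ev Y s (ι Y x))) := by
  classical
  rw [← Finsupp.sum_single x, Finsupp.sum, map_sum, map_sum, map_sum]
  refine Finset.sum_induction _ _ (fun a b => H.add) (H.zero _ _ _) fun i hi => ?_
  have hd : X.Qp.deg i = n := by
    by_contra h
    exact (mem_support_iff.1 hi) ((hx i).1 h)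
  intro j
  have h := hs (c0 Y i) (c0 Y j)
  rw [π_apply, ev_apply, ι_single, ← sm1 s, Finsupp.smul_apply]
  constructor
  · intro hj
    rw [h.1 (by rw [c0, c0, Y.deg_l, Y.deg_l]; omega)]
    simp
  · conv_rhs => rw [← h.2.2, smul_comm, ap_op, c0, c0, Y.ε_l, fst_mul, fst_inl]
    rfl

theorem not_bd (h : FStmt X) : ¬ Bd Y.P Y.P (DD k B) 0 (g1 Y h) := by
  rintro ⟨s, hs, hδ⟩
  haveI := X.fd
  haveI := fdE X
  let d : ∀ j : ℕ, VV X (-((j + 1 : ℕ) : ℤ)) →ₗ[k] VV X (-(j : ℤ)) := fun j =>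
    (X.Qp.d.restrictScalars k).restrict fun x hx =>
      (IsM.H X.Qp.d_isM hx).cast (by push_cast; ring)
  let F : ∀ j : ℕ, VV X (-(j : ℤ)) →ₗ[k] VV X (-(j : ℤ)) := fun j =>
    (DistribSMul.toLinearMap k _ X.f).restrict fun x hx => H.smul X.f hx
  let S : VV X (-((m + 1 : ℕ) : ℤ)) →ₗ[k] VV X (-((m + 1 + 1 : ℕ) : ℤ)) :=
    (π Y ∘ₗ ev Y s ∘ₗ ι Y).restrict fun x hx => (H_ev Y hs hx).cast (by push_cast; ring)
  have ex : ∀ (n : ℤ) (x : X.Qp.I →₀ B), H X.Qp.deg X.Qp.ε n x → X.Qp.d x = 0 → X.χ (x X.ip) = 0 →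
      ∃ y, H X.Qp.deg X.Qp.ε (n - 1) y ∧ X.Qp.d y = x := fun n x h1 h2 h3 => by
    have := (bd_row _ _ _).1 (X.rowp n (rowv x)
      ((cy_row _ _ _).2 (by rw [rowv_one]; exact ⟨h1, h2⟩)) (by rw [rowv_one]; exact h3))
    rwa [rowv_one] at this
  refine parity (k := k) (fun j => VV X (-(j : ℤ))) d F (fun j x => Subtype.ext ?_)
    (fun j x => Subtype.ext (a3 X.Qp x.1)) (fun j x hx => ?_)
    (X.χ.toLinearMap ∘ₗ evi X _ X.ip)
    ⟨single X.ip (X.Qp.ε X.ip), H.single _ _ (by simp [X.deg_ip]) (X.Qp.idem _)⟩ ?_ (fun x => ?_)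
    (fun x hx => ?_) ?_ (fun j => tr_VV X _ _ fun i => ?_) (m + 1) S (fun x => Subtype.ext ?_)
    (tr_VV X _ _ fun i => ?_)
  · exact (X.Qp.d.map_smul X.f x.1).symm
  · obtain ⟨y, hy, e⟩ := ex _ x.1 x.2 (congrArg Subtype.val hx)
      (by rw [(x.2 _).1 (by rw [X.deg_ip]; omega), map_zero])
    exact ⟨⟨y, hy.cast (by push_cast; ring)⟩, Subtype.ext e⟩
  · simp [evi, X.χ_ip]
  · classical
    change X.χ (X.Qp.d x.1 X.ip) = 0
    rw [← Finsupp.sum_single x.1, Finsupp.sum, map_sum, Finsupp.finset_sum_apply, map_sum]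
    refine Finset.sum_eq_zero fun i hi => ?_
    have hne : i ≠ X.ip := by
      rintro rfl
      exact (mem_support_iff.1 hi) ((x.2 _).1 (by rw [X.deg_ip]; omega))
    rw [← sm1 X.Qp.d, Finsupp.smul_apply, ← (X.Qp.d_isM i X.ip).2.1, smul_eq_mul, smul_eq_mul,
      map_mul, map_mul, X.χp i hne, zero_mul, mul_zero]
  · obtain ⟨y, hy, e⟩ := ex _ x.1 x.2 (by
      have := IsM.H X.Qp.d_isM x.2
      ext j
      exact (this j).1 (by have := X.degp j; push_cast; omega)) hx
    exact ⟨⟨y, hy.cast (by simp)⟩, Subtype.ext e⟩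
  · change X.χ ((X.f • single X.ip (X.Qp.ε X.ip)) X.ip) = 1
    simp [X.χf, X.χ_ip]
  · rw [← X.tr (X.Qp.ε i.1)]
    congr 1
    refine LinearMap.ext fun b => ?_
    change (X.f • single i.1 (b * X.Qp.ε i.1)) i.1 = _
    simp
  · set y := X.Qp.d x.1 with hy
    have hH : H X.Qp.deg X.Qp.ε (-((m + 1 : ℕ) : ℤ)) y := (d (m + 1) x).2
    have hφ : X.φ y = 0 := by
      have := IsM.H X.φ_cy.1 hH
      ext j
      exact (this j).1 (by have := X.degm j; push_cast; omega)
    change X.Qp.d (π Y (ev Y s (ι Y y))) = X.f • y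
    have h1 := ev_δ Y s (ι Y y)
    rw [hδ, ev_g1, d_ι, hφ, hy, a3, map_zero, map_zero, add_zero, map_zero, zero_add, ← hy, one_ι,
      H.one _ hH] at h1
    rw [← π_d, ← h1, π_smul, π_ι, fst_inl]
  · set v := s (ι Y (X.Qp.d (single i.1 (X.Qp.ε i.1)))) (c0 Y i.1) with hv
    have h0 := (KK k B).val_mem v.1 (iL ∘ₗ pF) (fun b x => by simp [iL_apply, pF_apply])
    rw [← comp_assoc, trace_comp_comm'] at h0
    rw [← h0]
    congr 1
    refine LinearMap.ext fun b => ?_
    change (ap (s (ι Y (X.Qp.d (single i.1 (b * X.Qp.ε i.1)))) (c0 Y i.1))).fst = _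
    rw [← smul_eq_mul, ← smul_single, map_smul, ι_smul, map_smul, Finsupp.smul_apply, ap_smul]
    rfl

end

theorem trStmt : TrStmt := fun _ _ _ _ _ _ _ _ _ X => ⟨fStmt X, fun Y _ => not_bd Y _⟩

end Crest.Agent.H4.TkTr
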